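import Vale.Agent.Lib.P161.Tree

/-!
P161 endpoint, module Aut: the automorphism group of a regular tree acts transitively on
non-backtracking paths of a given length.
-/

namespace Vale.Agent.Lib.P161

variable {V : Type*} {G : SimpleGraph V}

/-- `π` is a non-backtracking walk in `G` (listed from its last vertex back to its first). -/
def NBList (G : SimpleGraph V) : List V → Prop
  | [] => True
  | [_] => True
  | [x, y] => G.Adj x y
  | x :: y :: z :: l => G.Adj x y ∧ x ≠ z ∧ NBList G (y :: z :: l)

/-- An infinite non-backtracking ray. -/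
structure IsRay (G : SimpleGraph V) (r : ℕ → V) : Prop where
  adj : ∀ i, G.Adj (r i) (r (i + 1))
  nb : ∀ i, r (i + 2) ≠ r i

/-- The list `[r (m+1), …, r 1, r 0]`. -/
def rayList (r : ℕ → V) : ℕ → List V
  | 0 => [r 1, r 0]
  | m + 1 => r (m + 2) :: rayList r m

theorem rayList_length (r : ℕ → V) (m : ℕ) : (rayList r m).length = m + 2 := by
  induction m with
  | zero => rfl
  | succ m ih => simp [rayList, ih]

theorem rayList_nb {r : ℕ → V} (h : IsRay G r) (m : ℕ) : NBList G (rayList r m) := by
  induction m with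
  | zero =>
    show G.Adj (r 1) (r 0)
    exact (h.adj 0).symm
  | succ m ih =>
    cases m with
    | zero =>
      simp only [rayList, NBList]
      exact ⟨(h.adj 1).symm, h.nb 0, (h.adj 0).symm⟩
    | succ m =>
      have e : rayList r (m + 1 + 1) = r (m + 1 + 2) :: r (m + 2) :: rayList r m := rfl
      obtain ⟨z, l, hz⟩ : ∃ z l, rayList r m = z :: l ∧ z = r (m + 1) := by
        cases m with
        | zero => exact ⟨r 1, [r 0], rfl, rfl⟩
        | succ m => exact ⟨r (m + 2), rayList r m, rfl, rfl⟩
      rw [e, hz.1]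
      have ih' : NBList G (r (m + 2) :: z :: l) := by
        have : rayList r (m + 1) = r (m + 2) :: z :: l := by
          show r (m + 2) :: rayList r m = _
          rw [hz.1]
        rwa [this] at ih
      refine ⟨(h.adj (m + 2)).symm, ?_, ih'⟩
      rw [hz.2]
      exact h.nb (m + 1)

section Code

variable {n : ℕ} {c : V → V → Fin n → V}

/-- The directed edge reached from the root edge `r` along the word `l` (head = last step). -/
def fpath (c : V → V → Fin n → V) (r : V × V) : List (Fin n) → V × V
  | [] => r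
  | i :: l => (c (fpath c r l).1 (fpath c r l).2 i, (fpath c r l).1)

/-- A labelling of the children of each directed edge. -/
structure IsLab (G : SimpleGraph V) (c : V → V → Fin n → V) : Prop where
  inj : ∀ x w, G.Adj x w → Function.Injective (c x w)
  adj : ∀ x w, G.Adj x w → ∀ i, G.Adj x (c x w i)
  ne : ∀ x w, G.Adj x w → ∀ i, c x w i ≠ w
  surj : ∀ x w z, G.Adj x w → G.Adj x z → z ≠ w → ∃ i, c x w i = z

theorem fpath_append (c : V → V → Fin n → V) (x w : V) (l : List (Fin n)) (i : Fin n) :
    fpath c (x, w) (l ++ [i]) = fpath c (c x w i, x) l := by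
  induction l with
  | nil => rfl
  | cons j l ih => simp only [List.cons_append, fpath, ih]

theorem fpath_adj (hc : IsLab G c) {x w : V} (h : G.Adj x w) (l : List (Fin n)) :
    G.Adj (fpath c (x, w) l).1 (fpath c (x, w) l).2 := by
  induction l with
  | nil => exact h
  | cons i l ih => exact (hc.adj _ _ ih i).symm

theorem fpath_br (hT : G.IsTree) (hc : IsLab G c) (l : List (Fin n)) :
    ∀ {x w : V}, G.Adj x w →
      (fpath c (x, w) l).1 ∈ Br G x w ∧ G.dist (fpath c (x, w) l).1 x = l.length := by
  induction l using List.reverseRecOn with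
  | nil =>
    intro x w h
    exact ⟨self_mem_Br h, by simp [fpath]⟩
  | append_singleton l i ih =>
    intro x w h
    rw [fpath_append]
    have hz := hc.adj x w h i
    obtain ⟨h1, h2⟩ := ih hz.symm
    refine ⟨Br_step hT hz.symm h (hc.ne x w h i) h1, ?_⟩
    have h3 : G.dist (fpath c (c x w i, x) l).1 x = G.dist (fpath c (c x w i, x) l).1 (c x w i) + 1 :=
      h1
    simp only [List.length_append, List.length_singleton]
    omega

theorem fpath_inj (hT : G.IsTree) (hc : IsLab G c) {x w : V} (h : G.Adj x w)
    (l : List (Fin n)) : ∀ l' : List (Fin n),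
      (fpath c (x, w) l).1 = (fpath c (x, w) l').1 → l = l' := by
  induction l with
  | nil =>
    intro l' he
    cases l' with
    | nil => rfl
    | cons j m =>
      have h1 := (fpath_br hT hc (j :: m) h).2
      rw [← he] at h1
      simp [fpath] at h1
  | cons i m ih =>
    intro l' he
    cases l' with
    | nil =>
      have h1 := (fpath_br hT hc (i :: m) h).2
      rw [he] at h1
      simp [fpath] at h1
    | cons j m' =>
      have d1 := (fpath_br hT hc (i :: m) h).2
      have d2 := (fpath_br hT hc (j :: m') h).2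
      have d3 := (fpath_br hT hc m h).2
      have d4 := (fpath_br hT hc m' h).2
      have a1 := fpath_adj hc h (i :: m)
      have a2 := fpath_adj hc h (j :: m')
      rw [← he] at a2 d2
      have hlen : m.length = m'.length := by
        simp only [List.length_cons] at d1 d2
        omega
      have e1 : (fpath c (x, w) (i :: m)).2 = (fpath c (x, w) m).1 := rfl
      have e2 : (fpath c (x, w) (j :: m')).2 = (fpath c (x, w) m').1 := rfl
      rw [e1] at a1
      rw [e2] at a2
      have hp : (fpath c (x, w) m).1 = (fpath c (x, w) m').1 := by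
        refine unique_closer (w := x) hT a1.symm a2.symm ?_ ?_
        · rw [SimpleGraph.dist_comm, d1, SimpleGraph.dist_comm, d3]; simp
        · rw [SimpleGraph.dist_comm, d2, SimpleGraph.dist_comm, d4]; simp [hlen]
      have hm := ih m' hp
      subst hm
      have hi : i = j := (hc.inj _ _ (fpath_adj hc h m)) he
      rw [hi]

theorem fpath_surj (hT : G.IsTree) (hc : IsLab G c) (N : ℕ) : ∀ {x w y : V}, G.Adj x w →
    y ∈ Br G x w → G.dist y x = N → ∃ l, (fpath c (x, w) l).1 = y := by
  induction N with
  | zero =>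
    intro x w y h _ hd
    refine ⟨[], ?_⟩
    exact (hT.connected.dist_eq_zero_iff).1 hd |>.symm
  | succ N ih =>
    intro x w y h hy hd
    have hy' : G.dist y w = G.dist y x + 1 := hy
    obtain ⟨p, hp⟩ := hT.connected.exists_walk_length_eq_dist y x
    -- the neighbour of `x` closer to `y`
    obtain ⟨z, hxz, hzd⟩ : ∃ z, G.Adj x z ∧ G.dist y z = N := by
      obtain ⟨q, hq⟩ := hT.connected.exists_walk_length_eq_dist x y
      cases q with
      | nil =>
        simp at hd
      | @cons _ z _ hadj q' =>
        refine ⟨z, hadj, ?_⟩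
        have h1 := SimpleGraph.dist_le q'
        simp only [SimpleGraph.Walk.length_cons] at hq
        have h2 := hT.connected.dist_triangle (u := y) (v := z) (w := x)
        have h3 : G.dist z x = 1 := SimpleGraph.dist_eq_one_iff_adj.2 hadj.symm
        rw [SimpleGraph.dist_comm (u := z) (v := y)] at h1
        rw [SimpleGraph.dist_comm (u := x) (v := y)] at hq
        omega
    have hzw : z ≠ w := by
      rintro rfl
      omega
    obtain ⟨i, hi⟩ := hc.surj x w z h hxz hzw
    have hyz : y ∈ Br G z x := by
      show G.dist y x = G.dist y z + 1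
      omega
    obtain ⟨l, hl⟩ := ih (x := z) (w := x) hxz.symm hyz hzd
    refine ⟨l ++ [i], ?_⟩
    rw [fpath_append, hi]
    exact hl

/-- The root edge of a side. -/
def rootOf (x w : V) : Bool → V × V
  | false => (x, w)
  | true => (w, x)

/-- The coding of vertices by words. -/
def codeV (c : V → V → Fin n → V) (x w : V) (p : Bool × List (Fin n)) : V :=
  (fpath c (rootOf x w p.1) p.2).1

theorem rootOf_adj {x w : V} (h : G.Adj x w) (s : Bool) :
    G.Adj (rootOf x w s).1 (rootOf x w s).2 := by
  cases s
  · exact h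
  · exact h.symm

theorem rootOf_eta (x w : V) (s : Bool) : ((rootOf x w s).1, (rootOf x w s).2) = rootOf x w s := rfl

theorem codeV_inj (hT : G.IsTree) (hc : IsLab G c) {x w : V} (h : G.Adj x w) :
    Function.Injective (codeV c x w) := by
  rintro ⟨s, l⟩ ⟨s', l'⟩ he
  simp only [codeV] at he
  cases s <;> cases s'
  · have := fpath_inj hT hc h l l' he
    rw [this]
  · exfalso
    have h1 := (fpath_br hT hc l h).1
    have h2 := (fpath_br hT hc l' h.symm).1
    simp only [rootOf] at he
    rw [← he] at h2
    have h1' : G.dist (fpath c (x, w) l).1 w = G.dist (fpath c (x, w) l).1 x + 1 := h1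
    have h2' : G.dist (fpath c (x, w) l).1 x = G.dist (fpath c (x, w) l).1 w + 1 := h2
    omega
  · exfalso
    have h1 := (fpath_br hT hc l h.symm).1
    have h2 := (fpath_br hT hc l' h).1
    simp only [rootOf] at he
    rw [← he] at h2
    have h1' : G.dist (fpath c (w, x) l).1 x = G.dist (fpath c (w, x) l).1 w + 1 := h1
    have h2' : G.dist (fpath c (w, x) l).1 w = G.dist (fpath c (w, x) l).1 x + 1 := h2
    omega
  · have := fpath_inj hT hc h.symm l l' he
    rw [this]

theorem codeV_surj (hT : G.IsTree) (hc : IsLab G c) {x w : V} (h : G.Adj x w) :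
    Function.Surjective (codeV c x w) := by
  intro y
  rcases hT.dist_eq_dist_add_one_of_adj y h with h1 | h1
  · obtain ⟨l, hl⟩ := fpath_surj hT hc _ (x := w) (w := x) h.symm h1 rfl
    exact ⟨(true, l), hl⟩
  · obtain ⟨l, hl⟩ := fpath_surj hT hc _ (x := x) (w := w) h h1 rfl
    exact ⟨(false, l), hl⟩

/-- Adjacency in the standard tree. -/
def HAdj (p q : Bool × List (Fin n)) : Prop :=
  (p.1 = q.1 ∧ ((∃ i, q.2 = i :: p.2) ∨ (∃ i, p.2 = i :: q.2))) ∨
    (p.1 ≠ q.1 ∧ p.2 = [] ∧ q.2 = [])

theorem codeV_adj (hT : G.IsTree) (hc : IsLab G c) {x w : V} (h : G.Adj x w)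
    (p q : Bool × List (Fin n)) : G.Adj (codeV c x w p) (codeV c x w q) ↔ HAdj p q := by
  obtain ⟨s, l⟩ := p
  obtain ⟨s', l'⟩ := q
  have hr : ∀ s, G.Adj (rootOf x w s).1 (rootOf x w s).2 := rootOf_adj h
  have hadj : ∀ (s : Bool) (l : List (Fin n)), G.Adj (fpath c (rootOf x w s) l).1
      (fpath c (rootOf x w s) l).2 := by
    intro s l
    have := fpath_adj hc (hr s) l
    rwa [rootOf_eta] at this
  constructor
  · intro ha
    simp only [codeV] at ha
    by_cases hq : (fpath c (rootOf x w s') l').1 = (fpath c (rootOf x w s) l).2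
    · cases l with
      | nil =>
        -- the parent of a root is the other root
        have e : (fpath c (rootOf x w s) []).2 = codeV c x w (!s, []) := by
          cases s <;> rfl
        have e' : codeV c x w (s', l') = codeV c x w (!s, []) := by
          rw [← e]; exact hq
        have := codeV_inj hT hc h e'
        obtain ⟨rfl, rfl⟩ := Prod.mk.inj this
        right
        refine ⟨?_, rfl, rfl⟩
        cases s <;> simp
      | cons j m =>
        have e : (fpath c (rootOf x w s) (j :: m)).2 = codeV c x w (s, m) := rfl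
        have e' : codeV c x w (s', l') = codeV c x w (s, m) := by
          rw [← e]; exact hq
        have := codeV_inj hT hc h e'
        obtain ⟨rfl, rfl⟩ := Prod.mk.inj this
        left
        exact ⟨rfl, Or.inr ⟨j, rfl⟩⟩
    · obtain ⟨i, hi⟩ := hc.surj _ _ _ (hadj s l) ha hq
      have e' : codeV c x w (s', l') = codeV c x w (s, i :: l) := by
        show (fpath c (rootOf x w s') l').1 = _
        rw [← hi]; rfl
      have := codeV_inj hT hc h e'
      obtain ⟨rfl, rfl⟩ := Prod.mk.inj this
      left
      exact ⟨rfl, Or.inl ⟨i, rfl⟩⟩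
  · rintro (⟨h1, ⟨i, h2⟩ | ⟨i, h2⟩⟩ | ⟨h1, h2, h3⟩)
    · simp only at h1 h2
      subst h1 h2
      exact (hc.adj _ _ (hadj s l) i)
    · simp only at h1 h2
      subst h1 h2
      exact (hc.adj _ _ (hadj s l') i).symm
    · simp only at h1 h2 h3
      subst h2 h3
      cases s <;> cases s'
      · exact absurd rfl h1
      · exact h
      · exact h.symm
      · exact absurd rfl h1

/-- Standard path in the word coding. -/
def stdCode (n : ℕ) : ℕ → List (Bool × List (Fin (n + 1)))
  | 0 => [(true, [])]
  | k + 1 => (false, List.replicate k 0) :: stdCode n k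

end Code

/-- `ρ` moves away from `τ`, towards its end. -/
def Away (G : SimpleGraph V) (τ : V) : List V → Prop
  | [] => True
  | [_] => True
  | a :: b :: l => G.dist a τ + 1 = G.dist b τ ∧ Away G τ (b :: l)

theorem nb_away (hT : G.IsTree) (τ : V) (l : List V) : ∀ x y : V, NBList G (x :: y :: l) →
    G.dist x τ + 1 = G.dist y τ → Away G τ (x :: y :: l) := by
  induction l with
  | nil =>
    intro x y _ h
    exact ⟨h, trivial⟩
  | cons z l ih =>
    intro x y hN h
    obtain ⟨h1, h2, h3⟩ := hN
    refine ⟨h, ih y z h3 ?_⟩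
    have hyz : G.Adj y z := by
      cases l with
      | nil => exact h3
      | cons u l => exact h3.1
    rcases hT.dist_eq_dist_add_one_of_adj τ hyz with h4 | h4
    · exfalso
      apply h2
      refine unique_closer (w := τ) hT h1 hyz.symm ?_ ?_
      · rw [SimpleGraph.dist_comm, SimpleGraph.dist_comm (v := x)]
        omega
      · exact h4
    · rw [SimpleGraph.dist_comm (u := y), SimpleGraph.dist_comm (u := z)]
      exact h4.symm

section Labels

variable [G.LocallyFinite] {d : ℕ}

omit [G.LocallyFinite] in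
/-- Labels for the children of a directed edge, label `0` going towards `τ`. -/
theorem exists_lab_edge [G.LocallyFinite] [DecidableEq V] (hT : G.IsTree)
    {n : ℕ} (hdeg : ∀ v, G.degree v = n + 2) (τ x w : V) :
    ∃ f : Fin (n + 1) → V, G.Adj x w →
      Function.Injective f ∧ (∀ i, G.Adj x (f i)) ∧ (∀ i, f i ≠ w) ∧
      (∀ z, G.Adj x z → z ≠ w → ∃ i, f i = z) ∧
      (∀ z, G.Adj x z → z ≠ w → G.dist z τ + 1 = G.dist x τ → f 0 = z) := by
  by_cases h : G.Adj x w
  swap
  · exact ⟨fun _ => x, fun h' => absurd h' h⟩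
  have hcard : ((G.neighborFinset x).erase w).card = n + 1 := by
    rw [Finset.card_erase_of_mem (by simpa using h), SimpleGraph.card_neighborFinset_eq_degree,
      hdeg]
    rfl
  let e0 : ((G.neighborFinset x).erase w) ≃ Fin (n + 1) := Finset.equivFinOfCardEq hcard
  by_cases hex : ∃ z0, G.Adj x z0 ∧ z0 ≠ w ∧ G.dist z0 τ + 1 = G.dist x τ
  · obtain ⟨z0, hz1, hz2, hz3⟩ := hex
    have hz0 : z0 ∈ (G.neighborFinset x).erase w := by
      simp [hz2, hz1]
    let e : Fin (n + 1) ≃ ((G.neighborFinset x).erase w) :=
      (Equiv.swap 0 (e0 ⟨z0, hz0⟩)).trans e0.symm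
    have he0 : (e 0 : V) = z0 := by
      simp [e]
    refine ⟨fun i => (e i : V), fun _ => ⟨?_, ?_, ?_, ?_, ?_⟩⟩
    · intro i j hij
      exact e.injective (Subtype.ext hij)
    · intro i
      have := Finset.mem_erase.1 (e i).2
      simpa using this.2
    · intro i
      exact (Finset.mem_erase.1 (e i).2).1
    · intro z hz hzw
      have hm : z ∈ (G.neighborFinset x).erase w := by simp [hzw, hz]
      exact ⟨e.symm ⟨z, hm⟩, by simp⟩
    · intro z hz _ hzd
      show (e 0 : V) = z
      rw [he0]
      refine unique_closer (w := τ) hT hz1.symm hz.symm ?_ ?_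
      · rw [SimpleGraph.dist_comm, SimpleGraph.dist_comm (v := z0)]; omega
      · rw [SimpleGraph.dist_comm, SimpleGraph.dist_comm (v := z)]; omega
  · refine ⟨fun i => (e0.symm i : V), fun _ => ⟨?_, ?_, ?_, ?_, ?_⟩⟩
    · intro i j hij
      exact e0.symm.injective (Subtype.ext hij)
    · intro i
      have := Finset.mem_erase.1 (e0.symm i).2
      simpa using this.2
    · intro i
      exact (Finset.mem_erase.1 (e0.symm i).2).1
    · intro z hz hzw
      have hm : z ∈ (G.neighborFinset x).erase w := by simp [hzw, hz]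
      exact ⟨e0 ⟨z, hm⟩, by simp⟩
    · intro z hz hzw hzd
      exact absurd ⟨z, hz, hzw, hzd⟩ hex

/-- Labelling of a regular tree, with label `0` going towards `τ`. -/
theorem exists_lab (hT : G.IsTree) {n : ℕ} (hdeg : ∀ v, G.degree v = n + 2) (τ : V) :
    ∃ c : V → V → Fin (n + 1) → V, IsLab G c ∧
      ∀ x w z, G.Adj x w → G.Adj x z → z ≠ w → G.dist z τ + 1 = G.dist x τ → c x w 0 = z := by
  classical
  choose c hc using fun x w => exists_lab_edge hT hdeg τ x w
  refine ⟨c, ⟨fun x w h => (hc x w h).1, fun x w h => (hc x w h).2.1,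
    fun x w h => (hc x w h).2.2.1, fun x w z h => (hc x w h).2.2.2.1 z⟩,
    fun x w z h => (hc x w h).2.2.2.2 z⟩

variable {n : ℕ} {c : V → V → Fin (n + 1) → V}

omit [G.LocallyFinite] in
theorem stdCode_map_aux {x w : V} (k : ℕ) : ∃ t,
    (stdCode n (k + 1)).map (codeV c x w) =
      (fpath c (x, w) (List.replicate k 0)).1 :: (fpath c (x, w) (List.replicate k 0)).2 :: t := by
  cases k with
  | zero => exact ⟨[], rfl⟩
  | succ k =>
    refine ⟨(stdCode n k).map (codeV c x w), ?_⟩
    show codeV c x w (false, List.replicate (k + 1) 0) ::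
      codeV c x w (false, List.replicate k 0) :: (stdCode n k).map (codeV c x w) = _
    rfl

omit [G.LocallyFinite] in
/-- The list `ρ ++ [x, w]` is the standard path in the coding. -/
theorem stdCode_map (hc : IsLab G c) {x w τ : V}
    (hτ : ∀ x w z, G.Adj x w → G.Adj x z → z ≠ w → G.dist z τ + 1 = G.dist x τ → c x w 0 = z)
    (ρ : List V) : NBList G (ρ ++ [x, w]) → Away G τ (ρ ++ [x, w]) →
      (stdCode n (ρ.length + 1)).map (codeV c x w) = ρ ++ [x, w] := by
  induction ρ with
  | nil =>
    intro _ _
    rfl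
  | cons a ρ ih =>
    intro hN hA
    obtain ⟨b, z, t, hbz⟩ : ∃ b z t, ρ ++ [x, w] = b :: z :: t := by
      cases ρ with
      | nil => exact ⟨x, w, [], rfl⟩
      | cons u ρ =>
        cases ρ with
        | nil => exact ⟨u, x, [w], rfl⟩
        | cons v ρ => exact ⟨u, v, ρ ++ [x, w], rfl⟩
    have hN' : NBList G (a :: b :: z :: t) := by
      rw [List.cons_append, hbz] at hN; exact hN
    have hA' : Away G τ (a :: b :: z :: t) := by
      rw [List.cons_append, hbz] at hA; exact hA
    have hN1 : NBList G (ρ ++ [x, w]) := by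
      rw [hbz]; exact hN'.2.2
    have hA1 : Away G τ (ρ ++ [x, w]) := by
      rw [hbz]; exact hA'.2
    have hih := ih hN1 hA1
    obtain ⟨t', ht'⟩ := stdCode_map_aux (n := n) (c := c) (x := x) (w := w) ρ.length
    rw [hih, hbz] at ht'
    simp only [List.cons.injEq] at ht'
    obtain ⟨hb, hz, -⟩ := ht'
    have hab : G.Adj a b := hN'.1
    have hbz' : G.Adj b z := by
      cases t with
      | nil => exact hN'.2.2
      | cons u t => exact hN'.2.2.1
    have hstep : codeV c x w (false, List.replicate (ρ.length + 1) 0) = a := by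
      show c (fpath c (x, w) (List.replicate ρ.length 0)).1
        (fpath c (x, w) (List.replicate ρ.length 0)).2 0 = a
      rw [← hb, ← hz]
      exact hτ b z a hbz' hab.symm hN'.2.1 hA'.1
    show codeV c x w (false, List.replicate (ρ.length + 1) 0) ::
      (stdCode n (ρ.length + 1)).map (codeV c x w) = a :: (ρ ++ [x, w])
    rw [hstep, hih]

omit [G.LocallyFinite] in
theorem exists_split (τ y : V) (l : List V) :
    ∃ ρ x w, τ :: y :: l = ρ ++ [x, w] := by
  induction l generalizing τ y with
  | nil => exact ⟨[], τ, y, rfl⟩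
  | cons z l ih =>
    obtain ⟨ρ, x, w, h⟩ := ih y z
    exact ⟨τ :: ρ, x, w, by rw [h]; rfl⟩

/-- A non-backtracking list is a standard path in a suitable coding. -/
theorem exists_code (hT : G.IsTree) {n : ℕ} (hdeg : ∀ v, G.degree v = n + 2) (τ y : V)
    (l : List V) (h : NBList G (τ :: y :: l)) :
    ∃ (e : Bool × List (Fin (n + 1)) ≃ V), (∀ p q, G.Adj (e p) (e q) ↔ HAdj p q) ∧
      (stdCode n (l.length + 1)).map e = τ :: y :: l := by
  obtain ⟨c, hc, hτ⟩ := exists_lab hT hdeg τ
  obtain ⟨ρ, x, w, hρ⟩ := exists_split τ y l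
  have hA : Away G τ (τ :: y :: l) := by
    refine nb_away hT τ l τ y h ?_
    rw [SimpleGraph.dist_self, zero_add]
    have hadj : G.Adj τ y := by
      cases l with
      | nil => exact h
      | cons u l => exact h.1
    exact (SimpleGraph.dist_eq_one_iff_adj.2 hadj.symm).symm
  have hxw : G.Adj x w := by
    have key : ∀ (ρ : List V), NBList G (ρ ++ [x, w]) → G.Adj x w := by
      intro ρ
      induction ρ with
      | nil => exact fun h => h
      | cons a ρ ih =>
        intro h
        cases ρ with
        | nil => exact ih h.2.2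
        | cons u ρ => 
          cases ρ with
          | nil => exact ih h.2.2
          | cons v ρ => exact ih h.2.2
    exact key ρ (hρ ▸ h)
  have hlen : l.length = ρ.length := by
    have := congrArg List.length hρ
    simp at this
    omega
  refine ⟨Equiv.ofBijective (codeV c x w) ⟨codeV_inj hT hc hxw, codeV_surj hT hc hxw⟩, ?_, ?_⟩
  · intro p q
    exact codeV_adj hT hc hxw p q
  · have := stdCode_map hc hτ ρ (hρ ▸ h) (hρ ▸ hA)
    rw [hρ, hlen]
    exact this

end Labels

variable [G.LocallyFinite] {d : ℕ}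

omit [G.LocallyFinite] in
theorem stdCode_length (n k : ℕ) : (stdCode n k).length = k + 1 := by
  induction k with
  | zero => rfl
  | succ k ih => simp [stdCode, ih]

/-- A neighbour different from a given vertex. -/
theorem exists_nbr_ne (hdeg : ∀ v, G.degree v = d) (hd : 2 ≤ d) (x w : V) :
    ∃ z, G.Adj x z ∧ z ≠ w := by
  have h : 1 < (G.neighborFinset x).card := by
    rw [SimpleGraph.card_neighborFinset_eq_degree, hdeg]; omega
  obtain ⟨z, hz, hzw⟩ := Finset.exists_mem_ne h w
  exact ⟨z, by simpa using hz, hzw⟩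

/-- The case of lists of length at least two. -/
theorem exists_aut_two (hT : G.IsTree) {n : ℕ} (hdeg : ∀ v, G.degree v = n + 2)
    {τ y τ' y' : V} {l l' : List V}
    (h : NBList G (τ :: y :: l)) (h' : NBList G (τ' :: y' :: l')) (hl : l.length = l'.length) :
    ∃ g : G ≃g G, (τ :: y :: l).map g = τ' :: y' :: l' := by
  obtain ⟨e, he, hm⟩ := exists_code hT hdeg τ y l h
  obtain ⟨e', he', hm'⟩ := exists_code hT hdeg τ' y' l' h'
  refine ⟨⟨e.symm.trans e', ?_⟩, ?_⟩
  · intro a b
    have h1 := he' (e.symm a) (e.symm b)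
    have h2 := he (e.symm a) (e.symm b)
    simp only [Equiv.apply_symm_apply] at h2
    simp only [Equiv.trans_apply]
    rw [h1, h2]
  · rw [← hm, ← hm', hl, List.map_map]
    refine List.map_congr_left ?_
    intro p _
    simp

/-- **Main statement of the module.** Any two non-backtracking walks of equal length in a
`d`-regular tree (`d ≥ 2`) are related by an automorphism. -/
theorem exists_aut_list (hT : G.IsTree) (hdeg : ∀ v, G.degree v = d) (hd : 2 ≤ d) {π π' : List V}
    (h : NBList G π) (h' : NBList G π') (hl : π.length = π'.length) :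
    ∃ g : G ≃g G, π.map g = π' := by
  obtain ⟨n, rfl⟩ : ∃ n, d = n + 2 := ⟨d - 2, by omega⟩
  match π, π', h, h', hl with
  | [], [], _, _, _ => exact ⟨SimpleGraph.Iso.refl, rfl⟩
  | [x], [x'], _, _, _ =>
    obtain ⟨y, hy, -⟩ := exists_nbr_ne hdeg hd x x
    obtain ⟨y', hy', -⟩ := exists_nbr_ne hdeg hd x' x'
    obtain ⟨g, hg⟩ := exists_aut_two hT hdeg (τ := x) (y := y) (τ' := x') (y' := y') (l := [])
      (l' := []) hy hy' rfl
    simp only [List.map_cons, List.map_nil, List.cons.injEq, and_true] at hg
    exact ⟨g, by simp [hg.1]⟩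
  | τ :: y :: l, τ' :: y' :: l', h, h', hl =>
    exact exists_aut_two hT hdeg h h' (by simpa using hl)

/-- Every directed edge `(a, b)` starts a ray `b, a, r 2, r 3, …`. -/
theorem exists_ray (hT : G.IsTree) (hdeg : ∀ v, G.degree v = d) (hd : 2 ≤ d) {a b : V}
    (hab : G.Adj a b) : ∃ r : ℕ → V, IsRay G r ∧ r 0 = b ∧ r 1 = a := by
  choose nx hnx using fun x w => exists_nbr_ne hdeg hd x w
  let s : ℕ → V × V := fun m => Nat.rec (a, b) (fun _ p => (nx p.1 p.2, p.1)) m
  have hs0 : s 0 = (a, b) := rfl
  have hss : ∀ m, s (m + 1) = (nx (s m).1 (s m).2, (s m).1) := fun m => rfl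
  let r : ℕ → V := fun m => Nat.casesOn m b (fun m => (s m).1)
  have hr0 : r 0 = b := rfl
  have hrs : ∀ m, r (m + 1) = (s m).1 := fun m => rfl
  refine ⟨r, ⟨?_, ?_⟩, hr0, hrs 0⟩
  · intro i
    cases i with
    | zero => exact hab.symm
    | succ m =>
      show G.Adj (s m).1 (s (m + 1)).1
      rw [hss]
      exact (hnx _ _).1
  · intro i
    cases i with
    | zero =>
      show (s (0 + 1)).1 ≠ b
      rw [hss, hs0]
      exact (hnx _ _).2
    | succ m =>
      show (s (m + 2)).1 ≠ (s m).1
      rw [hss (m + 1)]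
      have : (s (m + 1)).2 = (s m).1 := by rw [hss]
      rw [← this]
      exact (hnx _ _).2

end Vale.Agent.Lib.P161
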