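import Vale.Agent.Lib.P161.End.Defs
import Vale.Agent.Lib.P161.End.Aut
import Vale.Agent.Lib.P161.Step

/-!
P161 endpoint, module PathSum: path expansions of the coefficient vectors and of the cascades;
reduction of sums over non-backtracking paths to one fixed path, by the transitivity of the
automorphism group.
-/

open MeasureTheory Finset

set_option linter.unusedSectionVars false

namespace Vale.Agent.Lib.P161

noncomputable section

variable {V : Type*} [DecidableEq V] {G : SimpleGraph V}

/-- The product of the weights along a path listed from its end: `W x y` for consecutive `x, y`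
of the list, except for the last pair. -/
def prodW (W : V → V → ℝ) : List V → ℝ
  | x :: y :: z :: l => W x y * prodW W (y :: z :: l)
  | _ => 1

/-- The sum of `f` over the non-backtracking extensions by `n` vertices of the path `π`, which has
current vertex `a` and previous vertex `b`. -/
def pathSum (N : V → Finset V) (f : List V → ℝ) : ℕ → V → V → List V → ℝ
  | 0, _, _, π => f π
  | n + 1, a, b, π => ∑ c ∈ (N a).erase b, pathSum N f n c a (c :: π)

theorem prodW_cons (W : V → V → ℝ) (c a b : V) (l : List V) :
    prodW W (c :: a :: b :: l) = W c a * prodW W (a :: b :: l) := rfl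

/-- Expansion of the squared norm of a difference of coefficient vectors along paths. -/
theorem nsq_smul_coef_sub {N : V → Finset V} (hT : G.IsTree) (hN : ∀ a c, c ∈ N a → G.Adj a c)
    (W W' : V → V → ℝ) (ℓ : ℕ) (a b : V) (l : List V) (hab : G.Adj a b) :
    nsq (prodW W (a :: b :: l) • coef N W ℓ a b - prodW W' (a :: b :: l) • coef N W' ℓ a b)
      = ∑ m ∈ range (ℓ + 1),
          pathSum N (fun π => (prodW W π - prodW W' π) ^ 2) m a b (a :: b :: l) := by
  classical
  induction ℓ generalizing a b l with
  | zero =>
    simp only [zero_add, range_one, sum_singleton, pathSum, coef_zero]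
    have e : prodW W (a :: b :: l) • (Finsupp.single a (1 : ℝ)) -
        prodW W' (a :: b :: l) • (Finsupp.single a (1 : ℝ))
        = Finsupp.single a (prodW W (a :: b :: l) - prodW W' (a :: b :: l)) := by
      ext w
      by_cases h : a = w <;> simp [Finsupp.single_apply, h]
    rw [e, nsq_single]
  | succ ℓ ih =>
    set α := prodW W (a :: b :: l) with hα
    set β := prodW W' (a :: b :: l) with hβ
    have e : α • coef N W (ℓ + 1) a b - β • coef N W' (ℓ + 1) a b
        = Finsupp.single a (α - β) + ∑ c ∈ (N a).erase b,
            (prodW W (c :: a :: b :: l) • coef N W ℓ c a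
              - prodW W' (c :: a :: b :: l) • coef N W' ℓ c a) := by
      rw [coef_succ, coef_succ, smul_add, smul_add, Finset.smul_sum, Finset.smul_sum,
        Finset.sum_sub_distrib]
      have e1 : α • (Finsupp.single a (1 : ℝ)) - β • (Finsupp.single a (1 : ℝ))
          = Finsupp.single a (α - β) := by
        ext w
        by_cases h : a = w <;> simp [Finsupp.single_apply, h]
      have e2 : ∀ c, prodW W (c :: a :: b :: l) • coef N W ℓ c a = α • W c a • coef N W ℓ c a := by
        intro c
        rw [prodW_cons, smul_smul, ← hα, mul_comm]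
      have e3 : ∀ c, prodW W' (c :: a :: b :: l) • coef N W' ℓ c a
          = β • W' c a • coef N W' ℓ c a := by
        intro c
        rw [prodW_cons, smul_smul, ← hβ, mul_comm]
      simp only [e2, e3]
      rw [← e1]
      abel
    rw [e, nsq_add_of_disjoint, nsq_single]
    · rw [nsq_sum_of_disjoint _ _ (fun c => Br G c a)]
      · rw [sum_range_succ' _ (ℓ + 1)]
        simp only [pathSum]
        rw [add_comm]
        congr 1
        · rw [sum_comm]
          refine sum_congr rfl fun c hc => ?_
          have hca : G.Adj c a := (hN a c (mem_of_mem_erase hc)).symm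
          exact ih c a (b :: l) hca
      · intro c hc w hw
        have hca : G.Adj c a := (hN a c (mem_of_mem_erase hc)).symm
        have hw' := Finsupp.support_sub hw
        rcases mem_union.1 hw' with h | h
        · exact support_coef_Br hT hN ℓ c a hca (Finsupp.support_smul h)
        · exact support_coef_Br hT hN ℓ c a hca (Finsupp.support_smul h)
      · intro c hc c' hc' hcc
        exact Br_disjoint hT (hN a c (mem_of_mem_erase hc)).symm
          (hN a c' (mem_of_mem_erase hc')).symm hcc
    · rw [Finset.disjoint_left]
      intro w hw hw'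
      have := Finsupp.support_single_subset hw
      simp only [mem_singleton] at this
      subst this
      obtain ⟨c, hc, hwc⟩ := mem_biUnion.1 (Finsupp.support_finset_sum hw')
      have hca : G.Adj c w := (hN w c (mem_of_mem_erase hc)).symm
      have hw2 := Finsupp.support_sub hwc
      rcases mem_union.1 hw2 with h | h
      · exact not_mem_Br hca (support_coef_Br hT hN ℓ c w hca (Finsupp.support_smul h))
      · exact not_mem_Br hca (support_coef_Br hT hN ℓ c w hca (Finsupp.support_smul h))

/-- The squared norm of the difference of two coefficient vectors. -/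
theorem nsq_coef_sub_eq {N : V → Finset V} (hT : G.IsTree) (hN : ∀ a c, c ∈ N a → G.Adj a c)
    (W W' : V → V → ℝ) (ℓ : ℕ) (a b : V) (hab : G.Adj a b) :
    nsq (coef N W ℓ a b - coef N W' ℓ a b)
      = ∑ m ∈ range (ℓ + 1), pathSum N (fun π => (prodW W π - prodW W' π) ^ 2) m a b [a, b] := by
  have h := nsq_smul_coef_sub hT hN W W' ℓ a b [] hab
  simpa [prodW] using h

/-- The cascade is a normalized path sum. -/
theorem pathSum_prodW (N : V → Finset V) (bb : ℝ) (hbb : bb ≠ 0) (w : V → V → ℝ) (n : ℕ) (a b : V)
    (l : List V) :
    pathSum N (prodW w) n a b (a :: b :: l)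
      = prodW w (a :: b :: l) * (bb ^ n * casc N bb w n a b) := by
  induction n generalizing a b l with
  | zero => simp [pathSum, casc]
  | succ n ih =>
    simp only [pathSum, casc]
    have e : ∀ c ∈ (N a).erase b, pathSum N (prodW w) n c a (c :: a :: b :: l)
        = prodW w (a :: b :: l) * (bb ^ n * (w c a * casc N bb w n c a)) := by
      intro c _
      rw [ih c a (b :: l), prodW_cons]
      ring
    rw [sum_congr rfl e, ← mul_sum, ← mul_sum]
    field_simp
    ring

theorem pathSum_mono {N : V → Finset V} {f f' : List V → ℝ} (h : ∀ π, f π ≤ f' π) (n : ℕ) (a b : V)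
    (π : List V) : pathSum N f n a b π ≤ pathSum N f' n a b π := by
  induction n generalizing a b π with
  | zero => exact h π
  | succ n ih => exact sum_le_sum fun c _ => ih c a _

theorem pathSum_add {N : V → Finset V} (f f' : List V → ℝ) (n : ℕ) (a b : V) (π : List V) :
    pathSum N (fun π => f π + f' π) n a b π = pathSum N f n a b π + pathSum N f' n a b π := by
  induction n generalizing a b π with
  | zero => rfl
  | succ n ih =>
    simp only [pathSum]
    rw [← sum_add_distrib]
    exact sum_congr rfl fun c _ => ih c a _

theorem pathSum_const_mul {N : V → Finset V} (u : ℝ) (f : List V → ℝ) (n : ℕ) (a b : V)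
    (π : List V) : pathSum N (fun π => u * f π) n a b π = u * pathSum N f n a b π := by
  induction n generalizing a b π with
  | zero => rfl
  | succ n ih =>
    simp only [pathSum]
    rw [mul_sum]
    exact sum_congr rfl fun c _ => ih c a _

section Regular

variable [G.LocallyFinite] {d : ℕ}

omit [DecidableEq V] in
theorem nb_cons {a b c : V} {l : List V} (h : NBList G (a :: b :: l)) (hca : G.Adj c a)
    (hcb : c ≠ b) : NBList G (c :: a :: b :: l) := ⟨hca, hcb, h⟩

theorem card_erase_nbV (hdeg : ∀ v, G.degree v = d) (hd : 1 ≤ d) {a b : V} (hab : G.Adj a b) :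
    (((nbV G a).erase b).card : ℝ) = (d : ℝ) - 1 := by
  have h1 : b ∈ nbV G a := by simpa [nbV] using hab
  rw [card_erase_of_mem h1]
  have h2 : (nbV G a).card = d := by
    have := hdeg a
    simpa [nbV, SimpleGraph.card_neighborFinset_eq_degree] using this
  rw [h2, Nat.cast_sub hd]
  simp

/-- A path sum of a constant. -/
theorem pathSum_const (hdeg : ∀ v, G.degree v = d) (hd : 1 ≤ d) (u : ℝ) (n : ℕ) (a b : V)
    (π : List V) (hab : G.Adj a b) :
    pathSum (nbV G) (fun _ => u) n a b π = ((d : ℝ) - 1) ^ n * u := by
  induction n generalizing a b π with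
  | zero => simp [pathSum]
  | succ n ih =>
    simp only [pathSum]
    have e : ∀ c ∈ (nbV G a).erase b, pathSum (nbV G) (fun _ => u) n c a (c :: π)
        = ((d : ℝ) - 1) ^ n * u := by
      intro c hc
      have hca : G.Adj c a := by
        have := mem_of_mem_erase hc
        simpa [nbV, SimpleGraph.adj_comm] using this
      exact ih c a _ hca
    rw [sum_congr rfl e, sum_const, nsmul_eq_mul, card_erase_nbV hdeg hd hab]
    ring

/-- A function on paths which is constant on non-backtracking paths of a given length with a given
suffix: the path sum is a multiple of any value. -/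
theorem pathSum_eq_of_const (hdeg : ∀ v, G.degree v = d) (hd : 1 ≤ d) (s : List V) (f : List V → ℝ)
    (hf : ∀ π₁ π₂, NBList G π₁ → NBList G π₂ → π₁.length = π₂.length → s <:+ π₁ → s <:+ π₂ →
      f π₁ = f π₂) (n : ℕ) (a b : V) (l : List V) (hπ : NBList G (a :: b :: l))
    (hs : s <:+ (a :: b :: l)) (π₀ : List V) (hπ₀ : NBList G π₀) (hs₀ : s <:+ π₀)
    (hlen : π₀.length = (a :: b :: l).length + n) :
    pathSum (nbV G) f n a b (a :: b :: l) = ((d : ℝ) - 1) ^ n * f π₀ := by
  induction n generalizing a b l with
  | zero =>
    simp only [pathSum, pow_zero, one_mul]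
    exact hf _ _ hπ hπ₀ (by simpa using hlen.symm) hs hs₀
  | succ n ih =>
    simp only [pathSum]
    have hab : G.Adj a b := by
      cases l with
      | nil => exact hπ
      | cons z l => exact hπ.1
    have e : ∀ c ∈ (nbV G a).erase b, pathSum (nbV G) f n c a (c :: a :: b :: l)
        = ((d : ℝ) - 1) ^ n * f π₀ := by
      intro c hc
      have hcb := ne_of_mem_erase hc
      have hca : G.Adj c a := by
        have := mem_of_mem_erase hc
        simpa [nbV, SimpleGraph.adj_comm] using this
      exact ih c a (b :: l) (nb_cons hπ hca hcb) (hs.trans (List.suffix_cons _ _))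
        (by rw [hlen]; simp; ring)
    rw [sum_congr rfl e, sum_const, nsmul_eq_mul, card_erase_nbV hdeg hd hab]
    ring

theorem rayList_cons (r : ℕ → V) (m : ℕ) : ∃ l, rayList r m = r (m + 1) :: r m :: l := by
  cases m with
  | zero => exact ⟨[], rfl⟩
  | succ m =>
    obtain ⟨l, hl⟩ : ∃ l, rayList r m = r (m + 1) :: l := by
      cases m with
      | zero => exact ⟨[r 0], rfl⟩
      | succ m => exact ⟨rayList r m, rfl⟩
    exact ⟨l, by show r (m + 2) :: rayList r m = _; rw [hl]⟩

/-- `prodW` along a list given by a function. -/
theorem prodW_rayList (W : V → V → ℝ) (r : ℕ → V) (m : ℕ) :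
    prodW W (rayList r m) = ∏ i ∈ range m, W (r (i + 2)) (r (i + 1)) := by
  induction m with
  | zero => simp [rayList, prodW]
  | succ m ih =>
    rw [prod_range_succ, ← ih]
    obtain ⟨l, hl⟩ := rayList_cons r m
    have e : rayList r (m + 1) = r (m + 2) :: rayList r m := rfl
    rw [e, hl, prodW_cons, mul_comm]

end Regular

end

end Vale.Agent.Lib.P161
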