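import Vale.Agent.Lib.P161.End.Scal
import Vale.Agent.Lib.P161.End.PathSum
import Vale.Agent.Lib.P161.Step
import Vale.Agent.Lib.P161.Tree

/-!
P161 endpoint, module CascLip: the cascade is a bounded Lipschitz function of finitely many weights.
-/

open Finset

namespace Vale.Agent.Lib.P161

noncomputable section

variable {V : Type*} [DecidableEq V] {G : SimpleGraph V} [G.LocallyFinite] {d : ℕ}

/-- The directed edges on which the cascade depends. -/
def cascEdges (N : V → Finset V) : ℕ → V → V → Finset (V × V)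
  | 0, _, _ => ∅
  | n + 1, a, c => ((N a).erase c).biUnion fun z => insert (z, a) (cascEdges N n z a)

lemma adj_of_mem_erase_nbV {a c z : V} (hz : z ∈ (nbV G a).erase c) : G.Adj z a := by
  have := Finset.mem_of_mem_erase hz
  have h : G.Adj a z := by simpa [nbV] using this
  exact h.symm

/-- The edges of a cascade stay on the side of `a` of the edge `(a, c)`. -/
lemma cascEdges_mem_Br (hT : G.IsTree) (n : ℕ) {a c : V} (hac : G.Adj a c) :
    ∀ e ∈ cascEdges (nbV G) n a c, e.2 ∈ Br G a c := by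
  induction n generalizing a c with
  | zero => simp [cascEdges]
  | succ n ih =>
    intro e he
    simp only [cascEdges, Finset.mem_biUnion, Finset.mem_insert] at he
    obtain ⟨z, hz, h⟩ := he
    have hzadj := adj_of_mem_erase_nbV hz
    rcases h with rfl | h
    · exact self_mem_Br hac
    · exact Br_step hT hzadj hac (Finset.ne_of_mem_erase hz) (ih hzadj e h)

/-- The edge `(z, a)` is not used by the cascade behind it. -/
lemma not_mem_cascEdges (hT : G.IsTree) (n : ℕ) {a z : V} (hza : G.Adj z a) :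
    (z, a) ∉ cascEdges (nbV G) n z a := fun h =>
  not_mem_Br hza (cascEdges_mem_Br hT n hza _ h)

theorem casc_mem_Icc (hdeg : ∀ v, G.degree v = d) (hd : 2 ≤ d) {w : V → V → ℝ}
    (h0 : ∀ x y, 0 ≤ w x y) (h1 : ∀ x y, w x y ≤ 1) (n : ℕ) {a c : V} (hac : G.Adj a c) :
    0 ≤ casc (nbV G) ((d : ℝ) - 1) w n a c ∧ casc (nbV G) ((d : ℝ) - 1) w n a c ≤ 1 := by
  have hb : (0 : ℝ) < (d : ℝ) - 1 := by
    have : (2 : ℝ) ≤ d := by exact_mod_cast hd
    linarith
  induction n generalizing a c with
  | zero => simp [casc]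
  | succ n ih =>
    simp only [casc]
    have hz : ∀ z ∈ (nbV G a).erase c, 0 ≤ w z a * casc (nbV G) ((d : ℝ) - 1) w n z a ∧
        w z a * casc (nbV G) ((d : ℝ) - 1) w n z a ≤ 1 := by
      intro z hz
      have h2 := ih (adj_of_mem_erase_nbV hz)
      exact ⟨mul_nonneg (h0 _ _) h2.1, mul_le_one₀ (h1 _ _) h2.1 h2.2⟩
    constructor
    · exact mul_nonneg (by positivity) (Finset.sum_nonneg fun z hzm => (hz z hzm).1)
    · have h3 : ∑ z ∈ (nbV G a).erase c, w z a * casc (nbV G) ((d : ℝ) - 1) w n z a ≤ (d : ℝ) - 1 := by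
        calc ∑ z ∈ (nbV G a).erase c, w z a * casc (nbV G) ((d : ℝ) - 1) w n z a
            ≤ ∑ _z ∈ (nbV G a).erase c, (1 : ℝ) := Finset.sum_le_sum fun z hzm => (hz z hzm).2
          _ = (d : ℝ) - 1 := by
            rw [Finset.sum_const, nsmul_eq_mul, mul_one, card_erase_nbV hdeg (by omega) hac]
      rw [one_div, inv_mul_le_iff₀ hb, mul_one]
      exact h3

theorem casc_lip (hT : G.IsTree) (hdeg : ∀ v, G.degree v = d) (hd : 2 ≤ d) {w w' : V → V → ℝ}
    (h0 : ∀ x y, 0 ≤ w x y) (h1 : ∀ x y, w x y ≤ 1) (h0' : ∀ x y, 0 ≤ w' x y)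
    (h1' : ∀ x y, w' x y ≤ 1) (n : ℕ) {a c : V} (hac : G.Adj a c) :
    |casc (nbV G) ((d : ℝ) - 1) w n a c - casc (nbV G) ((d : ℝ) - 1) w' n a c|
      ≤ ∑ e ∈ cascEdges (nbV G) n a c, |w e.1 e.2 - w' e.1 e.2| := by
  have hb : (0 : ℝ) < (d : ℝ) - 1 := by
    have : (2 : ℝ) ≤ d := by exact_mod_cast hd
    linarith
  induction n generalizing a c with
  | zero => simp [casc, cascEdges]
  | succ n ih =>
    simp only [casc, cascEdges]
    set E := ((nbV G a).erase c).biUnion fun z => insert (z, a) (cascEdges (nbV G) n z a) with hE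
    set S := ∑ e ∈ E, |w e.1 e.2 - w' e.1 e.2| with hS
    have hz : ∀ z ∈ (nbV G a).erase c,
        |w z a * casc (nbV G) ((d : ℝ) - 1) w n z a - w' z a * casc (nbV G) ((d : ℝ) - 1) w' n z a|
          ≤ S := by
      intro z hzm
      have hzadj := adj_of_mem_erase_nbV hzm
      have h2 := ih hzadj
      have h3 := casc_mem_Icc hdeg hd h0 h1 n hzadj
      have h4 := casc_mem_Icc hdeg hd h0' h1' n hzadj
      set Z := casc (nbV G) ((d : ℝ) - 1) w n z a
      set Z' := casc (nbV G) ((d : ℝ) - 1) w' n z a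
      have h5 : |w z a * Z - w' z a * Z'| ≤ |w z a - w' z a| * Z + w' z a * |Z - Z'| := by
        have e : w z a * Z - w' z a * Z' = (w z a - w' z a) * Z + w' z a * (Z - Z') := by ring
        rw [e]
        refine (abs_add_le _ _).trans ?_
        rw [abs_mul, abs_mul, abs_of_nonneg h3.1, abs_of_nonneg (h0' z a)]
      have h6 : |w z a - w' z a| * Z + w' z a * |Z - Z'| ≤
          |w z a - w' z a| + ∑ e ∈ cascEdges (nbV G) n z a, |w e.1 e.2 - w' e.1 e.2| := by
        have a1 : |w z a - w' z a| * Z ≤ |w z a - w' z a| * 1 :=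
          mul_le_mul_of_nonneg_left h3.2 (abs_nonneg _)
        have a2 : w' z a * |Z - Z'| ≤ 1 * |Z - Z'| :=
          mul_le_mul_of_nonneg_right (h1' z a) (abs_nonneg _)
        linarith
      refine h5.trans (h6.trans ?_)
      have hsub : insert (z, a) (cascEdges (nbV G) n z a) ⊆ E := by
        rw [hE]
        exact Finset.subset_biUnion_of_mem
          (fun z => insert (z, a) (cascEdges (nbV G) n z a)) hzm
      have h7 : ∑ e ∈ insert (z, a) (cascEdges (nbV G) n z a), |w e.1 e.2 - w' e.1 e.2| ≤ S :=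
        Finset.sum_le_sum_of_subset_of_nonneg hsub fun _ _ _ => abs_nonneg _
      refine le_trans ?_ h7
      rw [Finset.sum_insert (not_mem_cascEdges hT n hzadj)]
    have hc : (((nbV G a).erase c).card : ℝ) = (d : ℝ) - 1 := card_erase_nbV hdeg (by omega) hac
    rw [← mul_sub, abs_mul, abs_of_nonneg (by positivity : (0 : ℝ) ≤ 1 / ((d : ℝ) - 1)),
      ← Finset.sum_sub_distrib]
    have h8 : |∑ z ∈ (nbV G a).erase c, (w z a * casc (nbV G) ((d : ℝ) - 1) w n z a -
        w' z a * casc (nbV G) ((d : ℝ) - 1) w' n z a)| ≤ ((d : ℝ) - 1) * S := by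
      refine (Finset.abs_sum_le_sum_abs _ _).trans ?_
      refine (Finset.sum_le_sum hz).trans (le_of_eq ?_)
      rw [Finset.sum_const, nsmul_eq_mul, hc]
    rw [one_div, inv_mul_le_iff₀ hb]
    exact h8

theorem cascEdges_adj (n : ℕ) {a c : V} (hac : G.Adj a c) :
    ∀ e ∈ cascEdges (nbV G) n a c, G.Adj e.1 e.2 := by
  induction n generalizing a c with
  | zero => simp [cascEdges]
  | succ n ih =>
    intro e he
    simp only [cascEdges, Finset.mem_biUnion, Finset.mem_insert] at he
    obtain ⟨z, hz, h⟩ := he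
    have hzadj := adj_of_mem_erase_nbV hz
    rcases h with rfl | h
    · exact hzadj
    · exact ih hzadj e h

end

end Vale.Agent.Lib.P161
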