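import Vale.Agent.Lib.P161.End.Select

/-!
P161 endpoint, module Close: the Osgood closure.  See notes/P161_endpoint_blueprint.md, section 5.
-/

open MeasureTheory ProbabilityTheory Finset Filter

open scoped Topology

namespace Vale.Agent.Lib.P161

noncomputable section

variable {V : Type*} [DecidableEq V] {G : SimpleGraph V} [G.LocallyFinite] {d : ℕ}

theorem close_rpow34_le (k : ℕ) (hk : 1 ≤ k) :
    ((k : ℝ) ^ (-(3 / 4 : ℝ))) ≤ 4 * ((k : ℝ) ^ (1 / 4 : ℝ) - ((k - 1 : ℕ) : ℝ) ^ (1 / 4 : ℝ)) := by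
  set a : ℝ := (k : ℝ) ^ (1 / 4 : ℝ) with ha
  set b : ℝ := ((k - 1 : ℕ) : ℝ) ^ (1 / 4 : ℝ) with hb
  have hk0 : (0 : ℝ) < k := by exact_mod_cast hk
  have hk1 : (0 : ℝ) ≤ ((k - 1 : ℕ) : ℝ) := Nat.cast_nonneg _
  have ha0 : 0 < a := Real.rpow_pos_of_pos hk0 _
  have hb0 : 0 ≤ b := Real.rpow_nonneg hk1 _
  have ha4 : a ^ 4 = k := by
    rw [ha, ← Real.rpow_natCast, ← Real.rpow_mul hk0.le]; norm_num
  have hb4 : b ^ 4 = ((k - 1 : ℕ) : ℝ) := by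
    rw [hb, ← Real.rpow_natCast, ← Real.rpow_mul hk1]; norm_num
  have hsub : ((k - 1 : ℕ) : ℝ) = (k : ℝ) - 1 := by
    rw [Nat.cast_sub hk]; simp
  have hdiff : a ^ 4 - b ^ 4 = 1 := by rw [ha4, hb4, hsub]; ring
  have hba : b ≤ a := by
    by_contra h
    rw [not_le] at h
    have : a ^ 4 < b ^ 4 := pow_lt_pow_left₀ h ha0.le (by norm_num)
    linarith
  have hm : (k : ℝ) ^ (-(3 / 4 : ℝ)) = 1 / a ^ 3 := by
    rw [ha, ← Real.rpow_natCast, ← Real.rpow_mul hk0.le, Real.rpow_neg hk0.le]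
    norm_num
  rw [hm, div_le_iff₀ (pow_pos ha0 3)]
  have h1 : (a - b) * (a ^ 3 + a ^ 2 * b + a * b ^ 2 + b ^ 3) = 1 := by
    have : (a - b) * (a ^ 3 + a ^ 2 * b + a * b ^ 2 + b ^ 3) = a ^ 4 - b ^ 4 := by ring
    rw [this, hdiff]
  have h2 : a ^ 3 + a ^ 2 * b + a * b ^ 2 + b ^ 3 ≤ 4 * a ^ 3 := by
    have e1 : a ^ 2 * b ≤ a ^ 2 * a := mul_le_mul_of_nonneg_left hba (by positivity)
    have e2 : a * b ^ 2 ≤ a * a ^ 2 :=
      mul_le_mul_of_nonneg_left (pow_le_pow_left₀ hb0 hba 2) ha0.le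
    have e3 : b ^ 3 ≤ a ^ 3 := pow_le_pow_left₀ hb0 hba 3
    nlinarith
  have h3 : 0 ≤ a - b := sub_nonneg.mpr hba
  calc (1 : ℝ) = (a - b) * (a ^ 3 + a ^ 2 * b + a * b ^ 2 + b ^ 3) := h1.symm
    _ ≤ (a - b) * (4 * a ^ 3) := mul_le_mul_of_nonneg_left h2 h3
    _ = 4 * (a - b) * a ^ 3 := by ring

theorem sum_close_rpow34_le' (K : ℕ) :
    ∑ k ∈ Finset.Ico 1 (K + 1), ((k : ℝ) ^ (-(3 / 4 : ℝ))) ≤ 4 * (K : ℝ) ^ (1 / 4 : ℝ) := by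
  induction K with
  | zero => simp
  | succ K ih =>
    rw [Finset.sum_Ico_succ_top (by omega)]
    have h := close_rpow34_le (K + 1) (by omega)
    simp only [Nat.add_sub_cancel] at h
    linarith

theorem sum_close_rpow34_le (k₀ K : ℕ) (hk₀ : 1 ≤ k₀) :
    ∑ k ∈ Finset.Ico k₀ K, ((k : ℝ) ^ (-(3 / 4 : ℝ))) ≤ 4 * (K : ℝ) ^ (1 / 4 : ℝ) := by
  refine le_trans ?_ (sum_close_rpow34_le' K)
  apply Finset.sum_le_sum_of_subset_of_nonneg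
  · intro x hx
    simp only [Finset.mem_Ico] at hx ⊢
    omega
  · intro i _ _
    positivity

theorem close_one_div_sL_rpow {t : ℝ} (ht : 0 < t) :
    1 / sL t ^ (3 / 2 : ℝ) = 64 * (min t 1) ^ (-(3 / 4 : ℝ)) := by
  unfold sL
  have hm : 0 < min t 1 := lt_min ht one_pos
  rw [Real.div_rpow (Real.sqrt_nonneg _) (by norm_num), Real.sqrt_eq_rpow,
    ← Real.rpow_mul hm.le]
  have h16 : (16 : ℝ) ^ (3 / 2 : ℝ) = 64 := by
    have : (16 : ℝ) = 4 ^ (2 : ℝ) := by norm_num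
    rw [this, ← Real.rpow_mul (by norm_num)]
    norm_num
  rw [h16]
  have : ((1 / 2 : ℝ) * (3 / 2 : ℝ)) = 3 / 4 := by norm_num
  rw [this, Real.rpow_neg hm.le]
  have hp : 0 < (min t 1) ^ (3 / 4 : ℝ) := Real.rpow_pos_of_pos hm _
  field_simp

theorem close_wF_le {t : ℝ} (ht : 0 < t) : wF t ≤ 65 + 64 * t ^ (-(3 / 4 : ℝ)) := by
  unfold wF
  rw [close_one_div_sL_rpow ht]
  rcases le_total t 1 with h | h
  · rw [min_eq_left h]; linarith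
  · rw [min_eq_right h]
    have : 0 ≤ t ^ (-(3 / 4 : ℝ)) := by positivity
    norm_num
    linarith

theorem close_one_le_wF (t : ℝ) : 1 ≤ wF t := by
  unfold wF
  have : 0 ≤ 1 / sL t ^ (3 / 2 : ℝ) := by
    apply div_nonneg zero_le_one
    apply Real.rpow_nonneg
    unfold sL
    positivity
  linarith

theorem close_sL_mono {s t : ℝ} (h : s ≤ t) : sL s ≤ sL t := by
  unfold sL
  have : min s 1 ≤ min t 1 := min_le_min h le_rfl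
  have := Real.sqrt_le_sqrt this
  linarith

theorem close_wF_anti {s t : ℝ} (hs : 0 < s) (h : s ≤ t) : wF t ≤ wF s := by
  unfold wF
  have h1 := close_sL_mono h
  have h2 := sL_pos hs
  have h3 : sL s ^ (3 / 2 : ℝ) ≤ sL t ^ (3 / 2 : ℝ) :=
    Real.rpow_le_rpow h2.le h1 (by norm_num)
  have h4 : 0 < sL s ^ (3 / 2 : ℝ) := Real.rpow_pos_of_pos h2 _
  have : 1 / sL t ^ (3 / 2 : ℝ) ≤ 1 / sL s ^ (3 / 2 : ℝ) :=
    one_div_le_one_div_of_le h4 h3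
  linarith

/-- The Riemann sum of the weight. -/
theorem sum_wF_le {T : ℝ} (hT : 0 < T) (j k₀ K : ℕ) (hK : (K : ℝ) * (1 / 2 : ℝ) ^ j ≤ T)
    (hk₀ : 1 ≤ k₀) :
    ∑ k ∈ Finset.Ico k₀ K, (1 / 2 : ℝ) ^ j * wF ((k : ℝ) * (1 / 2 : ℝ) ^ j)
      ≤ 65 * T + 256 * T ^ (1 / 4 : ℝ) := by
  set ε : ℝ := (1 / 2 : ℝ) ^ j with hε
  have hε0 : 0 < ε := by positivity
  have hterm : ∀ k ∈ Finset.Ico k₀ K, ε * wF ((k : ℝ) * ε)
      ≤ 65 * ε + 64 * ε ^ (1 / 4 : ℝ) * (k : ℝ) ^ (-(3 / 4 : ℝ)) := by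
    intro k hk
    have hk1 : 1 ≤ k := le_trans hk₀ (Finset.mem_Ico.mp hk).1
    have hk0 : (0 : ℝ) < k := by exact_mod_cast hk1
    have h := close_wF_le (mul_pos hk0 hε0)
    have e : ((k : ℝ) * ε) ^ (-(3 / 4 : ℝ)) = (k : ℝ) ^ (-(3 / 4 : ℝ)) * ε ^ (-(3 / 4 : ℝ)) :=
      Real.mul_rpow hk0.le hε0.le
    have e2 : ε * ε ^ (-(3 / 4 : ℝ)) = ε ^ (1 / 4 : ℝ) := by
      nth_rewrite 1 [← Real.rpow_one ε]
      rw [← Real.rpow_add hε0]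
      norm_num
    rw [e] at h
    calc ε * wF ((k : ℝ) * ε) ≤ ε * (65 + 64 * ((k : ℝ) ^ (-(3 / 4 : ℝ)) * ε ^ (-(3 / 4 : ℝ)))) :=
          mul_le_mul_of_nonneg_left h hε0.le
      _ = 65 * ε + 64 * (ε * ε ^ (-(3 / 4 : ℝ))) * (k : ℝ) ^ (-(3 / 4 : ℝ)) := by ring
      _ = _ := by rw [e2]
  refine le_trans (Finset.sum_le_sum hterm) ?_
  rw [Finset.sum_add_distrib]
  have e9 : ∑ x ∈ Finset.Ico k₀ K, 64 * ε ^ (1 / 4 : ℝ) * (x : ℝ) ^ (-(3 / 4 : ℝ))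
      = 64 * ε ^ (1 / 4 : ℝ) * ∑ x ∈ Finset.Ico k₀ K, (x : ℝ) ^ (-(3 / 4 : ℝ)) := by
    rw [Finset.mul_sum]
  rw [e9]
  have hs1 : ∑ k ∈ Finset.Ico k₀ K, (65 * ε) ≤ 65 * T := by
    rw [Finset.sum_const, nsmul_eq_mul]
    have hc : ((Finset.Ico k₀ K).card : ℝ) ≤ K := by
      simp only [Nat.card_Ico]
      exact_mod_cast Nat.sub_le _ _
    have : ((Finset.Ico k₀ K).card : ℝ) * ε ≤ K * ε := mul_le_mul_of_nonneg_right hc hε0.le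
    nlinarith
  have hs2 : ∑ k ∈ Finset.Ico k₀ K, (k : ℝ) ^ (-(3 / 4 : ℝ)) ≤ 4 * (K : ℝ) ^ (1 / 4 : ℝ) :=
    sum_close_rpow34_le k₀ K hk₀
  have hs3 : 64 * ε ^ (1 / 4 : ℝ) * (∑ k ∈ Finset.Ico k₀ K, (k : ℝ) ^ (-(3 / 4 : ℝ)))
      ≤ 256 * T ^ (1 / 4 : ℝ) := by
    have hp : 0 ≤ 64 * ε ^ (1 / 4 : ℝ) := by positivity
    have hK0 : (0 : ℝ) ≤ K := Nat.cast_nonneg _
    have e : ε ^ (1 / 4 : ℝ) * (K : ℝ) ^ (1 / 4 : ℝ) = ((K : ℝ) * ε) ^ (1 / 4 : ℝ) := by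
      rw [Real.mul_rpow hK0 hε0.le]; ring
    have hle : ((K : ℝ) * ε) ^ (1 / 4 : ℝ) ≤ T ^ (1 / 4 : ℝ) :=
      Real.rpow_le_rpow (by positivity) hK (by norm_num)
    calc 64 * ε ^ (1 / 4 : ℝ) * (∑ k ∈ Finset.Ico k₀ K, (k : ℝ) ^ (-(3 / 4 : ℝ)))
        ≤ 64 * ε ^ (1 / 4 : ℝ) * (4 * (K : ℝ) ^ (1 / 4 : ℝ)) :=
          mul_le_mul_of_nonneg_left hs2 hp
      _ = 256 * (ε ^ (1 / 4 : ℝ) * (K : ℝ) ^ (1 / 4 : ℝ)) := by ring
      _ ≤ 256 * T ^ (1 / 4 : ℝ) := by rw [e]; linarith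
  linarith

/-- The numerical closure lemma. The one step inequalities hold with every integer `L`
up to `Lmax`, with `c k = ε K w(k ε) ≤ 1/2` and a small error at most `ν`. -/
theorem osgood_closure {N c : ℕ → ℝ} {ν A : ℝ} {k₀ K Lmax : ℕ} (hk : k₀ ≤ K) (hν : 0 < ν)
    (hν1 : ν ≤ 1)
    (hLmax : Real.log (1 / ν) + 2 ≤ Lmax) (hN0 : ∀ k, 0 ≤ N k) (hc0 : ∀ k, 0 ≤ c k)
    (hc1 : ∀ k, k₀ ≤ k → k < K → c k ≤ 1 / 2)
    (hA : ∑ k ∈ Finset.Ico k₀ K, c k ≤ A)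
    (hstep : ∀ k, k₀ ≤ k → k < K → ∀ L : ℕ, 1 ≤ L → L ≤ Lmax →
      N (k + 1) ≤ N k + c k * (L * N k + Real.exp (-(L : ℝ)) + ν))
    (hinit : Real.exp (2 * A) * 4 ≤ Real.log (1 / max (N k₀) ν) + 4) :
    Real.log (1 / max (N K) ν) + 4 ≥ (Real.log (1 / max (N k₀) ν) + 4) * Real.exp (-(2 * A)) := by
  set Nh : ℕ → ℝ := fun k => max (N k) ν with hNh
  set Y : ℕ → ℝ := fun k => Real.log (1 / Nh k) + 4 with hY
  have hNh0 : ∀ k, 0 < Nh k := fun k => lt_of_lt_of_le hν (le_max_right _ _)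
  have hYk0 : 0 < Y k₀ := by
    have : 0 < Real.exp (2 * A) * 4 := by positivity
    exact lt_of_lt_of_le this hinit
  have hYle : ∀ k, Y k ≤ Real.log (1 / ν) + 4 := by
    intro k
    have : Real.log (1 / Nh k) ≤ Real.log (1 / ν) := by
      apply Real.log_le_log (by have := hNh0 k; positivity)
      exact one_div_le_one_div_of_le hν (le_max_right _ _)
    simp only [hY]; linarith
  -- the invariant
  have key : ∀ m, k₀ + m ≤ K →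
      Y (k₀ + m) ≥ Y k₀ * Real.exp (-(2 * ∑ i ∈ Finset.Ico k₀ (k₀ + m), c i)) := by
    intro m
    induction m with
    | zero =>
      intro _
      simp
    | succ m ih =>
      intro hm
      have hm' : k₀ + m ≤ K := by omega
      have hlt : k₀ + m < K := by omega
      have ih' := ih hm'
      set k := k₀ + m with hk_def
      have hk₁ : k + 1 = k₀ + (m + 1) := by omega
      rw [← hk₁, Finset.sum_Ico_succ_top (by omega)]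
      set S := ∑ i ∈ Finset.Ico k₀ k, c i with hS
      have hSA : S ≤ A := by
        refine le_trans ?_ hA
        apply Finset.sum_le_sum_of_subset_of_nonneg
        · intro x hx
          simp only [Finset.mem_Ico] at hx ⊢
          omega
        · intro i _ _; exact hc0 i
      -- Y k ≥ 4
      have hY4 : 4 ≤ Y k := by
        have h1 : Real.exp (-(2 * A)) ≤ Real.exp (-(2 * S)) :=
          Real.exp_le_exp.mpr (by linarith)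
        have h2 : Y k₀ * Real.exp (-(2 * A)) ≤ Y k₀ * Real.exp (-(2 * S)) :=
          mul_le_mul_of_nonneg_left h1 hYk0.le
        have h3 : 4 ≤ Y k₀ * Real.exp (-(2 * A)) := by
          have e : Real.exp (2 * A) * Real.exp (-(2 * A)) = 1 := by
            rw [← Real.exp_add]; simp
          have hp := Real.exp_pos (-(2 * A))
          calc (4 : ℝ) = (Real.exp (2 * A) * 4) * Real.exp (-(2 * A)) := by
                rw [mul_comm (Real.exp (2 * A)), mul_assoc, e]; norm_num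
            _ ≤ Y k₀ * Real.exp (-(2 * A)) := mul_le_mul_of_nonneg_right hinit hp.le
        linarith
      -- y k ≥ 0
      set y := Real.log (1 / Nh k) with hy
      have hy0 : 0 ≤ y := by
        have : Y k = y + 4 := rfl
        linarith
      -- choice of L
      set L : ℕ := ⌈y⌉₊ + 1 with hL
      have hL1 : 1 ≤ L := by omega
      have hLy : (L : ℝ) ≤ y + 2 := by
        have := Nat.ceil_lt_add_one hy0
        simp only [hL]; push_cast; linarith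
      have hyL : y ≤ L := by
        have := Nat.le_ceil y
        simp only [hL]; push_cast; linarith
      have hLLmax : L ≤ Lmax := by
        have h1 : (L : ℝ) ≤ Lmax := by
          have := hYle k
          have e : Y k = y + 4 := rfl
          linarith
        exact_mod_cast h1
      have hstep' := hstep k (by omega) hlt L hL1 hLLmax
      -- exp(-L) ≤ Nh k
      have hexp : Real.exp (-(L : ℝ)) ≤ Nh k := by
        have h1 : Real.exp (-(L : ℝ)) ≤ Real.exp (-y) := Real.exp_le_exp.mpr (by linarith)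
        have h2 : Real.exp (-y) = Nh k := by
          rw [hy, Real.log_div one_ne_zero (hNh0 k).ne', Real.log_one]
          simp [Real.exp_log (hNh0 k)]
        linarith
      have hNk : N k ≤ Nh k := le_max_left _ _
      have hνk : ν ≤ Nh k := le_max_right _ _
      have hck := hc0 k
      have hL0 : (0 : ℝ) ≤ L := Nat.cast_nonneg _
      have hYk : Y k = y + 4 := rfl
      -- main inequality
      have hmain : Nh (k + 1) ≤ Nh k * (1 + c k * Y k) := by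
        have hpos := hNh0 k
        have hYp : 0 ≤ c k * Y k := mul_nonneg hck (by linarith)
        apply max_le
        · have h1 : N k + c k * (L * N k + Real.exp (-(L : ℝ)) + ν)
              ≤ Nh k + c k * (L * Nh k + Nh k + Nh k) := by
            have : L * N k + Real.exp (-(L : ℝ)) + ν ≤ L * Nh k + Nh k + Nh k := by
              have := mul_le_mul_of_nonneg_left hNk hL0
              linarith
            have := mul_le_mul_of_nonneg_left this hck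
            linarith
          have h2 : Nh k + c k * (L * Nh k + Nh k + Nh k) ≤ Nh k * (1 + c k * Y k) := by
            have : (L : ℝ) + 2 ≤ Y k := by rw [hYk]; linarith
            have h3 : c k * ((L : ℝ) + 2) ≤ c k * Y k := mul_le_mul_of_nonneg_left this hck
            have h4 := mul_le_mul_of_nonneg_left h3 hpos.le
            nlinarith
          linarith
        · have : Nh k ≤ Nh k * (1 + c k * Y k) := by
            have := mul_nonneg hpos.le hYp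
            nlinarith
          linarith
      -- log step
      have hlog : Y (k + 1) ≥ Y k - c k * Y k := by
        have hp1 : 0 < 1 + c k * Y k := by
          have : 0 ≤ c k * Y k := mul_nonneg hck (by linarith)
          linarith
        have h1 : Real.log (Nh (k + 1)) ≤ Real.log (Nh k) + Real.log (1 + c k * Y k) := by
          rw [← Real.log_mul (hNh0 k).ne' hp1.ne']
          exact Real.log_le_log (hNh0 _) hmain
        have h2 : Real.log (1 + c k * Y k) ≤ c k * Y k := by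
          have := Real.log_le_sub_one_of_pos hp1
          linarith
        have h3 : ∀ n, Y n = - Real.log (Nh n) + 4 := by
          intro n
          simp only [hY, one_div, Real.log_inv]
        rw [h3 (k + 1), h3 k]
        have : c k * (-Real.log (Nh k) + 4) = c k * Y k := by rw [h3 k]
        linarith
      -- 1 - x ≥ exp(-2x)
      have hcle := hc1 k (by omega) hlt
      have hexp2 : Real.exp (-(2 * c k)) ≤ 1 - c k := by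
        -- exp(2x) ≥ 1 + 2x, and (1-x)(1+2x) ≥ 1 for 0 ≤ x ≤ 1/2
        have h1 : 1 + 2 * c k ≤ Real.exp (2 * c k) := by
          have := Real.add_one_le_exp (2 * c k)
          linarith
        have h2 : Real.exp (-(2 * c k)) = (Real.exp (2 * c k))⁻¹ := by
          rw [Real.exp_neg]
        rw [h2]
        have h3 : (Real.exp (2 * c k))⁻¹ ≤ (1 + 2 * c k)⁻¹ :=
          inv_anti₀ (by linarith) h1
        have h4 : (1 + 2 * c k)⁻¹ ≤ 1 - c k := by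
          rw [inv_le_iff_one_le_mul₀ (by linarith)]
          nlinarith
        linarith
      have hYk0' : 0 ≤ Y k := by linarith
      have hfin : Y (k + 1) ≥ Y k * Real.exp (-(2 * c k)) := by
        have := mul_le_mul_of_nonneg_left hexp2 hYk0'
        nlinarith
      have hexpp := Real.exp_pos (-(2 * c k))
      calc Y k₀ * Real.exp (-(2 * (S + c k)))
          = (Y k₀ * Real.exp (-(2 * S))) * Real.exp (-(2 * c k)) := by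
            rw [mul_assoc, ← Real.exp_add]; ring_nf
        _ ≤ Y k * Real.exp (-(2 * c k)) := mul_le_mul_of_nonneg_right ih' hexpp.le
        _ ≤ Y (k + 1) := hfin
  obtain ⟨m, rfl⟩ : ∃ m, K = k₀ + m := ⟨K - k₀, by omega⟩
  have h := key m le_rfl
  have h1 : Real.exp (-(2 * A)) ≤ Real.exp (-(2 * ∑ i ∈ Finset.Ico k₀ (k₀ + m), c i)) :=
    Real.exp_le_exp.mpr (by linarith)
  have h2 := mul_le_mul_of_nonneg_left h1 hYk0.le
  exact le_trans h2 h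


/-- The total weight. -/
def closeA (K₁ T : ℝ) : ℝ := K₁ * (65 * T + 256 * T ^ (1 / 4 : ℝ))

/-- The exponent of the floor. -/
def closeY (K₁ T δ : ℝ) : ℝ := (Real.log (1 / min δ 1) + 4) * Real.exp (2 * closeA K₁ T) - 4

theorem closeY_nonneg {K₁ T δ : ℝ} (hK₁ : 1 ≤ K₁) (hT : 0 ≤ T) (hδ : 0 < δ) :
    0 ≤ closeY K₁ T δ := by
  unfold closeY
  have hδ'0 : 0 < min δ 1 := lt_min hδ one_pos
  have hδ'1 : min δ 1 ≤ 1 := min_le_right _ _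
  have hΛ0 : 0 ≤ Real.log (1 / min δ 1) :=
    Real.log_nonneg (by rw [le_div_iff₀ hδ'0]; linarith)
  have hE1 : 1 ≤ Real.exp (2 * closeA K₁ T) := by
    apply Real.one_le_exp
    have h0 : 0 ≤ 65 * T + 256 * T ^ (1 / 4 : ℝ) := by positivity
    unfold closeA
    have : 0 ≤ K₁ * (65 * T + 256 * T ^ (1 / 4 : ℝ)) := mul_nonneg (by linarith) h0
    linarith
  nlinarith

/-- The run from the initial time to the final time, for an abstract sequence. -/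
theorem close_run {T : ℕ} (hT1 : 1 ≤ T) {K₁ δ t₀ : ℝ} (hK₁ : 1 ≤ K₁) (hδ : 0 < δ) (ht₀ : 0 < t₀)
    (ht₀1 : t₀ ≤ 1) {j : ℕ} (hεt₀ : (1 / 2 : ℝ) ^ j ≤ t₀)
    (hεc : (1 / 2 : ℝ) ^ j * (K₁ * wF t₀) ≤ 1 / 2) {N : ℕ → ℝ} (hN0 : ∀ k, 0 ≤ N k) {Lmax : ℕ}
    (hLmax : closeY K₁ T δ + 2 ≤ Lmax)
    (hinit : N ⌈t₀ * (2 : ℝ) ^ j⌉₊ ≤ Real.exp (-closeY K₁ T δ))
    (hstep : ∀ k : ℕ, t₀ ≤ (k : ℝ) * (1 / 2 : ℝ) ^ j → (k : ℝ) * (1 / 2 : ℝ) ^ j ≤ T →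
      ∀ L : ℕ, 1 ≤ L → L ≤ Lmax → N (k + 1) ≤ N k + (1 / 2 : ℝ) ^ j * (
        K₁ * L * wF ((k : ℝ) * (1 / 2 : ℝ) ^ j) * N k + K₁ * Real.exp (-(L : ℝ))
          + Real.exp (-closeY K₁ T δ))) :
    N (T * 2 ^ j) ≤ δ := by
  have hT1r : (1 : ℝ) ≤ T := by exact_mod_cast hT1
  have hTr : (0 : ℝ) < T := by linarith
  have hY0 := closeY_nonneg hK₁ hTr.le hδ
  set Y := closeY K₁ T δ with hY
  set ν := Real.exp (-Y) with hν
  have hν0 : 0 < ν := Real.exp_pos _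
  have hν1 : ν ≤ 1 := by
    rw [hν, Real.exp_le_one_iff]; linarith
  have hlogν : Real.log (1 / ν) = Y := by
    rw [hν, one_div, Real.log_inv, Real.log_exp]; ring
  set ε : ℝ := (1 / 2 : ℝ) ^ j with hε
  have hε0 : 0 < ε := by positivity
  have hε2 : ε * (2 : ℝ) ^ j = 1 := by
    rw [hε, ← mul_pow]; norm_num
  set k₀ : ℕ := ⌈t₀ * (2 : ℝ) ^ j⌉₊ with hk₀
  set K : ℕ := T * 2 ^ j with hK
  have hKε : (K : ℝ) * ε = T := by
    simp only [hK]; push_cast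
    rw [mul_assoc, mul_comm ((2 : ℝ) ^ j), hε2, mul_one]
  have hk₀1 : t₀ ≤ (k₀ : ℝ) * ε := by
    have h1 : t₀ * (2 : ℝ) ^ j ≤ k₀ := Nat.le_ceil _
    have h2 := mul_le_mul_of_nonneg_right h1 hε0.le
    calc t₀ = t₀ * (2 : ℝ) ^ j * ε := by rw [mul_assoc, mul_comm ((2 : ℝ) ^ j), hε2, mul_one]
      _ ≤ _ := h2
  have hk₀pos : 1 ≤ k₀ := by
    rw [Nat.one_le_iff_ne_zero]
    intro h
    rw [h] at hk₀1
    simp at hk₀1
    linarith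
  have hkK : k₀ ≤ K := by
    apply Nat.ceil_le.mpr
    simp only [hK]; push_cast
    apply mul_le_mul_of_nonneg_right _ (by positivity)
    linarith
  have hmaxν : max (N k₀) ν = ν := max_eq_right hinit
  have hclose := osgood_closure (N := N)
    (c := fun k => ε * K₁ * wF ((k : ℝ) * ε)) (ν := ν) (A := closeA K₁ T) (k₀ := k₀) (K := K)
    (Lmax := Lmax) hkK hν0 hν1 (by rw [hlogν]; exact hLmax) hN0
    (fun k => by
      have := close_one_le_wF ((k : ℝ) * ε)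
      positivity)
    (fun k hk1 hk2 => by
      have hkt : t₀ ≤ (k : ℝ) * ε :=
        le_trans hk₀1 (mul_le_mul_of_nonneg_right (by exact_mod_cast hk1) hε0.le)
      have h1 : wF ((k : ℝ) * ε) ≤ wF t₀ := close_wF_anti ht₀ hkt
      have h2 : ε * K₁ * wF ((k : ℝ) * ε) ≤ ε * K₁ * wF t₀ :=
        mul_le_mul_of_nonneg_left h1 (by positivity)
      have h3 : ε * K₁ * wF t₀ = ε * (K₁ * wF t₀) := by ring
      linarith)
    (by
      have h1 := sum_wF_le hTr j k₀ K (by rw [← hε, hKε]) hk₀pos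
      have h2 : ∑ k ∈ Finset.Ico k₀ K, ε * K₁ * wF ((k : ℝ) * ε)
          = K₁ * ∑ k ∈ Finset.Ico k₀ K, ε * wF ((k : ℝ) * ε) := by
        rw [Finset.mul_sum]
        exact Finset.sum_congr rfl fun _ _ => by ring
      rw [h2]
      unfold closeA
      exact mul_le_mul_of_nonneg_left h1 (by linarith))
    (fun k hk1 hk2 L hL1 hL2 => by
      have hkt : t₀ ≤ (k : ℝ) * ε :=
        le_trans hk₀1 (mul_le_mul_of_nonneg_right (by exact_mod_cast hk1) hε0.le)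
      have hkT : (k : ℝ) * ε ≤ T := by
        have : (k : ℝ) * ε ≤ (K : ℝ) * ε :=
          mul_le_mul_of_nonneg_right (by exact_mod_cast hk2.le) hε0.le
        linarith
      have h := hstep k hkt hkT L hL1 hL2
      have hW := close_one_le_wF ((k : ℝ) * ε)
      set W := wF ((k : ℝ) * ε) with hWdef
      have hexp0 := Real.exp_pos (-(L : ℝ))
      have hKW : 1 ≤ K₁ * W := by nlinarith
      have hterm1 : K₁ * Real.exp (-(L : ℝ)) ≤ K₁ * W * Real.exp (-(L : ℝ)) := by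
        have : K₁ * Real.exp (-(L : ℝ)) * 1 ≤ K₁ * Real.exp (-(L : ℝ)) * W :=
          mul_le_mul_of_nonneg_left hW (by positivity)
        nlinarith
      have hterm2 : ν ≤ K₁ * W * ν := by nlinarith
      have hfin : ε * (K₁ * L * W * N k + K₁ * Real.exp (-(L : ℝ)) + ν)
          ≤ ε * K₁ * W * (L * N k + Real.exp (-(L : ℝ)) + ν) := by
        have := mul_le_mul_of_nonneg_left (add_le_add hterm1 hterm2) hε0.le
        nlinarith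
      linarith)
    (by
      rw [hmaxν, hlogν]
      simp only [hY, closeY]
      have hΛ0 : 0 ≤ Real.log (1 / min δ 1) := by
        have hδ'0 : 0 < min δ 1 := lt_min hδ one_pos
        have hδ'1 : min δ 1 ≤ 1 := min_le_right _ _
        exact Real.log_nonneg (by rw [le_div_iff₀ hδ'0]; linarith)
      have := Real.exp_pos (2 * closeA K₁ T)
      nlinarith)
  rw [hmaxν, hlogν] at hclose
  have hΛeq : (Y + 4) * Real.exp (-(2 * closeA K₁ T)) = Real.log (1 / min δ 1) + 4 := by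
    simp only [hY, closeY]
    have e : Real.exp (2 * closeA K₁ T) * Real.exp (-(2 * closeA K₁ T)) = 1 := by
      rw [← Real.exp_add]; simp
    calc ((Real.log (1 / min δ 1) + 4) * Real.exp (2 * closeA K₁ T) - 4 + 4)
          * Real.exp (-(2 * closeA K₁ T))
        = (Real.log (1 / min δ 1) + 4)
          * (Real.exp (2 * closeA K₁ T) * Real.exp (-(2 * closeA K₁ T))) := by ring
      _ = _ := by rw [e, mul_one]
  have hfinal : Real.log (1 / min δ 1) ≤ Real.log (1 / max (N K) ν) := by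
    linarith
  have hδ'0 : 0 < min δ 1 := lt_min hδ one_pos
  have hmaxpos : 0 < max (N K) ν := lt_of_lt_of_le hν0 (le_max_right _ _)
  have hle : max (N K) ν ≤ min δ 1 := by
    have h2 := (Real.log_le_log_iff (by positivity) (by positivity)).mp hfinal
    exact (one_div_le_one_div hδ'0 hmaxpos).mp h2
  calc N K ≤ max (N K) ν := le_max_left _ _
    _ ≤ min δ 1 := hle
    _ ≤ δ := min_le_left _ _

/-- Pointwise bound integrated: the square of a difference. -/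
theorem close_sub_sq_le {Ω : Type*} [MeasurableSpace Ω] {μ : Measure Ω} {f g : Ω → ℝ}
    (hf : MemLp f 2 μ) (hg : MemLp g 2 μ) :
    ∫ u, (f u - g u) ^ 2 ∂μ ≤ 2 * ∫ u, f u ^ 2 ∂μ + 2 * ∫ u, g u ^ 2 ∂μ := by
  rw [← integral_const_mul, ← integral_const_mul,
    ← integral_add (hf.integrable_sq.const_mul 2) (hg.integrable_sq.const_mul 2)]
  apply integral_mono (hf.sub hg).integrable_sq
  · exact (hf.integrable_sq.const_mul 2).add (hg.integrable_sq.const_mul 2)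
  · intro u
    have := sq_nonneg (f u + g u)
    show (f u - g u) ^ 2 ≤ 2 * f u ^ 2 + 2 * g u ^ 2
    nlinarith

/-- The small time. -/
def closeT0 (K₁ C₀ T δ : ℝ) : ℝ := min ((2 * Real.exp (-closeY K₁ T δ) / C₀) ^ 2 / 2) 1

theorem closeT0_pos {K₁ C₀ T δ : ℝ} (hC₀ : 0 < C₀) : 0 < closeT0 K₁ C₀ T δ := by
  unfold closeT0
  have := Real.exp_pos (-closeY K₁ T δ)
  exact lt_min (by positivity) one_pos

theorem closeT0_le {K₁ C₀ T δ : ℝ} : closeT0 K₁ C₀ T δ ≤ 1 := min_le_right _ _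

theorem closeT0_sL {K₁ C₀ T δ : ℝ} (hC₀ : 0 < C₀) :
    4 * C₀ * sL (2 * closeT0 K₁ C₀ T δ) ≤ Real.exp (-closeY K₁ T δ) / 2 := by
  set ν := Real.exp (-closeY K₁ T δ) with hν
  have hν0 : 0 < ν := Real.exp_pos _
  set t₀ := closeT0 K₁ C₀ T δ with ht₀
  have h1 : sL (2 * t₀) ≤ Real.sqrt (2 * t₀) / 16 := by
    unfold sL
    have : min (2 * t₀) 1 ≤ 2 * t₀ := min_le_left _ _
    have := Real.sqrt_le_sqrt this
    linarith
  have h2 : 2 * t₀ ≤ (2 * ν / C₀) ^ 2 := by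
    have : t₀ ≤ (2 * ν / C₀) ^ 2 / 2 := min_le_left _ _
    linarith
  have h3 : Real.sqrt (2 * t₀) ≤ 2 * ν / C₀ := by
    have := Real.sqrt_le_sqrt h2
    rwa [Real.sqrt_sq (by positivity)] at this
  have h4 : sL (2 * t₀) ≤ (2 * ν / C₀) / 16 := by linarith
  calc 4 * C₀ * sL (2 * t₀) ≤ 4 * C₀ * ((2 * ν / C₀) / 16) :=
        mul_le_mul_of_nonneg_left h4 (by positivity)
    _ = ν / 2 := by field_simp; ring

/-- The initial value of the mean square distance. -/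
theorem close_init (hT : G.IsTree) (hdeg : ∀ v, G.degree v = d) (hd : 3 ≤ d)
    {γ : ℕ → ℕ → unitInterval → ℝ}
    (hn : ∀ j, IsNoise (uniformField V) (fun (k : ℕ) (v : V) (u : V → unitInterval) => γ j k (u v)))
    {θ₁ θ₂ C₀ t₀ ν : ℝ} (hg₁ : GoodT d θ₁) (hg₂ : GoodT d θ₂) (hC₀ : 0 < C₀)
    (hsL₀ : 4 * C₀ * sL (2 * t₀) ≤ ν / 2) {ℓ j k : ℕ} (hk2 : (k : ℝ) * (1 / 2 : ℝ) ^ j ≤ 2 * t₀) {a b : V}
    (h1 : ∫ u, masterChain G θ₁ γ ℓ j k u a b ^ 2 ∂(uniformField V)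
      ≤ C₀ * sL ((k : ℝ) * (1 / 2 : ℝ) ^ j) + ν / 8)
    (h2 : ∫ u, masterChain G θ₂ γ ℓ j k u a b ^ 2 ∂(uniformField V)
      ≤ C₀ * sL ((k : ℝ) * (1 / 2 : ℝ) ^ j) + ν / 8) :
    NN G θ₁ θ₂ γ ℓ j k a b ≤ ν := by
  have hmem₁ := (masterChain_eqField (GoodT.treeParams hT hdeg hd hg₁) hn ℓ j k).memLp a b
  have hmem₂ := (masterChain_eqField (GoodT.treeParams hT hdeg hd hg₂) hn ℓ j k).memLp a b
  have h3 : NN G θ₁ θ₂ γ ℓ j k a b ≤ _ := close_sub_sq_le hmem₁ hmem₂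
  have hsLm : sL ((k : ℝ) * (1 / 2 : ℝ) ^ j) ≤ sL (2 * t₀) := close_sL_mono hk2
  have h4 : C₀ * sL ((k : ℝ) * (1 / 2 : ℝ) ^ j) ≤ C₀ * sL (2 * t₀) :=
    mul_le_mul_of_nonneg_left hsLm hC₀.le
  linarith

/-- Numerics of the ceiling of the small time. -/
theorem close_ceil {T : ℕ} (hT1 : 1 ≤ T) {t₀ : ℝ} (ht₀0 : 0 < t₀) (ht₀1 : t₀ ≤ 1) {j : ℕ}
    (hεt₀ : (1 / 2 : ℝ) ^ j ≤ t₀) :
    t₀ ≤ ((⌈t₀ * (2 : ℝ) ^ j⌉₊ : ℕ) : ℝ) * (1 / 2 : ℝ) ^ j ∧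
    ((⌈t₀ * (2 : ℝ) ^ j⌉₊ : ℕ) : ℝ) * (1 / 2 : ℝ) ^ j ≤ 2 * t₀ ∧
    ((⌈t₀ * (2 : ℝ) ^ j⌉₊ : ℕ) : ℝ) * (1 / 2 : ℝ) ^ j ≤ T := by
  have hT1r : (1 : ℝ) ≤ T := by exact_mod_cast hT1
  have hε0 : (0 : ℝ) < (1 / 2 : ℝ) ^ j := by positivity
  have hε2 : (1 / 2 : ℝ) ^ j * (2 : ℝ) ^ j = 1 := by
    rw [← mul_pow]; norm_num
  have hp0 : (0 : ℝ) < (2 : ℝ) ^ j := by positivity
  refine ⟨?_, ?_, ?_⟩
  · have h1 : t₀ * (2 : ℝ) ^ j ≤ ⌈t₀ * (2 : ℝ) ^ j⌉₊ := Nat.le_ceil _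
    have h2 := mul_le_mul_of_nonneg_right h1 hε0.le
    calc t₀ = t₀ * (2 : ℝ) ^ j * (1 / 2 : ℝ) ^ j := by
          rw [mul_assoc, mul_comm ((2 : ℝ) ^ j), hε2, mul_one]
      _ ≤ _ := h2
  · have h0 : 0 ≤ t₀ * (2 : ℝ) ^ j := by positivity
    have h1 : ((⌈t₀ * (2 : ℝ) ^ j⌉₊ : ℕ) : ℝ) < t₀ * (2 : ℝ) ^ j + 1 := Nat.ceil_lt_add_one h0
    have h2 := mul_le_mul_of_nonneg_right h1.le hε0.le
    have h3 : (t₀ * (2 : ℝ) ^ j + 1) * (1 / 2 : ℝ) ^ j = t₀ + (1 / 2 : ℝ) ^ j := by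
      rw [add_mul, mul_assoc, mul_comm ((2 : ℝ) ^ j), hε2]; ring
    rw [h3] at h2
    linarith
  · have h1 : t₀ * (2 : ℝ) ^ j ≤ ((T * 2 ^ j : ℕ) : ℝ) := by
      push_cast
      exact mul_le_mul_of_nonneg_right (by linarith) hp0.le
    have h2 : ⌈t₀ * (2 : ℝ) ^ j⌉₊ ≤ T * 2 ^ j := Nat.ceil_le.mpr h1
    have h3 : ((⌈t₀ * (2 : ℝ) ^ j⌉₊ : ℕ) : ℝ) ≤ (T : ℝ) * (2 : ℝ) ^ j := by exact_mod_cast h2
    have h4 := mul_le_mul_of_nonneg_right h3 hε0.le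
    rw [mul_assoc, mul_comm ((2 : ℝ) ^ j), hε2, mul_one] at h4
    exact h4

/-- Numerics of the error budget. -/
theorem close_budget {N N' ε Kt e C CM M θ ν : ℝ} (hε0 : 0 ≤ ε) (hC : C ≤ CM)
    (hM : CM * M ≤ ν / 3) (hθ : CM * θ ≤ ν / 3) (hM0 : 0 ≤ M) (hθ0 : 0 ≤ θ)
    (h : N' ≤ N + ε * (Kt + e + C * (M + θ) + ν / 3)) :
    N' ≤ N + ε * (Kt + e + ν) := by
  have h1 : C * (M + θ) ≤ CM * (M + θ) :=
    mul_le_mul_of_nonneg_right hC (by linarith)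
  have h2 : CM * (M + θ) = CM * M + CM * θ := by ring
  have h3 : Kt + e + C * (M + θ) + ν / 3 ≤ Kt + e + ν := by linarith
  have h4 := mul_le_mul_of_nonneg_left h3 hε0
  linarith

/-- The closing for a fixed pair of parameters. -/
theorem close_pair (hT : G.IsTree) (hdeg : ∀ v, G.degree v = d) (hd : 3 ≤ d)
    {γ : ℕ → ℕ → unitInterval → ℝ}
    (hn : ∀ j, IsNoise (uniformField V) (fun (k : ℕ) (v : V) (u : V → unitInterval) => γ j k (u v)))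
    {θ₁ θ₂ : ℝ} (hg₁ : GoodT d θ₁) (hg₂ : GoodT d θ₂)
    {T : ℕ} (hT1 : 1 ≤ T) {K₁ δ C₀ t₀ CM δμ ν : ℝ} (hK₁ : 1 ≤ K₁) (hδ : 0 < δ) (hC₀ : 0 < C₀)
    (hν : ν = Real.exp (-closeY K₁ T δ))
    (ht₀0 : 0 < t₀) (ht₀1 : t₀ ≤ 1) (hsL₀ : 4 * C₀ * sL (2 * t₀) ≤ ν / 2)
    {a b : V} {Lmax : ℕ} (hLmax : closeY K₁ T δ + 2 ≤ Lmax)
    {Cf : ℕ → ℝ} (hCMle : ∀ L, L ≤ Lmax → Cf L ≤ CM) (hCMpos : 0 < CM)
    (hδμsq : CM * δμ ^ 2 = ν / 3)
    (hCMθ : CM * (θ₁ - θ₂) ^ 2 ≤ ν / 3)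
    (hμ : ∃ ℓ₀ j₀ : ℕ, ∀ ℓ j, ℓ₀ ≤ ℓ → j₀ ≤ j → ∀ k : ℕ,
        t₀ ≤ (k : ℝ) * (1 / 2 : ℝ) ^ j → (k : ℝ) * (1 / 2 : ℝ) ^ j ≤ T →
          |MM G θ₁ θ₂ γ ℓ j k a b| ≤ δμ)
    (hap₁ : ∃ ℓ₀ j₀ : ℕ, ∀ ℓ j, ℓ₀ ≤ ℓ → j₀ ≤ j → ∀ k : ℕ,
        t₀ ≤ (k : ℝ) * (1 / 2 : ℝ) ^ j → (k : ℝ) * (1 / 2 : ℝ) ^ j ≤ T →
          ∫ u, masterChain G θ₁ γ ℓ j k u a b ^ 2 ∂(uniformField V)
            ≤ C₀ * sL ((k : ℝ) * (1 / 2 : ℝ) ^ j) + ν / 8)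
    (hap₂ : ∃ ℓ₀ j₀ : ℕ, ∀ ℓ j, ℓ₀ ≤ ℓ → j₀ ≤ j → ∀ k : ℕ,
        t₀ ≤ (k : ℝ) * (1 / 2 : ℝ) ^ j → (k : ℝ) * (1 / 2 : ℝ) ^ j ≤ T →
          ∫ u, masterChain G θ₂ γ ℓ j k u a b ^ 2 ∂(uniformField V)
            ≤ C₀ * sL ((k : ℝ) * (1 / 2 : ℝ) ^ j) + ν / 8)
    (hstep : ∀ L : ℕ, 1 ≤ L → ∃ ℓ₀ j₀ : ℕ, ∀ ℓ j, ℓ₀ ≤ ℓ → j₀ ≤ j → ∀ k : ℕ,
      t₀ ≤ (k : ℝ) * (1 / 2 : ℝ) ^ j → (k : ℝ) * (1 / 2 : ℝ) ^ j ≤ T →
        NN G θ₁ θ₂ γ ℓ j (k + 1) a b ≤ NN G θ₁ θ₂ γ ℓ j k a b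
        + (1 / 2 : ℝ) ^ j * (
          K₁ * L * wF ((k : ℝ) * (1 / 2 : ℝ) ^ j) * NN G θ₁ θ₂ γ ℓ j k a b
          + K₁ * Real.exp (-(L : ℝ))
          + Cf L * (MM G θ₁ θ₂ γ ℓ j k a b ^ 2 + (θ₁ - θ₂) ^ 2) + ν / 3)) :
    ∃ ℓ₀ j₀ : ℕ, ∀ ℓ j, ℓ₀ ≤ ℓ → j₀ ≤ j → NN G θ₁ θ₂ γ ℓ j (T * 2 ^ j) a b ≤ δ := by
  obtain ⟨ℓa, ja, hμ⟩ := hμ
  obtain ⟨ℓb, jb, hap₁⟩ := hap₁
  obtain ⟨ℓc, jc, hap₂⟩ := hap₂
  have hstepL : ∀ L : ℕ, ∃ ℓ₀ j₀ : ℕ, 1 ≤ L → ∀ ℓ j, ℓ₀ ≤ ℓ → j₀ ≤ j → ∀ k : ℕ,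
      t₀ ≤ (k : ℝ) * (1 / 2 : ℝ) ^ j → (k : ℝ) * (1 / 2 : ℝ) ^ j ≤ T →
        NN G θ₁ θ₂ γ ℓ j (k + 1) a b ≤ NN G θ₁ θ₂ γ ℓ j k a b
        + (1 / 2 : ℝ) ^ j * (
          K₁ * L * wF ((k : ℝ) * (1 / 2 : ℝ) ^ j) * NN G θ₁ θ₂ γ ℓ j k a b
          + K₁ * Real.exp (-(L : ℝ))
          + Cf L * (MM G θ₁ θ₂ γ ℓ j k a b ^ 2 + (θ₁ - θ₂) ^ 2) + ν / 3) := by
    intro L
    by_cases hL : 1 ≤ L
    · obtain ⟨ℓ₀, j₀, h⟩ := hstep L hL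
      exact ⟨ℓ₀, j₀, fun _ => h⟩
    · exact ⟨0, 0, fun h => absurd h hL⟩
  choose ℓf jf hstepf using hstepL
  have hw1 := close_one_le_wF t₀
  have hc0 : 0 < (1 / 2 : ℝ) / (K₁ * wF t₀) := by
    have : 0 < K₁ * wF t₀ := by positivity
    positivity
  obtain ⟨je, hje⟩ := exists_pow_lt_of_lt_one hc0 (by norm_num : (1 / 2 : ℝ) < 1)
  obtain ⟨jf', hjf'⟩ := exists_pow_lt_of_lt_one ht₀0 (by norm_num : (1 / 2 : ℝ) < 1)
  refine ⟨ℓa + ℓb + ℓc + (Finset.range (Lmax + 1)).sup ℓf,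
    ja + jb + jc + (Finset.range (Lmax + 1)).sup jf + je + jf', ?_⟩
  intro ℓ j hℓ hj
  have hℓa : ℓa ≤ ℓ := by omega
  have hℓb : ℓb ≤ ℓ := by omega
  have hℓc : ℓc ≤ ℓ := by omega
  have hℓd : (Finset.range (Lmax + 1)).sup ℓf ≤ ℓ := by omega
  have hja : ja ≤ j := by omega
  have hjb : jb ≤ j := by omega
  have hjc : jc ≤ j := by omega
  have hjd : (Finset.range (Lmax + 1)).sup jf ≤ j := by omega
  have hje' : je ≤ j := by omega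
  have hjf'' : jf' ≤ j := by omega
  have hpow : ∀ m, m ≤ j → (1 / 2 : ℝ) ^ j ≤ (1 / 2 : ℝ) ^ m := fun m hm =>
    pow_le_pow_of_le_one (by norm_num) (by norm_num) hm
  have hεt₀ : (1 / 2 : ℝ) ^ j ≤ t₀ := le_trans (hpow _ hjf'') hjf'.le
  have hεc : (1 / 2 : ℝ) ^ j * (K₁ * wF t₀) ≤ 1 / 2 := by
    have h1 : (1 / 2 : ℝ) ^ j ≤ (1 / 2 : ℝ) / (K₁ * wF t₀) := le_trans (hpow _ hje') hje.le
    have h2 : 0 < K₁ * wF t₀ := by positivity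
    rwa [le_div_iff₀ h2] at h1
  have hε0 : (0 : ℝ) < (1 / 2 : ℝ) ^ j := by positivity
  obtain ⟨hk₀1, hk₀2, hk₀T⟩ := close_ceil hT1 ht₀0 ht₀1 hεt₀
  have hinit : NN G θ₁ θ₂ γ ℓ j ⌈t₀ * (2 : ℝ) ^ j⌉₊ a b ≤ ν :=
    close_init hT hdeg hd hn hg₁ hg₂ hC₀ hsL₀ hk₀2
      (hap₁ ℓ j hℓb hjb _ hk₀1 hk₀T) (hap₂ ℓ j hℓc hjc _ hk₀1 hk₀T)
  rw [hν] at hinit
  refine close_run hT1 hK₁ hδ ht₀0 ht₀1 hεt₀ hεc (N := fun k => NN G θ₁ θ₂ γ ℓ j k a b)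
    (fun k => integral_nonneg fun u => sq_nonneg _) hLmax hinit ?_
  intro k hkt hkT L hL1 hL2
  have hLrange : L ∈ Finset.range (Lmax + 1) := Finset.mem_range.mpr (by omega)
  have hℓL : ℓf L ≤ ℓ := le_trans (Finset.le_sup (f := ℓf) hLrange) hℓd
  have hjL : jf L ≤ j := le_trans (Finset.le_sup (f := jf) hLrange) hjd
  have h := hstepf L hL1 ℓ j hℓL hjL k hkt hkT
  have hμk := hμ ℓ j hℓa hja k hkt hkT
  have hMM : CM * MM G θ₁ θ₂ γ ℓ j k a b ^ 2 ≤ ν / 3 := by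
    rw [← hδμsq]
    apply mul_le_mul_of_nonneg_left _ hCMpos.le
    rw [← sq_abs (MM G θ₁ θ₂ γ ℓ j k a b)]
    exact pow_le_pow_left₀ (abs_nonneg _) hμk 2
  have hfin := close_budget hε0.le (hCMle L (by omega)) hMM hCMθ (sq_nonneg _) (sq_nonneg _) h
  rw [hν] at hfin
  exact hfin

/-- **Main statement of the module.** -/
theorem endpoint_cauchy (hT : G.IsTree) (hdeg : ∀ v, G.degree v = d) (hd : 3 ≤ d)
    {γ : ℕ → ℕ → unitInterval → ℝ}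
    (hn : ∀ j, IsNoise (uniformField V) (fun (k : ℕ) (v : V) (u : V → unitInterval) => γ j k (u v)))
    (θs : ℕ → ℝ) (hθ : ∀ n, GoodT d (θs n))
    (hlim : Tendsto (fun n => θs n ^ 2 * ((d : ℝ) - 1)) atTop (𝓝 1))
    (hcau : CauchySeq θs) :
    ∃ φ : ℕ → ℕ, StrictMono φ ∧ ∀ (T : ℕ) (δ : ℝ), 1 ≤ T → 0 < δ → ∀ a b, G.Adj a b →
      ∃ I : ℕ, ∀ n n', I ≤ n → I ≤ n' → ∃ ℓ₀ j₀ : ℕ, ∀ ℓ j, ℓ₀ ≤ ℓ → j₀ ≤ j →
        NN G (θs (φ n)) (θs (φ n')) γ ℓ j (T * 2 ^ j) a b ≤ δ := by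
  obtain ⟨φ, hφ, hsel⟩ := mu_select hT hdeg hd hn θs hθ hlim
  refine ⟨φ, hφ, ?_⟩
  intro T δ hT1 hδ a b hab
  have hT1r : (1 : ℝ) ≤ T := by exact_mod_cast hT1
  have hTr : (0 : ℝ) < T := by linarith
  -- the constants that do not depend on `t₀`
  obtain ⟨K₁, hK₁, hone⟩ := one_step_main hT hdeg hd (T : ℝ) hTr
  obtain ⟨C₀, hC₀, hapr⟩ := apriori_chain hT hdeg hd (T : ℝ) hTr
  obtain ⟨ν, hν⟩ : ∃ ν : ℝ, ν = Real.exp (-closeY K₁ T δ) := ⟨_, rfl⟩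
  have hν0 : 0 < ν := hν ▸ Real.exp_pos _
  obtain ⟨t₀, ht₀⟩ : ∃ t₀ : ℝ, t₀ = closeT0 K₁ C₀ T δ := ⟨_, rfl⟩
  have ht₀0 : 0 < t₀ := ht₀ ▸ closeT0_pos hC₀
  have ht₀1 : t₀ ≤ 1 := ht₀ ▸ closeT0_le
  have hsLt₀ : 0 < sL t₀ := sL_pos ht₀0
  have hsL₀ : 4 * C₀ * sL (2 * t₀) ≤ ν / 2 := by
    rw [hν, ht₀]; exact closeT0_sL hC₀
  -- the levels
  obtain ⟨Lmax, hLmax⟩ : ∃ Lmax : ℕ, closeY K₁ T δ + 2 ≤ Lmax := exists_nat_ge _
  have hone' := hone t₀ ht₀0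
  have hC' : ∀ L : ℕ, ∃ C' : ℝ, 0 < C' ∧ (1 ≤ L → ∀ θ₁ θ₂ : ℝ, GoodT d θ₁ → GoodT d θ₂ →
      1 - θ₁ ^ 2 * ((d : ℝ) - 1) ≤ sL t₀ → 1 - θ₂ ^ 2 * ((d : ℝ) - 1) ≤ sL t₀ →
      |θ₁ - θ₂| ≤ dThetaMax d → ∀ δ : ℝ, 0 < δ → ∃ ℓ₀ j₀ : ℕ, ∀ ℓ j, ℓ₀ ≤ ℓ → j₀ ≤ j → ∀ k : ℕ,
        t₀ ≤ (k : ℝ) * (1 / 2 : ℝ) ^ j → (k : ℝ) * (1 / 2 : ℝ) ^ j ≤ T → ∀ a b, G.Adj a b →
          NN G θ₁ θ₂ γ ℓ j (k + 1) a b ≤ NN G θ₁ θ₂ γ ℓ j k a b + (1 / 2 : ℝ) ^ j * (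
            K₁ * L * wF ((k : ℝ) * (1 / 2 : ℝ) ^ j) * NN G θ₁ θ₂ γ ℓ j k a b
            + K₁ * Real.exp (-(L : ℝ))
            + C' * (MM G θ₁ θ₂ γ ℓ j k a b ^ 2 + (θ₁ - θ₂) ^ 2) + δ)) := by
    intro L
    by_cases hL : 1 ≤ L
    · obtain ⟨C', hC'0, hC'⟩ := hone' L hL
      exact ⟨C', hC'0, fun _ θ₁ θ₂ h1 h2 h3 h4 h5 δ hδ => hC' θ₁ θ₂ h1 h2 h3 h4 h5 hn δ hδ⟩
    · exact ⟨1, one_pos, fun h => absurd h hL⟩
  choose Cf hCf0 hCf using hC'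
  obtain ⟨CM, hCMdef⟩ : ∃ CM : ℝ, CM = ∑ L ∈ Finset.range (Lmax + 1), Cf L := ⟨_, rfl⟩
  have hCMle : ∀ L, L ≤ Lmax → Cf L ≤ CM := by
    intro L hL
    rw [hCMdef]
    exact Finset.single_le_sum (f := Cf) (fun i _ => (hCf0 i).le)
      (Finset.mem_range.mpr (by omega))
  have hCMpos : 0 < CM :=
    lt_of_lt_of_le (hCf0 0) (hCMle 0 (Nat.zero_le _))
  obtain ⟨δμ, hδμ⟩ : ∃ δμ : ℝ, δμ = Real.sqrt (ν / (3 * CM)) := ⟨_, rfl⟩
  have hδμ0 : 0 < δμ := by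
    rw [hδμ]; exact Real.sqrt_pos.mpr (by positivity)
  have hδμsq : CM * δμ ^ 2 = ν / 3 := by
    rw [hδμ, Real.sq_sqrt (by positivity)]
    field_simp
  -- the index `I`
  have hgap : ∀ᶠ n in atTop, 1 - sL t₀ < θs n ^ 2 * ((d : ℝ) - 1) :=
    hlim.eventually (lt_mem_nhds (by linarith))
  obtain ⟨I₁, hI₁⟩ := eventually_atTop.mp hgap
  have hdTh : 0 < dThetaMax d := by
    unfold dThetaMax lipTheta
    have : 0 ≤ 1 / thetaLow d := by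
      unfold thetaLow
      positivity
    positivity
  obtain ⟨I₂, hI₂⟩ := Metric.cauchySeq_iff.mp hcau (min (dThetaMax d) δμ) (lt_min hdTh hδμ0)
  obtain ⟨I₃, hI₃⟩ := hsel t₀ (T : ℝ) δμ ht₀0 hTr hδμ0 a b hab
  refine ⟨max I₁ (max I₂ I₃), ?_⟩
  intro n n' hnI hn'I
  have hφn : n ≤ φ n := hφ.id_le n
  have hφn' : n' ≤ φ n' := hφ.id_le n'
  have h1n : I₁ ≤ n := le_trans (le_max_left _ _) hnI
  have h1n' : I₁ ≤ n' := le_trans (le_max_left _ _) hn'I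
  have h2n : I₂ ≤ n := le_trans (le_trans (le_max_left _ _) (le_max_right _ _)) hnI
  have h2n' : I₂ ≤ n' := le_trans (le_trans (le_max_left _ _) (le_max_right _ _)) hn'I
  have h3n : I₃ ≤ n := le_trans (le_trans (le_max_right _ _) (le_max_right _ _)) hnI
  have h3n' : I₃ ≤ n' := le_trans (le_trans (le_max_right _ _) (le_max_right _ _)) hn'I
  have hg₁ : GoodT d (θs (φ n)) := hθ _
  have hg₂ : GoodT d (θs (φ n')) := hθ _
  have hgap₁ : 1 - θs (φ n) ^ 2 * ((d : ℝ) - 1) ≤ sL t₀ := by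
    have := hI₁ (φ n) (le_trans h1n hφn)
    linarith
  have hgap₂ : 1 - θs (φ n') ^ 2 * ((d : ℝ) - 1) ≤ sL t₀ := by
    have := hI₁ (φ n') (le_trans h1n' hφn')
    linarith
  have hdist : |θs (φ n) - θs (φ n')| < min (dThetaMax d) δμ := by
    have := hI₂ (φ n) (le_trans h2n hφn) (φ n') (le_trans h2n' hφn')
    rwa [Real.dist_eq] at this
  have hdθ : |θs (φ n) - θs (φ n')| ≤ dThetaMax d := le_trans hdist.le (min_le_left _ _)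
  have hdθ2 : |θs (φ n) - θs (φ n')| ≤ δμ := le_trans hdist.le (min_le_right _ _)
  have hCMθ : CM * (θs (φ n) - θs (φ n')) ^ 2 ≤ ν / 3 := by
    rw [← hδμsq]
    apply mul_le_mul_of_nonneg_left _ hCMpos.le
    rw [← sq_abs (θs (φ n) - θs (φ n'))]
    exact pow_le_pow_left₀ (abs_nonneg _) hdθ2 2
  -- the thresholds in `ℓ, j`
  obtain ⟨ℓb, jb, hap₁⟩ := hapr t₀ ht₀0 (θs (φ n)) hg₁ hgap₁ hn (ν / 8) (by positivity)
  obtain ⟨ℓc, jc, hap₂⟩ := hapr t₀ ht₀0 (θs (φ n')) hg₂ hgap₂ hn (ν / 8) (by positivity)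
  exact close_pair hT hdeg hd hn hg₁ hg₂ hT1 hK₁ hδ hC₀ hν ht₀0 ht₀1 hsL₀ hLmax hCMle hCMpos hδμsq
    hCMθ (hI₃ n n' h3n h3n')
    ⟨ℓb, jb, fun ℓ j hℓ hj k hk1 hk2 => hap₁ ℓ j hℓ hj k hk1 hk2 a b hab⟩
    ⟨ℓc, jc, fun ℓ j hℓ hj k hk1 hk2 => hap₂ ℓ j hℓ hj k hk1 hk2 a b hab⟩
    (fun L hL => by
      obtain ⟨ℓ₀, j₀, h⟩ := hCf L hL _ _ hg₁ hg₂ hgap₁ hgap₂ hdθ (ν / 3) (by positivity)
      exact ⟨ℓ₀, j₀, fun ℓ j hℓ hj k hk1 hk2 => h ℓ j hℓ hj k hk1 hk2 a b hab⟩)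

end

end Vale.Agent.Lib.P161
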