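import Vale.Agent.Lib.P161.Basic
import Vale.Agent.Lib.P161.Ising
import Vale.Agent.Lib.P161.Exact

/-!
P161 endpoint: shared definitions.  See notes/P161_endpoint_blueprint.md.
-/

open MeasureTheory ProbabilityTheory Finset

namespace Vale.Agent.Lib.P161

noncomputable section

variable {V : Type*} [DecidableEq V]

/-- `φ = (h' / θ)²`, written without dividing by `θ`. -/
def phiF (θ x : ℝ) : ℝ := (1 / (1 + (1 - θ ^ 2) * Real.sinh x ^ 2)) ^ 2

/-- The explicit time scale `s(t) = √(min t 1) / 16`. -/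
def sL (t : ℝ) : ℝ := Real.sqrt (min t 1) / 16

/-- Cascade along the tree behind the edge `(a, c)`: `Z₀ = 1`,
`Z_{n+1}(a, c) = (1/bb) ∑_{z ∈ N a \ c} w(z, a) Z_n(z, a)`. -/
def casc (N : V → Finset V) (bb : ℝ) (w : V → V → ℝ) : ℕ → V → V → ℝ
  | 0, _, _ => 1
  | n + 1, a, c => (1 / bb) * ∑ z ∈ (N a).erase c, w z a * casc N bb w n z a

/-- The threshold sequence of the cascade tail. -/
def epsN (α : ℝ) (n : ℕ) : ℝ := 3 * α ^ (n / 2 - 1)

/-- The tail sequence of the cascade. -/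
def tauN (n : ℕ) : ℝ := Real.exp (-(3 / 2 : ℝ) ^ (n / 2))

/-- The exact observation field at time `t` on the finite set `S`, extended by `0`. -/
def exField (S : Finset V) (t : ℝ) (σ : ↥S → Bool) (z : ↥S → ℝ) (v : V) : ℝ :=
  if h : v ∈ S then t * spin (σ ⟨v, h⟩) + Real.sqrt t * z ⟨v, h⟩ else 0

/-- Expectation of a functional `F` of the exact messages in the exact model on the ball
`B(o, R)` at time `t`: Ising spins `σ`, fields `t σ + √t z`, `z` standard Gaussian. -/
def exactE (G : SimpleGraph V) [G.LocallyFinite] (θ : ℝ) (o : V) (R : ℕ) (t : ℝ)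
    (F : (V → V → ℝ) → ℝ) : ℝ :=
  ∑ σ : ↥(ballF G o R) → Bool, isingW G θ (ballF G o R) σ *
    ∫ z, F (msg θ (nbS G (ballF G o R)) (exField (ballF G o R) t σ z) (2 * R + 1))
      ∂(gamm ↥(ballF G o R))

/-- `F` is a bounded functional, Lipschitz in the values on the finite edge set `E`. -/
structure LipCyl (E : Finset (V × V)) (Λ : ℝ) (F : (V → V → ℝ) → ℝ) : Prop where
  bdd : ∀ η, |F η| ≤ 1
  lip : ∀ η η', |F η - F η'| ≤ Λ * ∑ e ∈ E, |η e.1 e.2 - η' e.1 e.2|

/-! ### The message laws -/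

/-- The law `N(t, t)` of a gauged observation. -/
def obsL (t : ℝ) : Measure ℝ := gaussianReal t t.toNNReal

/-- The law of a gauged edge sign: `true` with probability `(1 + θ) / 2`. -/
def berL (θ : ℝ) : Measure Bool :=
  ENNReal.ofReal ((1 + θ) / 2) • Measure.dirac true
    + ENNReal.ofReal ((1 - θ) / 2) • Measure.dirac false

/-- The law of `h(s x)`, `s ~ berL θ`, `x ~ ν` independent. -/
def xiL (θ : ℝ) (ν : Measure ℝ) : Measure ℝ :=
  ((berL θ).prod ν).map (fun w => hm θ (spin w.1 * w.2))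

/-- The law of `y + ∑_{i<m} h(s_i x_i)`. -/
def sideL (t θ : ℝ) (ν : Measure ℝ) : ℕ → Measure ℝ
  | 0 => obsL t
  | m + 1 => Measure.conv (sideL t θ ν m) (xiL θ ν)

/-- The law of the gauged message at depth `R` of a rooted `b`-ary tree. -/
def nuL (t θ : ℝ) (b : ℕ) : ℕ → Measure ℝ
  | 0 => obsL t
  | R + 1 => sideL t θ (nuL t θ b R) b

/-- One step of the joint recursion of message and cascade. -/
def stepMap (θ : ℝ) (p b : ℕ) (w : ℝ × (Fin b → Bool × ℝ × ℝ)) : ℝ × ℝ :=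
  (w.1 + ∑ i, hm θ (spin (w.2 i).1 * (w.2 i).2.1),
    (1 / (b : ℝ)) * ∑ i, phiF θ (w.2 i).2.1 ^ p * (w.2 i).2.2)

/-- The law after one step of the joint recursion. -/
def stepK (t θ : ℝ) (p b : ℕ) (κ : Measure (ℝ × ℝ)) : Measure (ℝ × ℝ) :=
  ((obsL t).prod (Measure.pi fun _ : Fin b => (berL θ).prod κ)).map (stepMap θ p b)

/-- The joint law of (message at depth `R₀ + n`, cascade of depth `n`). -/
def kapL (t θ : ℝ) (p b R₀ : ℕ) : ℕ → Measure (ℝ × ℝ)
  | 0 => (nuL t θ b R₀).prod (Measure.dirac 1)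
  | n + 1 => stepK t θ p b (kapL t θ p b R₀ n)

end

end Vale.Agent.Lib.P161
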