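import Vale.Agent.Lib.P161.End.PackChain

/-!
P161 endpoint, module DynA: one step of the difference of two master chains at different
parameters, driven by the same noise.
See notes/P161_endpoint_blueprint.md, section 5.
-/

open MeasureTheory ProbabilityTheory Finset

set_option linter.unusedSectionVars false

namespace Vale.Agent.Lib.P161

noncomputable section

variable {V : Type*} [DecidableEq V] {G : SimpleGraph V} [G.LocallyFinite] {d : ℕ}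

private theorem dyn_treeParams (hT : G.IsTree) (hdeg : ∀ v, G.degree v = d) (hd : 3 ≤ d) {θ : ℝ}
    (h : GoodT d θ) : TreeParams G d θ := by
  obtain ⟨h0, -, h2⟩ := h
  have hd' : (2 : ℝ) ≤ (d : ℝ) - 1 := by
    have : (3 : ℝ) ≤ d := by exact_mod_cast hd
    linarith
  refine ⟨hT, hdeg, by omega, h0.le, ?_, h2⟩
  nlinarith [sq_nonneg θ]

private theorem dyn_sq_le (hd : 3 ≤ d) {θ : ℝ} (h : GoodT d θ) : θ ^ 2 ≤ 1 / 2 := by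
  obtain ⟨h0, -, h2⟩ := h
  have hd' : (2 : ℝ) ≤ (d : ℝ) - 1 := by
    have : (3 : ℝ) ≤ d := by exact_mod_cast hd
    linarith
  nlinarith [sq_nonneg θ]

private theorem dyn_subN : SubN G (nbV G) := fun a c hc => by
  simpa [nbV] using hc

/-- Scalar core of `dyn_pointwise`. -/
private theorem dyn_scalar {D Db e t₁ t₂ V₁ V₂ Pn : ℝ}
    (ht : |t₁ - t₂| ≤ |D| + |Db| + |e|) (ht2 : |t₂| ≤ 1) (hV₁ : 0 ≤ V₁) (hV₂ : 0 ≤ V₂)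
    (hP : 0 ≤ Pn) (hS : (V₁ - V₂) ^ 2 ≤ Pn * (2 * V₁ + 2 * V₂)) :
    2 * D * (t₁ * V₁ - t₂ * V₂)
      ≤ Pn + 6 * D ^ 2 * V₁ + 2 * D ^ 2 * V₂ + Db ^ 2 * V₁ + e ^ 2 * V₁ := by
  have e1 : t₁ * V₁ - t₂ * V₂ = (t₁ - t₂) * V₁ + t₂ * (V₁ - V₂) := by ring
  have h1 : 2 * D * ((t₁ - t₂) * V₁) ≤ (4 * D ^ 2 + Db ^ 2 + e ^ 2) * V₁ := by
    have a1 : 2 * D * (t₁ - t₂) ≤ 2 * |D| * (|D| + |Db| + |e|) := by
      calc 2 * D * (t₁ - t₂) ≤ |2 * D * (t₁ - t₂)| := le_abs_self _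
        _ = 2 * |D| * |t₁ - t₂| := by rw [abs_mul, abs_mul]; simp
        _ ≤ _ := mul_le_mul_of_nonneg_left ht (by positivity)
    have a2 : 2 * |D| * (|D| + |Db| + |e|) ≤ 4 * D ^ 2 + Db ^ 2 + e ^ 2 := by
      have s1 := sq_abs D
      have s2 := sq_abs Db
      have s3 := sq_abs e
      nlinarith [sq_nonneg (|D| - |Db|), sq_nonneg (|D| - |e|)]
    have := mul_le_mul_of_nonneg_right (a1.trans a2) hV₁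
    calc 2 * D * ((t₁ - t₂) * V₁) = 2 * D * (t₁ - t₂) * V₁ := by ring
      _ ≤ _ := this
  have h2 : 2 * D * (t₂ * (V₁ - V₂)) ≤ Pn + D ^ 2 * (2 * V₁ + 2 * V₂) := by
    have hS0 : 0 ≤ 2 * V₁ + 2 * V₂ := by positivity
    set S := 2 * V₁ + 2 * V₂
    set x := t₂ * (V₁ - V₂)
    have hx : x ^ 2 ≤ Pn * S := by
      have : x ^ 2 = t₂ ^ 2 * (V₁ - V₂) ^ 2 := by simp only [x]; ring
      rw [this]
      have ht3 : t₂ ^ 2 ≤ 1 := by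
        have := sq_le_sq.2 (show |t₂| ≤ |(1 : ℝ)| by simpa using ht2)
        simpa using this
      have h0 : 0 ≤ (V₁ - V₂) ^ 2 := sq_nonneg _
      nlinarith
    have hR : 0 ≤ Pn + D ^ 2 * S := by positivity
    have key : (2 * D * x) ^ 2 ≤ (Pn + D ^ 2 * S) ^ 2 := by
      have : (2 * D * x) ^ 2 = 4 * D ^ 2 * x ^ 2 := by ring
      rw [this]
      have h3 : 4 * D ^ 2 * x ^ 2 ≤ 4 * D ^ 2 * (Pn * S) :=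
        mul_le_mul_of_nonneg_left hx (by positivity)
      nlinarith [sq_nonneg (Pn - D ^ 2 * S)]
    exact (abs_le_of_sq_le_sq' key hR).2
  rw [e1, mul_add]
  nlinarith

/-- The pointwise inequality for the cross term. With `D = η₁ a b - η₂ a b`,
`D̄ = η₁ b a - η₂ b a`, `Δ` the difference of the drifts, `P` the squared norm of the difference of
the coefficient vectors, `Vᵢ` the squared norms:
`2 D Δ ≤ P + 6 D² V₁ + 2 D² V₂ + D̄² V₁ + e² V₁`, with `e = 2 |θ₁ - θ₂|`. -/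
theorem dyn_pointwise (hT : G.IsTree) (hdeg : ∀ v, G.degree v = d) (hd : 3 ≤ d) {θ₁ θ₂ : ℝ}
    (hg₁ : GoodT d θ₁) (hg₂ : GoodT d θ₂) (η₁ η₂ : V → V → ℝ) (ℓ : ℕ) {a b : V}
    (hab : G.Adj a b) :
    2 * (η₁ a b - η₂ a b) * (driftOf θ₁ (nbV G) ℓ η₁ a b - driftOf θ₂ (nbV G) ℓ η₂ a b)
      ≤ nsq (coef (nbV G) (wgt θ₁ η₁) ℓ a b - coef (nbV G) (wgt θ₂ η₂) ℓ a b)
        + 6 * (η₁ a b - η₂ a b) ^ 2 * Nsq (nbV G) (wgt θ₁ η₁) ℓ a b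
        + 2 * (η₁ a b - η₂ a b) ^ 2 * Nsq (nbV G) (wgt θ₂ η₂) ℓ a b
        + (η₁ b a - η₂ b a) ^ 2 * Nsq (nbV G) (wgt θ₁ η₁) ℓ a b
        + (2 * (θ₁ - θ₂)) ^ 2 * Nsq (nbV G) (wgt θ₁ η₁) ℓ a b := by
  have hp₁ : TreeParams G d θ₁ := dyn_treeParams hT hdeg hd hg₁
  have hp₂ : TreeParams G d θ₂ := dyn_treeParams hT hdeg hd hg₂
  have hs₁ := dyn_sq_le hd hg₁
  have hs₂ := dyn_sq_le hd hg₂
  unfold driftOf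
  refine dyn_scalar (Db := η₁ b a - η₂ b a) ?_ (abs_tanh_le_one _)
    (hp₁.Nsq_wgt_nonneg dyn_subN η₁ ℓ hab) (hp₂.Nsq_wgt_nonneg dyn_subN η₂ ℓ hab)
    (nsq_nonneg _) ?_
  · refine (abs_tanh_sub_le _ _).trans ?_
    have e1 : η₁ a b + hm θ₁ (η₁ b a) - (η₂ a b + hm θ₂ (η₂ b a))
        = (η₁ a b - η₂ a b) + (hm θ₁ (η₁ b a) - hm θ₁ (η₂ b a))
          + (hm θ₁ (η₂ b a) - hm θ₂ (η₂ b a)) := by ring
    rw [e1]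
    refine (abs_add_le _ _).trans (add_le_add ((abs_add_le _ _).trans (add_le_add le_rfl ?_)) ?_)
    · refine (abs_hm_sub_le hp₁.nonneg hp₁.lt_one _ _).trans ?_
      have := abs_nonneg (η₁ b a - η₂ b a)
      nlinarith [hp₁.lt_one]
    · refine (hm_theta_sub_le hp₁.nonneg hp₂.nonneg hs₁ hs₂ _).trans ?_
      rw [abs_mul]
      simp
  · have h := sq_nsq_sub_le (coef (nbV G) (wgt θ₁ η₁) ℓ a b) (coef (nbV G) (wgt θ₂ η₂) ℓ a b)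
    rwa [nsq_coef hT dyn_subN ℓ a b hab, nsq_coef hT dyn_subN ℓ a b hab] at h

section Step

variable {Ω : Type*} [mΩ : MeasurableSpace Ω] {P : Measure Ω} [IsProbabilityMeasure P]
  {g : ℕ → V → Ω → ℝ}

/-- The coefficient function of the difference of the two noise terms. -/
private def dCoef (θ₁ θ₂ : ℝ) (N : V → Finset V) (ℓ : ℕ) (η₁ η₂ : Ω → V → V → ℝ) (a b w : V)
    (ω : Ω) : ℝ :=
  (coef N (wgt θ₁ (η₁ ω)) ℓ a b - coef N (wgt θ₂ (η₂ ω)) ℓ a b) w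

private theorem dyn_Lin_sub_eq {N : V → Finset V} {θ₁ θ₂ : ℝ} (η₁ η₂ : Ω → V → V → ℝ) (h : V → ℝ)
    (ℓ : ℕ) (a b : V) (ω : Ω) :
    Lin N (wgt θ₁ (η₁ ω)) h ℓ a b - Lin N (wgt θ₂ (η₂ ω)) h ℓ a b
      = ∑ w ∈ diffSupp N N ℓ a b, dCoef θ₁ θ₂ N ℓ η₁ η₂ a b w ω * h w := by
  rw [← lin_coef, ← lin_coef, ← lin_sub, lin_eq_sum _ _ (support_diff_subset _ _ ℓ a b)]
  rfl

private theorem dyn_nsq_eq {N : V → Finset V} {θ₁ θ₂ : ℝ} (η₁ η₂ : Ω → V → V → ℝ)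
    (ℓ : ℕ) (a b : V) (ω : Ω) :
    nsq (coef N (wgt θ₁ (η₁ ω)) ℓ a b - coef N (wgt θ₂ (η₂ ω)) ℓ a b)
      = ∑ w ∈ diffSupp N N ℓ a b, dCoef θ₁ θ₂ N ℓ η₁ η₂ a b w ω ^ 2 := by
  rw [nsq_eq_sum _ (support_diff_subset _ _ ℓ a b)]
  rfl

private theorem dyn_measurable_dCoef {k : ℕ} {N : V → Finset V} {θ₁ θ₂ : ℝ}
    {η₁ η₂ : Ω → V → V → ℝ} (h₁ : Adapted2 g k P η₁) (h₂ : Adapted2 g k P η₂)
    (h01 : 0 ≤ θ₁) (h11 : θ₁ < 1) (h02 : 0 ≤ θ₂) (h12 : θ₂ < 1) (ℓ : ℕ) (a b w : V) :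
    Measurable[pastS g k] (dCoef θ₁ θ₂ N ℓ η₁ η₂ a b w) := by
  unfold dCoef
  simp only [Finsupp.sub_apply]
  exact (measurable_coef_apply (h₁.measurable_wgt h01 h11) ℓ a b w).sub
    (measurable_coef_apply (h₂.measurable_wgt h02 h12) ℓ a b w)

private theorem dyn_nsq_diff_le {θ₁ θ₂ : ℝ} (hT : G.IsTree) (hp₁ : TreeParams G d θ₁)
    (hp₂ : TreeParams G d θ₂) (η₁ η₂ : V → V → ℝ) (ℓ : ℕ) {a b : V} (hab : G.Adj a b) :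
    nsq (coef (nbV G) (wgt θ₁ η₁) ℓ a b - coef (nbV G) (wgt θ₂ η₂) ℓ a b)
      ≤ 2 * K2 θ₁ d + 2 * K2 θ₂ d := by
  refine (nsq_sub_le _ _).trans ?_
  rw [nsq_coef hT dyn_subN ℓ a b hab, nsq_coef hT dyn_subN ℓ a b hab]
  have h1 := hp₁.Nsq_wgt_le dyn_subN η₁ ℓ hab
  have h2 := hp₂.Nsq_wgt_le dyn_subN η₂ ℓ hab
  linarith

private theorem dyn_abs_dCoef_le {θ₁ θ₂ : ℝ} (hT : G.IsTree) (hp₁ : TreeParams G d θ₁)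
    (hp₂ : TreeParams G d θ₂) (η₁ η₂ : Ω → V → V → ℝ) (ℓ : ℕ) {a b : V} (hab : G.Adj a b) (w : V)
    (ω : Ω) :
    |dCoef θ₁ θ₂ (nbV G) ℓ η₁ η₂ a b w ω| ≤ 1 + (2 * K2 θ₁ d + 2 * K2 θ₂ d) := by
  have h := abs_apply_le_sqrt_nsq (coef (nbV G) (wgt θ₁ (η₁ ω)) ℓ a b
    - coef (nbV G) (wgt θ₂ (η₂ ω)) ℓ a b) w
  have h2 := dyn_nsq_diff_le hT hp₁ hp₂ (η₁ ω) (η₂ ω) ℓ hab
  have h3 : dCoef θ₁ θ₂ (nbV G) ℓ η₁ η₂ a b w ω ^ 2 ≤ 2 * K2 θ₁ d + 2 * K2 θ₂ d := h.trans h2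
  rcases abs_cases (dCoef θ₁ θ₂ (nbV G) ℓ η₁ η₂ a b w ω) with ⟨h4, _⟩ | ⟨h4, _⟩ <;> rw [h4] <;>
    nlinarith [sq_nonneg (dCoef θ₁ θ₂ (nbV G) ℓ η₁ η₂ a b w ω - 1),
      sq_nonneg (dCoef θ₁ θ₂ (nbV G) ℓ η₁ η₂ a b w ω + 1)]

/-- The general one-step estimate for two adapted states at different parameters. -/
private theorem dyn_step_general {k : ℕ} {θ₁ θ₂ ε : ℝ} (hT : G.IsTree)
    (hdeg : ∀ v, G.degree v = d) (hd : 3 ≤ d)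
    (hg₁ : GoodT d θ₁) (hg₂ : GoodT d θ₂) (hg : IsNoise P g) (hε : 0 < ε)
    {η₁ η₂ : Ω → V → V → ℝ} (h₁ : Adapted2 g k P η₁) (h₂ : Adapted2 g k P η₂)
    (ℓ : ℕ) {a b : V} (hab : G.Adj a b) :
    ∫ ω, (cavStep θ₁ (nbV G) ℓ ε (η₁ ω) (fun w => g k w ω) a b
        - cavStep θ₂ (nbV G) ℓ ε (η₂ ω) (fun w => g k w ω) a b) ^ 2 ∂P
      ≤ ∫ ω, (η₁ ω a b - η₂ ω a b) ^ 2 ∂P + ε * (
        2 * ∫ ω, nsq (coef (nbV G) (wgt θ₁ (η₁ ω)) ℓ a b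
            - coef (nbV G) (wgt θ₂ (η₂ ω)) ℓ a b) ∂P
        + 6 * ∫ ω, (η₁ ω a b - η₂ ω a b) ^ 2 * Nsq (nbV G) (wgt θ₁ (η₁ ω)) ℓ a b ∂P
        + 2 * ∫ ω, (η₁ ω a b - η₂ ω a b) ^ 2 * Nsq (nbV G) (wgt θ₂ (η₂ ω)) ℓ a b ∂P
        + ∫ ω, (η₁ ω b a - η₂ ω b a) ^ 2 * Nsq (nbV G) (wgt θ₁ (η₁ ω)) ℓ a b ∂P
        + (2 * (θ₁ - θ₂)) ^ 2 * ∫ ω, Nsq (nbV G) (wgt θ₁ (η₁ ω)) ℓ a b ∂P
        + ε * (K2 θ₁ d + K2 θ₂ d) ^ 2) := by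
  have hp₁ : TreeParams G d θ₁ := dyn_treeParams hT hdeg hd hg₁
  have hp₂ : TreeParams G d θ₂ := dyn_treeParams hT hdeg hd hg₂
  set N := nbV G with hN
  have hsub : SubN G N := dyn_subN
  -- measurability in the ambient sigma-algebra
  have hle := pastS_le hg k
  have mW₁ : Measurable[pastS g k] (fun ω => Nsq N (wgt θ₁ (η₁ ω)) ℓ a b) :=
    measurable_Nsq (h₁.measurable_wgt hp₁.nonneg hp₁.lt_one) ℓ a b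
  have mW₂ : Measurable[pastS g k] (fun ω => Nsq N (wgt θ₂ (η₂ ω)) ℓ a b) :=
    measurable_Nsq (h₂.measurable_wgt hp₂.nonneg hp₂.lt_one) ℓ a b
  have mV₁ : Measurable (fun ω => Nsq N (wgt θ₁ (η₁ ω)) ℓ a b) := mW₁.mono hle le_rfl
  have mV₂ : Measurable (fun ω => Nsq N (wgt θ₂ (η₂ ω)) ℓ a b) := mW₂.mono hle le_rfl
  have bV₁ : ∀ ω, |Nsq N (wgt θ₁ (η₁ ω)) ℓ a b| ≤ K2 θ₁ d := fun ω => by
    rw [abs_of_nonneg (hp₁.Nsq_wgt_nonneg hsub _ ℓ hab)]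
    exact hp₁.Nsq_wgt_le hsub _ ℓ hab
  have bV₂ : ∀ ω, |Nsq N (wgt θ₂ (η₂ ω)) ℓ a b| ≤ K2 θ₂ d := fun ω => by
    rw [abs_of_nonneg (hp₂.Nsq_wgt_nonneg hsub _ ℓ hab)]
    exact hp₂.Nsq_wgt_le hsub _ ℓ hab
  -- the difference of drifts
  set Δ : Ω → ℝ := fun ω => driftOf θ₁ N ℓ (η₁ ω) a b - driftOf θ₂ N ℓ (η₂ ω) a b with hΔ
  have mΔp : Measurable[pastS g k] Δ :=
    (measurable_driftOf h₁ hp₁.nonneg hp₁.lt_one ℓ a b).sub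
      (measurable_driftOf h₂ hp₂.nonneg hp₂.lt_one ℓ a b)
  have mΔ : Measurable Δ := mΔp.mono hle le_rfl
  have bΔ : ∀ ω, |Δ ω| ≤ K2 θ₁ d + K2 θ₂ d := fun ω =>
    (abs_sub _ _).trans (add_le_add (hp₁.abs_driftOf_le hsub _ ℓ hab)
      (hp₂.abs_driftOf_le hsub _ ℓ hab))
  have hKpos : 0 ≤ K2 θ₁ d + K2 θ₂ d := add_nonneg hp₁.K2_pos.le hp₂.K2_pos.le
  -- the adapted part
  set A : Ω → ℝ := fun ω => (η₁ ω a b - η₂ ω a b) + ε * Δ ω with hA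
  have mAp : Measurable[pastS g k] A :=
    ((h₁.meas a b).sub (h₂.meas a b)).add (mΔp.const_mul _)
  have lΔ : MemLp Δ 2 P := MemLp.of_bound mΔ.aestronglyMeasurable (K2 θ₁ d + K2 θ₂ d)
    (Filter.Eventually.of_forall fun ω => by rw [Real.norm_eq_abs]; exact bΔ ω)
  have lD : MemLp (fun ω => η₁ ω a b - η₂ ω a b) 2 P := (h₁.memLp a b).sub (h₂.memLp a b)
  have lDb : MemLp (fun ω => η₁ ω b a - η₂ ω b a) 2 P := (h₁.memLp b a).sub (h₂.memLp b a)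
  have lA : MemLp A 2 P := lD.add (lΔ.const_mul ε)
  -- noise part
  have hc := fun w => dyn_measurable_dCoef (N := N) (w := w) h₁ h₂ hp₁.nonneg hp₁.lt_one
    hp₂.nonneg hp₂.lt_one ℓ a b
  have hC := fun w ω => dyn_abs_dCoef_le hT hp₁ hp₂ η₁ η₂ ℓ hab w ω
  have e := one_step_sq (F := diffSupp N N ℓ a b) hg hc hC mAp lA (Real.sqrt ε)
  have hsplit : ∀ ω, cavStep θ₁ N ℓ ε (η₁ ω) (fun w => g k w ω) a b
        - cavStep θ₂ N ℓ ε (η₂ ω) (fun w => g k w ω) a b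
      = A ω + Real.sqrt ε * ∑ w ∈ diffSupp N N ℓ a b,
          dCoef θ₁ θ₂ N ℓ η₁ η₂ a b w ω * g k w ω := by
    intro ω
    rw [← dyn_Lin_sub_eq, cavStep_eq, cavStep_eq]
    simp only [hA, hΔ]
    ring
  simp only [hsplit]
  rw [e, Real.sq_sqrt hε.le]
  have e2 : ∫ ω, ∑ w ∈ diffSupp N N ℓ a b, dCoef θ₁ θ₂ N ℓ η₁ η₂ a b w ω ^ 2 ∂P
      = ∫ ω, nsq (coef N (wgt θ₁ (η₁ ω)) ℓ a b - coef N (wgt θ₂ (η₂ ω)) ℓ a b) ∂P :=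
    integral_congr_ae (Filter.Eventually.of_forall fun ω => (dyn_nsq_eq η₁ η₂ ℓ a b ω).symm)
  rw [e2]
  -- integrability
  have iD : Integrable (fun ω => (η₁ ω a b - η₂ ω a b) ^ 2) P := lD.integrable_sq
  have iDb : Integrable (fun ω => (η₁ ω b a - η₂ ω b a) ^ 2) P := lDb.integrable_sq
  have ibdd : ∀ {f h : Ω → ℝ} {C : ℝ}, Integrable f P → Measurable h → (∀ ω, |h ω| ≤ C) →
      Integrable (fun ω => f ω * h ω) P := by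
    intro f h C hf hh hb
    refine hf.mul_bdd (c := C) hh.aestronglyMeasurable (Filter.Eventually.of_forall fun ω => ?_)
    rw [Real.norm_eq_abs]; exact hb ω
  have iD1 := ibdd iD mV₁ bV₁
  have iD2 := ibdd iD mV₂ bV₂
  have iDb1 := ibdd iDb mV₁ bV₁
  have iV₁ : Integrable (fun ω => Nsq N (wgt θ₁ (η₁ ω)) ℓ a b) P :=
    Integrable.of_bound mV₁.aestronglyMeasurable (K2 θ₁ d)
      (Filter.Eventually.of_forall fun ω => by rw [Real.norm_eq_abs]; exact bV₁ ω)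
  have iP : Integrable (fun ω => nsq (coef N (wgt θ₁ (η₁ ω)) ℓ a b
      - coef N (wgt θ₂ (η₂ ω)) ℓ a b)) P := by
    refine Integrable.of_bound (C := 2 * K2 θ₁ d + 2 * K2 θ₂ d) ?_
      (Filter.Eventually.of_forall fun ω => ?_)
    · have : Measurable (fun ω => ∑ w ∈ diffSupp N N ℓ a b,
          dCoef θ₁ θ₂ N ℓ η₁ η₂ a b w ω ^ 2) :=
        Finset.measurable_fun_sum _ fun w _ => ((hc w).mono hle le_rfl).pow_const 2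
      rw [← funext (dyn_nsq_eq (θ₁ := θ₁) (θ₂ := θ₂) (N := N) η₁ η₂ ℓ a b)] at this
      exact this.aestronglyMeasurable
    · rw [Real.norm_eq_abs, abs_of_nonneg (nsq_nonneg _)]
      exact dyn_nsq_diff_le hT hp₁ hp₂ _ _ ℓ hab
  -- pointwise bound on the adapted part
  have hpt : ∀ ω, A ω ^ 2 ≤ (η₁ ω a b - η₂ ω a b) ^ 2 + ε * (
        nsq (coef N (wgt θ₁ (η₁ ω)) ℓ a b - coef N (wgt θ₂ (η₂ ω)) ℓ a b)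
        + 6 * ((η₁ ω a b - η₂ ω a b) ^ 2 * Nsq N (wgt θ₁ (η₁ ω)) ℓ a b)
        + 2 * ((η₁ ω a b - η₂ ω a b) ^ 2 * Nsq N (wgt θ₂ (η₂ ω)) ℓ a b)
        + (η₁ ω b a - η₂ ω b a) ^ 2 * Nsq N (wgt θ₁ (η₁ ω)) ℓ a b
        + (2 * (θ₁ - θ₂)) ^ 2 * Nsq N (wgt θ₁ (η₁ ω)) ℓ a b
        + ε * (K2 θ₁ d + K2 θ₂ d) ^ 2) := by
    intro ω
    have h1 := dyn_pointwise hT hdeg hd hg₁ hg₂ (η₁ ω) (η₂ ω) ℓ hab
    have h2 : Δ ω ^ 2 ≤ (K2 θ₁ d + K2 θ₂ d) ^ 2 := by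
      have := sq_le_sq.2 (show |Δ ω| ≤ |K2 θ₁ d + K2 θ₂ d| by
        rw [abs_of_nonneg hKpos]; exact bΔ ω)
      simpa using this
    have h3 : 2 * (η₁ ω a b - η₂ ω a b) * Δ ω ≤ _ := h1
    have e3 : A ω ^ 2 = (η₁ ω a b - η₂ ω a b) ^ 2
        + ε * (2 * (η₁ ω a b - η₂ ω a b) * Δ ω) + ε * (ε * Δ ω ^ 2) := by
      simp only [hA]; ring
    rw [e3]
    have h4 := mul_le_mul_of_nonneg_left h3 hε.le
    have h5 := mul_le_mul_of_nonneg_left h2 (mul_nonneg hε.le hε.le)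
    nlinarith
  have iA : Integrable (fun ω => A ω ^ 2) P := lA.integrable_sq
  have iR1 : Integrable (fun ω => nsq (coef N (wgt θ₁ (η₁ ω)) ℓ a b - coef N (wgt θ₂ (η₂ ω)) ℓ a b)
      + 6 * ((η₁ ω a b - η₂ ω a b) ^ 2 * Nsq N (wgt θ₁ (η₁ ω)) ℓ a b)) P :=
    iP.add (iD1.const_mul 6)
  have iR2 : Integrable (fun ω => nsq (coef N (wgt θ₁ (η₁ ω)) ℓ a b - coef N (wgt θ₂ (η₂ ω)) ℓ a b)
      + 6 * ((η₁ ω a b - η₂ ω a b) ^ 2 * Nsq N (wgt θ₁ (η₁ ω)) ℓ a b)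
      + 2 * ((η₁ ω a b - η₂ ω a b) ^ 2 * Nsq N (wgt θ₂ (η₂ ω)) ℓ a b)) P :=
    iR1.add (iD2.const_mul 2)
  have iR3 : Integrable (fun ω => nsq (coef N (wgt θ₁ (η₁ ω)) ℓ a b - coef N (wgt θ₂ (η₂ ω)) ℓ a b)
      + 6 * ((η₁ ω a b - η₂ ω a b) ^ 2 * Nsq N (wgt θ₁ (η₁ ω)) ℓ a b)
      + 2 * ((η₁ ω a b - η₂ ω a b) ^ 2 * Nsq N (wgt θ₂ (η₂ ω)) ℓ a b)
      + (η₁ ω b a - η₂ ω b a) ^ 2 * Nsq N (wgt θ₁ (η₁ ω)) ℓ a b) P :=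
    iR2.add iDb1
  have iR4 : Integrable (fun ω => nsq (coef N (wgt θ₁ (η₁ ω)) ℓ a b - coef N (wgt θ₂ (η₂ ω)) ℓ a b)
      + 6 * ((η₁ ω a b - η₂ ω a b) ^ 2 * Nsq N (wgt θ₁ (η₁ ω)) ℓ a b)
      + 2 * ((η₁ ω a b - η₂ ω a b) ^ 2 * Nsq N (wgt θ₂ (η₂ ω)) ℓ a b)
      + (η₁ ω b a - η₂ ω b a) ^ 2 * Nsq N (wgt θ₁ (η₁ ω)) ℓ a b
      + (2 * (θ₁ - θ₂)) ^ 2 * Nsq N (wgt θ₁ (η₁ ω)) ℓ a b) P :=
    iR3.add (iV₁.const_mul ((2 * (θ₁ - θ₂)) ^ 2))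
  have iR5 : Integrable (fun ω => nsq (coef N (wgt θ₁ (η₁ ω)) ℓ a b - coef N (wgt θ₂ (η₂ ω)) ℓ a b)
      + 6 * ((η₁ ω a b - η₂ ω a b) ^ 2 * Nsq N (wgt θ₁ (η₁ ω)) ℓ a b)
      + 2 * ((η₁ ω a b - η₂ ω a b) ^ 2 * Nsq N (wgt θ₂ (η₂ ω)) ℓ a b)
      + (η₁ ω b a - η₂ ω b a) ^ 2 * Nsq N (wgt θ₁ (η₁ ω)) ℓ a b
      + (2 * (θ₁ - θ₂)) ^ 2 * Nsq N (wgt θ₁ (η₁ ω)) ℓ a b
      + ε * (K2 θ₁ d + K2 θ₂ d) ^ 2) P :=
    iR4.add (integrable_const (ε * (K2 θ₁ d + K2 θ₂ d) ^ 2))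
  have iR6 : Integrable (fun ω => (η₁ ω a b - η₂ ω a b) ^ 2 + ε * (
      nsq (coef N (wgt θ₁ (η₁ ω)) ℓ a b - coef N (wgt θ₂ (η₂ ω)) ℓ a b)
      + 6 * ((η₁ ω a b - η₂ ω a b) ^ 2 * Nsq N (wgt θ₁ (η₁ ω)) ℓ a b)
      + 2 * ((η₁ ω a b - η₂ ω a b) ^ 2 * Nsq N (wgt θ₂ (η₂ ω)) ℓ a b)
      + (η₁ ω b a - η₂ ω b a) ^ 2 * Nsq N (wgt θ₁ (η₁ ω)) ℓ a b
      + (2 * (θ₁ - θ₂)) ^ 2 * Nsq N (wgt θ₁ (η₁ ω)) ℓ a b
      + ε * (K2 θ₁ d + K2 θ₂ d) ^ 2)) P :=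
    iD.add (iR5.const_mul ε)
  have hint := integral_mono iA iR6 hpt
  have ev : ∫ ω, ((η₁ ω a b - η₂ ω a b) ^ 2 + ε * (
        nsq (coef N (wgt θ₁ (η₁ ω)) ℓ a b - coef N (wgt θ₂ (η₂ ω)) ℓ a b)
        + 6 * ((η₁ ω a b - η₂ ω a b) ^ 2 * Nsq N (wgt θ₁ (η₁ ω)) ℓ a b)
        + 2 * ((η₁ ω a b - η₂ ω a b) ^ 2 * Nsq N (wgt θ₂ (η₂ ω)) ℓ a b)
        + (η₁ ω b a - η₂ ω b a) ^ 2 * Nsq N (wgt θ₁ (η₁ ω)) ℓ a b
        + (2 * (θ₁ - θ₂)) ^ 2 * Nsq N (wgt θ₁ (η₁ ω)) ℓ a b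
        + ε * (K2 θ₁ d + K2 θ₂ d) ^ 2)) ∂P
      = ∫ ω, (η₁ ω a b - η₂ ω a b) ^ 2 ∂P + ε * (
        ∫ ω, nsq (coef N (wgt θ₁ (η₁ ω)) ℓ a b - coef N (wgt θ₂ (η₂ ω)) ℓ a b) ∂P
        + 6 * ∫ ω, (η₁ ω a b - η₂ ω a b) ^ 2 * Nsq N (wgt θ₁ (η₁ ω)) ℓ a b ∂P
        + 2 * ∫ ω, (η₁ ω a b - η₂ ω a b) ^ 2 * Nsq N (wgt θ₂ (η₂ ω)) ℓ a b ∂P
        + ∫ ω, (η₁ ω b a - η₂ ω b a) ^ 2 * Nsq N (wgt θ₁ (η₁ ω)) ℓ a b ∂P
        + (2 * (θ₁ - θ₂)) ^ 2 * ∫ ω, Nsq N (wgt θ₁ (η₁ ω)) ℓ a b ∂P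
        + ε * (K2 θ₁ d + K2 θ₂ d) ^ 2) := by
    rw [integral_add iD (iR5.const_mul ε), integral_const_mul, integral_add iR4 (integrable_const _),
      integral_add iR3 (iV₁.const_mul _), integral_add iR2 iDb1, integral_add iR1 (iD2.const_mul 2),
      integral_add iP (iD1.const_mul 6), integral_const_mul, integral_const_mul, integral_const_mul,
      integral_const]
    simp
  have hint' := hint.trans_eq ev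
  have hP0 : 0 ≤ ∫ ω, nsq (coef N (wgt θ₁ (η₁ ω)) ℓ a b - coef N (wgt θ₂ (η₂ ω)) ℓ a b) ∂P :=
    integral_nonneg fun ω => nsq_nonneg _
  calc _ ≤ _ := add_le_add_left hint' _
    _ = _ := by ring

end Step

/-- **Main statement of the module.** -/
theorem dyn_step_le (hT : G.IsTree) (hdeg : ∀ v, G.degree v = d) (hd : 3 ≤ d) {θ₁ θ₂ : ℝ}
    (hg₁ : GoodT d θ₁) (hg₂ : GoodT d θ₂) {γ : ℕ → ℕ → unitInterval → ℝ}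
    (hn : ∀ j, IsNoise (uniformField V) (fun (k : ℕ) (v : V) (u : V → unitInterval) => γ j k (u v)))
    (ℓ j k : ℕ) {a b : V} (hab : G.Adj a b) :
    NN G θ₁ θ₂ γ ℓ j (k + 1) a b ≤ NN G θ₁ θ₂ γ ℓ j k a b + (1 / 2 : ℝ) ^ j * (
        2 * ∫ u, nsq (coef (nbV G) (wgt θ₁ (masterChain G θ₁ γ ℓ j k u)) ℓ a b
            - coef (nbV G) (wgt θ₂ (masterChain G θ₂ γ ℓ j k u)) ℓ a b) ∂(uniformField V)
        + 6 * ∫ u, (masterChain G θ₁ γ ℓ j k u a b - masterChain G θ₂ γ ℓ j k u a b) ^ 2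
            * Nsq (nbV G) (wgt θ₁ (masterChain G θ₁ γ ℓ j k u)) ℓ a b ∂(uniformField V)
        + 2 * ∫ u, (masterChain G θ₁ γ ℓ j k u a b - masterChain G θ₂ γ ℓ j k u a b) ^ 2
            * Nsq (nbV G) (wgt θ₂ (masterChain G θ₂ γ ℓ j k u)) ℓ a b ∂(uniformField V)
        + ∫ u, (masterChain G θ₁ γ ℓ j k u b a - masterChain G θ₂ γ ℓ j k u b a) ^ 2
            * Nsq (nbV G) (wgt θ₁ (masterChain G θ₁ γ ℓ j k u)) ℓ a b ∂(uniformField V)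
        + (2 * (θ₁ - θ₂)) ^ 2 * ∫ u, Nsq (nbV G) (wgt θ₁ (masterChain G θ₁ γ ℓ j k u)) ℓ a b
            ∂(uniformField V)
        + (1 / 2 : ℝ) ^ j * (K2 θ₁ d + K2 θ₂ d) ^ 2) := by
  have := limit_uniformField_prob V
  have hp₁ : TreeParams G d θ₁ := dyn_treeParams hT hdeg hd hg₁
  have hp₂ : TreeParams G d θ₂ := dyn_treeParams hT hdeg hd hg₂
  have h₁ : Adapted2 (fun (k : ℕ) (v : V) (u : V → unitInterval) => γ j k (u v)) k (uniformField V)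
      (masterChain G θ₁ γ ℓ j k) :=
    adapted_cavChain (hn j) hp₁.nonneg hp₁.lt_one ℓ k
  have h₂ : Adapted2 (fun (k : ℕ) (v : V) (u : V → unitInterval) => γ j k (u v)) k (uniformField V)
      (masterChain G θ₂ γ ℓ j k) :=
    adapted_cavChain (hn j) hp₂.nonneg hp₂.lt_one ℓ k
  exact dyn_step_general hT hdeg hd hg₁ hg₂ (hn j) (by positivity) h₁ h₂ ℓ hab


end

end Vale.Agent.Lib.P161
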