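import Vale.Agent.Lib.P161.End.Defs
import Vale.Agent.Lib.P161.Scalar

/-!
P161 endpoint, module Scal: scalar facts about `phiF`, the logarithm of `hd1`, and the dependence on
`θ`.
-/

open Finset

namespace Vale.Agent.Lib.P161

noncomputable section

variable {θ : ℝ}

private lemma den_ge (h0 : 0 ≤ θ) (h1 : θ < 1) (x : ℝ) : 1 ≤ 1 + (1 - θ ^ 2) * Real.sinh x ^ 2 := by
  have : 0 ≤ (1 - θ ^ 2) * Real.sinh x ^ 2 := mul_nonneg (by nlinarith) (sq_nonneg _)
  linarith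

theorem phiF_pos (h0 : 0 ≤ θ) (h1 : θ < 1) (x : ℝ) : 0 < phiF θ x := by
  have := den_ge h0 h1 x
  unfold phiF
  positivity

theorem phiF_le_one (h0 : 0 ≤ θ) (h1 : θ < 1) (x : ℝ) : phiF θ x ≤ 1 := by
  have := den_ge h0 h1 x
  unfold phiF
  refine pow_le_one₀ (by positivity) ?_
  rw [div_le_one (by linarith)]
  exact this

theorem phiF_neg (x : ℝ) : phiF θ (-x) = phiF θ x := by
  simp [phiF]

theorem hd1_sq_eq (x : ℝ) : hd1 θ x ^ 2 = θ ^ 2 * phiF θ x := by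
  unfold hd1 phiF
  rw [div_pow, div_pow]
  ring

theorem hd1_pos (h0 : 0 < θ) (h1 : θ < 1) (x : ℝ) : 0 < hd1 θ x := by
  have := den_ge h0.le h1 x
  unfold hd1
  positivity

/-- `ψ = 1 / (1 + (1 - θ²) sinh²)`. -/
def psiF (θ x : ℝ) : ℝ := 1 / (1 + (1 - θ ^ 2) * Real.sinh x ^ 2)

private lemma den_hasDerivAt (x : ℝ) : HasDerivAt (fun x => 1 + (1 - θ ^ 2) * Real.sinh x ^ 2)
    ((1 - θ ^ 2) * (2 * Real.sinh x * Real.cosh x)) x := by
  have h := (Real.hasDerivAt_sinh x).pow 2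
  have h2 : HasDerivAt (fun x => 1 + (1 - θ ^ 2) * Real.sinh x ^ 2) _ x :=
    (h.const_mul (1 - θ ^ 2)).const_add 1
  refine h2.congr_deriv ?_
  simp

private lemma cs (x : ℝ) : Real.cosh x ^ 2 = 1 + Real.sinh x ^ 2 := by
  have := Real.cosh_sq x; linarith

private lemma kb (h0 : 0 ≤ θ) (h1 : θ < 1) (x : ℝ) :
    |(1 - θ ^ 2) * Real.sinh x * Real.cosh x| ≤ (1 + (1 - θ ^ 2) * Real.sinh x ^ 2) ^ 2 := by
  have hκ0 : 0 ≤ 1 - θ ^ 2 := by nlinarith
  have hκ1 : 1 - θ ^ 2 ≤ 1 := by nlinarith [sq_nonneg θ]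
  have h2 := cs x
  set s := Real.sinh x
  set c := Real.cosh x
  set κ := 1 - θ ^ 2
  apply abs_le_of_sq_le_sq _ (by positivity)
  set u := κ * s ^ 2 with hu
  have hu0 : 0 ≤ u := by positivity
  have e : (κ * s * c) ^ 2 = u * (κ + u) := by
    have : (κ * s * c) ^ 2 = κ ^ 2 * s ^ 2 * c ^ 2 := by ring
    rw [this, h2, hu]; ring
  rw [e]
  have : u * (κ + u) ≤ (1 + u) * (1 + u) := by nlinarith
  have h3 : (1 + u) * (1 + u) ≤ ((1 + u) ^ 2) ^ 2 := by
    have h4 : 1 ≤ 1 + u := by linarith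
    nlinarith [mul_self_nonneg (1 + u), mul_le_mul h4 h4 (by linarith) (by linarith)]
  linarith

private lemma lip_of_deriv' {f f' : ℝ → ℝ} {C : ℝ} (hf : ∀ x, HasDerivAt f (f' x) x)
    (hC : ∀ x, |f' x| ≤ C) (x y : ℝ) : |f x - f y| ≤ C * |x - y| := by
  have := Convex.norm_image_sub_le_of_norm_hasDerivWithin_le (f := f) (f' := f') (s := Set.univ)
    (C := C) (x := y) (y := x) (fun z _ => (hf z).hasDerivWithinAt) (fun z _ => hC z)
    convex_univ (Set.mem_univ _) (Set.mem_univ _)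
  simpa [Real.norm_eq_abs] using this

theorem psiF_lip (h0 : 0 ≤ θ) (h1 : θ < 1) (x y : ℝ) : |psiF θ x - psiF θ y| ≤ 2 * |x - y| := by
  refine lip_of_deriv' (f' := fun x => (0 * (1 + (1 - θ ^ 2) * Real.sinh x ^ 2)
      - 1 * ((1 - θ ^ 2) * (2 * Real.sinh x * Real.cosh x)))
        / (1 + (1 - θ ^ 2) * Real.sinh x ^ 2) ^ 2) (fun x => ?_) (fun z => ?_) x y
  · have hne : 1 + (1 - θ ^ 2) * Real.sinh x ^ 2 ≠ 0 := by linarith [den_ge h0 h1 x]
    exact (hasDerivAt_const x (1 : ℝ)).div (den_hasDerivAt (θ := θ) x) hne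
  · have hD := den_ge h0 h1 z
    have hk := kb h0 h1 z
    rw [abs_div, div_le_iff₀ (by rw [abs_pos]; positivity)]
    have e : 0 * (1 + (1 - θ ^ 2) * Real.sinh z ^ 2)
        - 1 * ((1 - θ ^ 2) * (2 * Real.sinh z * Real.cosh z))
        = -(2 * ((1 - θ ^ 2) * Real.sinh z * Real.cosh z)) := by ring
    rw [e, abs_neg, abs_mul, abs_of_pos (by norm_num : (0 : ℝ) < 2),
      abs_of_pos (by positivity : 0 < (1 + (1 - θ ^ 2) * Real.sinh z ^ 2) ^ 2)]
    linarith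

theorem psiF_mem (h0 : 0 ≤ θ) (h1 : θ < 1) (x : ℝ) : 0 < psiF θ x ∧ psiF θ x ≤ 1 := by
  have := den_ge h0 h1 x
  unfold psiF
  refine ⟨by positivity, ?_⟩
  rw [div_le_one (by linarith)]
  exact this

theorem phiF_lip (h0 : 0 ≤ θ) (h1 : θ < 1) (x y : ℝ) : |phiF θ x - phiF θ y| ≤ 4 * |x - y| := by
  have e : phiF θ x - phiF θ y = (psiF θ x - psiF θ y) * (psiF θ x + psiF θ y) := by
    simp only [phiF, psiF]
    ring
  rw [e, abs_mul]
  have h2 := psiF_lip h0 h1 x y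
  have h3 := psiF_mem h0 h1 x
  have h4 := psiF_mem h0 h1 y
  have h5 : |psiF θ x + psiF θ y| ≤ 2 := by
    rw [abs_of_pos (by linarith)]
    linarith
  calc |psiF θ x - psiF θ y| * |psiF θ x + psiF θ y| ≤ (2 * |x - y|) * 2 :=
        mul_le_mul h2 h5 (abs_nonneg _) (by positivity)
    _ = 4 * |x - y| := by ring

theorem phiF_pow_lip (h0 : 0 ≤ θ) (h1 : θ < 1) (p : ℕ) (x y : ℝ) :
    |phiF θ x ^ p - phiF θ y ^ p| ≤ 4 * p * |x - y| := by
  have hx := phiF_pos h0 h1 x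
  have hy := phiF_pos h0 h1 y
  have hx1 := phiF_le_one h0 h1 x
  have hy1 := phiF_le_one h0 h1 y
  cases p with
  | zero => simp
  | succ n =>
    have := abs_pow_sub_pow_le (phiF θ x) (phiF θ y) (n + 1)
    refine this.trans ?_
    have hm : max |phiF θ x| |phiF θ y| ^ n ≤ 1 := by
      refine pow_le_one₀ (le_max_of_le_left (abs_nonneg _)) (max_le ?_ ?_)
      · rw [abs_of_pos hx]; exact hx1
      · rw [abs_of_pos hy]; exact hy1
    have h4 := phiF_lip h0 h1 x y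
    have e : ((n + 1 : ℕ) : ℝ) = (n : ℝ) + 1 := by push_cast; ring
    simp only [Nat.add_sub_cancel]
    calc |phiF θ x - phiF θ y| * ((n + 1 : ℕ) : ℝ) * max |phiF θ x| |phiF θ y| ^ n
        ≤ |phiF θ x - phiF θ y| * ((n + 1 : ℕ) : ℝ) * 1 :=
          mul_le_mul_of_nonneg_left hm (by positivity)
      _ ≤ (4 * |x - y|) * ((n + 1 : ℕ) : ℝ) := by
          rw [mul_one]
          exact mul_le_mul_of_nonneg_right h4 (by positivity)
      _ = _ := by ring

/-- The logarithm of `hd1`. -/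
def lF (θ x : ℝ) : ℝ := Real.log (hd1 θ x)

theorem lF_eq (h0 : 0 < θ) (h1 : θ < 1) (x : ℝ) :
    lF θ x = Real.log θ - Real.log (1 + (1 - θ ^ 2) * Real.sinh x ^ 2) := by
  have := den_ge h0.le h1 x
  unfold lF hd1
  rw [Real.log_div h0.ne' (by linarith)]

theorem lF_neg (x : ℝ) : lF θ (-x) = lF θ x := by
  simp [lF, hd1]

private lemma lF_hasDerivAt (h0 : 0 < θ) (h1 : θ < 1) (x : ℝ) :
    HasDerivAt (lF θ) (-(((1 - θ ^ 2) * (2 * Real.sinh x * Real.cosh x))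
      / (1 + (1 - θ ^ 2) * Real.sinh x ^ 2))) x := by
  have hf : lF θ = fun x => Real.log θ - Real.log (1 + (1 - θ ^ 2) * Real.sinh x ^ 2) :=
    funext (lF_eq h0 h1)
  rw [hf]
  have hne : 1 + (1 - θ ^ 2) * Real.sinh x ^ 2 ≠ 0 := by linarith [den_ge h0.le h1 x]
  have h2 := ((den_hasDerivAt (θ := θ) x).log hne).const_sub (Real.log θ)
  exact h2

private lemma lF_deriv_le (h0 : 0 < θ) (h1 : θ < 1) (x : ℝ) :
    |-(((1 - θ ^ 2) * (2 * Real.sinh x * Real.cosh x))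
      / (1 + (1 - θ ^ 2) * Real.sinh x ^ 2))| ≤ 2 * |Real.tanh x| := by
  have hD := den_ge h0.le h1 x
  have hc := Real.cosh_pos x
  have hκ0 : 0 ≤ 1 - θ ^ 2 := by nlinarith
  have hκ1 : 1 - θ ^ 2 ≤ 1 := by nlinarith [sq_nonneg θ]
  rw [abs_neg, abs_div, abs_of_pos (by linarith : 0 < 1 + (1 - θ ^ 2) * Real.sinh x ^ 2),
    Real.tanh_eq_sinh_div_cosh, abs_div, abs_of_pos hc, div_le_iff₀ (by linarith)]
  have h2 := cs x
  have e : |(1 - θ ^ 2) * (2 * Real.sinh x * Real.cosh x)|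
      = 2 * (1 - θ ^ 2) * |Real.sinh x| * Real.cosh x := by
    rw [abs_mul, abs_mul, abs_mul, abs_of_nonneg hκ0, abs_of_pos hc]
    simp
    ring
  rw [e]
  have h3 : (1 - θ ^ 2) * Real.cosh x ^ 2 ≤ 1 + (1 - θ ^ 2) * Real.sinh x ^ 2 := by
    rw [h2]; nlinarith
  have h4 : 0 ≤ |Real.sinh x| := abs_nonneg _
  have e2 : 2 * (|Real.sinh x| / Real.cosh x) * (1 + (1 - θ ^ 2) * Real.sinh x ^ 2)
      = 2 * |Real.sinh x| * ((1 + (1 - θ ^ 2) * Real.sinh x ^ 2) / Real.cosh x) := by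
    field_simp
  rw [e2]
  have h5 : (1 - θ ^ 2) * Real.cosh x ≤ (1 + (1 - θ ^ 2) * Real.sinh x ^ 2) / Real.cosh x := by
    rw [le_div_iff₀ hc]
    calc (1 - θ ^ 2) * Real.cosh x * Real.cosh x = (1 - θ ^ 2) * Real.cosh x ^ 2 := by ring
      _ ≤ _ := h3
  calc 2 * (1 - θ ^ 2) * |Real.sinh x| * Real.cosh x
      = 2 * |Real.sinh x| * ((1 - θ ^ 2) * Real.cosh x) := by ring
    _ ≤ _ := mul_le_mul_of_nonneg_left h5 (by positivity)

/-- `|ℓ(x) - ℓ(y)| ≤ 2 |x - y| max(|tanh x|, |tanh y|)`. -/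
theorem lF_sub_le (h0 : 0 < θ) (h1 : θ < 1) (x y : ℝ) :
    |lF θ x - lF θ y| ≤ 2 * max |Real.tanh x| |Real.tanh y| * |x - y| := by
  have hmono : Monotone Real.tanh := by
    intro u v huv
    have hcu := Real.cosh_pos u
    have hcv := Real.cosh_pos v
    rw [Real.tanh_eq_sinh_div_cosh, Real.tanh_eq_sinh_div_cosh, div_le_div_iff₀ hcu hcv]
    have h5 : 0 ≤ Real.sinh (v - u) := Real.sinh_nonneg_iff.mpr (by linarith)
    rw [Real.sinh_sub] at h5
    linarith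
  have := Convex.norm_image_sub_le_of_norm_hasDerivWithin_le (f := lF θ)
    (f' := fun x => -(((1 - θ ^ 2) * (2 * Real.sinh x * Real.cosh x))
      / (1 + (1 - θ ^ 2) * Real.sinh x ^ 2))) (s := Set.uIcc x y)
    (C := 2 * max |Real.tanh x| |Real.tanh y|) (x := y) (y := x)
    (fun z _ => (lF_hasDerivAt h0 h1 z).hasDerivWithinAt)
    (fun z hz => ?_)
    (convex_uIcc x y) Set.right_mem_uIcc Set.left_mem_uIcc
  · simpa [Real.norm_eq_abs] using this
  · rw [Real.norm_eq_abs]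
    refine (lF_deriv_le h0 h1 z).trans ?_
    refine mul_le_mul_of_nonneg_left ?_ (by norm_num)
    rcases le_total x y with hxy | hxy
    · rw [Set.uIcc_of_le hxy] at hz
      have h2 := hmono hz.1
      have h3 := hmono hz.2
      refine abs_le.2 ⟨?_, ?_⟩
      · have := neg_abs_le (Real.tanh x)
        have h4 := le_max_left |Real.tanh x| |Real.tanh y|
        linarith
      · have := le_abs_self (Real.tanh y)
        have h4 := le_max_right |Real.tanh x| |Real.tanh y|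
        linarith
    · rw [Set.uIcc_of_ge hxy] at hz
      have h2 := hmono hz.1
      have h3 := hmono hz.2
      refine abs_le.2 ⟨?_, ?_⟩
      · have := neg_abs_le (Real.tanh y)
        have h4 := le_max_right |Real.tanh x| |Real.tanh y|
        linarith
      · have := le_abs_self (Real.tanh x)
        have h4 := le_max_left |Real.tanh x| |Real.tanh y|
        linarith

theorem lF_lip (h0 : 0 < θ) (h1 : θ < 1) (x y : ℝ) : |lF θ x - lF θ y| ≤ 2 * |x - y| := by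
  refine (lF_sub_le h0 h1 x y).trans ?_
  refine mul_le_mul_of_nonneg_right ?_ (abs_nonneg _)
  have h2 : max |Real.tanh x| |Real.tanh y| ≤ 1 :=
    max_le (abs_tanh_le_one x) (abs_tanh_le_one y)
  linarith

/-- Dependence of `ℓ` on `θ`. -/
theorem lF_theta_sub_le {θ₀ θ₁ θ₂ : ℝ} (h0 : 0 < θ₀) (h1 : θ₀ ≤ θ₁) (h2 : θ₀ ≤ θ₂)
    (h3 : θ₁ ^ 2 ≤ 1 / 2) (h4 : θ₂ ^ 2 ≤ 1 / 2) (x : ℝ) :
    |lF θ₁ x - lF θ₂ x| ≤ (1 / θ₀ + 4) * |θ₁ - θ₂| := by
  have hθ₁ : 0 < θ₁ := by linarith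
  have hθ₂ : 0 < θ₂ := by linarith
  have hl1 : θ₁ < 1 := by nlinarith
  have hl2 : θ₂ < 1 := by nlinarith
  rw [lF_eq hθ₁ hl1, lF_eq hθ₂ hl2]
  set S := Real.sinh x ^ 2 with hS
  have hS0 : 0 ≤ S := sq_nonneg _
  have key : ∀ a b : ℝ, 0 < a → 0 < b → Real.log a - Real.log b ≤ (a - b) / b := by
    intro a b ha hb
    rw [← Real.log_div ha.ne' hb.ne']
    have := Real.log_le_sub_one_of_pos (div_pos ha hb)
    have e : a / b - 1 = (a - b) / b := by field_simp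
    linarith
  have hlog : |Real.log θ₁ - Real.log θ₂| ≤ |θ₁ - θ₂| / θ₀ := by
    have hy : ∀ a b : ℝ, θ₀ ≤ a → θ₀ ≤ b → Real.log a - Real.log b ≤ |a - b| / θ₀ := by
      intro a b ha hb
      have hb0 : 0 < b := by linarith
      refine (key a b (by linarith) hb0).trans ?_
      calc (a - b) / b ≤ |a - b| / b := by
            exact div_le_div_of_nonneg_right (le_abs_self _) hb0.le
        _ ≤ |a - b| / θ₀ := div_le_div_of_nonneg_left (abs_nonneg _) h0 hb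
    rw [abs_le]
    constructor
    · have := hy θ₂ θ₁ h2 h1
      rw [abs_sub_comm] at this
      linarith
    · exact hy θ₁ θ₂ h1 h2
  have hden : |Real.log (1 + (1 - θ₁ ^ 2) * S) - Real.log (1 + (1 - θ₂ ^ 2) * S)|
      ≤ 4 * |θ₁ - θ₂| := by
    have hy : ∀ a b : ℝ, 0 < a → 0 < b → a ^ 2 ≤ 1 / 2 → b ^ 2 ≤ 1 / 2 →
        Real.log (1 + (1 - a ^ 2) * S) - Real.log (1 + (1 - b ^ 2) * S) ≤ 4 * |a - b| := by
      intro a b ha hb ha2 hb2
      have hκa : 1 / 2 ≤ 1 - a ^ 2 := by linarith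
      have hκb : 1 / 2 ≤ 1 - b ^ 2 := by linarith
      have hp1 : 0 < 1 + (1 - a ^ 2) * S := by positivity
      have hp2 : 0 < 1 + (1 - b ^ 2) * S := by positivity
      refine (key _ _ hp1 hp2).trans ?_
      rw [div_le_iff₀ hp2]
      have e : 1 + (1 - a ^ 2) * S - (1 + (1 - b ^ 2) * S) = (b - a) * (b + a) * S := by ring
      rw [e]
      have h5 : (b - a) * (b + a) ≤ |a - b| * 2 := by
        have h6a : a ≤ 1 := by nlinarith
        have h6b : b ≤ 1 := by nlinarith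
        have h6 : b + a ≤ 2 := by linarith
        have h7 : b - a ≤ |a - b| := by rw [abs_sub_comm]; exact le_abs_self _
        have h8 : 0 ≤ b + a := by linarith
        calc (b - a) * (b + a) ≤ |a - b| * (b + a) := mul_le_mul_of_nonneg_right h7 h8
          _ ≤ |a - b| * 2 := mul_le_mul_of_nonneg_left h6 (abs_nonneg _)
      have h6 : (b - a) * (b + a) * S ≤ (|a - b| * 2) * S := mul_le_mul_of_nonneg_right h5 hS0
      have h7 : (|a - b| * 2) * S ≤ 4 * |a - b| * ((1 - b ^ 2) * S) := by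
        have h8 : 0 ≤ |a - b| * S := by positivity
        nlinarith
      have h8 : 0 ≤ 4 * |a - b| := by positivity
      nlinarith
    rw [abs_le]
    constructor
    · have := hy θ₂ θ₁ hθ₂ hθ₁ h4 h3
      rw [abs_sub_comm] at this
      linarith
    · exact hy θ₁ θ₂ hθ₁ hθ₂ h3 h4
  have e : Real.log θ₁ - Real.log (1 + (1 - θ₁ ^ 2) * S)
      - (Real.log θ₂ - Real.log (1 + (1 - θ₂ ^ 2) * S))
      = (Real.log θ₁ - Real.log θ₂)
        - (Real.log (1 + (1 - θ₁ ^ 2) * S) - Real.log (1 + (1 - θ₂ ^ 2) * S)) := by ring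
  rw [e]
  refine (abs_sub _ _).trans ?_
  have e2 : (1 / θ₀ + 4) * |θ₁ - θ₂| = |θ₁ - θ₂| / θ₀ + 4 * |θ₁ - θ₂| := by
    field_simp
  rw [e2]
  exact add_le_add hlog hden

/-- Dependence of `h` on `θ`. -/
theorem hm_theta_sub_le {θ₁ θ₂ : ℝ} (h1 : 0 ≤ θ₁) (h2 : 0 ≤ θ₂)
    (h3 : θ₁ ^ 2 ≤ 1 / 2) (h4 : θ₂ ^ 2 ≤ 1 / 2) (x : ℝ) :
    |hm θ₁ x - hm θ₂ x| ≤ 2 * |θ₁ - θ₂| := by
  set s := Real.sinh x
  set c := Real.cosh x
  have hc : 0 < c := Real.cosh_pos x
  have hcs : c ^ 2 = 1 + s ^ 2 := cs x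
  have habs : |s| < c := by
    apply abs_lt_of_sq_lt_sq _ hc.le
    rw [hcs]; linarith
  have hmem : ∀ a : ℝ, a ^ 2 ≤ 1 / 2 → 0 ≤ a → 0 < c + a * s ∧ 0 < c - a * s := by
    intro a ha ha0
    have ha1 : a ≤ 1 := by nlinarith
    have h5 := abs_lt.1 habs
    constructor <;> nlinarith [abs_nonneg s]
  set T : Set ℝ := {a | 0 ≤ a ∧ a ^ 2 ≤ 1 / 2} with hT
  have hconv : Convex ℝ T := by
    have : T = Set.Icc 0 (Real.sqrt (1 / 2)) := by
      ext a
      simp only [hT, Set.mem_setOf_eq, Set.mem_Icc]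
      constructor
      · rintro ⟨ha, hb⟩
        exact ⟨ha, Real.le_sqrt_of_sq_le hb⟩
      · rintro ⟨ha, hb⟩
        refine ⟨ha, ?_⟩
        have := Real.sq_sqrt (show (0 : ℝ) ≤ 1 / 2 by norm_num)
        nlinarith [Real.sqrt_nonneg (1 / 2 : ℝ)]
    rw [this]
    exact convex_Icc _ _
  have hder : ∀ a ∈ T, HasDerivWithinAt (fun a => hm a x)
      (s * c / (c ^ 2 - a ^ 2 * s ^ 2)) T a := by
    intro a ha
    obtain ⟨hp, hq⟩ := hmem a ha.2 ha.1
    have hf : Set.EqOn (fun a => hm a x)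
        (fun a => (Real.log (c + a * s) - Real.log (c - a * s)) / 2) T := by
      intro y hy
      obtain ⟨hp', hq'⟩ := hmem y hy.2 hy.1
      simp only [hm]
      rw [Real.log_div hp'.ne' hq'.ne']
    have hP : HasDerivAt (fun a => c + a * s) s a := by
      simpa using ((hasDerivAt_id a).mul_const s).const_add c
    have hQ : HasDerivAt (fun a => c - a * s) (-s) a := by
      simpa using ((hasDerivAt_id a).mul_const s).const_sub c
    have h5 : HasDerivAt (fun a => (Real.log (c + a * s) - Real.log (c - a * s)) / 2)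
        ((s / (c + a * s) - (-s) / (c - a * s)) / 2) a :=
      ((hP.log hp.ne').sub (hQ.log hq.ne')).div_const 2
    have e : (s / (c + a * s) - (-s) / (c - a * s)) / 2 = s * c / (c ^ 2 - a ^ 2 * s ^ 2) := by
      have e2 : c ^ 2 - a ^ 2 * s ^ 2 = (c + a * s) * (c - a * s) := by ring
      have hp' := hp.ne'
      have hq' := hq.ne'
      rw [e2, div_sub_div _ _ hp' hq', div_div, div_eq_div_iff
        (mul_ne_zero (mul_ne_zero hp' hq') two_ne_zero) (mul_ne_zero hp' hq')]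
      ring
    rw [← e]
    exact (h5.hasDerivWithinAt).congr hf (hf ha)
  have hbd : ∀ a ∈ T, ‖s * c / (c ^ 2 - a ^ 2 * s ^ 2)‖ ≤ 2 := by
    intro a ha
    have h5 : 0 < c ^ 2 - a ^ 2 * s ^ 2 := by
      have : a ^ 2 * s ^ 2 ≤ 1 / 2 * s ^ 2 := mul_le_mul_of_nonneg_right ha.2 (sq_nonneg _)
      nlinarith [sq_nonneg s]
    rw [Real.norm_eq_abs, abs_div, abs_of_pos h5, abs_mul, abs_of_pos hc,
      div_le_iff₀ h5]
    have h6 : a ^ 2 * s ^ 2 ≤ 1 / 2 * s ^ 2 := mul_le_mul_of_nonneg_right ha.2 (sq_nonneg _)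
    have h7 : |s| * c ≤ c ^ 2 := by nlinarith [abs_nonneg s]
    have h8 : s ^ 2 ≤ c ^ 2 := by linarith
    nlinarith
  have := hconv.norm_image_sub_le_of_norm_hasDerivWithin_le hder hbd
    (⟨h2, h4⟩ : θ₂ ∈ T) (⟨h1, h3⟩ : θ₁ ∈ T)
  simpa [Real.norm_eq_abs] using this

/-- The elementary inequality `(A - B)² ≤ (A² + B²) min(1, (log A - log B)²)`. -/
theorem sq_sub_le_log {A B : ℝ} (hA : 0 < A) (hB : 0 < B) :
    (A - B) ^ 2 ≤ (A ^ 2 + B ^ 2) * min 1 ((Real.log A - Real.log B) ^ 2) := by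
  have key : ∀ a b : ℝ, 0 < a → 0 < b → b ≤ a →
      (a - b) ^ 2 ≤ a ^ 2 * min 1 ((Real.log a - Real.log b) ^ 2) := by
    intro a b ha hb hab
    have hG : 0 ≤ Real.log a - Real.log b := sub_nonneg.2 (Real.log_le_log hb hab)
    have h1 : 1 - b / a ≤ Real.log a - Real.log b := by
      rw [← Real.log_div ha.ne' hb.ne']
      have := Real.one_sub_inv_le_log_of_pos (div_pos ha hb)
      rwa [inv_div] at this
    have h2 : 0 ≤ 1 - b / a := by
      rw [sub_nonneg, div_le_one ha]; exact hab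
    have h3 : 1 - b / a ≤ 1 := by
      have : 0 ≤ b / a := by positivity
      linarith
    have e : (a - b) ^ 2 = a ^ 2 * (1 - b / a) ^ 2 := by
      field_simp
    rw [e]
    refine mul_le_mul_of_nonneg_left (le_min ?_ ?_) (sq_nonneg _)
    · exact pow_le_one₀ h2 h3
    · exact pow_le_pow_left₀ h2 h1 2
  rcases le_total B A with h | h
  · have := key A B hA hB h
    have h2 : 0 ≤ min 1 ((Real.log A - Real.log B) ^ 2) := le_min zero_le_one (sq_nonneg _)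
    nlinarith [sq_nonneg B, mul_nonneg (sq_nonneg B) h2]
  · have := key B A hB hA h
    have e1 : (Real.log B - Real.log A) ^ 2 = (Real.log A - Real.log B) ^ 2 := by ring
    rw [e1] at this
    have h2 : 0 ≤ min 1 ((Real.log A - Real.log B) ^ 2) := le_min zero_le_one (sq_nonneg _)
    have e2 : (A - B) ^ 2 = (B - A) ^ 2 := by ring
    rw [e2]
    nlinarith [sq_nonneg A, mul_nonneg (sq_nonneg A) h2]

/-- `x ≤ y + x^p / y^p` for `x ∈ [0, 1]`, `y ∈ (0, 1]`. -/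
theorem le_add_pow_div {x y : ℝ} (hx0 : 0 ≤ x) (hy0 : 0 < y) (hy1 : y ≤ 1) {p : ℕ}
    (hp : 1 ≤ p) : x ≤ y + x ^ p / y ^ p := by
  rcases le_or_gt x y with h | h
  · have : 0 ≤ x ^ p / y ^ p := by positivity
    linarith
  · have h2 : 1 ≤ x / y := by rw [one_le_div hy0]; exact h.le
    have h3 : x / y ≤ (x / y) ^ p := le_self_pow₀ h2 (by omega)
    have h4 : x ≤ x / y := by
      rw [le_div_iff₀ hy0]
      nlinarith
    have h5 : x ^ p / y ^ p = (x / y) ^ p := by rw [div_pow]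
    rw [h5]
    linarith

end

end Vale.Agent.Lib.P161
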