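import Vale.Agent.Lib.P161.End.Local
import Vale.Agent.Lib.P161.End.PathSum
import Vale.Agent.Lib.P161.End.Scal

/-!
P161 endpoint, module Field: equivariant local fields on the uniform field, invariance of integrals
under the automorphisms of the tree, integrals of path sums.
-/

open MeasureTheory ProbabilityTheory Finset

set_option linter.unusedSectionVars false

namespace Vale.Agent.Lib.P161

noncomputable section

variable {V : Type*} [DecidableEq V] {G : SimpleGraph V} [G.LocallyFinite] {d : ℕ}

/-- An equivariant, local, square integrable random field on the directed edges. -/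
structure EqField (G : SimpleGraph V) [G.LocallyFinite]
    (η : (V → unitInterval) → V → V → ℝ) : Prop where
  meas : ∀ a b, Measurable fun u => η u a b
  equiv : ∀ (g : G ≃g G) (u : V → unitInterval) (a b : V), η (u ∘ g.symm) (g a) (g b) = η u a b
  loc : ∃ r : ℕ, ∀ a b, G.Adj a b → ∀ u u' : V → unitInterval,
    (∀ w, G.dist a w ≤ r → u w = u' w) → η u a b = η u' a b
  memLp : ∀ a b, MemLp (fun u => η u a b) 2 (uniformField V)

/-- Invariance of the uniform field under automorphisms. -/
theorem integral_aut (F : (V → unitInterval) → ℝ) (hF : Measurable F) (g : G ≃g G) :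
    ∫ u, F (u ∘ g.symm) ∂(uniformField V) = ∫ u, F u ∂(uniformField V) :=
  integral_uniformField_comp g.symm.toEquiv F hF

/-- `prodW` of a path mapped by an automorphism. -/
theorem prodW_map {W W' : V → V → ℝ} (g : V → V) (hW : ∀ x y, W' (g x) (g y) = W x y)
    (π : List V) : prodW W' (π.map g) = prodW W π := by
  induction π with
  | nil => rfl
  | cons x l ih =>
    cases l with
    | nil => rfl
    | cons y l =>
      cases l with
      | nil => rfl
      | cons z l =>
        have e : ((x :: y :: z :: l).map g) = g x :: g y :: g z :: l.map g := rfl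
        have e2 : ((y :: z :: l).map g) = g y :: g z :: l.map g := rfl
        rw [e, prodW_cons, prodW_cons, hW, ← e2, ih]

/-- Integrals of equivariant path functionals only depend on the length of the path. -/
theorem integral_path_const (hT : G.IsTree) (hdeg : ∀ v, G.degree v = d) (hd : 2 ≤ d)
    (Φ : (V → unitInterval) → List V → ℝ) (hm : ∀ π, Measurable fun u => Φ u π)
    (he : ∀ (g : G ≃g G) u π, Φ (u ∘ g.symm) (π.map g) = Φ u π) {π₁ π₂ : List V}
    (h1 : NBList G π₁) (h2 : NBList G π₂) (hl : π₁.length = π₂.length) :
    ∫ u, Φ u π₁ ∂(uniformField V) = ∫ u, Φ u π₂ ∂(uniformField V) := by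
  obtain ⟨g, hg⟩ := exists_aut_list hT hdeg hd h1 h2 hl
  rw [← hg, ← integral_aut (fun u => Φ u (π₁.map g)) (hm _) g]
  exact integral_congr_ae (Filter.Eventually.of_forall fun u => (he g u π₁).symm)

/-- The automorphism group is transitive on the directed edges, so integrals of equivariant edge
functionals do not depend on the edge. -/
theorem integral_edge_const (hT : G.IsTree) (hdeg : ∀ v, G.degree v = d) (hd : 2 ≤ d)
    (f : (V → unitInterval) → V → V → ℝ) (hm : ∀ a b, Measurable fun u => f u a b)
    (he : ∀ (g : G ≃g G) u a b, f (u ∘ g.symm) (g a) (g b) = f u a b) {a b a' b' : V}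
    (hab : G.Adj a b) (hab' : G.Adj a' b') :
    ∫ u, f u a b ∂(uniformField V) = ∫ u, f u a' b' ∂(uniformField V) := by
  have h1 : NBList G [a, b] := hab
  have h2 : NBList G [a', b'] := hab'
  obtain ⟨g, hg⟩ := exists_aut_list hT hdeg hd h1 h2 rfl
  have ha : g a = a' := by simpa using (List.cons.inj hg).1
  have hb : g b = b' := by
    have := (List.cons.inj hg).2
    simpa using (List.cons.inj this).1
  rw [← ha, ← hb, ← integral_aut (fun u => f u (g a) (g b)) (hm _ _) g]
  exact integral_congr_ae (Filter.Eventually.of_forall fun u => (he g u a b).symm)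

/-- An automorphism carrying a path to a path with the same suffix of the same length fixes the
suffix. -/
theorem map_suffix_eq {g : V → V} {s π₁ π₂ : List V} (h : π₁.map g = π₂) (h1 : s <:+ π₁)
    (h2 : s <:+ π₂) : s.map g = s := by
  obtain ⟨t₁, rfl⟩ := h1
  obtain ⟨t₂, rfl⟩ := h2
  have e : t₁.map g ++ s.map g = t₂ ++ s := by simpa using h
  have hlen : (t₁.map g).length = t₂.length := by
    have := congrArg List.length e
    simp only [List.length_append, List.length_map] at this ⊢
    omega
  exact (List.append_inj e hlen).2

/-- The integral of a path sum is the path sum of the integrals. -/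
theorem integral_pathSum {Ω : Type*} [MeasurableSpace Ω] {P : Measure Ω} {N : V → Finset V}
    (f : Ω → List V → ℝ) (hf : ∀ π, Integrable (fun u => f u π) P) (n : ℕ) (a b : V) (π : List V) :
    Integrable (fun u => pathSum N (f u) n a b π) P ∧
    ∫ u, pathSum N (f u) n a b π ∂P = pathSum N (fun π => ∫ u, f u π ∂P) n a b π := by
  induction n generalizing a b π with
  | zero => exact ⟨hf π, rfl⟩
  | succ n ih =>
    simp only [pathSum]
    refine ⟨integrable_finset_sum _ fun c _ => (ih c a _).1, ?_⟩
    rw [integral_finset_sum _ fun c _ => (ih c a _).1]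
    exact sum_congr rfl fun c _ => (ih c a _).2

theorem prodW_nonneg {W : V → V → ℝ} (h : ∀ x y, 0 ≤ W x y) (π : List V) : 0 ≤ prodW W π := by
  induction π with
  | nil => exact zero_le_one
  | cons x l ih =>
    cases l with
    | nil => exact zero_le_one
    | cons y l =>
      cases l with
      | nil => exact zero_le_one
      | cons z l =>
        rw [prodW_cons]
        exact mul_nonneg (h _ _) ih

theorem prodW_le_one {W : V → V → ℝ} (h0 : ∀ x y, 0 ≤ W x y) (h1 : ∀ x y, W x y ≤ 1) (π : List V) :
    prodW W π ≤ 1 := by
  induction π with
  | nil => exact le_rfl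
  | cons x l ih =>
    cases l with
    | nil => exact le_rfl
    | cons y l =>
      cases l with
      | nil => exact le_rfl
      | cons z l =>
        rw [prodW_cons]
        exact mul_le_one₀ (h1 _ _) (prodW_nonneg h0 _) ih

theorem measurable_prodW {Ω : Type*} [MeasurableSpace Ω] {W : Ω → V → V → ℝ}
    (h : ∀ x y, Measurable fun u => W u x y) (π : List V) :
    Measurable fun u => prodW (W u) π := by
  induction π with
  | nil => exact measurable_const
  | cons x l ih =>
    cases l with
    | nil => exact measurable_const
    | cons y l =>
      cases l with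
      | nil => exact measurable_const
      | cons z l =>
        simp only [prodW_cons]
        exact (h _ _).mul ih

end

end Vale.Agent.Lib.P161
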