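import Vale.Agent.Lib.P161.Stage

/-!
P161 endpoint, module Final: the reduction with a varying parameter (copy of `main_of_facts`).
-/

open MeasureTheory ProbabilityTheory Finset Filter

open scoped Topology

namespace Vale.Agent.Lib.P161

noncomputable section

variable {V : Type*} {G : SimpleGraph V} [G.LocallyFinite] [DecidableEq V] {d : ℕ}

/-- The cylinder weights depend continuously on the parameter. -/
lemma continuous_cylWeight (G : SimpleGraph V) (D : Finset V) (η : V → Bool) :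
    Continuous (fun θ : ℝ => cylWeight G θ D η) := by
  unfold cylWeight
  refine continuous_const.mul (continuous_finset_prod _ (fun e _ => ?_))
  induction e using Sym2.ind with
  | _ a b =>
    simp only [edgeFactor, Sym2.lift_mk]
    fun_prop

section Estimates5

variable {Ω : Type*} [MeasurableSpace Ω] {μ : Measure Ω} [IsProbabilityMeasure μ]

lemma stage_integral_sq_triangle5 {f₁ f₂ f₃ f₄ f₅ : Ω → ℝ} (m₁ : Measurable f₁) (m₂ : Measurable f₂)
    (m₃ : Measurable f₃) (m₄ : Measurable f₄) (m₅ : Measurable f₅) (b₁ : ∀ u, |f₁ u| ≤ 1)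
    (b₂ : ∀ u, |f₂ u| ≤ 1) (b₃ : ∀ u, |f₃ u| ≤ 1) (b₄ : ∀ u, |f₄ u| ≤ 1) (b₅ : ∀ u, |f₅ u| ≤ 1) :
    ∫ u, (f₁ u - f₅ u) ^ 2 ∂μ ≤ 4 * (∫ u, (f₁ u - f₂ u) ^ 2 ∂μ + ∫ u, (f₂ u - f₃ u) ^ 2 ∂μ
      + ∫ u, (f₃ u - f₄ u) ^ 2 ∂μ + ∫ u, (f₅ u - f₄ u) ^ 2 ∂μ) := by
  have i₁ := stage_integrable_sq_sub (μ := μ) m₁ m₂ b₁ b₂
  have i₂ := stage_integrable_sq_sub (μ := μ) m₂ m₃ b₂ b₃
  have i₃ := stage_integrable_sq_sub (μ := μ) m₃ m₄ b₃ b₄
  have i₄ := stage_integrable_sq_sub (μ := μ) m₅ m₄ b₅ b₄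
  have i₅ := stage_integrable_sq_sub (μ := μ) m₁ m₅ b₁ b₅
  have i₁₂ : Integrable (fun u => (f₁ u - f₂ u) ^ 2 + (f₂ u - f₃ u) ^ 2) μ := i₁.add i₂
  have i₁₂₃ : Integrable (fun u => (f₁ u - f₂ u) ^ 2 + (f₂ u - f₃ u) ^ 2 + (f₃ u - f₄ u) ^ 2) μ :=
    i₁₂.add i₃
  have i₁₂₃₄ : Integrable (fun u => (f₁ u - f₂ u) ^ 2 + (f₂ u - f₃ u) ^ 2 + (f₃ u - f₄ u) ^ 2
      + (f₅ u - f₄ u) ^ 2) μ := i₁₂₃.add i₄
  rw [← integral_add i₁ i₂, ← integral_add i₁₂ i₃, ← integral_add i₁₂₃ i₄, ← integral_const_mul]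
  refine integral_mono i₅ (i₁₂₃₄.const_mul 4) (fun u => ?_)
  simp only
  set a := f₁ u - f₂ u
  set b := f₂ u - f₃ u
  set c := f₃ u - f₄ u
  set e := f₅ u - f₄ u
  have h : f₁ u - f₅ u = a + b + c - e := by simp only [a, b, c, e]; ring
  rw [h]
  nlinarith [sq_nonneg (a - b), sq_nonneg (a - c), sq_nonneg (a + e), sq_nonneg (b - c),
    sq_nonneg (b + e), sq_nonneg (c + e)]

end Estimates5

/-- The reduction with a varying parameter `Θ n → θ`. -/
theorem main_of_facts_var [Countable V] {θ : ℝ}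
    (γ : ℕ → ℕ → unitInterval → ℝ) (hγ : ∀ j k, Measurable (γ j k))
    (Θ : ℕ → ℝ) (h0 : ∀ n, 0 ≤ Θ n) (h1 : ∀ n, Θ n < 1) (hΘ : Tendsto Θ atTop (𝓝 θ))
    (A : ℕ → Finset V) (hA : ∀ v, ∃ N, ∀ n, N ≤ n → v ∈ A n)
    (F1 : ∀ (n : ℕ) (v : V), ∃ ℓ₀ j₀ : ℕ, ∀ ℓ ℓ' j j', ℓ₀ ≤ ℓ → ℓ₀ ≤ ℓ' → j₀ ≤ j → j₀ ≤ j' →
      dist2 V (masterX G (Θ n) d γ ℓ j (4 ^ n) v) (masterX G (Θ n) d γ ℓ' j' (4 ^ n) v)
        ≤ (1 / 4 : ℝ) ^ n)
    (F2 : ∀ (n : ℕ) (v : V), ∃ ℓ₀ j₀ : ℕ, ∀ ℓ j, ℓ₀ ≤ ℓ → j₀ ≤ j →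
      dist2 V (masterX G (Θ (n + 1)) d γ ℓ j (4 ^ n) v)
        (masterX G (Θ (n + 1)) d γ ℓ j (4 ^ (n + 1)) v) ≤ 16 / ((4 ^ n : ℕ) : ℝ) + (1 / 4 : ℝ) ^ n)
    (FC : ∀ n, ∀ v ∈ A n, ∃ ℓ₀ j₀ : ℕ, ∀ ℓ j, ℓ₀ ≤ ℓ → j₀ ≤ j →
      dist2 V (masterX G (Θ n) d γ ℓ j (4 ^ n) v) (masterX G (Θ (n + 1)) d γ ℓ j (4 ^ n) v)
        ≤ (1 / 4 : ℝ) ^ n)
    (F3 : ∀ (n : ℕ) (D : Finset V), (G.induce (D : Set V)).Connected → ∀ (η : V → Bool),
      ∃ ℓ₀ j₀ : ℕ, ∀ ℓ j, ℓ₀ ≤ ℓ → j₀ ≤ j →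
        |∫ u, ∏ v ∈ D, ((1 + spin (η v) * masterX G (Θ n) d γ ℓ j (4 ^ n) v u) / 2) ∂(uniformField V)
          - cylWeight G (Θ n) D η| ≤ D.card / Real.sqrt ((4 ^ n : ℕ) : ℝ) + (1 / 2 : ℝ) ^ n)
    (F4 : ∀ (n : ℕ) (v : V), ∃ ℓ₀ j₀ : ℕ, ∀ ℓ j, ℓ₀ ≤ ℓ → j₀ ≤ j →
      ∫ u, |1 - masterX G (Θ n) d γ ℓ j (4 ^ n) v u ^ 2| ∂(uniformField V)
        ≤ 2 / Real.sqrt ((4 ^ n : ℕ) : ℝ) + (1 / 2 : ℝ) ^ n) :
    ∃ ν, IsFreeIsing G θ ν ∧ IsFactorOfIID G ν := by
  classical
  have hprob : IsProbabilityMeasure (uniformField V) := limit_uniformField_prob V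
  let t : ℕ → ℕ := fun n => 4 ^ n
  have hq : ∀ n : ℕ, (0 : ℝ) < (1 / 4 : ℝ) ^ n := fun n => by positivity
  have hs : ∀ n : ℕ, (0 : ℝ) < (1 / 2 : ℝ) ^ n := fun n => by positivity
  choose ℓ₁ j₁ hF1 using F1
  let ℓn : ℕ → ℕ := fun n => (A n).sup (ℓ₁ n)
  let jn : ℕ → ℕ := fun n => (A n).sup (j₁ n)
  let X : ℕ → V → (V → unitInterval) → ℝ := fun n v => masterX G (Θ n) d γ (ℓn n) (jn n) (t n) v
  have hMm : ∀ n ℓ j s v, Measurable (masterX G (Θ n) d γ ℓ j s v) :=
    fun n ℓ j s v => measurable_masterX (h0 n) (h1 n) hγ ℓ j s v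
  have hMb : ∀ n ℓ j s v u, |masterX G (Θ n) d γ ℓ j s v u| ≤ 1 :=
    fun _ _ _ _ _ _ => abs_clip_le_one _
  have key : ∀ n v, v ∈ A n → ∀ ℓ j, ℓn n ≤ ℓ → jn n ≤ j →
      ∫ u, (X n v u - masterX G (Θ n) d γ ℓ j (t n) v u) ^ 2 ∂(uniformField V) ≤ (1 / 4 : ℝ) ^ n := by
    intro n v hv ℓ j hℓ hj
    exact hF1 n v _ _ _ _ (Finset.le_sup hv) ((Finset.le_sup hv).trans hℓ) (Finset.le_sup hv)
      ((Finset.le_sup hv).trans hj)
  refine limit_factor G θ X (fun n v => hMm _ _ _ _ _) (fun n v u => hMb _ _ _ _ _ _)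
    (fun e n v u => masterX_equivariant γ e _ _ _ v u) ?_ ?_ ?_
  · -- the Cauchy estimate
    intro v
    obtain ⟨N, hN⟩ := hA v
    refine ⟨100, N, fun n hn => ?_⟩
    have hv : v ∈ A n := hN n hn
    have hv' : v ∈ A (n + 1) := hN (n + 1) (by omega)
    obtain ⟨ℓ₀, j₀, hF2⟩ := F2 n v
    obtain ⟨ℓ₂, j₂, hFC⟩ := FC n v hv
    let ℓ := max (max (ℓn n) (ℓn (n + 1))) (max ℓ₀ ℓ₂)
    let j := max (max (jn n) (jn (n + 1))) (max j₀ j₂)
    have h1a := key n v hv ℓ j ((le_max_left _ _).trans (le_max_left _ _))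
      ((le_max_left _ _).trans (le_max_left _ _))
    have h1b := key (n + 1) v hv' ℓ j ((le_max_right _ _).trans (le_max_left _ _))
      ((le_max_right _ _).trans (le_max_left _ _))
    have h1c : ∫ u, (masterX G (Θ (n + 1)) d γ ℓ j (t n) v u
        - masterX G (Θ (n + 1)) d γ ℓ j (t (n + 1)) v u) ^ 2
        ∂(uniformField V) ≤ 16 / (t n : ℝ) + (1 / 4 : ℝ) ^ n :=
      hF2 ℓ j ((le_max_left _ _).trans (le_max_right _ _))
        ((le_max_left _ _).trans (le_max_right _ _))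
    have h1d : ∫ u, (masterX G (Θ n) d γ ℓ j (t n) v u
        - masterX G (Θ (n + 1)) d γ ℓ j (t n) v u) ^ 2
        ∂(uniformField V) ≤ (1 / 4 : ℝ) ^ n :=
      hFC ℓ j ((le_max_right _ _).trans (le_max_right _ _))
        ((le_max_right _ _).trans (le_max_right _ _))
    have htri := stage_integral_sq_triangle5 (μ := uniformField V)
      (hMm n (ℓn n) (jn n) (t n) v) (hMm n ℓ j (t n) v) (hMm (n + 1) ℓ j (t n) v)
      (hMm (n + 1) ℓ j (t (n + 1)) v)
      (hMm (n + 1) (ℓn (n + 1)) (jn (n + 1)) (t (n + 1)) v)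
      (hMb _ _ _ _ _) (hMb _ _ _ _ _) (hMb _ _ _ _ _) (hMb _ _ _ _ _) (hMb _ _ _ _ _)
    refine htri.trans ?_
    have h16 : 16 / (t n : ℝ) = 16 * (1 / 4 : ℝ) ^ n := stage_sixteen_div_four_pow n
    rw [h16] at h1c
    have hpos := hq n
    have hnext : (1 / 4 : ℝ) ^ (n + 1) = (1 / 4 : ℝ) ^ n * (1 / 4) := pow_succ _ _
    rw [hnext] at h1b
    have h1a' : ∫ u, (masterX G (Θ n) d γ (ℓn n) (jn n) (t n) v u
        - masterX G (Θ n) d γ ℓ j (t n) v u) ^ 2
        ∂(uniformField V) ≤ (1 / 4 : ℝ) ^ n := h1a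
    have h1b' : ∫ u, (masterX G (Θ (n + 1)) d γ (ℓn (n + 1)) (jn (n + 1)) (t (n + 1)) v u
        - masterX G (Θ (n + 1)) d γ ℓ j (t (n + 1)) v u) ^ 2
        ∂(uniformField V) ≤ (1 / 4 : ℝ) ^ n * (1 / 4) := h1b
    linarith
  · -- the estimator approaches plus or minus one
    intro v
    refine squeeze_zero' (Eventually.of_forall (fun n => integral_nonneg (fun u => abs_nonneg _)))
      (g := fun n => 5 * (1 / 2 : ℝ) ^ n) ?_ ?_
    · obtain ⟨N, hN⟩ := hA v
      filter_upwards [eventually_ge_atTop N] with n hn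
      have hv : v ∈ A n := hN n hn
      obtain ⟨ℓ₀, j₀, hF4⟩ := F4 n v
      let ℓ := max (ℓn n) ℓ₀
      let j := max (jn n) j₀
      have h1a := key n v hv ℓ j (le_max_left _ _) (le_max_left _ _)
      have h1c := hF4 ℓ j (le_max_right _ _) (le_max_right _ _)
      have hsq : Real.sqrt (t n : ℝ) = 2 ^ n := stage_sqrt_four_pow n
      rw [hsq] at h1c
      have h2s : (2 : ℝ) / 2 ^ n = 2 * (1 / 2 : ℝ) ^ n := by
        rw [one_div_pow]; ring
      rw [h2s] at h1c
      -- pointwise comparison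
      set M := masterX G (Θ n) d γ ℓ j (t n) v with hM
      have hMmM : Measurable M := hMm n _ _ _ _
      have hMbM : ∀ u, |M u| ≤ 1 := hMb n _ _ _ _
      have hXm : Measurable (X n v) := hMm n _ _ _ _
      have hXb : ∀ u, |X n v u| ≤ 1 := hMb n _ _ _ _
      have hI1 : Integrable (fun u => |1 - X n v u ^ 2|) (uniformField V) := by
        refine stage_integrable_of_abs_le ((measurable_const.sub (hXm.pow_const 2))).abs (C := 1)
          (fun u => ?_)
        have := abs_le.1 (hXb u)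
        rw [abs_abs, abs_le]
        constructor <;> nlinarith [sq_nonneg (X n v u)]
      have hI2 : Integrable (fun u => |1 - M u ^ 2|) (uniformField V) := by
        refine stage_integrable_of_abs_le ((measurable_const.sub (hMmM.pow_const 2))).abs (C := 1)
          (fun u => ?_)
        have := abs_le.1 (hMbM u)
        rw [abs_abs, abs_le]
        constructor <;> nlinarith [sq_nonneg (M u)]
      have hI3 := stage_integrable_sq_sub (μ := uniformField V) hXm hMmM hXb hMbM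
      have hpt : ∀ u, |1 - X n v u ^ 2| ≤
          |1 - M u ^ 2| + ((X n v u - M u) ^ 2 / (1 / 2 : ℝ) ^ n + (1 / 2 : ℝ) ^ n) := by
        intro u
        have h2 := stage_abs_le_sq_div (X n v u - M u) _ (hs n)
        have h3 : |X n v u ^ 2 - M u ^ 2| ≤ 2 * |X n v u - M u| := by
          have e : X n v u ^ 2 - M u ^ 2 = (X n v u - M u) * (X n v u + M u) := by ring
          rw [e, abs_mul, mul_comm]
          refine mul_le_mul_of_nonneg_right ?_ (abs_nonneg _)
          refine (abs_add_le _ _).trans ?_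
          linarith [hXb u, hMbM u]
        have h4 : |1 - X n v u ^ 2| ≤ |1 - M u ^ 2| + |X n v u ^ 2 - M u ^ 2| := by
          have e : 1 - X n v u ^ 2 = (1 - M u ^ 2) - (X n v u ^ 2 - M u ^ 2) := by ring
          rw [e]
          exact abs_sub _ _
        have h5 : 2 * ((X n v u - M u) ^ 2 / (2 * (1 / 2 : ℝ) ^ n) + (1 / 2 : ℝ) ^ n / 2)
            = (X n v u - M u) ^ 2 / (1 / 2 : ℝ) ^ n + (1 / 2 : ℝ) ^ n := by
          have := (hs n).ne'
          field_simp
        linarith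
      have hI4 : Integrable (fun u => (X n v u - M u) ^ 2 / (1 / 2 : ℝ) ^ n + (1 / 2 : ℝ) ^ n)
          (uniformField V) := (hI3.div_const _).add (integrable_const _)
      calc ∫ u, |1 - X n v u ^ 2| ∂(uniformField V)
          ≤ ∫ u, (|1 - M u ^ 2| + ((X n v u - M u) ^ 2 / (1 / 2 : ℝ) ^ n + (1 / 2 : ℝ) ^ n))
              ∂(uniformField V) :=
            integral_mono hI1 (hI2.add hI4) hpt
        _ = ∫ u, |1 - M u ^ 2| ∂(uniformField V)
              + ((∫ u, (X n v u - M u) ^ 2 ∂(uniformField V)) / (1 / 2 : ℝ) ^ n + (1 / 2 : ℝ) ^ n) := by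
            rw [integral_add hI2 hI4, integral_add (hI3.div_const _) (integrable_const _),
              integral_div]
            simp
        _ ≤ (2 * (1 / 2 : ℝ) ^ n + (1 / 2 : ℝ) ^ n)
              + ((1 / 4 : ℝ) ^ n / (1 / 2 : ℝ) ^ n + (1 / 2 : ℝ) ^ n) := by
            refine add_le_add h1c (add_le_add_left ?_ _)
            exact div_le_div_of_nonneg_right h1a (hs n).le
        _ = 5 * (1 / 2 : ℝ) ^ n := by
            rw [stage_half_pow_mul_half_pow]
            ring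
    · have := (tendsto_pow_atTop_nhds_zero_of_lt_one (r := (1 / 2 : ℝ)) (by norm_num)
        (by norm_num)).const_mul 5
      simpa using this
  · -- the cylinder integrals
    intro D hD η
    rw [tendsto_iff_norm_sub_tendsto_zero]
    have hcyl : Tendsto (fun n => |cylWeight G (Θ n) D η - cylWeight G θ D η|) atTop (𝓝 0) := by
      have h2 := (continuous_cylWeight G D η).tendsto θ |>.comp hΘ
      have h3 := (h2.sub_const (cylWeight G θ D η)).abs
      simpa using h3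
    refine squeeze_zero' (Eventually.of_forall (fun n => norm_nonneg _))
      (g := fun n => ((D.card : ℝ) * (3 / 2) + 1) * (1 / 2 : ℝ) ^ n
        + |cylWeight G (Θ n) D η - cylWeight G θ D η|) ?_ ?_
    · obtain ⟨N, hN⟩ : ∃ N, ∀ n, N ≤ n → ∀ v ∈ D, v ∈ A n := by
        choose N hN using hA
        refine ⟨D.sup N, fun n hn v hv => hN v n (le_trans (Finset.le_sup hv) hn)⟩
      filter_upwards [eventually_ge_atTop N] with n hn
      have hDA : ∀ v ∈ D, v ∈ A n := hN n hn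
      obtain ⟨ℓ₀, j₀, hF3⟩ := F3 n D hD η
      let ℓ := max (ℓn n) ℓ₀
      let j := max (jn n) j₀
      have h1c := hF3 ℓ j (le_max_right _ _) (le_max_right _ _)
      have hsq : Real.sqrt (t n : ℝ) = 2 ^ n := stage_sqrt_four_pow n
      rw [hsq] at h1c
      have hcard : (D.card : ℝ) / 2 ^ n = (D.card : ℝ) * (1 / 2 : ℝ) ^ n := by
        rw [one_div_pow]; ring
      rw [hcard] at h1c
      -- products
      let PX : (V → unitInterval) → ℝ := fun u => ∏ v ∈ D, ((1 + spin (η v) * X n v u) / 2)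
      let PM : (V → unitInterval) → ℝ :=
        fun u => ∏ v ∈ D, ((1 + spin (η v) * masterX G (Θ n) d γ ℓ j (t n) v u) / 2)
      have hXm : ∀ v, Measurable (X n v) := fun v => hMm n _ _ _ _
      have hPXm : Measurable PX := Finset.measurable_prod _ (fun v _ =>
        ((measurable_const.add (measurable_const.mul (hXm v))).div_const 2))
      have hPMm : Measurable PM := Finset.measurable_prod _ (fun v _ =>
        ((measurable_const.add (measurable_const.mul (hMm n ℓ j (t n) v))).div_const 2))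
      have hfacX : ∀ u v, 0 ≤ (1 + spin (η v) * X n v u) / 2 ∧ (1 + spin (η v) * X n v u) / 2 ≤ 1 :=
        fun u v => stage_spin_factor_mem (η v) (hMb n _ _ _ _ _)
      have hfacM : ∀ u v, 0 ≤ (1 + spin (η v) * masterX G (Θ n) d γ ℓ j (t n) v u) / 2 ∧
          (1 + spin (η v) * masterX G (Θ n) d γ ℓ j (t n) v u) / 2 ≤ 1 :=
        fun u v => stage_spin_factor_mem (η v) (hMb n _ _ _ _ _)
      have hPXb : ∀ u, |PX u| ≤ 1 := by
        intro u
        rw [abs_of_nonneg (Finset.prod_nonneg (fun v _ => (hfacX u v).1))]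
        exact Finset.prod_le_one (fun v _ => (hfacX u v).1) (fun v _ => (hfacX u v).2)
      have hPMb : ∀ u, |PM u| ≤ 1 := by
        intro u
        rw [abs_of_nonneg (Finset.prod_nonneg (fun v _ => (hfacM u v).1))]
        exact Finset.prod_le_one (fun v _ => (hfacM u v).1) (fun v _ => (hfacM u v).2)
      have hIX : Integrable PX (uniformField V) := stage_integrable_of_abs_le hPXm hPXb
      have hIM : Integrable PM (uniformField V) := stage_integrable_of_abs_le hPMm hPMb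
      -- the mean absolute difference at each vertex
      have hvert : ∀ v ∈ D, ∫ u, |X n v u - masterX G (Θ n) d γ ℓ j (t n) v u| ∂(uniformField V)
          ≤ (1 / 2 : ℝ) ^ n := by
        intro v hv
        have h2 := key n v (hDA v hv) ℓ j (le_max_left _ _) (le_max_left _ _)
        have h3 := stage_integral_abs_sub_le (μ := uniformField V) (hXm v) (hMm n ℓ j (t n) v)
          (hMb n _ _ _ _) (hMb n _ _ _ _) (hs n)
        have h4 : (∫ u, (X n v u - masterX G (Θ n) d γ ℓ j (t n) v u) ^ 2 ∂(uniformField V))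
            / (2 * (1 / 2 : ℝ) ^ n) ≤ (1 / 4 : ℝ) ^ n / (2 * (1 / 2 : ℝ) ^ n) :=
          div_le_div_of_nonneg_right h2 (by positivity)
        have h5 : (1 / 4 : ℝ) ^ n / (2 * (1 / 2 : ℝ) ^ n) = (1 / 2 : ℝ) ^ n / 2 := by
          have e : (1 / 4 : ℝ) ^ n = (1 / 2 : ℝ) ^ n * (1 / 2 : ℝ) ^ n := by
            rw [← mul_pow]
            norm_num
          have := (hs n).ne'
          rw [e]
          field_simp
        linarith
      have hIabs : ∀ v, Integrable (fun u => |X n v u - masterX G (Θ n) d γ ℓ j (t n) v u|)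
          (uniformField V) := by
        intro v
        refine stage_integrable_of_abs_le ((hXm v).sub (hMm n ℓ j (t n) v)).abs (C := 2) (fun u => ?_)
        have h1 := abs_le.1 (hMb n (ℓn n) (jn n) (t n) v u)
        have h2 := abs_le.1 (hMb n ℓ j (t n) v u)
        have h1' : |X n v u| ≤ 1 := hMb n _ _ _ _ _
        have h1'' := abs_le.1 h1'
        rw [abs_abs, abs_le]
        constructor <;> linarith
      have hdiff : |∫ u, PX u ∂(uniformField V) - ∫ u, PM u ∂(uniformField V)|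
          ≤ (D.card : ℝ) * (1 / 2 : ℝ) ^ n / 2 := by
        rw [← integral_sub hIX hIM]
        refine (abs_integral_le_integral_abs).trans ?_
        have hpt : ∀ u, |PX u - PM u| ≤ ∑ v ∈ D, |X n v u - masterX G (Θ n) d γ ℓ j (t n) v u| / 2 := by
          intro u
          refine (stage_abs_prod_sub_prod_le D _ _ (fun v _ => hfacX u v) (fun v _ => hfacM u v)).trans
            (le_of_eq ?_)
          exact Finset.sum_congr rfl (fun v _ => stage_spin_factor_sub _ _ _)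
        have hIsum : Integrable (fun u => ∑ v ∈ D, |X n v u - masterX G (Θ n) d γ ℓ j (t n) v u| / 2)
            (uniformField V) := integrable_finset_sum _ (fun v _ => (hIabs v).div_const 2)
        have hIabsP : Integrable (fun u => |PX u - PM u|) (uniformField V) := (hIX.sub hIM).abs
        calc ∫ u, |PX u - PM u| ∂(uniformField V)
            ≤ ∫ u, ∑ v ∈ D, |X n v u - masterX G (Θ n) d γ ℓ j (t n) v u| / 2 ∂(uniformField V) :=
              integral_mono hIabsP hIsum hpt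
          _ = ∑ v ∈ D, (∫ u, |X n v u - masterX G (Θ n) d γ ℓ j (t n) v u| ∂(uniformField V)) / 2 := by
              rw [integral_finset_sum _ (fun v _ => (hIabs v).div_const 2)]
              exact Finset.sum_congr rfl (fun v _ => integral_div _ _)
          _ ≤ ∑ _v ∈ D, (1 / 2 : ℝ) ^ n / 2 :=
              Finset.sum_le_sum (fun v hv => div_le_div_of_nonneg_right (hvert v hv) (by norm_num))
          _ = (D.card : ℝ) * (1 / 2 : ℝ) ^ n / 2 := by
              rw [Finset.sum_const, nsmul_eq_mul]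
              ring
      rw [Real.norm_eq_abs]
      have htri : |∫ u, PX u ∂(uniformField V) - cylWeight G (Θ n) D η|
          ≤ |∫ u, PX u ∂(uniformField V) - ∫ u, PM u ∂(uniformField V)|
            + |∫ u, PM u ∂(uniformField V) - cylWeight G (Θ n) D η| := abs_sub_le _ _ _
      have h1c' : |∫ u, PM u ∂(uniformField V) - cylWeight G (Θ n) D η|
          ≤ (D.card : ℝ) * (1 / 2 : ℝ) ^ n + (1 / 2 : ℝ) ^ n := h1c
      have htri2 : |∫ u, PX u ∂(uniformField V) - cylWeight G θ D η|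
          ≤ |∫ u, PX u ∂(uniformField V) - cylWeight G (Θ n) D η|
            + |cylWeight G (Θ n) D η - cylWeight G θ D η| := abs_sub_le _ _ _
      have e5 : ((D.card : ℝ) * (3 / 2) + 1) * (1 / 2 : ℝ) ^ n
          = (D.card : ℝ) * (1 / 2 : ℝ) ^ n / 2 + ((D.card : ℝ) * (1 / 2 : ℝ) ^ n + (1 / 2 : ℝ) ^ n) := by
        ring
      linarith
    · have := (tendsto_pow_atTop_nhds_zero_of_lt_one (r := (1 / 2 : ℝ)) (by norm_num)
        (by norm_num)).const_mul ((D.card : ℝ) * (3 / 2) + 1)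
      simpa using this.add hcyl


end

end Vale.Agent.Lib.P161
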