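import Vale.Agent.Lib.P161.End.Close
import Vale.Agent.Lib.P161.End.FinalVar
import Vale.Agent.Lib.P161.Facts
import Vale.Agent.Lib.P161.Noise

/-!
P161 endpoint, module Final: the free Ising measure at the critical parameter is a factor of IID.
-/

open MeasureTheory ProbabilityTheory Finset Filter

open scoped Topology

namespace Vale.Agent.Lib.P161

noncomputable section

variable {V : Type*} [DecidableEq V] {G : SimpleGraph V} [G.LocallyFinite] {d : ℕ}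

/-- Lipschitz bound of the estimator in the field and in the parameter. -/
lemma yHat_theta_sub_sq_le {θ₁ θ₂ : ℝ} (h01 : 0 ≤ θ₁) (h11 : θ₁ < 1) (h02 : 0 ≤ θ₂)
    (h3 : θ₁ ^ 2 ≤ 1 / 2) (h4 : θ₂ ^ 2 ≤ 1 / 2) (hd1 : 1 ≤ d) (v : V)
    (hcard : (nbV G v).card = d) (η₁ η₂ : V → V → ℝ) :
    (yHat θ₁ d (nbV G) η₁ v - yHat θ₂ d (nbV G) η₂ v) ^ 2
      ≤ 3 * d * ∑ b ∈ nbV G v, ((η₁ v b - η₂ v b) ^ 2 + (η₁ b v - η₂ b v) ^ 2)
        + 12 * (d : ℝ) ^ 2 * (θ₁ - θ₂) ^ 2 := by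
  have hd1' : (1 : ℝ) ≤ d := by exact_mod_cast hd1
  have hd0 : (0 : ℝ) < d := by linarith
  set a : V → ℝ := fun b => (η₁ v b - η₂ v b) -
    ((d : ℝ) - 1) * (hm θ₁ (η₁ b v) - hm θ₂ (η₂ b v)) with ha
  have h1 : yHat θ₁ d (nbV G) η₁ v - yHat θ₂ d (nbV G) η₂ v = (∑ b ∈ nbV G v, a b) / d := by
    unfold yHat
    rw [← sub_div, ← Finset.sum_sub_distrib]
    congr 1
    refine Finset.sum_congr rfl fun b _ => ?_
    simp only [ha]
    ring
  have h2 : (∑ b ∈ nbV G v, a b) ^ 2 ≤ d * ∑ b ∈ nbV G v, a b ^ 2 := by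
    have := sq_sum_le_card_mul_sum_sq (s := nbV G v) (f := a)
    rwa [hcard] at this
  have h3' : ∀ b ∈ nbV G v, a b ^ 2 ≤ 3 * (d : ℝ) ^ 2 *
      ((η₁ v b - η₂ v b) ^ 2 + (η₁ b v - η₂ b v) ^ 2) + 12 * (d : ℝ) ^ 2 * (θ₁ - θ₂) ^ 2 := by
    intro b _
    set p := η₁ v b - η₂ v b
    set r := η₁ b v - η₂ b v
    set q := hm θ₁ (η₁ b v) - hm θ₁ (η₂ b v)
    set q' := hm θ₁ (η₂ b v) - hm θ₂ (η₂ b v)
    have hq : q ^ 2 ≤ r ^ 2 := by
      have h4 := abs_hm_sub_le h01 h11 (η₁ b v) (η₂ b v)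
      have h5 := abs_nonneg (η₁ b v - η₂ b v)
      have h6 : |q| ≤ |r| := by
        have h7 : θ₁ * |η₁ b v - η₂ b v| ≤ 1 * |η₁ b v - η₂ b v| :=
          mul_le_mul_of_nonneg_right h11.le h5
        linarith
      exact sq_le_sq.2 h6
    have hq' : q' ^ 2 ≤ 4 * (θ₁ - θ₂) ^ 2 := by
      have h4' := hm_theta_sub_le h01 h02 h3 h4 (η₂ b v)
      have h6 : q' ^ 2 ≤ (2 * |θ₁ - θ₂|) ^ 2 := by
        have := sq_le_sq' (by linarith [abs_nonneg q', neg_abs_le q', abs_nonneg (θ₁ - θ₂)]) (le_trans (le_abs_self q') h4')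
        exact this
      have h7 : (2 * |θ₁ - θ₂|) ^ 2 = 4 * (θ₁ - θ₂) ^ 2 := by
        rw [mul_pow, sq_abs]
        norm_num
      linarith
    have e : a b = p - ((d : ℝ) - 1) * q - ((d : ℝ) - 1) * q' := by
      simp only [ha, p, q, q']
      ring
    rw [e]
    set D := (d : ℝ) - 1
    have hD : D ^ 2 ≤ (d : ℝ) ^ 2 := by
      have : 0 ≤ D := by simp only [D]; linarith
      nlinarith
    have h7 : (p - D * q - D * q') ^ 2 ≤ 3 * p ^ 2 + 3 * (D ^ 2 * q ^ 2) + 3 * (D ^ 2 * q' ^ 2) := by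
      nlinarith [sq_nonneg (p + D * q), sq_nonneg (p + D * q'), sq_nonneg (D * q - D * q')]
    have h8 : D ^ 2 * q ^ 2 ≤ (d : ℝ) ^ 2 * r ^ 2 :=
      mul_le_mul hD hq (sq_nonneg _) (sq_nonneg _)
    have h9 : D ^ 2 * q' ^ 2 ≤ (d : ℝ) ^ 2 * (4 * (θ₁ - θ₂) ^ 2) :=
      mul_le_mul hD hq' (sq_nonneg _) (sq_nonneg _)
    have h10 : p ^ 2 ≤ (d : ℝ) ^ 2 * p ^ 2 := by
      have : (1 : ℝ) ≤ (d : ℝ) ^ 2 := by nlinarith
      nlinarith [sq_nonneg p]
    nlinarith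
  have h5 : ∑ b ∈ nbV G v, a b ^ 2 ≤ 3 * (d : ℝ) ^ 2 *
      ∑ b ∈ nbV G v, ((η₁ v b - η₂ v b) ^ 2 + (η₁ b v - η₂ b v) ^ 2)
      + (d : ℝ) * (12 * (d : ℝ) ^ 2 * (θ₁ - θ₂) ^ 2) := by
    refine (Finset.sum_le_sum h3').trans (le_of_eq ?_)
    rw [Finset.sum_add_distrib, Finset.sum_const, hcard, nsmul_eq_mul, Finset.mul_sum]
  rw [h1, div_pow]
  rw [div_le_iff₀ (by positivity)]
  have h6 := mul_le_mul_of_nonneg_left h5 hd0.le
  refine h2.trans (h6.trans (le_of_eq ?_))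
  ring

/-- The two master estimators at a common time. -/
lemma masterX_theta_sub {θ₁ θ₂ : ℝ} (h01 : 0 ≤ θ₁) (h11 : θ₁ < 1) (h02 : 0 ≤ θ₂) (h12 : θ₂ < 1)
    (h3 : θ₁ ^ 2 ≤ 1 / 2) (h4 : θ₂ ^ 2 ≤ 1 / 2) (hd1 : 1 ≤ d) (v : V)
    (hcard : (nbV G v).card = d) {γ : ℕ → ℕ → unitInterval → ℝ}
    (hn : ∀ j, IsNoise (uniformField V) (fun (k : ℕ) (v : V) (u : V → unitInterval) => γ j k (u v)))
    (ℓ j T : ℕ) (hT : 1 ≤ T) :
    dist2 V (masterX G θ₁ d γ ℓ j T v) (masterX G θ₂ d γ ℓ j T v)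
      ≤ 3 * d * ∑ b ∈ nbV G v, (NN G θ₁ θ₂ γ ℓ j (T * 2 ^ j) v b + NN G θ₁ θ₂ γ ℓ j (T * 2 ^ j) b v)
        + 12 * (d : ℝ) ^ 2 * (θ₁ - θ₂) ^ 2 := by
  haveI := limit_uniformField_prob V
  have hT' : (1 : ℝ) ≤ T := by exact_mod_cast hT
  set k := T * 2 ^ j with hk
  let η₁ : (V → unitInterval) → V → V → ℝ := fun u => masterChain G θ₁ γ ℓ j k u
  let η₂ : (V → unitInterval) → V → V → ℝ := fun u => masterChain G θ₂ γ ℓ j k u
  have hL₁ : ∀ a b, MemLp (fun u => η₁ u a b) 2 (uniformField V) :=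
    fun a b => memLp_cavChain (hn j) h01 h11 ℓ _ a b
  have hL₂ : ∀ a b, MemLp (fun u => η₂ u a b) 2 (uniformField V) :=
    fun a b => memLp_cavChain (hn j) h02 h12 ℓ _ a b
  have hI : ∀ a b, Integrable (fun u => (η₁ u a b - η₂ u a b) ^ 2) (uniformField V) :=
    fun a b => ((hL₁ a b).sub (hL₂ a b)).integrable_sq
  have hNN : ∀ a b, NN G θ₁ θ₂ γ ℓ j k a b = ∫ u, (η₁ u a b - η₂ u a b) ^ 2 ∂(uniformField V) :=
    fun _ _ => rfl
  have hmeas : Measurable (fun u : V → unitInterval => (0 : ℝ)) := measurable_const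
  have hbd : Integrable (fun u => 3 * (d : ℝ) * ∑ b ∈ nbV G v,
      ((η₁ u v b - η₂ u v b) ^ 2 + (η₁ u b v - η₂ u b v) ^ 2)
      + 12 * (d : ℝ) ^ 2 * (θ₁ - θ₂) ^ 2) (uniformField V) := by
    refine Integrable.add (Integrable.const_mul ?_ _) (integrable_const _)
    exact integrable_finset_sum _ (fun b _ => (hI v b).add (hI b v))
  unfold dist2
  have hmain : ∫ u, (masterX G θ₁ d γ ℓ j T v u - masterX G θ₂ d γ ℓ j T v u) ^ 2 ∂(uniformField V)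
      ≤ ∫ u, (3 * (d : ℝ) * ∑ b ∈ nbV G v,
        ((η₁ u v b - η₂ u v b) ^ 2 + (η₁ u b v - η₂ u b v) ^ 2)
        + 12 * (d : ℝ) ^ 2 * (θ₁ - θ₂) ^ 2) ∂(uniformField V) := by
    refine integral_mono_of_nonneg (Eventually.of_forall fun u => sq_nonneg _) hbd
      (Eventually.of_forall fun u => ?_)
    simp only [masterX]
    refine (sq_clip_div_sub_le hT' _ _).trans ?_
    exact yHat_theta_sub_sq_le h01 h11 h02 h3 h4 hd1 v hcard (η₁ u) (η₂ u)
  refine hmain.trans (le_of_eq ?_)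
  have hb : ∀ b, Integrable (fun u => (η₁ u v b - η₂ u v b) ^ 2 + (η₁ u b v - η₂ u b v) ^ 2)
      (uniformField V) := fun b => (hI v b).add (hI b v)
  have hs : Integrable (fun u => ∑ b ∈ nbV G v,
      ((η₁ u v b - η₂ u v b) ^ 2 + (η₁ u b v - η₂ u b v) ^ 2)) (uniformField V) :=
    integrable_finset_sum _ (fun b _ => hb b)
  rw [integral_add (hs.const_mul _) (integrable_const _), integral_const_mul,
    integral_finset_sum _ (fun b _ => hb b)]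
  simp only [integral_const, probReal_univ, one_smul, smul_eq_mul, one_mul]
  congr 2
  refine Finset.sum_congr rfl (fun b _ => ?_)
  rw [integral_add (hI v b) (hI b v), hNN, hNN]

/-- **Main statement of the module.** -/
theorem fiid_endpoint (hT : G.IsTree) (hdeg : ∀ v, G.degree v = d) (hd : 3 ≤ d) {θ : ℝ}
    (h0 : 0 < θ) (h1 : θ < 1) (hc : θ ^ 2 * ((d : ℝ) - 1) = 1) :
    ∃ ν, IsFreeIsing G θ ν ∧ IsFactorOfIID G ν := by
  classical
  haveI hC : Countable V := countable_of_connected hT.1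
  haveI := limit_uniformField_prob V
  obtain ⟨γ, hm, hr, hn⟩ := exists_noise V
  have hd3 : (3 : ℝ) ≤ d := by exact_mod_cast hd
  have hdm : (0 : ℝ) < (d : ℝ) - 1 := by linarith
  have hd1 : 1 ≤ d := by omega
  let θs : ℕ → ℝ := fun n => Real.sqrt ((1 - 1 / ((n : ℝ) + 5)) / ((d : ℝ) - 1))
  have hx : ∀ n : ℕ, (4 / 5 : ℝ) ≤ 1 - 1 / ((n : ℝ) + 5) ∧ 1 - 1 / ((n : ℝ) + 5) < 1 := by
    intro n
    have hn0 : (0 : ℝ) ≤ n := Nat.cast_nonneg n
    have h5 : (0 : ℝ) < (n : ℝ) + 5 := by linarith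
    have h6 : 1 / ((n : ℝ) + 5) ≤ 1 / 5 := one_div_le_one_div_of_le (by norm_num) (by linarith)
    have h7 : 0 < 1 / ((n : ℝ) + 5) := by positivity
    constructor <;> linarith
  have hsq0 : ∀ n, θs n ^ 2 = (1 - 1 / ((n : ℝ) + 5)) / ((d : ℝ) - 1) := by
    intro n
    refine Real.sq_sqrt (div_nonneg ?_ hdm.le)
    linarith [(hx n).1]
  have hsq : ∀ n, θs n ^ 2 * ((d : ℝ) - 1) = 1 - 1 / ((n : ℝ) + 5) := by
    intro n
    rw [hsq0 n]
    field_simp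
  have hpos : ∀ n, 0 < θs n := by
    intro n
    refine Real.sqrt_pos.2 (div_pos ?_ hdm)
    linarith [(hx n).1]
  have hgood : ∀ n, GoodT d (θs n) := by
    intro n
    refine ⟨hpos n, ?_, ?_⟩
    · rw [hsq n]; linarith [(hx n).1]
    · rw [hsq n]; exact (hx n).2
  have hhalf : ∀ n, θs n ^ 2 ≤ 1 / 2 := by
    intro n
    have h2 := (hgood n).2.2
    nlinarith [sq_nonneg (θs n)]
  have hlt1 : ∀ n, θs n < 1 := by
    intro n
    have h2 := hhalf n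
    nlinarith [hpos n]
  have hinv : Tendsto (fun n : ℕ => 1 / ((n : ℝ) + 5)) atTop (𝓝 0) := by
    have h5 : Tendsto (fun n : ℕ => (n : ℝ) + 5) atTop atTop :=
      tendsto_atTop_add_const_right _ _ tendsto_natCast_atTop_atTop
    simpa using (tendsto_const_nhds (x := (1 : ℝ))).div_atTop h5
  have hlim : Tendsto (fun n => θs n ^ 2 * ((d : ℝ) - 1)) atTop (𝓝 1) := by
    have h6 : Tendsto (fun n : ℕ => 1 - 1 / ((n : ℝ) + 5)) atTop (𝓝 (1 - 0)) :=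
      tendsto_const_nhds.sub hinv
    simp only [sub_zero] at h6
    exact h6.congr (fun n => (hsq n).symm)
  have hθs : Tendsto θs atTop (𝓝 θ) := by
    have h6 : Tendsto (fun n : ℕ => (1 - 1 / ((n : ℝ) + 5)) / ((d : ℝ) - 1)) atTop
        (𝓝 ((1 - 0) / ((d : ℝ) - 1))) :=
      (tendsto_const_nhds.sub hinv).div_const _
    have h7 := Real.continuous_sqrt.tendsto _ |>.comp h6
    have h8 : Real.sqrt ((1 - 0) / ((d : ℝ) - 1)) = θ := by
      have e : (1 - 0) / ((d : ℝ) - 1) = θ ^ 2 := by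
        rw [sub_zero, div_eq_iff hdm.ne']
        exact hc.symm
      rw [e, Real.sqrt_sq h0.le]
    rw [h8] at h7
    exact h7
  obtain ⟨φ, hφ, hcau⟩ := endpoint_cauchy hT hdeg hd hn θs hgood hlim hθs.cauchySeq
  have hθφ : Tendsto (fun m => θs (φ m)) atTop (𝓝 θ) := hθs.comp hφ.tendsto_atTop
  have hcard : ∀ v, (nbV G v).card = d := by
    intro v
    have := hdeg v
    simpa [nbV, SimpleGraph.card_neighborFinset_eq_degree] using this
  -- enumeration of the vertices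
  obtain ⟨enc⟩ : Nonempty (Encodable V) := ⟨Encodable.ofCountable V⟩
  have hfin : ∀ n : ℕ, Set.Finite {v : V | Encodable.encode v < n} := fun n =>
    Set.Finite.preimage (Encodable.encode_injective.injOn) (Set.finite_Iio n)
  let A : ℕ → Finset V := fun n => (hfin n).toFinset
  have hAm : ∀ n v, v ∈ A n ↔ Encodable.encode v < n := fun n v => by simp [A]
  have hq : ∀ n : ℕ, (0 : ℝ) < (1 / 4 : ℝ) ^ n := fun n => by positivity
  have hs : ∀ n : ℕ, (0 : ℝ) < (1 / 2 : ℝ) ^ n := fun n => by positivity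
  have hd0 : (0 : ℝ) < d := by linarith
  have h4n : ∀ n : ℕ, 1 ≤ 4 ^ n := fun n => Nat.one_le_pow _ _ (by norm_num)
  -- the thresholds for the parameter
  have FC' : ∀ n : ℕ, ∃ I : ℕ, ∀ m m', I ≤ m → I ≤ m' → ∀ v ∈ A n, ∃ ℓ₀ j₀ : ℕ, ∀ ℓ j, ℓ₀ ≤ ℓ → j₀ ≤ j →
      dist2 V (masterX G (θs (φ m)) d γ ℓ j (4 ^ n) v) (masterX G (θs (φ m')) d γ ℓ j (4 ^ n) v)
        ≤ (1 / 4 : ℝ) ^ n := by
    intro n
    set δ : ℝ := (1 / 4 : ℝ) ^ n / (12 * (d : ℝ) ^ 2) with hδ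
    have hδ0 : 0 < δ := by have := hq n; positivity
    have H : ∀ a b, ∃ I : ℕ, G.Adj a b → ∀ m m', I ≤ m → I ≤ m' → ∃ ℓ₀ j₀ : ℕ, ∀ ℓ j, ℓ₀ ≤ ℓ → j₀ ≤ j →
        NN G (θs (φ m)) (θs (φ m')) γ ℓ j (4 ^ n * 2 ^ j) a b ≤ δ := by
      intro a b
      by_cases hab : G.Adj a b
      · obtain ⟨I, hI⟩ := hcau (4 ^ n) δ (h4n n) hδ0 a b hab
        exact ⟨I, fun _ => hI⟩
      · exact ⟨0, fun h => absurd h hab⟩
    choose I hI using H
    set ε : ℝ := Real.sqrt ((1 / 4 : ℝ) ^ n / (24 * (d : ℝ) ^ 2)) with hε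
    have hε0 : 0 < ε := Real.sqrt_pos.2 (by have := hq n; positivity)
    obtain ⟨I₁, hI₁⟩ := Metric.cauchySeq_iff.1 hθφ.cauchySeq ε hε0
    refine ⟨max I₁ ((A n).sup (fun v => (nbV G v).sup (fun b => max (I v b) (I b v)))),
      fun m m' hm1 hm2 v hv => ?_⟩
    have hIb : ∀ b ∈ nbV G v, I v b ≤ m ∧ I v b ≤ m' ∧ I b v ≤ m ∧ I b v ≤ m' := by
      intro b hb
      have h1 : (nbV G v).sup (fun b => max (I v b) (I b v)) ≤
          (A n).sup (fun v => (nbV G v).sup (fun b => max (I v b) (I b v))) :=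
        Finset.le_sup (f := fun v => (nbV G v).sup (fun b => max (I v b) (I b v))) hv
      have h2 : max (I v b) (I b v) ≤ (nbV G v).sup (fun b => max (I v b) (I b v)) :=
        Finset.le_sup (f := fun b => max (I v b) (I b v)) hb
      have h3 := le_trans (le_trans h2 h1) (le_trans (le_max_right _ _) hm1)
      have h4 := le_trans (le_trans h2 h1) (le_trans (le_max_right _ _) hm2)
      have h5 := le_max_left (I v b) (I b v)
      have h6 := le_max_right (I v b) (I b v)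
      omega
    have H2 : ∀ b, ∃ ℓ₀ j₀ : ℕ, b ∈ nbV G v → ∀ ℓ j, ℓ₀ ≤ ℓ → j₀ ≤ j →
        NN G (θs (φ m)) (θs (φ m')) γ ℓ j (4 ^ n * 2 ^ j) v b ≤ δ ∧
        NN G (θs (φ m)) (θs (φ m')) γ ℓ j (4 ^ n * 2 ^ j) b v ≤ δ := by
      intro b
      by_cases hb : b ∈ nbV G v
      · have hadj : G.Adj v b := by simpa [nbV] using hb
        obtain ⟨h1, h2, h3, h4⟩ := hIb b hb
        obtain ⟨ℓ₁, j₁, h5⟩ := hI v b hadj m m' h1 h2
        obtain ⟨ℓ₂, j₂, h6⟩ := hI b v hadj.symm m m' h3 h4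
        refine ⟨max ℓ₁ ℓ₂, max j₁ j₂, fun _ ℓ j hℓ hj => ⟨?_, ?_⟩⟩
        · exact h5 ℓ j ((le_max_left _ _).trans hℓ) ((le_max_left _ _).trans hj)
        · exact h6 ℓ j ((le_max_right _ _).trans hℓ) ((le_max_right _ _).trans hj)
      · exact ⟨0, 0, fun h => absurd h hb⟩
    choose ℓb jb hb using H2
    refine ⟨(nbV G v).sup ℓb, (nbV G v).sup jb, fun ℓ j hℓ hj => ?_⟩
    have hmx := masterX_theta_sub (G := G) (hpos (φ m)).le (hlt1 (φ m)) (hpos (φ m')).le (hlt1 (φ m'))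
      (hhalf _) (hhalf _) hd1 v (hcard v) hn ℓ j (4 ^ n) (h4n n)
    refine hmx.trans ?_
    have hsum : ∑ b ∈ nbV G v, (NN G (θs (φ m)) (θs (φ m')) γ ℓ j (4 ^ n * 2 ^ j) v b
        + NN G (θs (φ m)) (θs (φ m')) γ ℓ j (4 ^ n * 2 ^ j) b v) ≤ (d : ℝ) * (2 * δ) := by
      have : ∀ b ∈ nbV G v, NN G (θs (φ m)) (θs (φ m')) γ ℓ j (4 ^ n * 2 ^ j) v b
          + NN G (θs (φ m)) (θs (φ m')) γ ℓ j (4 ^ n * 2 ^ j) b v ≤ 2 * δ := by
        intro b hbm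
        obtain ⟨h5, h6⟩ := hb b hbm ℓ j ((Finset.le_sup hbm).trans hℓ) ((Finset.le_sup hbm).trans hj)
        linarith
      refine (Finset.sum_le_sum this).trans (le_of_eq ?_)
      rw [Finset.sum_const, hcard v, nsmul_eq_mul]
    have hdist : dist (θs (φ m)) (θs (φ m')) < ε :=
      hI₁ m ((le_max_left _ _).trans hm1) m' ((le_max_left _ _).trans hm2)
    have hesq : (θs (φ m) - θs (φ m')) ^ 2 ≤ (1 / 4 : ℝ) ^ n / (24 * (d : ℝ) ^ 2) := by
      rw [Real.dist_eq] at hdist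
      have h5 : (θs (φ m) - θs (φ m')) ^ 2 = |θs (φ m) - θs (φ m')| ^ 2 := (sq_abs _).symm
      rw [h5]
      have h6 : ε ^ 2 = (1 / 4 : ℝ) ^ n / (24 * (d : ℝ) ^ 2) :=
        Real.sq_sqrt (by have := hq n; positivity)
      rw [← h6]
      exact pow_le_pow_left₀ (abs_nonneg _) hdist.le 2
    have h6 : 3 * (d : ℝ) * ((d : ℝ) * (2 * δ)) = (1 / 4 : ℝ) ^ n / 2 := by
      rw [hδ]
      field_simp
      ring
    have h7 : 12 * (d : ℝ) ^ 2 * ((1 / 4 : ℝ) ^ n / (24 * (d : ℝ) ^ 2)) = (1 / 4 : ℝ) ^ n / 2 := by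
      field_simp
      ring
    have h8 := mul_le_mul_of_nonneg_left hsum (by positivity : (0 : ℝ) ≤ 3 * (d : ℝ))
    have h9 := mul_le_mul_of_nonneg_left hesq (by positivity : (0 : ℝ) ≤ 12 * (d : ℝ) ^ 2)
    linarith
  choose I hI using FC'
  -- the sequence of indices
  let i : ℕ → ℕ := fun n => Nat.rec (I 0) (fun n prev => max (prev + 1) (I (n + 1))) n
  have hi_succ : ∀ n, i (n + 1) = max (i n + 1) (I (n + 1)) := fun n => rfl
  have hi_lt : ∀ n, i n < i (n + 1) := by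
    intro n
    rw [hi_succ]
    exact lt_of_lt_of_le (Nat.lt_succ_self _) (le_max_left _ _)
  have hi_mono : StrictMono i := strictMono_nat_of_lt_succ hi_lt
  have hi_ge : ∀ n, I n ≤ i n := by
    intro n
    cases n with
    | zero => exact le_rfl
    | succ n => rw [hi_succ]; exact le_max_right _ _
  let Θ : ℕ → ℝ := fun n => θs (φ (i n))
  have hΘ : Tendsto Θ atTop (𝓝 θ) := hθφ.comp hi_mono.tendsto_atTop
  have hp : ∀ n, TreeParams G d (Θ n) := fun n => (hgood (φ (i n))).treeParams hT hdeg hd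
  refine main_of_facts_var (d := d) γ hm Θ (fun n => (hpos _).le) (fun n => hlt1 _) hΘ A ?_ ?_ ?_ ?_ ?_ ?_
  · intro v
    refine ⟨Encodable.encode v + 1, fun n hn => (hAm n v).2 (by omega)⟩
  · intro n v
    exact fact_F1 (hp n) hn hr v (4 ^ n) (h4n n) (hq n)
  · intro n v
    exact fact_F2 (hp (n + 1)) hn v (4 ^ n) (4 ^ (n + 1)) (h4n n)
      (Nat.pow_le_pow_right (by norm_num) (Nat.le_succ n)) (hq n)
  · intro n v hv
    exact hI n (i n) (i (n + 1)) (hi_ge n) ((hi_ge n).trans (hi_lt n).le) v hv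
  · intro n D hD η
    exact fact_F3 (hp n) hn D hD η (4 ^ n) (h4n n) (hs n)
  · intro n v
    exact fact_F4 (hp n) hn v (4 ^ n) (h4n n) (hs n)

end

end Vale.Agent.Lib.P161
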