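import Vale.Agent.Lib.P161.End.GaugeDet
import Vale.Agent.Lib.P161.Compare

/-!
P161 endpoint, module Gauge: the exact model on a ball is, after the gauge transformation, a
product model; the law of (message, cascade) at a neighbour of the center is `kapL`.
-/

open MeasureTheory ProbabilityTheory Finset

namespace Vale.Agent.Lib.P161

noncomputable section

variable {V : Type*} [DecidableEq V] {G : SimpleGraph V} [G.LocallyFinite]

/-! ### The weights -/

/-- The Bernoulli weight of a sign. -/
def wB (θ : ℝ) (b : Bool) : ℝ := (1 + θ * spin b) / 2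

lemma wB_add_not (θ : ℝ) (b : Bool) : wB θ b + wB θ (!b) = 1 := by
  cases b <;> simp [wB, spin] <;> ring

lemma berL_real {θ : ℝ} (h0 : 0 ≤ θ) (h1 : θ ≤ 1) (b : Bool) : (berL θ).real {b} = wB θ b := by
  have h2 : 0 ≤ (1 + θ) / 2 := by linarith
  have h3 : 0 ≤ (1 - θ) / 2 := by linarith
  cases b
  · simp [berL, wB, spin, measureReal_def, ENNReal.toReal_ofReal h3]
    ring
  · simp [berL, wB, spin, measureReal_def, ENNReal.toReal_ofReal h2]

/-- Integration against the product of Bernoulli laws on a finite set. -/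
lemma integral_pi_berL {E : Type*} [Fintype E] [DecidableEq E] {θ : ℝ} (h0 : 0 ≤ θ) (h1 : θ ≤ 1)
    (g : (E → Bool) → ℝ) :
    ∫ s, g s ∂(Measure.pi fun _ : E => berL θ) = ∑ s, (∏ i, wB θ (s i)) * g s := by
  have := isProb_berL h0 h1
  rw [integral_fintype Integrable.of_finite]
  refine Finset.sum_congr rfl fun s _ => ?_
  rw [smul_eq_mul]
  congr 1
  rw [measureReal_def, Measure.pi_singleton, ENNReal.toReal_prod]
  refine Finset.prod_congr rfl fun i _ => ?_
  rw [← berL_real h0 h1, measureReal_def]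

/-! ### The Gaussian laws -/

lemma gamm_map_spin {E : Type*} [Fintype E] (σ : E → Bool) :
    (gamm E).map (fun z i => spin (σ i) * z i) = gamm E := by
  unfold gamm
  have hm : ∀ i : E, Measurable fun x : ℝ => spin (σ i) * x := fun i => measurable_const.mul measurable_id
  rw [Measure.pi_map_pi fun i => (hm i).aemeasurable]
  congr 1
  funext i
  cases σ i
  · have : (fun x : ℝ => spin false * x) = fun x => -x := by
      funext x
      simp [spin]
    rw [this, gaussianReal_map_neg]
    simp
  · have : (fun x : ℝ => spin true * x) = id := by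
      funext x
      simp [spin]
    rw [this, Measure.map_id]

lemma gamm_map_obs {E : Type*} [Fintype E] {t : ℝ} (ht : 0 ≤ t) :
    (gamm E).map (fun z i => t + Real.sqrt t * z i) = Measure.pi fun _ : E => obsL t := by
  unfold gamm
  have hm : Measurable fun x : ℝ => t + Real.sqrt t * x := by fun_prop
  rw [Measure.pi_map_pi fun _ => hm.aemeasurable]
  congr 1
  funext _
  have e : (fun x : ℝ => t + Real.sqrt t * x) = (fun x => t + x) ∘ fun x => Real.sqrt t * x := rfl
  rw [e, ← Measure.map_map (by fun_prop) (by fun_prop), gaussianReal_map_const_mul,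
    gaussianReal_map_const_add]
  unfold obsL
  congr 1
  · simp
  · ext
    simp [Real.sq_sqrt ht, ht]

/-! ### The product formula for the Ising weight and the gauge bijection -/

section Comb

variable {θ : ℝ} {o : V} {R : ℕ}

/-- The Ising weight in terms of the gauged signs. -/
lemma isingW_gauge (hT : G.IsTree) {S : Finset V} (hS : ∀ v ∈ S, v ≠ o → parV G o v ∈ S)
    (ho : o ∈ S) (σ : ↥S → Bool) :
    isingW G θ S σ = (1 / 2) * ∏ i ∈ (Finset.univ.erase (⟨o, ho⟩ : ↥S)), wB θ (gaugeT G o S σ i) := by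
  classical
  have hc := hT.connected
  unfold isingW cylWeight
  congr 1
  symm
  refine Finset.prod_bij (fun i _ => s(i.1, parV G o i.1)) ?_ ?_ ?_ ?_
  · intro i hi
    have hio : i.1 ≠ o := fun h => (Finset.mem_erase.1 hi).1 (Subtype.ext h)
    exact mem_edgesOf_mk.2 ⟨i.2, hS _ i.2 hio, (parV_spec hc hio).1⟩
  · intro i hi j hj hij
    have hio : i.1 ≠ o := fun h => (Finset.mem_erase.1 hi).1 (Subtype.ext h)
    have hjo : j.1 ≠ o := fun h => (Finset.mem_erase.1 hj).1 (Subtype.ext h)
    simp only [Sym2.eq_iff] at hij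
    rcases hij with ⟨h1, _⟩ | ⟨h1, h2⟩
    · exact Subtype.ext h1
    · have h3 := (parV_spec hc hio).2
      have h4 := (parV_spec hc hjo).2
      rw [h2] at h3
      rw [← h1] at h4
      omega
  · intro e he
    induction e using Sym2.ind with
    | _ u v =>
      obtain ⟨hu, hv, huv⟩ := mem_edgesOf_mk.1 he
      rcases hT.dist_eq_dist_add_one_of_adj o huv with h | h
      · refine ⟨⟨u, hu⟩, Finset.mem_erase.2 ⟨?_, Finset.mem_univ _⟩, ?_⟩
        · intro h'
          exact ne_of_dist_succ h (congrArg Subtype.val h')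
        · simp only
          rw [parV_unique hT huv h]
      · refine ⟨⟨v, hv⟩, Finset.mem_erase.2 ⟨?_, Finset.mem_univ _⟩, ?_⟩
        · intro h'
          exact ne_of_dist_succ h (congrArg Subtype.val h')
        · simp only
          rw [parV_unique hT huv.symm h, Sym2.eq_swap]
  · intro i hi
    have hio : i.1 ≠ o := fun h => (Finset.mem_erase.1 hi).1 (Subtype.ext h)
    simp only [gaugeT, hio, if_false, wB, edgeFactor, Sym2.lift_mk, spin_beq]
    ring

/-- The gauge map is injective. -/
lemma gaugeT_injective (hT : G.IsTree) {S : Finset V} (hS : ∀ v ∈ S, v ≠ o → parV G o v ∈ S)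
    (ho : o ∈ S) : Function.Injective (gaugeT G o S) := by
  classical
  have hc := hT.connected
  intro σ σ' hh
  have key : ∀ k v, G.dist o v = k → ∀ hv : v ∈ S, σ ⟨v, hv⟩ = σ' ⟨v, hv⟩ := by
    intro k
    induction k with
    | zero =>
      intro v hd hv
      have hvo : o = v := (hc.dist_eq_zero_iff).1 hd
      subst hvo
      have := congrFun hh ⟨o, hv⟩
      simpa [gaugeT] using this
    | succ k ih =>
      intro v hd hv
      have hvo : v ≠ o := by
        rintro rfl
        rw [SimpleGraph.dist_self] at hd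
        omega
      have h1 := (parV_spec hc hvo).2
      have hpS := hS v hv hvo
      have h2 := ih (parV G o v) (by omega) hpS
      have := congrFun hh ⟨v, hv⟩
      simp only [gaugeT, hvo, if_false, extB_of_mem _ hv, extB_of_mem _ hpS, h2] at this
      revert this
      cases σ ⟨v, hv⟩ <;> cases σ' ⟨v, hv⟩ <;> cases σ' ⟨parV G o v, hpS⟩ <;> simp
  funext i
  exact key _ i.1 rfl i.2

/-- The sum over spins with the Ising weight of a function of the gauged signs which ignores the
coordinate at `o` is the expectation under the product Bernoulli law. -/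
lemma sum_isingW_gauge (hT : G.IsTree) {S : Finset V} (hS : ∀ v ∈ S, v ≠ o → parV G o v ∈ S)
    (ho : o ∈ S) (H : (↥S → Bool) → ℝ)
    (hH : ∀ s s' : ↥S → Bool, (∀ i, i ≠ ⟨o, ho⟩ → s i = s' i) → H s = H s') :
    ∑ σ : ↥S → Bool, isingW G θ S σ * H (gaugeT G o S σ)
      = ∑ s : ↥S → Bool, (∏ i, wB θ (s i)) * H s := by
  classical
  set o' : ↥S := ⟨o, ho⟩ with ho'
  let c : (↥S → Bool) → ℝ := fun s => (∏ i ∈ Finset.univ.erase o', wB θ (s i)) * H s
  have hbij : Function.Bijective (gaugeT G o S) :=
    Finite.injective_iff_bijective.1 (gaugeT_injective hT hS ho)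
  have h1 : ∑ σ : ↥S → Bool, isingW G θ S σ * H (gaugeT G o S σ) = ∑ s, (1 / 2) * c s := by
    rw [← (Equiv.ofBijective _ hbij).sum_comp (fun s => (1 / 2) * c s)]
    refine Finset.sum_congr rfl fun σ _ => ?_
    rw [isingW_gauge hT hS ho σ]
    simp only [c, Equiv.ofBijective_apply]
    ring
  let φ : (↥S → Bool) → (↥S → Bool) := fun s => Function.update s o' (!s o')
  have hφ : Function.Involutive φ := by
    intro s
    funext i
    by_cases hi : i = o'
    · subst hi
      simp [φ]
    · simp [φ, Function.update_of_ne hi]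
  have hc' : ∀ s, c (φ s) = c s := by
    intro s
    have h3 : ∏ i ∈ Finset.univ.erase o', wB θ (φ s i) = ∏ i ∈ Finset.univ.erase o', wB θ (s i) := by
      refine Finset.prod_congr rfl fun i hi => ?_
      have : i ≠ o' := (Finset.mem_erase.1 hi).1
      simp [φ, Function.update_of_ne this]
    have h4 : H (φ s) = H s := hH _ _ fun i hi => by simp [φ, Function.update_of_ne hi]
    simp only [c, h3, h4]
  have h2 : ∑ s : ↥S → Bool, wB θ (s o') * c s = ∑ s : ↥S → Bool, wB θ (!s o') * c s := by
    rw [← Equiv.sum_comp (Function.Involutive.toPerm φ hφ) (fun s => wB θ (s o') * c s)]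
    refine Finset.sum_congr rfl fun s _ => ?_
    simp only [Function.Involutive.coe_toPerm, hc']
    simp [φ]
  have h5 : ∑ s : ↥S → Bool, (∏ i, wB θ (s i)) * H s = ∑ s, wB θ (s o') * c s := by
    refine Finset.sum_congr rfl fun s _ => ?_
    rw [← Finset.mul_prod_erase Finset.univ (fun i => wB θ (s i)) (Finset.mem_univ o')]
    simp only [c]
    ring
  rw [h1, h5, ← Finset.mul_sum]
  have h6 : ∑ s : ↥S → Bool, c s = ∑ s : ↥S → Bool, wB θ (s o') * c s
      + ∑ s : ↥S → Bool, wB θ (!s o') * c s := by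
    rw [← Finset.sum_add_distrib]
    refine Finset.sum_congr rfl fun s _ => ?_
    rw [← add_mul, wB_add_not, one_mul]
  rw [h6, ← h2]
  ring

end Comb

/-! ### The product model -/

section Main

variable {θ t : ℝ} {o : V}

/-- The Gaussian average of a functional of the field with given signs on `S`. -/
def HH (Φ : (V → Bool × ℝ) → ℝ) (S : Finset V) (t : ℝ) (s : ↥S → Bool) : ℝ :=
  ∫ z, Φ (blockExt S fun i => (s i, t + Real.sqrt t * z i)) ∂(gamm ↥S)

lemma integral_gaugeΩ {Φ : (V → Bool × ℝ) → ℝ} (hΦ : Measurable Φ) (S : Finset V) (t : ℝ)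
    (σ : ↥S → Bool) :
    ∫ z, Φ (gaugeΩ G o S t σ z) ∂(gamm ↥S) = HH Φ S t (gaugeT G o S σ) := by
  let g : (↥S → ℝ) → ℝ := fun z => Φ (blockExt S fun i => (gaugeT G o S σ i, t + Real.sqrt t * z i))
  have hg : Measurable g := by
    refine hΦ.comp ((measurable_blockExt S).comp (measurable_pi_lambda _ fun i => ?_))
    exact measurable_const.prodMk
      (measurable_const.add (measurable_const.mul (measurable_pi_apply i)))
  have hm : Measurable fun (z : ↥S → ℝ) (i : ↥S) => spin (σ i) * z i :=
    measurable_pi_lambda _ fun i => measurable_const.mul (measurable_pi_apply i)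
  unfold HH
  change ∫ z, g (fun i => spin (σ i) * z i) ∂(gamm ↥S) = ∫ z, g z ∂(gamm ↥S)
  rw [← integral_map hm.aemeasurable hg.aestronglyMeasurable, gamm_map_spin]

/-- The expectation of a functional of the coordinates in `S` under the i.i.d. law, as a sum over
the signs of Gaussian averages. -/
lemma integral_gP (h0 : 0 ≤ θ) (h1 : θ ≤ 1) (ht : 0 ≤ t) (S : Finset V)
    {Φ : (V → Bool × ℝ) → ℝ} (hΦm : Measurable Φ) (hΦb : ∀ ω, |Φ ω| ≤ 1)
    (hΦd : ∀ ω ω', (∀ v ∈ S, ω v = ω' v) → Φ ω = Φ ω') :
    ∫ ω, Φ ω ∂(gP V θ t) = ∑ s : ↥S → Bool, (∏ i, wB θ (s i)) * HH Φ S t s := by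
  have := isProb_berL h0 h1
  let Φ' : (↥S → Bool × ℝ) → ℝ := fun τ => Φ (blockExt S τ)
  have hΦ'm : Measurable Φ' := hΦm.comp (measurable_blockExt S)
  have e1 : ∫ ω, Φ ω ∂(gP V θ t)
      = ∫ τ, Φ' τ ∂(Measure.pi fun _ : ↥S => (berL θ).prod (obsL t)) := by
    have h2 := integral_restrict_infinitePi (μ := fun _ : V => (berL θ).prod (obsL t))
      (s := S) (f := Φ') hΦ'm.aestronglyMeasurable
    rw [← h2]
    unfold gP
    refine integral_congr_ae (Filter.Eventually.of_forall fun ω => ?_)
    exact (comp_blockExt_restrict hΦd ω).symm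
  let e := MeasurableEquiv.arrowProdEquivProdArrow Bool ℝ ↥S
  have mp := measurePreserving_arrowProdEquivProdArrow Bool ℝ ↥S (fun _ => berL θ)
    (fun _ => obsL t)
  let g : (↥S → Bool) × (↥S → ℝ) → ℝ := fun q => Φ' (e.symm q)
  have hgm : Measurable g := hΦ'm.comp e.symm.measurable
  have e2 : ∫ τ, Φ' τ ∂(Measure.pi fun _ : ↥S => (berL θ).prod (obsL t))
      = ∫ q, g q ∂((Measure.pi fun _ : ↥S => berL θ).prod (Measure.pi fun _ : ↥S => obsL t)) := by
    rw [← mp.integral_comp' (f := e) g]
    simp only [g, MeasurableEquiv.symm_apply_apply]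
  have hint : Integrable g
      ((Measure.pi fun _ : ↥S => berL θ).prod (Measure.pi fun _ : ↥S => obsL t)) :=
    Integrable.of_bound hgm.aestronglyMeasurable 1
      (Filter.Eventually.of_forall fun q => hΦb _)
  rw [e1, e2, integral_prod g hint, integral_pi_berL h0 h1]
  refine Finset.sum_congr rfl fun s _ => ?_
  congr 1
  unfold HH
  rw [← gamm_map_obs ht]
  have hm : Measurable fun (z : ↥S → ℝ) (i : ↥S) => t + Real.sqrt t * z i :=
    measurable_pi_lambda _ fun i =>
      measurable_const.add (measurable_const.mul (measurable_pi_apply i))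
  have hgs : Measurable fun y : ↥S → ℝ => g (s, y) := hgm.comp (measurable_const.prodMk measurable_id)
  rw [integral_map hm.aemeasurable hgs.aestronglyMeasurable]
  rfl

lemma dsc_dist (hc : G.Connected) (h : ℕ) (v u : V) {w : V} (hw : w ∈ dsc (nbV G) h v u) :
    G.dist v w ≤ h := by
  induction h generalizing v u with
  | zero =>
    simp only [dsc, Finset.mem_singleton] at hw
    subst hw
    simp
  | succ h ih =>
    simp only [dsc, Finset.mem_insert, Finset.mem_biUnion] at hw
    rcases hw with rfl | ⟨c, hc', hwc⟩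
    · simp
    · obtain ⟨_, hcN⟩ := Finset.mem_erase.1 hc'
      have hvc : G.Adj v c := by simpa [nbV] using hcN
      have h1 := ih c v hwc
      have h2 : G.dist v c = 1 := SimpleGraph.dist_eq_one_iff_adj.2 hvc
      have h3 := hc.dist_triangle (u := v) (v := c) (w := w)
      omega

/-- **Main statement of the module.**  For an even bounded measurable functional `f` of the
message and the cascade on the edge `(a, o)` into the center of the ball `B(o, R)`. -/
theorem gauge_law {b : ℕ} (hb : 1 ≤ b) (hT : G.IsTree) (hdeg : ∀ v, G.degree v = b + 1)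
    {θ t : ℝ} (h0 : 0 < θ) (h1 : θ < 1) (ht : 0 < t) {o a : V} (hao : G.Adj a o) (p n R : ℕ)
    (hR : n + 1 ≤ R) (f : ℝ → ℝ → ℝ) (hf : Measurable (Function.uncurry f)) (hf1 : ∀ x z, |f x z| ≤ 1)
    (heven : ∀ x z, f (-x) z = f x z) :
    exactE G θ o R t (fun η => f (η a o)
        (casc (nbV G) b (fun x y => phiF θ (η x y) ^ p) n a o))
      = ∫ w, f w.1 w.2 ∂(kapL t θ p b (R - 1 - n) n) := by
  have hc := hT.connected
  set S := ballF G o R with hSdef
  have ho : o ∈ S := (mem_ballF hc).2 (by simp)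
  have hS : ∀ v ∈ S, v ≠ o → parV G o v ∈ S := fun v hv hvo => (mem_ballF hc).2 (by
    have h2 := (parV_spec hc hvo).2
    have h3 := (mem_ballF hc).1 hv
    omega)
  set R₀ := R - 1 - n with hR₀
  let W : (V → Bool × ℝ) → ℝ × ℝ := fun ω => gW θ p (b : ℝ) (nbV G) ω R₀ n a o
  let Φ : (V → Bool × ℝ) → ℝ := fun ω => f (W ω).1 (W ω).2
  have hWm : Measurable W := measurable_gW h0.le h1 p _ R₀ n a o
  have hΦm : Measurable Φ := hf.comp hWm
  have hΦb : ∀ ω, |Φ ω| ≤ 1 := fun ω => hf1 _ _
  have hD : ∀ w ∈ dsc (nbV G) (R₀ + n) a o, w ∈ S ∧ w ≠ o := by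
    intro w hw
    constructor
    · refine (mem_ballF hc).2 ?_
      have h2 := dsc_dist hc _ a o hw
      have h3 : G.dist o a = 1 := SimpleGraph.dist_eq_one_iff_adj.2 hao.symm
      have h4 := hc.dist_triangle (u := o) (v := a) (w := w)
      omega
    · rintro rfl
      exact not_mem_Br hao (dsc_subset_Br hT _ hao hw)
  have hΦD : ∀ ω ω', (∀ v ∈ dsc (nbV G) (R₀ + n) a o, ω v = ω' v) → Φ ω = Φ ω' := by
    intro ω ω' he
    have : W ω = W ω' := gW_congr _ _ _ _ _ _ he
    simp only [Φ, this]
  have hΦd : ∀ ω ω', (∀ v ∈ S, ω v = ω' v) → Φ ω = Φ ω' := fun ω ω' he =>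
    hΦD ω ω' fun v hv => he v (hD v hv).1
  have hH : ∀ s s' : ↥S → Bool, (∀ i, i ≠ ⟨o, ho⟩ → s i = s' i) →
      HH Φ S t s = HH Φ S t s' := by
    intro s s' hss
    unfold HH
    congr 1
    funext z
    refine hΦD _ _ fun w hw => ?_
    obtain ⟨hwS, hwo⟩ := hD w hw
    have hne : (⟨w, hwS⟩ : ↥S) ≠ ⟨o, ho⟩ := fun h => hwo (congrArg Subtype.val h)
    simp [blockExt, hwS, hss _ hne]
  have step1 : ∀ σ : ↥S → Bool,
      ∫ z, (fun η : V → V → ℝ => f (η a o)
          (casc (nbV G) b (fun x y => phiF θ (η x y) ^ p) n a o))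
          (msg θ (nbS G S) (exField S t σ z) (2 * R + 1)) ∂(gamm ↥S)
        = HH Φ S t (gaugeT G o S σ) := by
    intro σ
    rw [← integral_gaugeΩ hΦm]
    refine integral_congr_ae (Filter.Eventually.of_forall fun z => ?_)
    exact link_fun hT σ z p _ n hao hR f heven
  unfold exactE
  rw [Finset.sum_congr rfl fun σ _ => by rw [step1 σ], sum_isingW_gauge hT hS ho _ hH,
    ← integral_gP h0.le h1.le ht.le S hΦm hΦb hΦd]
  have hlaw := gW_law (t := t) hT hdeg h0.le h1 p R₀ n hao
  have := isProb_berL h0.le h1.le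
  have := isProb_kapL (t := t) h0.le h1 p b R₀ n
  have hW : (gP V θ t).map W = kapL t θ p b R₀ n := by
    have h2 : Measurable fun ω : V → Bool × ℝ => ((ω a).1, W ω) :=
      (measurable_fst.comp (measurable_pi_apply a)).prodMk hWm
    have h3 := congrArg (Measure.map Prod.snd) hlaw
    rw [Measure.map_map measurable_snd h2, Measure.map_snd_prod, measure_univ, one_smul] at h3
    exact h3
  rw [← hW]
  have hfm : Measurable fun w : ℝ × ℝ => f w.1 w.2 := hf
  exact (integral_map hWm.aemeasurable hfm.aestronglyMeasurable).symm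

end Main

end

end Vale.Agent.Lib.P161
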