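import Vale.Agent.Lib.P161.End.GaugeTree
import Vale.Agent.Lib.P161.Ising

/-!
P161 endpoint, module Gauge, second part: the deterministic gauge transformation.  The exact
messages and cascade on a ball are, up to the spin at the vertex, the gauged message and cascade.
-/

open MeasureTheory ProbabilityTheory Finset

namespace Vale.Agent.Lib.P161

noncomputable section

variable {V : Type*} [DecidableEq V] {G : SimpleGraph V} [G.LocallyFinite]

/-! ### The parent map -/

open Classical in
/-- The neighbour of `v` closer to `o`. -/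
def parV (G : SimpleGraph V) (o v : V) : V :=
  if h : ∃ u, G.Adj v u ∧ G.dist o v = G.dist o u + 1 then h.choose else v

omit [DecidableEq V] [G.LocallyFinite] in
lemma parV_spec (hc : G.Connected) {o v : V} (hv : v ≠ o) :
    G.Adj v (parV G o v) ∧ G.dist o v = G.dist o (parV G o v) + 1 := by
  have hex : ∃ u, G.Adj v u ∧ G.dist o v = G.dist o u + 1 := by
    obtain ⟨p, hp⟩ := hc.exists_walk_length_eq_dist v o
    cases p with
    | nil => exact absurd rfl hv
    | @cons _ u _ hadj q =>
      refine ⟨u, hadj, ?_⟩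
      simp only [SimpleGraph.Walk.length_cons] at hp
      have h1 := SimpleGraph.dist_le q
      have h2 : G.dist v u = 1 := SimpleGraph.dist_eq_one_iff_adj.2 hadj
      have h3 := hc.dist_triangle (u := v) (v := u) (w := o)
      rw [SimpleGraph.dist_comm (u := o) (v := v), SimpleGraph.dist_comm (u := o) (v := u)]
      omega
  unfold parV
  rw [dif_pos hex]
  exact hex.choose_spec

omit [DecidableEq V] [G.LocallyFinite] in
lemma ne_of_dist_succ {o v u : V} (hd : G.dist o v = G.dist o u + 1) : v ≠ o := by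
  rintro rfl
  rw [SimpleGraph.dist_self] at hd
  omega

omit [DecidableEq V] [G.LocallyFinite] in
lemma parV_unique (hT : G.IsTree) {o v u : V} (hvu : G.Adj v u)
    (hd : G.dist o v = G.dist o u + 1) : parV G o v = u := by
  obtain ⟨h1, h2⟩ := parV_spec hT.connected (ne_of_dist_succ hd)
  exact unique_closer hT h1.symm hvu.symm h2 hd

omit [DecidableEq V] [G.LocallyFinite] in
lemma child_dist (hT : G.IsTree) {o v u c : V} (hvu : G.Adj v u)
    (hd : G.dist o v = G.dist o u + 1) (hvc : G.Adj v c) (hcu : c ≠ u) :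
    G.dist o c = G.dist o v + 1 := by
  rcases hT.dist_eq_dist_add_one_of_adj o hvc with h | h
  · exact absurd (unique_closer hT hvc.symm hvu.symm h hd) hcu
  · exact h

/-! ### Parity -/

lemma hm_neg (θ x : ℝ) : hm θ (-x) = -hm θ x := by
  unfold hm
  rw [Real.cosh_neg, Real.sinh_neg]
  have : (Real.cosh x + θ * -Real.sinh x) / (Real.cosh x - θ * -Real.sinh x)
      = ((Real.cosh x + θ * Real.sinh x) / (Real.cosh x - θ * Real.sinh x))⁻¹ := by
    rw [inv_div]
    congr 1 <;> ring
  rw [this, Real.log_inv]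
  ring

lemma hm_spin (θ : ℝ) (b : Bool) (x : ℝ) : hm θ (spin b * x) = spin b * hm θ x := by
  cases b
  · simp [spin, hm_neg]
  · simp [spin]

lemma phiF_spin (θ : ℝ) (b : Bool) (x : ℝ) : phiF θ (spin b * x) = phiF θ x := by
  cases b
  · simp [spin, phiF, Real.sinh_neg]
  · simp [spin]

lemma spin_mul_self (b : Bool) : spin b * spin b = 1 := by
  cases b <;> simp [spin]

lemma spin_beq (b b' : Bool) : spin (b == b') = spin b * spin b' := by
  cases b <;> cases b' <;> simp [spin]

/-! ### The gauge -/

/-- The gauged signs on a finite set: the spin at `o`, the products of neighbouring spins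
elsewhere. -/
def gaugeT (G : SimpleGraph V) (o : V) (S : Finset V) (σ : ↥S → Bool) (i : ↥S) : Bool :=
  if i.1 = o then σ i else (extB S σ i.1 == extB S σ (parV G o i.1))

/-- The gauged configuration. -/
def gaugeΩ (G : SimpleGraph V) (o : V) (S : Finset V) (t : ℝ) (σ : ↥S → Bool) (z : ↥S → ℝ) :
    V → Bool × ℝ :=
  blockExt S fun i => (gaugeT G o S σ i, t + Real.sqrt t * (spin (σ i) * z i))

section Link

variable {o : V} {S : Finset V} {t : ℝ} (σ : ↥S → Bool) (z : ↥S → ℝ)

lemma gaugeΩ_of_mem {v : V} (hv : v ∈ S) :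
    gaugeΩ G o S t σ z v = (gaugeT G o S σ ⟨v, hv⟩, t + Real.sqrt t * (spin (σ ⟨v, hv⟩) * z ⟨v, hv⟩)) := by
  classical
  simp [gaugeΩ, blockExt, hv]

lemma extB_of_mem {v : V} (hv : v ∈ S) : extB S σ v = σ ⟨v, hv⟩ := by
  simp [extB, hv]

lemma exField_eq {v : V} (hv : v ∈ S) :
    exField S t σ z v = spin (extB S σ v) * (gaugeΩ G o S t σ z v).2 := by
  rw [gaugeΩ_of_mem σ z hv, extB_of_mem σ hv]
  simp only [exField, hv, dite_true]
  have := spin_mul_self (σ ⟨v, hv⟩)
  linear_combination (-(Real.sqrt t) * z ⟨v, hv⟩) * this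

lemma gauge_sign (hT : G.IsTree) {c v : V} (hc : c ∈ S) (hcv : G.Adj c v)
    (hd : G.dist o c = G.dist o v + 1) :
    spin (gaugeΩ G o S t σ z c).1 = spin (extB S σ c) * spin (extB S σ v) := by
  rw [gaugeΩ_of_mem σ z hc]
  simp only [gaugeT, ne_of_dist_succ hd, if_false]
  rw [parV_unique hT hcv hd, spin_beq]

end Link

section Ball

variable {θ t : ℝ} {o : V} {R : ℕ}

lemma nbS_ball_eq (hc : G.Connected) {v : V} (hv : G.dist o v + 1 ≤ R) :
    nbS G (ballF G o R) v = nbV G v := by
  classical
  have hvS : v ∈ ballF G o R := (mem_ballF hc).2 (by omega)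
  have : ∀ c ∈ G.neighborFinset v, c ∈ ballF G o R := by
    intro c hcN
    have hvc : G.Adj v c := by simpa using hcN
    have h2 : G.dist v c = 1 := SimpleGraph.dist_eq_one_iff_adj.2 hvc
    have h3 := hc.dist_triangle (u := o) (v := v) (w := c)
    exact (mem_ballF hc).2 (by omega)
  unfold nbS nbV
  rw [if_pos hvS]
  convert Finset.filter_true_of_mem this

lemma erase_nbS_ball_eq_empty (hT : G.IsTree) {v u : V} (hvu : G.Adj v u)
    (hd : G.dist o v = G.dist o u + 1) (hv : G.dist o v = R) :
    (nbS G (ballF G o R) v).erase u = ∅ := by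
  classical
  rw [Finset.eq_empty_iff_forall_notMem]
  intro c hc
  obtain ⟨hcu, hcN⟩ := Finset.mem_erase.1 hc
  have hvS : v ∈ ballF G o R := (mem_ballF hT.connected).2 (by omega)
  have hcN' : c ∈ (G.neighborFinset v).filter (fun c => c ∈ ballF G o R) := by
    simpa [nbS, hvS] using hcN
  obtain ⟨h1, h2⟩ := Finset.mem_filter.1 hcN'
  have hvc : G.Adj v c := by simpa using h1
  have h3 := child_dist hT hvu hd hvc hcu
  have h4 := (mem_ballF hT.connected).1 h2
  omega

/-- The exact message on a ball is the spin times the gauged message. -/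
theorem link_msg (hT : G.IsTree) (σ : ↥(ballF G o R) → Bool) (z : ↥(ballF G o R) → ℝ) (H L : ℕ)
    (hHL : H ≤ L) {v u : V} (hvu : G.Adj v u) (hd : G.dist o v = G.dist o u + 1)
    (hR : G.dist o v + H = R) :
    msg θ (nbS G (ballF G o R)) (exField (ballF G o R) t σ z) L v u
      = spin (extB (ballF G o R) σ v) * gm θ (nbV G) (gaugeΩ G o (ballF G o R) t σ z) H v u := by
  have hc := hT.connected
  have hvS : v ∈ ballF G o R := (mem_ballF hc).2 (by omega)
  induction H generalizing L v u with
  | zero =>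
    have hb := erase_nbS_ball_eq_empty hT hvu hd (by omega)
    have : msg θ (nbS G (ballF G o R)) (exField (ballF G o R) t σ z) L v u
        = exField (ballF G o R) t σ z v := by
      cases L with
      | zero => rfl
      | succ L => simp [msg, hb]
    rw [this, exField_eq (o := o) (G := G) σ z hvS]
    rfl
  | succ H ih =>
    obtain ⟨L', rfl⟩ : ∃ L', L = L' + 1 := ⟨L - 1, by omega⟩
    simp only [msg, gm]
    rw [nbS_ball_eq hc (by omega), exField_eq (o := o) (G := G) σ z hvS, mul_add, Finset.mul_sum]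
    congr 1
    refine Finset.sum_congr rfl fun c hcm => ?_
    obtain ⟨hcu, hcN⟩ := Finset.mem_erase.1 hcm
    have hvc : G.Adj v c := by simpa [nbV] using hcN
    have hcd := child_dist hT hvu hd hvc hcu
    have hcS : c ∈ ballF G o R := (mem_ballF hc).2 (by omega)
    rw [ih L' (by omega) hvc.symm hcd (by omega) hcS, ← hm_spin, ← mul_assoc,
      gauge_sign (t := t) σ z hT hcS hvc.symm hcd]
    congr 1
    congr 1
    have := spin_mul_self (extB (ballF G o R) σ v)
    linear_combination (-spin (extB (ballF G o R) σ c)) * this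

/-- The cascade of the exact messages is the gauged cascade. -/
theorem link_casc (hT : G.IsTree) (σ : ↥(ballF G o R) → Bool) (z : ↥(ballF G o R) → ℝ)
    (p : ℕ) (bb : ℝ) (R₀ n : ℕ) {v u : V} (hvu : G.Adj v u)
    (hd : G.dist o v = G.dist o u + 1) (hR : G.dist o v + n + R₀ = R) :
    casc (nbV G) bb (fun x y => phiF θ
        (msg θ (nbS G (ballF G o R)) (exField (ballF G o R) t σ z) (2 * R + 1) x y) ^ p) n v u
      = (gW θ p bb (nbV G) (gaugeΩ G o (ballF G o R) t σ z) R₀ n v u).2 := by
  induction n generalizing v u with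
  | zero => rfl
  | succ n ih =>
    simp only [casc, gW]
    congr 1
    refine Finset.sum_congr rfl fun c hcm => ?_
    obtain ⟨hcu, hcN⟩ := Finset.mem_erase.1 hcm
    have hvc : G.Adj v c := by simpa [nbV] using hcN
    have hcd := child_dist hT hvu hd hvc hcu
    rw [ih hvc.symm hcd (by omega), gW_fst,
      link_msg hT σ z (R₀ + n) (2 * R + 1) (by omega) hvc.symm hcd (by omega), phiF_spin]

/-- The functional of the exact messages equals the functional of the gauged configuration. -/
theorem link_fun (hT : G.IsTree) (σ : ↥(ballF G o R) → Bool) (z : ↥(ballF G o R) → ℝ)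
    (p : ℕ) (bb : ℝ) (n : ℕ) {a : V} (hao : G.Adj a o) (hR : n + 1 ≤ R)
    (f : ℝ → ℝ → ℝ) (heven : ∀ x z, f (-x) z = f x z) :
    (fun η : V → V → ℝ => f (η a o) (casc (nbV G) bb (fun x y => phiF θ (η x y) ^ p) n a o))
        (msg θ (nbS G (ballF G o R)) (exField (ballF G o R) t σ z) (2 * R + 1))
      = f (gW θ p bb (nbV G) (gaugeΩ G o (ballF G o R) t σ z) (R - 1 - n) n a o).1
          (gW θ p bb (nbV G) (gaugeΩ G o (ballF G o R) t σ z) (R - 1 - n) n a o).2 := by
  have hda : G.dist o a = G.dist o o + 1 := by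
    rw [SimpleGraph.dist_self, SimpleGraph.dist_eq_one_iff_adj.2 hao.symm]
  have hda1 : G.dist o a = 1 := SimpleGraph.dist_eq_one_iff_adj.2 hao.symm
  have hfeven : ∀ (b : Bool) (x y : ℝ), f (spin b * x) y = f x y := by
    intro b x y
    cases b
    · simp [spin, heven]
    · simp [spin]
  show f _ _ = _
  rw [link_casc hT σ z p bb (R - 1 - n) n hao hda (by omega),
    link_msg hT σ z (R - 1) (2 * R + 1) (by omega) hao hda (by omega), hfeven, gW_fst]
  have : R - 1 - n + n = R - 1 := by omega
  rw [this]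

end Ball

end

end Vale.Agent.Lib.P161
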