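import Vale.Agent.Lib.P161.End.Defs
import Vale.Agent.Lib.P161.Step
import Vale.Agent.Lib.P161.Scalar

/-!
P161 endpoint, module Gauge, first part: the gauged message and cascade on the infinite tree under
an i.i.d. field of (sign, observation) pairs.  The law of the pair (message, cascade) on every
directed edge is the explicit recursive law `kapL`.
-/

open MeasureTheory ProbabilityTheory Finset

namespace Vale.Agent.Lib.P161

noncomputable section

/-! ### Independent blocks in a product measure -/

section Blocks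

variable {V E : Type*} [MeasurableSpace E] [Inhabited E]

open Classical in
/-- Extension of a function on a finite set of coordinates by a default value. -/
def blockExt (I : Finset V) (x : ↥I → E) (v : V) : E := if h : v ∈ I then x ⟨v, h⟩ else default

lemma measurable_blockExt (I : Finset V) : Measurable (blockExt (E := E) I) := by
  classical
  refine measurable_pi_lambda _ fun v => ?_
  by_cases h : v ∈ I
  · simp only [blockExt, h, dite_true]; exact measurable_pi_apply _
  · simp only [blockExt, h, dite_false]; exact measurable_const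

lemma comp_blockExt_restrict {α : Type*} {T : (V → E) → α} {I : Finset V}
    (hd : ∀ ω ω', (∀ v ∈ I, ω v = ω' v) → T ω = T ω') (ω : V → E) :
    T (blockExt I (I.restrict ω)) = T ω := by
  classical
  refine hd _ _ fun v hv => ?_
  simp [blockExt, hv]

variable (μ : V → Measure E) [∀ v, IsProbabilityMeasure (μ v)]

/-- Two functions of the field depending on disjoint finite sets of coordinates are independent. -/
theorem indepFun_of_local {α β : Type*} [MeasurableSpace α] [MeasurableSpace β]
    {A : (V → E) → α} {B : (V → E) → β} {I I' : Finset V} (hI : Disjoint I I')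
    (hA : Measurable A) (hB : Measurable B)
    (hAd : ∀ ω ω', (∀ v ∈ I, ω v = ω' v) → A ω = A ω')
    (hBd : ∀ ω ω', (∀ v ∈ I', ω v = ω' v) → B ω = B ω') :
    IndepFun A B (Measure.infinitePi μ) := by
  classical
  have h0 : iIndepFun (fun (i : V) (ω : V → E) => ω i) (Measure.infinitePi μ) :=
    iIndepFun_infinitePi (X := fun _ x => x) (fun _ => measurable_id)
  have h1 := h0.indepFun_finset I I' hI (fun i => measurable_pi_apply i)
  have h2 := h1.comp (φ := A ∘ blockExt I) (ψ := B ∘ blockExt I')
    (hA.comp (measurable_blockExt I)) (hB.comp (measurable_blockExt I'))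
  have e1 : (A ∘ blockExt I) ∘ (fun a (i : I) => a i) = A := by
    funext ω
    exact comp_blockExt_restrict hAd ω
  have e2 : (B ∘ blockExt I') ∘ (fun a (i : I') => a i) = B := by
    funext ω
    exact comp_blockExt_restrict hBd ω
  rwa [e1, e2] at h2

/-- Functions of the field depending on pairwise disjoint finite sets of coordinates are
independent. -/
theorem iIndepFun_of_local {J γ : Type*} [MeasurableSpace γ] (I : J → Finset V)
    (hI : Pairwise fun j j' => Disjoint (I j) (I j')) (T : J → (V → E) → γ)
    (hT : ∀ j, Measurable (T j))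
    (hd : ∀ j ω ω', (∀ v ∈ I j, ω v = ω' v) → T j ω = T j ω') :
    iIndepFun T (Measure.infinitePi μ) := by
  classical
  set P := Measure.infinitePi μ with hP
  let f : (Σ j, ↥(I j)) → V := fun p => p.2.1
  have hf : Function.Injective f := by
    rintro ⟨j, x⟩ ⟨j', x'⟩ h
    have hx : x.1 = x'.1 := h
    by_cases hj : j = j'
    · subst hj
      have : x = x' := Subtype.ext hx
      rw [this]
    · exact absurd x'.2 (Finset.disjoint_left.1 (hI hj) (hx ▸ x.2))
  let Y : (V → E) → (∀ j, ↥(I j) → E) := fun ω j i => ω i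
  have hYm : Measurable Y :=
    measurable_pi_lambda _ fun j => measurable_pi_lambda _ fun i => measurable_pi_apply _
  have hY : P.map Y = Measure.infinitePi fun j => Measure.infinitePi fun i : ↥(I j) => μ i := by
    have h1 : P.map (fun ω k => ω (f k)) = Measure.infinitePi fun k => μ (f k) :=
      Measure.map_infinitePi_infinitePi_of_inj hf
    have h2 := Measure.infinitePi_map_piCurry (fun (j : J) (i : ↥(I j)) => μ i)
    have h3 : Y = (MeasurableEquiv.piCurry fun (j : J) (_ : ↥(I j)) => E) ∘ fun ω k => ω (f k) := by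
      funext ω j i
      rfl
    rw [h3, ← Measure.map_map (by fun_prop) (by fun_prop), h1]
    exact h2
  let g : ∀ j, (↥(I j) → E) → γ := fun j => T j ∘ blockExt (I j)
  have hg : ∀ j, Measurable (g j) := fun j => (hT j).comp (measurable_blockExt _)
  have hTg : ∀ j ω, T j ω = g j (Y ω j) := fun j ω => (comp_blockExt_restrict (hd j) ω).symm
  have hmapT : ∀ j, P.map (T j) = (Measure.infinitePi fun i : ↥(I j) => μ i).map (g j) := by
    intro j
    have h1 : T j = (g j ∘ fun y : (∀ j, ↥(I j) → E) => y j) ∘ Y := by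
      funext ω
      exact hTg j ω
    rw [h1, ← Measure.map_map ((hg j).comp (measurable_pi_apply j)) hYm, hY,
      ← Measure.map_map (hg j) (measurable_pi_apply j), Measure.infinitePi_map_eval]
  rw [iIndepFun_iff_map_fun_eq_infinitePi_map hT]
  have h1 : (fun ω j => T j ω) = (fun (y : ∀ j, ↥(I j) → E) j => g j (y j)) ∘ Y := by
    funext ω j
    exact hTg j ω
  have hm : Measurable (fun (y : ∀ j, ↥(I j) → E) j => g j (y j)) :=
    measurable_pi_lambda _ fun j => (hg j).comp (measurable_pi_apply j)
  rw [h1, ← Measure.map_map hm hYm, hY, Measure.infinitePi_map_pi _ hg]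
  congr 1
  funext j
  exact (hmapT j).symm

end Blocks

/-! ### The base laws -/

lemma isProb_berL {θ : ℝ} (h0 : 0 ≤ θ) (h1 : θ ≤ 1) : IsProbabilityMeasure (berL θ) := by
  constructor
  simp only [berL, Measure.add_apply, Measure.smul_apply, measure_univ, smul_eq_mul, mul_one]
  rw [← ENNReal.ofReal_add (by linarith) (by linarith)]
  have : (1 + θ) / 2 + (1 - θ) / 2 = 1 := by ring
  rw [this, ENNReal.ofReal_one]

instance (t : ℝ) : IsProbabilityMeasure (obsL t) := by
  unfold obsL
  infer_instance


lemma measurable_spin : Measurable spin := measurable_of_countable _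

/-! ### The gauged message and cascade -/

section Tree

variable {V : Type*} [DecidableEq V]

/-- The gauged message on a directed edge, with height `h`; `ω v = (s_v, y_v)`. -/
def gm (θ : ℝ) (N : V → Finset V) (ω : V → Bool × ℝ) : ℕ → V → V → ℝ
  | 0, v, _ => (ω v).2
  | h + 1, v, u => (ω v).2 + ∑ c ∈ (N v).erase u, hm θ (spin (ω c).1 * gm θ N ω h c v)

/-- The gauged pair (message, cascade). -/
def gW (θ : ℝ) (p : ℕ) (bb : ℝ) (N : V → Finset V) (ω : V → Bool × ℝ) (R₀ : ℕ) :
    ℕ → V → V → ℝ × ℝ
  | 0, v, u => (gm θ N ω R₀ v u, 1)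
  | n + 1, v, u =>
      ((ω v).2 + ∑ c ∈ (N v).erase u, hm θ (spin (ω c).1 * (gW θ p bb N ω R₀ n c v).1),
        (1 / bb) * ∑ c ∈ (N v).erase u,
          phiF θ (gW θ p bb N ω R₀ n c v).1 ^ p * (gW θ p bb N ω R₀ n c v).2)

/-- The set of coordinates used by the message of height `h` on the edge `(v, u)`. -/
def dsc (N : V → Finset V) : ℕ → V → V → Finset V
  | 0, v, _ => {v}
  | h + 1, v, u => insert v (((N v).erase u).biUnion fun c => dsc N h c v)

variable {θ : ℝ} {N : V → Finset V}

lemma self_mem_dsc (h : ℕ) (v u : V) : v ∈ dsc N h v u := by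
  cases h with
  | zero => simp [dsc]
  | succ h => simp [dsc]

lemma gW_fst (p : ℕ) (bb : ℝ) (ω : V → Bool × ℝ) (R₀ n : ℕ) (v u : V) :
    (gW θ p bb N ω R₀ n v u).1 = gm θ N ω (R₀ + n) v u := by
  induction n generalizing v u with
  | zero => rfl
  | succ n ih =>
    show _ = gm θ N ω (R₀ + n + 1) v u
    simp only [gW, gm]
    congr 1
    refine Finset.sum_congr rfl fun c _ => ?_
    rw [ih]

lemma measurable_gm (h0 : 0 ≤ θ) (h1 : θ < 1) (h : ℕ) (v u : V) :
    Measurable fun ω : V → Bool × ℝ => gm θ N ω h v u := by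
  induction h generalizing v u with
  | zero =>
    exact measurable_snd.comp (measurable_pi_apply v)
  | succ h ih =>
    simp only [gm]
    refine (measurable_snd.comp (measurable_pi_apply v)).add ?_
    refine Finset.measurable_sum _ fun c _ => ?_
    refine (continuous_hm h0 h1).measurable.comp ?_
    exact (measurable_spin.comp (measurable_fst.comp (measurable_pi_apply c))).mul (ih c v)

lemma measurable_phiF (θ : ℝ) : Measurable (phiF θ) := by
  unfold phiF
  fun_prop

lemma measurable_gW (h0 : 0 ≤ θ) (h1 : θ < 1) (p : ℕ) (bb : ℝ) (R₀ n : ℕ) (v u : V) :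
    Measurable fun ω : V → Bool × ℝ => gW θ p bb N ω R₀ n v u := by
  induction n generalizing v u with
  | zero =>
    simp only [gW]
    exact (measurable_gm h0 h1 _ v u).prodMk measurable_const
  | succ n ih =>
    simp only [gW]
    refine Measurable.prodMk ?_ ?_
    · refine (measurable_snd.comp (measurable_pi_apply v)).add ?_
      refine Finset.measurable_sum _ fun c _ => ?_
      refine (continuous_hm h0 h1).measurable.comp ?_
      exact (measurable_spin.comp (measurable_fst.comp (measurable_pi_apply c))).mul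
        (measurable_fst.comp (ih c v))
    · refine Measurable.const_mul ?_ _
      refine Finset.measurable_sum _ fun c _ => ?_
      exact (((measurable_phiF θ).comp (measurable_fst.comp (ih c v))).pow_const p).mul
        (measurable_snd.comp (ih c v))

lemma gm_congr (h : ℕ) (v u : V) {ω ω' : V → Bool × ℝ} (he : ∀ w ∈ dsc N h v u, ω w = ω' w) :
    gm θ N ω h v u = gm θ N ω' h v u := by
  induction h generalizing v u with
  | zero =>
    simp only [gm]
    rw [he v (self_mem_dsc 0 v u)]
  | succ h ih =>
    simp only [gm]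
    rw [he v (self_mem_dsc _ v u)]
    congr 1
    refine Finset.sum_congr rfl fun c hc => ?_
    have hsub : ∀ w ∈ dsc N h c v, ω w = ω' w := fun w hw => he w (by
      simp only [dsc, Finset.mem_insert, Finset.mem_biUnion]
      exact Or.inr ⟨c, hc, hw⟩)
    rw [hsub c (self_mem_dsc _ c v), ih c v hsub]

lemma gW_congr (p : ℕ) (bb : ℝ) (R₀ n : ℕ) (v u : V) {ω ω' : V → Bool × ℝ}
    (he : ∀ w ∈ dsc N (R₀ + n) v u, ω w = ω' w) :
    gW θ p bb N ω R₀ n v u = gW θ p bb N ω' R₀ n v u := by
  induction n generalizing v u with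
  | zero =>
    simp only [gW]
    rw [gm_congr (θ := θ) R₀ v u (ω := ω) (ω' := ω') he]
  | succ n ih =>
    simp only [gW]
    have hsub : ∀ c ∈ (N v).erase u, ∀ w ∈ dsc N (R₀ + n) c v, ω w = ω' w := fun c hc w hw =>
      he w (by
        rw [← add_assoc]
        simp only [dsc, Finset.mem_insert, Finset.mem_biUnion]
        exact Or.inr ⟨c, hc, hw⟩)
    have hv : ω v = ω' v := he v (self_mem_dsc _ v u)
    have hc : ∀ c ∈ (N v).erase u, gW θ p bb N ω R₀ n c v = gW θ p bb N ω' R₀ n c v :=
      fun c hc => ih c v (hsub c hc)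
    rw [hv]
    refine Prod.ext ?_ ?_
    · simp only
      congr 1
      refine Finset.sum_congr rfl fun c hc' => ?_
      rw [hc c hc', hsub c hc' c (self_mem_dsc _ c v)]
    · simp only
      congr 1
      refine Finset.sum_congr rfl fun c hc' => ?_
      rw [hc c hc']

variable {G : SimpleGraph V} [G.LocallyFinite]

lemma dsc_subset_Br (hT : G.IsTree) (h : ℕ) {v u : V} (hvu : G.Adj v u) {w : V}
    (hw : w ∈ dsc (nbV G) h v u) : w ∈ Br G v u := by
  induction h generalizing v u with
  | zero =>
    simp only [dsc, Finset.mem_singleton] at hw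
    subst hw
    exact self_mem_Br hvu
  | succ h ih =>
    simp only [dsc, Finset.mem_insert, Finset.mem_biUnion] at hw
    rcases hw with rfl | ⟨c, hc, hwc⟩
    · exact self_mem_Br hvu
    · obtain ⟨hcu, hcN⟩ := Finset.mem_erase.1 hc
      have hvc : G.Adj v c := by simpa [nbV] using hcN
      exact Br_step hT hvc.symm hvu hcu (ih hvc.symm hwc)

/-! ### One step of the tree recursion in law -/

variable {t : ℝ}

/-- The i.i.d. law of the signs and observations. -/
def gP (V : Type*) (θ t : ℝ) : Measure (V → Bool × ℝ) :=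
  Measure.infinitePi fun _ : V => (berL θ).prod (obsL t)

/-- The product rearrangement. -/
lemma map_rearr {A B C D : Type*} [MeasurableSpace A] [MeasurableSpace B] [MeasurableSpace C]
    [MeasurableSpace D] (μa : Measure A) (μb : Measure B) (μc : Measure C) [SFinite μa] [SFinite μb]
    [SFinite μc] {Ψ : B × C → D} (hΨ : Measurable Ψ) :
    ((μa.prod μb).prod μc).map (fun w => (w.1.1, Ψ (w.1.2, w.2))) = μa.prod ((μb.prod μc).map Ψ) := by
  have h1 := (measurePreserving_prodAssoc μa μb μc).map_eq
  have h2 : (fun w : (A × B) × C => (w.1.1, Ψ (w.1.2, w.2)))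
      = Prod.map id Ψ ∘ MeasurableEquiv.prodAssoc := by
    funext w
    rfl
  rw [h2, ← Measure.map_map (measurable_id.prodMap hΨ) MeasurableEquiv.prodAssoc.measurable, h1]
  have h3 : μa = μa.map id := Measure.map_id.symm
  conv_rhs => rw [h3]
  rw [Measure.map_prod_map _ _ measurable_id hΨ]

theorem tree_step (h0 : 0 ≤ θ) (h1 : θ ≤ 1) {b : ℕ} {β γ : Type*} [MeasurableSpace β]
    [MeasurableSpace γ] (v : V) (c : Fin b → V) (I : Fin b → Finset V)
    (hI : Pairwise fun i j => Disjoint (I i) (I j)) (hcI : ∀ i, c i ∈ I i) (hvI : ∀ i, v ∉ I i)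
    (Y : Fin b → (V → Bool × ℝ) → β) (hYm : ∀ i, Measurable (Y i))
    (hYd : ∀ i ω ω', (∀ w ∈ I i, ω w = ω' w) → Y i ω = Y i ω')
    (κ : Measure β) [IsProbabilityMeasure κ]
    (hlaw : ∀ i, (gP V θ t).map (fun ω => ((ω (c i)).1, Y i ω)) = (berL θ).prod κ)
    {Ψ : ℝ × (Fin b → Bool × β) → γ} (hΨ : Measurable Ψ) :
    (gP V θ t).map (fun ω => ((ω v).1, Ψ ((ω v).2, fun i => ((ω (c i)).1, Y i ω))))
      = (berL θ).prod (((obsL t).prod (Measure.pi fun _ : Fin b => (berL θ).prod κ)).map Ψ) := by
  classical
  have := isProb_berL h0 h1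
  let T : Fin b → (V → Bool × ℝ) → Bool × β := fun i ω => ((ω (c i)).1, Y i ω)
  have hTm : ∀ i, Measurable (T i) := fun i =>
    (measurable_fst.comp (measurable_pi_apply (c i))).prodMk (hYm i)
  have hTd : ∀ i ω ω', (∀ w ∈ I i, ω w = ω' w) → T i ω = T i ω' := fun i ω ω' he => by
    simp only [T]
    rw [he _ (hcI i), hYd i ω ω' he]
  have hind : iIndepFun T (gP V θ t) :=
    iIndepFun_of_local (fun _ : V => (berL θ).prod (obsL t)) I hI T hTm hTd
  have hP : IsProbabilityMeasure (gP V θ t) := by unfold gP; infer_instance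
  have htuple : (gP V θ t).map (fun ω i => T i ω)
      = Measure.pi fun _ : Fin b => (berL θ).prod κ := by
    rw [hind.map_fun_eq_pi_map fun i => (hTm i).aemeasurable]
    congr 1
    funext i
    exact hlaw i
  have hTup : Measurable fun ω i => T i ω := measurable_pi_lambda _ hTm
  have hev : Measurable fun ω : V → Bool × ℝ => ω v := measurable_pi_apply v
  have hind2 : IndepFun (fun ω : V → Bool × ℝ => ω v) (fun ω i => T i ω) (gP V θ t) := by
    refine indepFun_of_local (fun _ : V => (berL θ).prod (obsL t))
      (I := {v}) (I' := Finset.univ.biUnion I) ?_ hev hTup ?_ ?_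
    · simp only [Finset.disjoint_singleton_left, Finset.mem_biUnion, Finset.mem_univ, true_and,
        not_exists]
      exact hvI
    · intro ω ω' he
      exact he v (Finset.mem_singleton_self v)
    · intro ω ω' he
      funext i
      exact hTd i ω ω' fun w hw => he w (Finset.mem_biUnion.2 ⟨i, Finset.mem_univ _, hw⟩)
  have hpair : (gP V θ t).map (fun ω => (ω v, fun i => T i ω))
      = ((berL θ).prod (obsL t)).prod (Measure.pi fun _ : Fin b => (berL θ).prod κ) := by
    rw [(indepFun_iff_map_prod_eq_prod_map_map hev.aemeasurable hTup.aemeasurable).1 hind2, htuple]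
    congr 1
    exact Measure.infinitePi_map_eval _ v
  have hG : Measurable fun w : (Bool × ℝ) × (Fin b → Bool × β) => (w.1.1, Ψ (w.1.2, w.2)) :=
    (measurable_fst.comp measurable_fst).prodMk
      (hΨ.comp ((measurable_snd.comp measurable_fst).prodMk measurable_snd))
  have : (fun ω : V → Bool × ℝ => ((ω v).1, Ψ ((ω v).2, fun i => ((ω (c i)).1, Y i ω))))
      = (fun w : (Bool × ℝ) × (Fin b → Bool × β) => (w.1.1, Ψ (w.1.2, w.2)))
        ∘ fun ω => (ω v, fun i => T i ω) := rfl
  rw [this, ← Measure.map_map hG (hev.prodMk hTup), hpair]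
  exact map_rearr _ _ _ hΨ

/-! ### Probability measures -/

lemma measurable_sgnH (h0 : 0 ≤ θ) (h1 : θ < 1) :
    Measurable fun a : Bool × ℝ => hm θ (spin a.1 * a.2) :=
  (continuous_hm h0 h1).measurable.comp ((measurable_spin.comp measurable_fst).mul measurable_snd)

lemma isProb_xiL (h0 : 0 ≤ θ) (h1 : θ < 1) (ν : Measure ℝ) [IsProbabilityMeasure ν] :
    IsProbabilityMeasure (xiL θ ν) := by
  have := isProb_berL h0 h1.le
  unfold xiL
  exact Measure.isProbabilityMeasure_map (measurable_sgnH h0 h1).aemeasurable

lemma isProb_sideL (h0 : 0 ≤ θ) (h1 : θ < 1) (ν : Measure ℝ) [IsProbabilityMeasure ν] (m : ℕ) :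
    IsProbabilityMeasure (sideL t θ ν m) := by
  induction m with
  | zero => simp only [sideL]; infer_instance
  | succ m ih =>
    have := isProb_xiL h0 h1 ν
    simp only [sideL]
    unfold Measure.conv
    exact Measure.isProbabilityMeasure_map (by fun_prop)

lemma isProb_nuL (h0 : 0 ≤ θ) (h1 : θ < 1) (b R : ℕ) : IsProbabilityMeasure (nuL t θ b R) := by
  induction R with
  | zero => simp only [nuL]; infer_instance
  | succ R ih =>
    simp only [nuL]
    exact isProb_sideL h0 h1 _ _

lemma measurable_stepMap (h0 : 0 ≤ θ) (h1 : θ < 1) (p b : ℕ) : Measurable (stepMap θ p b) := by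
  unfold stepMap
  refine Measurable.prodMk ?_ ?_
  · refine measurable_fst.add ?_
    refine Finset.measurable_sum _ fun i _ => ?_
    have hi : Measurable fun w : ℝ × (Fin b → Bool × ℝ × ℝ) => w.2 i :=
      (measurable_pi_apply i).comp measurable_snd
    exact (continuous_hm h0 h1).measurable.comp
      ((measurable_spin.comp (measurable_fst.comp hi)).mul
        (measurable_fst.comp (measurable_snd.comp hi)))
  · refine Measurable.const_mul ?_ _
    refine Finset.measurable_sum _ fun i _ => ?_
    have hi : Measurable fun w : ℝ × (Fin b → Bool × ℝ × ℝ) => w.2 i :=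
      (measurable_pi_apply i).comp measurable_snd
    exact (((measurable_phiF θ).comp (measurable_fst.comp (measurable_snd.comp hi))).pow_const p).mul
      (measurable_snd.comp (measurable_snd.comp hi))

lemma isProb_stepK (h0 : 0 ≤ θ) (h1 : θ < 1) (p b : ℕ) (κ : Measure (ℝ × ℝ))
    [IsProbabilityMeasure κ] : IsProbabilityMeasure (stepK t θ p b κ) := by
  have := isProb_berL h0 h1.le
  unfold stepK
  exact Measure.isProbabilityMeasure_map (measurable_stepMap h0 h1 p b).aemeasurable

lemma isProb_kapL (h0 : 0 ≤ θ) (h1 : θ < 1) (p b R₀ n : ℕ) :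
    IsProbabilityMeasure (kapL t θ p b R₀ n) := by
  induction n with
  | zero =>
    have := isProb_nuL (t := t) h0 h1 b R₀
    simp only [kapL]
    infer_instance
  | succ n ih =>
    simp only [kapL]
    exact isProb_stepK h0 h1 p b _

/-! ### The side law as a product law -/

/-- The side law is the law of the sum of the observation and of the independent child
contributions. -/
theorem sideL_map (h0 : 0 ≤ θ) (h1 : θ < 1) (ν : Measure ℝ) [IsProbabilityMeasure ν] (m : ℕ) :
    ((obsL t).prod (Measure.pi fun _ : Fin m => (berL θ).prod ν)).map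
        (fun w => w.1 + ∑ i, hm θ (spin (w.2 i).1 * (w.2 i).2)) = sideL t θ ν m := by
  have := isProb_berL h0 h1.le
  have hB := measurable_sgnH h0 h1
  induction m with
  | zero =>
    simp only [sideL, Finset.univ_eq_empty, Finset.sum_empty, add_zero]
    rw [Measure.pi_of_empty, Measure.prod_dirac, Measure.map_map (by fun_prop) (by fun_prop)]
    exact Measure.map_id
  | succ m ih =>
    have := isProb_sideL (t := t) h0 h1 ν m
    set μα : Measure (Bool × ℝ) := (berL θ).prod ν with hμα
    let A : ℝ × (Fin m → Bool × ℝ) → ℝ := fun w => w.1 + ∑ i, hm θ (spin (w.2 i).1 * (w.2 i).2)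
    have hA : Measurable A := by
      refine measurable_fst.add ?_
      refine Finset.measurable_sum _ fun i _ => ?_
      exact hB.comp ((measurable_pi_apply i).comp measurable_snd)
    let e : ℝ × (Fin (m + 1) → Bool × ℝ) → (ℝ × (Fin m → Bool × ℝ)) × (Bool × ℝ) :=
      fun w => ((w.1, fun j => w.2 j.castSucc), w.2 (Fin.last m))
    have he : Measurable e := by
      refine Measurable.prodMk (measurable_fst.prodMk ?_) ?_
      · exact measurable_pi_lambda _ fun j => (measurable_pi_apply _).comp measurable_snd
      · exact (measurable_pi_apply _).comp measurable_snd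
    have hlaw : ((obsL t).prod (Measure.pi fun _ : Fin (m + 1) => μα)).map e
        = ((obsL t).prod (Measure.pi fun _ : Fin m => μα)).prod μα := by
      have h1' := (measurePreserving_piFinSuccAbove (fun _ : Fin (m + 1) => μα) (Fin.last m)).map_eq
      let g : (Fin (m + 1) → Bool × ℝ) → (Fin m → Bool × ℝ) × (Bool × ℝ) :=
        fun x => (fun j => x j.castSucc, x (Fin.last m))
      have hg : Measurable g :=
        (measurable_pi_lambda _ fun j => measurable_pi_apply _).prodMk (measurable_pi_apply _)
      have h2 : (Measure.pi fun _ : Fin (m + 1) => μα).map g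
          = (Measure.pi fun _ : Fin m => μα).prod μα := by
        have : g = Prod.swap ∘ (MeasurableEquiv.piFinSuccAbove (fun _ : Fin (m + 1) => Bool × ℝ)
            (Fin.last m)) := by
          funext x
          simp [g, MeasurableEquiv.piFinSuccAbove, Fin.insertNthEquiv]
          rfl
        rw [this, ← Measure.map_map measurable_swap (MeasurableEquiv.measurable _), h1']
        exact Measure.prod_swap
      have h3 : e = (MeasurableEquiv.prodAssoc.symm) ∘ (Prod.map id g) := by
        funext w
        rfl
      rw [h3, ← Measure.map_map (MeasurableEquiv.measurable _) (measurable_id.prodMap hg)]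
      have h4 : (obsL t).prod (Measure.pi fun _ : Fin (m + 1) => μα)
          = ((obsL t).map id).prod (Measure.pi fun _ : Fin (m + 1) => μα) := by
        rw [Measure.map_id]
      rw [h4, ← Measure.map_prod_map _ _ measurable_id hg, h2]
      simp only [Measure.map_id]
      exact (measurePreserving_prodAssoc _ _ _).symm.map_eq
    simp only [sideL]
    rw [← ih]
    have h5 : (fun w : ℝ × (Fin (m + 1) → Bool × ℝ) =>
        w.1 + ∑ i, hm θ (spin (w.2 i).1 * (w.2 i).2))
        = (fun x : ℝ × ℝ => x.1 + x.2) ∘ (Prod.map A fun a : Bool × ℝ => hm θ (spin a.1 * a.2)) ∘ e := by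
      funext w
      simp only [Function.comp, Prod.map, e, A, Fin.sum_univ_castSucc]
      ring
    rw [h5, ← Measure.map_map (by fun_prop) ((hA.prodMap hB).comp he),
      ← Measure.map_map (hA.prodMap hB) he, hlaw]
    unfold Measure.conv xiL
    rw [Measure.map_prod_map _ _ hA hB]

/-! ### The law of the message and of the pair -/

/-- Enumeration of the children. -/
lemma exists_enum {b : ℕ} (hdeg : ∀ v, G.degree v = b + 1) {v u : V} (hvu : G.Adj v u) :
    ∃ c : Fin b → V, Function.Injective c ∧ (∀ i, c i ∈ (nbV G v).erase u) ∧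
      ∀ {M : Type} [AddCommMonoid M] (f : V → M), ∑ x ∈ (nbV G v).erase u, f x = ∑ i, f (c i) := by
  classical
  have hcard : ((nbV G v).erase u).card = b := by
    have hu : u ∈ nbV G v := by simpa [nbV] using hvu
    rw [Finset.card_erase_of_mem hu]
    have : (nbV G v).card = G.degree v := rfl
    rw [this, hdeg]
    rfl
  let e := Finset.equivFinOfCardEq hcard
  refine ⟨fun i => (e.symm i).1, ?_, fun i => (e.symm i).2, ?_⟩
  · intro i j hij
    exact e.symm.injective (Subtype.ext hij)
  · intro M _ f
    rw [← Finset.sum_coe_sort, ← Equiv.sum_comp e.symm]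

/-- The disjointness facts for the children of a vertex. -/
lemma dsc_children (hT : G.IsTree) {b : ℕ} (h : ℕ) {v : V} (c : Fin b → V)
    (hcinj : Function.Injective c) (hc : ∀ i, G.Adj (c i) v) :
    (Pairwise fun i j => Disjoint (dsc (nbV G) h (c i) v) (dsc (nbV G) h (c j) v)) ∧
      (∀ i, v ∉ dsc (nbV G) h (c i) v) := by
  constructor
  · intro i j hij
    rw [Finset.disjoint_left]
    intro w hw hw'
    exact Set.disjoint_left.1 (Br_disjoint hT (hc i) (hc j) (fun e => hij (hcinj e)))
      (dsc_subset_Br hT h (hc i) hw) (dsc_subset_Br hT h (hc j) hw')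
  · intro i hv
    exact not_mem_Br (hc i) (dsc_subset_Br hT h (hc i) hv)

/-- The law of the sign and the message on any directed edge. -/
theorem gm_law (hT : G.IsTree) {b : ℕ} (hdeg : ∀ v, G.degree v = b + 1) (h0 : 0 ≤ θ) (h1 : θ < 1)
    (h : ℕ) {v u : V} (hvu : G.Adj v u) :
    (gP V θ t).map (fun ω => ((ω v).1, gm θ (nbV G) ω h v u)) = (berL θ).prod (nuL t θ b h) := by
  have := isProb_berL h0 h1.le
  induction h generalizing v u with
  | zero =>
    simp only [gm, nuL]
    exact Measure.infinitePi_map_eval _ v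
  | succ h ih =>
    obtain ⟨c, hcinj, hcmem, hcsum⟩ := exists_enum hdeg hvu
    have hcadj : ∀ i, G.Adj (c i) v := fun i => by
      have := (Finset.mem_erase.1 (hcmem i)).2
      have h2 : G.Adj v (c i) := by simpa [nbV] using this
      exact h2.symm
    obtain ⟨hI, hvI⟩ := dsc_children hT h c hcinj hcadj
    have := isProb_nuL (t := t) h0 h1 b h
    let Ψ : ℝ × (Fin b → Bool × ℝ) → ℝ := fun w => w.1 + ∑ i, hm θ (spin (w.2 i).1 * (w.2 i).2)
    have hΨ : Measurable Ψ := by
      refine measurable_fst.add ?_
      refine Finset.measurable_sum _ fun i _ => ?_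
      exact (measurable_sgnH h0 h1).comp ((measurable_pi_apply i).comp measurable_snd)
    have key := tree_step (t := t) h0 h1.le v c (fun i => dsc (nbV G) h (c i) v) hI
      (fun i => self_mem_dsc h _ _) hvI (fun i ω => gm θ (nbV G) ω h (c i) v)
      (fun i => measurable_gm h0 h1 h _ _) (fun i ω ω' he => gm_congr h _ _ he)
      (nuL t θ b h) (fun i => ih (hcadj i)) hΨ
    have e : (fun ω : V → Bool × ℝ => ((ω v).1, gm θ (nbV G) ω (h + 1) v u))
        = fun ω => ((ω v).1, Ψ ((ω v).2, fun i => ((ω (c i)).1, gm θ (nbV G) ω h (c i) v))) := by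
      funext ω
      simp only [gm, Ψ]
      rw [hcsum]
    rw [e, key, sideL_map h0 h1]
    rfl

/-- The law of the sign and the pair (message, cascade) on any directed edge. -/
theorem gW_law (hT : G.IsTree) {b : ℕ} (hdeg : ∀ v, G.degree v = b + 1) (h0 : 0 ≤ θ) (h1 : θ < 1)
    (p R₀ n : ℕ) {v u : V} (hvu : G.Adj v u) :
    (gP V θ t).map (fun ω => ((ω v).1, gW θ p (b : ℝ) (nbV G) ω R₀ n v u))
      = (berL θ).prod (kapL t θ p b R₀ n) := by
  have := isProb_berL h0 h1.le
  induction n generalizing v u with
  | zero =>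
    have hm0 := gm_law (t := t) hT hdeg h0 h1 R₀ hvu
    have := isProb_nuL (t := t) h0 h1 b R₀
    simp only [gW, kapL]
    have e : (fun ω : V → Bool × ℝ => ((ω v).1, (gm θ (nbV G) ω R₀ v u, (1 : ℝ))))
        = (Prod.map id fun x : ℝ => (x, (1 : ℝ))) ∘ fun ω => ((ω v).1, gm θ (nbV G) ω R₀ v u) := rfl
    have hm1 : Measurable (Prod.map (id : Bool → Bool) fun x : ℝ => (x, (1 : ℝ))) := by fun_prop
    have hm2 : Measurable fun ω : V → Bool × ℝ => ((ω v).1, gm θ (nbV G) ω R₀ v u) :=
      (measurable_fst.comp (measurable_pi_apply v)).prodMk (measurable_gm h0 h1 _ v u)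
    rw [e, ← Measure.map_map hm1 hm2, hm0, Measure.prod_dirac]
    have h3 : (berL θ) = (berL θ).map id := Measure.map_id.symm
    conv_rhs => rw [h3]
    rw [Measure.map_prod_map _ _ measurable_id (by fun_prop)]
  | succ n ih =>
    obtain ⟨c, hcinj, hcmem, hcsum⟩ := exists_enum hdeg hvu
    have hcadj : ∀ i, G.Adj (c i) v := fun i => by
      have := (Finset.mem_erase.1 (hcmem i)).2
      have h2 : G.Adj v (c i) := by simpa [nbV] using this
      exact h2.symm
    obtain ⟨hI, hvI⟩ := dsc_children hT (R₀ + n) c hcinj hcadj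
    have := isProb_kapL (t := t) h0 h1 p b R₀ n
    have key := tree_step (t := t) h0 h1.le v c (fun i => dsc (nbV G) (R₀ + n) (c i) v) hI
      (fun i => self_mem_dsc _ _ _) hvI (fun i ω => gW θ p (b : ℝ) (nbV G) ω R₀ n (c i) v)
      (fun i => measurable_gW h0 h1 _ _ _ _ _ _) (fun i ω ω' he => gW_congr _ _ _ _ _ _ he)
      (kapL t θ p b R₀ n) (fun i => ih (hcadj i)) (measurable_stepMap h0 h1 p b)
    have e : (fun ω : V → Bool × ℝ => ((ω v).1, gW θ p (b : ℝ) (nbV G) ω R₀ (n + 1) v u))
        = fun ω => ((ω v).1, stepMap θ p b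
            ((ω v).2, fun i => ((ω (c i)).1, gW θ p (b : ℝ) (nbV G) ω R₀ n (c i) v))) := by
      funext ω
      simp only [gW, stepMap]
      rw [hcsum, hcsum]
    rw [e, key]
    rfl

end Tree

end

end Vale.Agent.Lib.P161
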