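import Vale.Agent.Lib.P161.End.LawCasc3

/-!
P161 endpoint, module LawCasc, part 4: spread of the side law.
-/

open MeasureTheory ProbabilityTheory Finset

namespace Vale.Agent.Lib.P161.LC

noncomputable section

theorem measurable_tanh' : Measurable Real.tanh := by
  have : Real.tanh = fun x => Real.sinh x / Real.cosh x := by
    funext x; exact Real.tanh_eq_sinh_div_cosh x
  rw [this]
  exact Real.continuous_sinh.measurable.div Real.continuous_cosh.measurable

/-- Spread of a law of given variance and small fourth moment. -/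
theorem spread_real (μ : Measure ℝ) [IsProbabilityMeasure μ] {q v B : ℝ}
    (hq : ∫ x, Real.tanh x ∂μ = q) (hq2 : ∫ x, Real.tanh x ^ 2 ∂μ = q) (hv : 0 < v)
    (hvq : v ≤ q - q ^ 2) (hB0 : 0 < B) (hB : ∫ x, Real.tanh x ^ 4 ∂μ ≤ B) (u : ℝ) :
    v ^ 2 / (32 * B) ≤ μ.real {y | Real.sqrt v / 2 ≤ |y + u|} := by
  set T := Real.tanh with hT
  have hTm : Measurable T := measurable_tanh'
  have hT1 : ∀ x, |T x| ≤ 1 := abs_tanh_le_one
  have hTi : ∀ {k : ℕ}, Integrable (fun x => T x ^ k) μ := by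
    intro k
    refine integrable_of_ae_abs_le (hTm.pow_const k) 1 (Filter.Eventually.of_forall fun x => ?_)
    rw [abs_pow]
    exact pow_le_one₀ (abs_nonneg _) (hT1 x)
  have hTi1 : Integrable T μ := by simpa using hTi (k := 1)
  let P := μ.prod μ
  have hPprob : IsProbabilityMeasure P := by
    dsimp [P]; infer_instance
  let Y : ℝ × ℝ → ℝ := fun z => (T z.1 - T z.2) ^ 2
  have hYm : Measurable Y :=
    ((hTm.comp measurable_fst).sub (hTm.comp measurable_snd)).pow_const 2
  have hdiff : ∀ z : ℝ × ℝ, |T z.1 - T z.2| ≤ 2 := by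
    intro z
    have h1 := hT1 z.1
    have h2 := hT1 z.2
    rw [abs_le] at *
    constructor <;> linarith [h1.1, h1.2, h2.1, h2.2]
  have hYb : ∀ z, 0 ≤ Y z ∧ Y z ≤ 4 := by
    intro z
    refine ⟨sq_nonneg _, ?_⟩
    have := hdiff z
    have h3 : (T z.1 - T z.2) ^ 2 = |T z.1 - T z.2| ^ 2 := (sq_abs _).symm
    simp only [Y]
    rw [h3]
    nlinarith [abs_nonneg (T z.1 - T z.2)]
  have hYi : Integrable Y P := by
    refine integrable_of_ae_abs_le hYm 4 (Filter.Eventually.of_forall fun z => ?_)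
    rw [abs_of_nonneg (hYb z).1]
    exact (hYb z).2
  have hY2i : Integrable (fun z => Y z ^ 2) P := by
    refine integrable_of_ae_abs_le (hYm.pow_const 2) 16 (Filter.Eventually.of_forall fun z => ?_)
    rw [abs_of_nonneg (sq_nonneg _)]
    have := hYb z
    nlinarith [this.1, this.2]
  -- first moment
  have hEY : ∫ z, Y z ∂P = 2 * q - 2 * q ^ 2 := by
    have hexp : ∀ z : ℝ × ℝ, Y z = T z.1 ^ 2 - 2 * (T z.1 * T z.2) + T z.2 ^ 2 := by
      intro z; simp only [Y]; ring
    have i1 : Integrable (fun z : ℝ × ℝ => T z.1 ^ 2) P := (hTi (k := 2)).comp_fst μ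
    have i2 : Integrable (fun z : ℝ × ℝ => T z.2 ^ 2) P := (hTi (k := 2)).comp_snd μ
    have i3 : Integrable (fun z : ℝ × ℝ => T z.1 * T z.2) P := hTi1.mul_prod hTi1
    simp_rw [hexp]
    have i4 : Integrable (fun z : ℝ × ℝ => T z.1 ^ 2 - 2 * (T z.1 * T z.2)) P :=
      i1.sub (i3.const_mul 2)
    rw [integral_add i4 i2, integral_sub i1 (i3.const_mul 2), integral_const_mul]
    have e1 : ∫ z : ℝ × ℝ, T z.1 ^ 2 ∂P = q := by
      dsimp [P]
      rw [integral_fun_fst (fun x => T x ^ 2), probReal_univ, one_smul, hq2]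
    have e2 : ∫ z : ℝ × ℝ, T z.2 ^ 2 ∂P = q := by
      dsimp [P]
      rw [integral_fun_snd (fun x => T x ^ 2), probReal_univ, one_smul, hq2]
    have e3 : ∫ z : ℝ × ℝ, T z.1 * T z.2 ∂P = q * q := by
      dsimp [P]
      rw [integral_prod_mul T T, hq]
    rw [e1, e2, e3]
    ring
  -- second moment
  have hEY2 : ∫ z, Y z ^ 2 ∂P ≤ 16 * B := by
    have i1 : Integrable (fun z : ℝ × ℝ => T z.1 ^ 4) P := (hTi (k := 4)).comp_fst μ
    have i2 : Integrable (fun z : ℝ × ℝ => T z.2 ^ 4) P := (hTi (k := 4)).comp_snd μ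
    have h8 : ∫ z, Y z ^ 2 ∂P ≤ ∫ z : ℝ × ℝ, 8 * (T z.1 ^ 4 + T z.2 ^ 4) ∂P := by
      refine integral_mono hY2i ((i1.add i2).const_mul 8) fun z => ?_
      simp only [Y]
      nlinarith [sq_nonneg ((T z.1 - T z.2) ^ 2 - (T z.1 + T z.2) ^ 2),
        sq_nonneg (T z.1 ^ 2 - T z.2 ^ 2), sq_nonneg ((T z.1 + T z.2) ^ 2)]
    have e1 : ∫ z : ℝ × ℝ, T z.1 ^ 4 ∂P = ∫ x, T x ^ 4 ∂μ := by
      dsimp [P]
      rw [integral_fun_fst (fun x => T x ^ 4), probReal_univ, one_smul]
    have e2 : ∫ z : ℝ × ℝ, T z.2 ^ 4 ∂P = ∫ x, T x ^ 4 ∂μ := by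
      dsimp [P]
      rw [integral_fun_snd (fun x => T x ^ 4), probReal_univ, one_smul]
    rw [integral_const_mul, integral_add i1 i2, e1, e2] at h8
    linarith
  -- the event
  let A : Set (ℝ × ℝ) := {z | v ≤ Y z}
  have hAm : MeasurableSet A := measurableSet_le measurable_const hYm
  set c : ℝ := 8 * B / v with hc
  have hc0 : 0 < c := by positivity
  have hpt : ∀ z, Y z ≤ v + A.indicator (fun _ => c) z + Y z ^ 2 * (1 / (4 * c)) := by
    intro z
    by_cases hz : z ∈ A
    · rw [Set.indicator_of_mem hz]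
      have h4 : Y z ≤ c + Y z ^ 2 * (1 / (4 * c)) := by
        have : c + Y z ^ 2 * (1 / (4 * c)) - Y z = (Y z - 2 * c) ^ 2 / (4 * c) := by
          field_simp
          ring
        have h5 : 0 ≤ (Y z - 2 * c) ^ 2 / (4 * c) := by positivity
        linarith
      linarith
    · rw [Set.indicator_of_notMem hz]
      have : Y z < v := not_le.1 hz
      have h6 : 0 ≤ Y z ^ 2 * (1 / (4 * c)) := by positivity
      linarith
  have hind : Integrable (A.indicator fun _ => c) P := (integrable_const c).indicator hAm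
  have hR' : Integrable (fun z => v + A.indicator (fun _ => c) z) P :=
    (integrable_const v).add hind
  have hR : Integrable (fun z => v + A.indicator (fun _ => c) z + Y z ^ 2 * (1 / (4 * c))) P :=
    hR'.add (hY2i.mul_const (1 / (4 * c)))
  have hint := integral_mono hYi hR hpt
  rw [integral_add hR' (hY2i.mul_const _),
    integral_add (integrable_const v) hind, integral_indicator_const _ hAm, integral_mul_const,
    hEY] at hint
  simp only [integral_const, probReal_univ, smul_eq_mul] at hint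
  have h7 : (∫ z, Y z ^ 2 ∂P) * (1 / (4 * c)) ≤ v / 2 := by
    calc _ ≤ 16 * B * (1 / (4 * c)) :=
          mul_le_mul_of_nonneg_right hEY2 (by positivity)
      _ = v / 2 := by
          rw [hc]
          field_simp
          ring
  have h8 : v / 2 ≤ P.real A * c := by nlinarith
  -- the event is contained in the union
  let A' : Set ℝ := {y | Real.sqrt v / 2 ≤ |y + u|}
  have hA'm : MeasurableSet A' :=
    measurableSet_le measurable_const ((measurable_id.add_const u).abs)
  have hsub : A ⊆ (Prod.fst ⁻¹' A') ∪ (Prod.snd ⁻¹' A') := by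
    intro z hz
    have hz' : v ≤ (T z.1 - T z.2) ^ 2 := hz
    have h9 : Real.sqrt v ≤ |T z.1 - T z.2| := by
      rw [← Real.sqrt_sq_eq_abs]
      exact Real.sqrt_le_sqrt hz'
    have h10 : |T z.1 - T z.2| ≤ |z.1 - z.2| := abs_tanh_sub_le _ _
    have h11 : |z.1 - z.2| ≤ |z.1 + u| + |z.2 + u| := by
      have : z.1 - z.2 = (z.1 + u) - (z.2 + u) := by ring
      rw [this]
      exact abs_sub _ _
    by_cases hh : Real.sqrt v / 2 ≤ |z.1 + u|
    · left; exact hh
    · right
      have hh' := not_le.1 hh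
      change Real.sqrt v / 2 ≤ |z.2 + u|
      linarith
  have hPA : P.real A ≤ μ.real A' + μ.real A' := by
    have e1 : P.real (Prod.fst ⁻¹' A') = μ.real A' := by
      simp only [measureReal_def]
      rw [(measurePreserving_fst (μ := μ) (ν := μ)).measure_preimage hA'm.nullMeasurableSet]
    have e2 : P.real (Prod.snd ⁻¹' A') = μ.real A' := by
      simp only [measureReal_def]
      rw [(measurePreserving_snd (μ := μ) (ν := μ)).measure_preimage hA'm.nullMeasurableSet]
    calc P.real A ≤ P.real ((Prod.fst ⁻¹' A') ∪ (Prod.snd ⁻¹' A')) :=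
          measureReal_mono hsub (measure_ne_top _ _)
      _ ≤ P.real (Prod.fst ⁻¹' A') + P.real (Prod.snd ⁻¹' A') := measureReal_union_le _ _
      _ = _ := by rw [e1, e2]
  have h12 : v ^ 2 / (16 * B) ≤ P.real A := by
    rw [div_le_iff₀ (by positivity)]
    rw [hc] at h8
    have : v / 2 ≤ P.real A * (8 * B) / v := by
      rw [mul_div_assoc]; exact h8
    rw [le_div_iff₀ hv] at this
    nlinarith
  have h13 : v ^ 2 / (32 * B) = v ^ 2 / (16 * B) / 2 := by
    field_simp
    ring
  rw [h13]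
  change _ ≤ μ.real A'
  linarith

theorem sq_le_sinh_sq (x : ℝ) : x ^ 2 ≤ Real.sinh x ^ 2 := by
  rcases le_total 0 x with h | h
  · have := Real.self_le_sinh_iff.2 h
    nlinarith
  · have h2 : -x ≤ Real.sinh (-x) := Real.self_le_sinh_iff.2 (by linarith)
    rw [Real.sinh_neg] at h2
    nlinarith

theorem phiF_pow_le_half {θ : ℝ} (h : θ ^ 2 ≤ 1 / 2) {v : ℝ} (hv : 0 < v) {p : ℕ} (hp : 8 / v ≤ p)
    {x : ℝ} (hx : Real.sqrt v / 2 ≤ |x|) : phiF θ x ^ p ≤ 1 / 2 := by
  have h1 : v / 4 ≤ Real.sinh x ^ 2 := by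
    have h2 : (Real.sqrt v / 2) ^ 2 ≤ |x| ^ 2 :=
      pow_le_pow_left₀ (by positivity) hx 2
    rw [sq_abs, div_pow, Real.sq_sqrt hv.le] at h2
    have h3 := sq_le_sinh_sq x
    norm_num at h2
    linarith
  set D : ℝ := 1 + v / 8 with hD
  have hD1 : 1 ≤ D := by rw [hD]; linarith
  set E : ℝ := 1 + (1 - θ ^ 2) * Real.sinh x ^ 2 with hE
  have hE1 : D ≤ E := by
    rw [hE, hD]
    have : v / 8 ≤ (1 - θ ^ 2) * Real.sinh x ^ 2 := by nlinarith
    linarith
  have hE0 : 0 < E := by linarith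
  have h4 : phiF θ x ≤ 1 / D := by
    unfold phiF
    rw [← hE]
    have h5 : 1 / E ≤ 1 / D := one_div_le_one_div_of_le (by linarith) hE1
    have h6 : 1 / E ≤ 1 := by
      rw [div_le_one hE0]; linarith
    have h7 : 0 ≤ 1 / E := by positivity
    nlinarith
  have h8 : (1 / D) ^ p ≤ 1 / 2 := by
    rw [one_div_pow, div_le_div_iff₀ (by positivity) (by norm_num)]
    have h9 := one_add_mul_le_pow (a := v / 8) (by linarith) p
    have h10 : 1 ≤ (p : ℝ) * (v / 8) := by
      rw [div_le_iff₀ hv] at hp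
      linarith
    rw [hD]
    linarith
  exact (pow_le_pow_left₀ (phiF_nonneg θ x) h4 p).trans h8

theorem integral_phi_le {θ : ℝ} (h : θ ^ 2 ≤ 1 / 2) (μ : Measure ℝ) [IsProbabilityMeasure μ]
    {v : ℝ} (hv : 0 < v) {p : ℕ} (hp : 8 / v ≤ p) (u : ℝ) {c : ℝ}
    (hc : c ≤ μ.real {y | Real.sqrt v / 2 ≤ |y + u|}) :
    ∫ y, phiF θ (y + u) ^ p ∂μ ≤ 1 - c / 2 := by
  have hs : θ ^ 2 ≤ 1 := by linarith
  let A' : Set ℝ := {y | Real.sqrt v / 2 ≤ |y + u|}
  have hA'm : MeasurableSet A' :=
    measurableSet_le measurable_const ((measurable_id.add_const u).abs)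
  have hm : Measurable (fun y => phiF θ (y + u) ^ p) :=
    ((measurable_phiF θ).pow_const p).comp (measurable_id.add_const u)
  have hi : Integrable (fun y => phiF θ (y + u) ^ p) μ := by
    refine integrable_of_ae_abs_le hm 1 (Filter.Eventually.of_forall fun y => ?_)
    rw [abs_of_nonneg (phiF_pow_mem hs p _).1]
    exact (phiF_pow_mem hs p _).2
  have hi2 : Integrable (A'.indicator fun _ => (1 / 2 : ℝ)) μ :=
    (integrable_const _).indicator hA'm
  have hpt : ∀ y, phiF θ (y + u) ^ p ≤ 1 - A'.indicator (fun _ => (1 / 2 : ℝ)) y := by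
    intro y
    by_cases hy : y ∈ A'
    · rw [Set.indicator_of_mem hy]
      have := phiF_pow_le_half h hv hp (x := y + u) hy
      linarith
    · rw [Set.indicator_of_notMem hy]
      have := (phiF_pow_mem hs p (y + u)).2
      linarith
  have hi3 : Integrable (fun y => (1 : ℝ) - A'.indicator (fun _ => (1 / 2 : ℝ)) y) μ :=
    (integrable_const 1).sub hi2
  have h2 := integral_mono hi hi3 hpt
  rw [integral_sub (integrable_const 1) hi2, integral_indicator_const _ hA'm] at h2
  simp only [integral_const, probReal_univ, smul_eq_mul] at h2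
  have h3 : c ≤ μ.real A' := hc
  linarith

end

end Vale.Agent.Lib.P161.LC
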