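import Vale.Agent.Lib.P161.End.LawCasc1

/-!
P161 endpoint, module LawCasc: the channel symmetry of the message laws and the Nishimori identity
for the side laws.
-/

open MeasureTheory ProbabilityTheory Finset

namespace Vale.Agent.Lib.P161.LC

noncomputable section

/-- The weight `e^{-2x}`. -/
def wE (x : ℝ) : ENNReal := ENNReal.ofReal (Real.exp (-2 * x))

theorem measurable_wE : Measurable wE := by
  unfold wE
  exact ENNReal.measurable_ofReal.comp (Real.measurable_exp.comp (measurable_const.mul measurable_id))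

theorem wE_add (x y : ℝ) : wE (x + y) = wE x * wE y := by
  unfold wE
  rw [← ENNReal.ofReal_mul (Real.exp_pos _).le, ← Real.exp_add]
  congr 2
  ring

/-- The symmetry of binary memoryless symmetric channels. -/
def SymCh (ν : Measure ℝ) : Prop :=
  ∀ f : ℝ → ENNReal, Measurable f → ∫⁻ x, f (-x) ∂ν = ∫⁻ x, f x * wE x ∂ν

theorem symCh_obsL {t : ℝ} (ht : 0 < t) : SymCh (obsL t) := by
  intro f hf
  have hv : t.toNNReal ≠ 0 := by
    simpa [Real.toNNReal_eq_zero] using ht
  have hvt : ((t.toNNReal : NNReal) : ℝ) = t := Real.coe_toNNReal t ht.le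
  unfold obsL
  rw [gaussianReal_of_var_ne_zero t hv]
  have hg := measurable_gaussianPDF t t.toNNReal
  have hf' : Measurable (fun x => f (-x)) := hf.comp measurable_neg
  have hfw : Measurable (fun x => f x * wE x) := hf.mul measurable_wE
  rw [lintegral_withDensity_eq_lintegral_mul _ hg hf',
    lintegral_withDensity_eq_lintegral_mul _ hg hfw]
  have h1 : ∫⁻ x, (gaussianPDF t t.toNNReal * fun x => f (-x)) x
      = ∫⁻ x, (fun y => gaussianPDF t t.toNNReal (-y) * f y) (-x) := by
    refine lintegral_congr fun x => ?_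
    simp
  rw [h1, lintegral_neg_eq_self (fun y => gaussianPDF t t.toNNReal (-y) * f y)]
  refine lintegral_congr fun x => ?_
  have h2 : gaussianPDF t t.toNNReal (-x) = gaussianPDF t t.toNNReal x * wE x := by
    unfold wE gaussianPDF gaussianPDFReal
    rw [← ENNReal.ofReal_mul (by positivity), hvt]
    have h3 : Real.exp (-(-x - t) ^ 2 / (2 * t))
        = Real.exp (-(x - t) ^ 2 / (2 * t)) * Real.exp (-2 * x) := by
      rw [← Real.exp_add]
      congr 1
      field_simp
      ring
    rw [h3]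
    congr 1
    ring
  simp only [Pi.mul_apply]
  rw [h2]
  ring

theorem symCh_conv {μ ν : Measure ℝ} [SFinite μ] [SFinite ν] (hμ : SymCh μ) (hν : SymCh ν) :
    SymCh (Measure.conv μ ν) := by
  intro f hf
  unfold Measure.conv
  have hadd : Measurable (fun z : ℝ × ℝ => z.1 + z.2) := measurable_add
  have hfn : Measurable (fun x => f (-x)) := hf.comp measurable_neg
  have hfw : Measurable (fun x => f x * wE x) := hf.mul measurable_wE
  rw [lintegral_map hfn hadd, lintegral_map hfw hadd]
  have hl : Measurable (fun z : ℝ × ℝ => f (-(z.1 + z.2))) :=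
    hf.comp (measurable_neg.comp hadd)
  rw [lintegral_prod_symm _ hl.aemeasurable]
  -- first coordinate
  have h1 : ∀ y, ∫⁻ x, f (-(x + y)) ∂μ = ∫⁻ x, f (x + -y) * wE x ∂μ := by
    intro y
    have := hμ (fun x => f (x + -y)) (hf.comp (measurable_id.add_const _))
    rw [← this]
    refine lintegral_congr fun x => ?_
    congr 1
    ring
  simp_rw [h1]
  have hm2 : Measurable (Function.uncurry fun (y x : ℝ) => f (x + -y) * wE x) := by
    refine (hf.comp (measurable_snd.add measurable_fst.neg)).mul (measurable_wE.comp measurable_snd)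
  rw [lintegral_lintegral_swap hm2.aemeasurable]
  -- second coordinate
  have h2 : ∀ x, ∫⁻ y, f (x + -y) * wE x ∂ν = ∫⁻ y, f (x + y) * wE x * wE y ∂ν := by
    intro x
    exact hν (fun y => f (x + y) * wE x) ((hf.comp (measurable_const.add measurable_id)).mul_const _)
  simp_rw [h2]
  have hr : Measurable (fun z : ℝ × ℝ => f (z.1 + z.2) * wE (z.1 + z.2)) := hfw.comp hadd
  rw [lintegral_prod _ hr.aemeasurable]
  refine lintegral_congr fun x => lintegral_congr fun y => ?_
  rw [wE_add]
  ring

theorem hm_neg (θ x : ℝ) : hm θ (-x) = -hm θ x := by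
  unfold hm
  rw [Real.cosh_neg, Real.sinh_neg]
  have : (Real.cosh x + θ * -Real.sinh x) / (Real.cosh x - θ * -Real.sinh x)
      = ((Real.cosh x + θ * Real.sinh x) / (Real.cosh x - θ * Real.sinh x))⁻¹ := by
    rw [inv_div]
    congr 1 <;> ring
  rw [this, Real.log_inv]
  ring

theorem cosh_add_mul_pos (θ x : ℝ) (h0 : 0 ≤ θ) (h1 : θ < 1) :
    0 < Real.cosh x + θ * Real.sinh x ∧ 0 < Real.cosh x - θ * Real.sinh x := by
  have hc := Real.cosh_pos x
  have h2 := Real.cosh_sq x
  have h3 : |Real.sinh x| < Real.cosh x := by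
    rw [abs_lt]
    have h4 := Real.sinh_lt_cosh x
    have h5 := Real.sinh_lt_cosh (-x)
    rw [Real.sinh_neg, Real.cosh_neg] at h5
    constructor <;> linarith
  have h4 : |θ * Real.sinh x| < Real.cosh x := by
    rw [abs_mul, abs_of_nonneg h0]
    nlinarith [abs_nonneg (Real.sinh x)]
  rw [abs_lt] at h4
  constructor <;> linarith [h4.1, h4.2]

theorem exp_hm (θ x : ℝ) (h0 : 0 ≤ θ) (h1 : θ < 1) :
    Real.exp (-2 * hm θ x) = (Real.cosh x - θ * Real.sinh x) / (Real.cosh x + θ * Real.sinh x) := by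
  obtain ⟨a, b⟩ := cosh_add_mul_pos θ x h0 h1
  unfold hm
  have : -2 * (Real.log ((Real.cosh x + θ * Real.sinh x) / (Real.cosh x - θ * Real.sinh x)) / 2)
      = Real.log ((Real.cosh x - θ * Real.sinh x) / (Real.cosh x + θ * Real.sinh x)) := by
    have h3 : Real.log ((Real.cosh x - θ * Real.sinh x) / (Real.cosh x + θ * Real.sinh x))
        = -Real.log ((Real.cosh x + θ * Real.sinh x) / (Real.cosh x - θ * Real.sinh x)) := by
      rw [← Real.log_inv, inv_div]
    rw [h3]
    ring
  rw [this, Real.exp_log (by positivity)]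

/-- The pointwise identity behind the symmetry of the map `h`. -/
theorem wE_hm_identity (θ x : ℝ) (h0 : 0 ≤ θ) (h1 : θ < 1) :
    (1 + θ) / 2 * Real.exp (-2 * x) + (1 - θ) / 2
      = Real.exp (-2 * hm θ x) * ((1 + θ) / 2 + (1 - θ) / 2 * Real.exp (-2 * x)) := by
  obtain ⟨a, b⟩ := cosh_add_mul_pos θ x h0 h1
  rw [exp_hm θ x h0 h1]
  have hE : Real.exp (-2 * x) = Real.exp (-x) ^ 2 := by
    rw [← Real.exp_nat_mul]
    congr 1
    push_cast
    ring
  have hEE : Real.exp x * Real.exp (-x) = 1 := by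
    rw [← Real.exp_add]; simp
  have hc : Real.cosh x = (Real.exp x + Real.exp (-x)) / 2 := Real.cosh_eq x
  have hs : Real.sinh x = (Real.exp x - Real.exp (-x)) / 2 := Real.sinh_eq x
  have h3 : (1 + θ) / 2 * Real.exp (-2 * x) + (1 - θ) / 2
      = Real.exp (-x) * (Real.cosh x - θ * Real.sinh x) := by
    rw [hE, hc, hs]
    linear_combination (-(1 - θ) / 2) * hEE
  have h4 : (1 + θ) / 2 + (1 - θ) / 2 * Real.exp (-2 * x)
      = Real.exp (-x) * (Real.cosh x + θ * Real.sinh x) := by
    rw [hE, hc, hs]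
    linear_combination (-(1 + θ) / 2) * hEE
  rw [h3, h4]
  field_simp

theorem lintegral_xiL {θ : ℝ} (h0 : 0 ≤ θ) (h1 : θ < 1) (ν : Measure ℝ) [SFinite ν]
    {f : ℝ → ENNReal} (hf : Measurable f) :
    ∫⁻ y, f y ∂(xiL θ ν) = ENNReal.ofReal ((1 + θ) / 2) * ∫⁻ x, f (hm θ x) ∂ν
      + ENNReal.ofReal ((1 - θ) / 2) * ∫⁻ x, f (hm θ (-x)) ∂ν := by
  have hber := isProb_berL h0 h1
  unfold xiL
  have hg : Measurable (fun w : Bool × ℝ => hm θ (spin w.1 * w.2)) := by
    refine (measurable_hm' θ).comp ?_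
    have : Measurable (fun w : Bool × ℝ => spin w.1) :=
      (measurable_of_countable spin).comp measurable_fst
    exact this.mul measurable_snd
  have hc : Measurable (fun w : Bool × ℝ => f (hm θ (spin w.1 * w.2))) := hf.comp hg
  rw [lintegral_map hf hg, lintegral_prod _ hc.aemeasurable]
  unfold berL
  rw [lintegral_add_measure, lintegral_smul_measure, lintegral_smul_measure, lintegral_dirac,
    lintegral_dirac]
  simp [spin]

theorem symCh_xiL {θ : ℝ} (h0 : 0 ≤ θ) (h1 : θ < 1) {ν : Measure ℝ} [SFinite ν] (hν : SymCh ν) :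
    SymCh (xiL θ ν) := by
  intro f hf
  have hhm := measurable_hm' θ
  have hfm : Measurable (fun x => f (-x)) := hf.comp measurable_neg
  have hfw : Measurable (fun x => f x * wE x) := hf.mul measurable_wE
  rw [lintegral_xiL h0 h1 ν hfm, lintegral_xiL h0 h1 ν hfw]
  set a := ENNReal.ofReal ((1 + θ) / 2) with ha
  set b := ENNReal.ofReal ((1 - θ) / 2) with hb
  let A : ℝ → ENNReal := fun x => f (hm θ x)
  have hA : Measurable A := hf.comp hhm
  have hW : Measurable (fun x => wE (hm θ x)) := measurable_wE.comp hhm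
  -- the left side
  have e1 : ∫⁻ x, f (-hm θ x) ∂ν = ∫⁻ x, A x * wE x ∂ν := by
    rw [← hν A hA]
    refine lintegral_congr fun x => ?_
    simp only [A]
    rw [hm_neg θ x]
  have e2 : ∫⁻ x, f (-hm θ (-x)) ∂ν = ∫⁻ x, A x ∂ν := by
    refine lintegral_congr fun x => ?_
    simp only [A]
    rw [hm_neg θ x, neg_neg]
  -- the right side
  have e4 : ∫⁻ x, f (hm θ (-x)) * wE (hm θ (-x)) ∂ν = ∫⁻ x, A x * wE (hm θ x) * wE x ∂ν := by
    rw [← hν (fun x => A x * wE (hm θ x)) (hA.mul hW)]
  rw [e1, e2, e4]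
  have hmA : Measurable (fun x => A x * wE x) := hA.mul measurable_wE
  have hmA2 : Measurable (fun x => A x * wE (hm θ x)) := hA.mul hW
  have hmA3 : Measurable (fun x => A x * wE (hm θ x) * wE x) := hmA2.mul measurable_wE
  rw [← lintegral_const_mul _ hmA, ← lintegral_const_mul _ hA, ← lintegral_const_mul _ hmA2,
    ← lintegral_const_mul _ hmA3, ← lintegral_add_left (hmA.const_mul _),
    ← lintegral_add_left (hmA2.const_mul _)]
  refine lintegral_congr fun x => ?_
  have key : a * wE x + b = wE (hm θ x) * (a + b * wE x) := by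
    have hid := wE_hm_identity θ x h0 h1
    have ha0 : 0 ≤ (1 + θ) / 2 := by linarith
    have hb0 : 0 ≤ (1 - θ) / 2 := by linarith
    have hE0 := (Real.exp_pos (-2 * x)).le
    unfold wE
    rw [ha, hb, ← ENNReal.ofReal_mul ha0, ← ENNReal.ofReal_mul hb0,
      ← ENNReal.ofReal_add (mul_nonneg ha0 hE0) hb0,
      ← ENNReal.ofReal_add ha0 (mul_nonneg hb0 hE0),
      ← ENNReal.ofReal_mul (Real.exp_pos _).le, hid]
  calc a * (A x * wE x) + b * A x = A x * (a * wE x + b) := by ring
    _ = A x * (wE (hm θ x) * (a + b * wE x)) := by rw [key]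
    _ = _ := by ring

theorem symCh_sideL {θ : ℝ} (h0 : 0 ≤ θ) (h1 : θ < 1) {t : ℝ} (ht : 0 < t) {ν : Measure ℝ}
    [IsProbabilityMeasure ν] (hν : SymCh ν) (m : ℕ) : SymCh (sideL t θ ν m) := by
  induction m with
  | zero => exact symCh_obsL ht
  | succ m ih =>
    have h2 := isProb_sideL h0 h1 t (ν := ν) m
    have h3 := isProb_xiL h0 h1 (ν := ν)
    exact symCh_conv ih (symCh_xiL h0 h1 hν)

theorem symCh_nuL {θ : ℝ} (h0 : 0 ≤ θ) (h1 : θ < 1) {t : ℝ} (ht : 0 < t) (b R : ℕ) :
    SymCh (nuL t θ b R) := by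
  induction R with
  | zero => exact symCh_obsL ht
  | succ R ih =>
    have h2 := isProb_nuL h0 h1 t b R
    exact symCh_sideL h0 h1 ht ih b

/-- The Nishimori identity from the channel symmetry. -/
theorem nishimori_of_symCh {ν : Measure ℝ} [IsProbabilityMeasure ν] (hν : SymCh ν) :
    ∫ x, Real.tanh x ∂ν = ∫ x, Real.tanh x ^ 2 ∂ν := by
  have hTm : Measurable Real.tanh := by
    have : Real.tanh = fun x => Real.sinh x / Real.cosh x := by
      funext x; exact Real.tanh_eq_sinh_div_cosh x
    rw [this]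
    exact Real.continuous_sinh.measurable.div Real.continuous_cosh.measurable
  have hT1 : ∀ x, |Real.tanh x| ≤ 1 := fun x => (Real.abs_tanh_lt_one x).le
  let p : ℝ → ℝ := fun x => (1 + Real.tanh x) / 2
  have hpm : Measurable p := (measurable_const.add hTm).div_const 2
  have hp0 : ∀ x, 0 ≤ p x := fun x => by
    have := abs_le.1 (hT1 x)
    simp only [p]; linarith [this.1]
  have hpneg : ∀ x, p (-x) = (1 - Real.tanh x) / 2 := by
    intro x
    simp only [p, Real.tanh_neg]
    ring
  have hpw : ∀ x, p x * Real.exp (-2 * x) = (1 - Real.tanh x) / 2 := by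
    intro x
    have hc := Real.cosh_pos x
    simp only [p]
    rw [Real.tanh_eq_sinh_div_cosh]
    have hE : Real.exp (-2 * x) = Real.exp (-x) ^ 2 := by
      rw [← Real.exp_nat_mul]
      congr 1
      push_cast
      ring
    have hEE : Real.exp x * Real.exp (-x) = 1 := by
      rw [← Real.exp_add]; simp
    have hch : Real.cosh x = (Real.exp x + Real.exp (-x)) / 2 := Real.cosh_eq x
    have hsh : Real.sinh x = (Real.exp x - Real.exp (-x)) / 2 := Real.sinh_eq x
    have h1 : 1 + Real.sinh x / Real.cosh x = Real.exp x / Real.cosh x := by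
      field_simp
      rw [hch, hsh]
      ring
    have h2 : 1 - Real.sinh x / Real.cosh x = Real.exp (-x) / Real.cosh x := by
      field_simp
      rw [hch, hsh]
      ring
    rw [h1, h2, hE]
    have h3 : Real.exp x / Real.cosh x / 2 * Real.exp (-x) ^ 2
        = (Real.exp x * Real.exp (-x)) * Real.exp (-x) / Real.cosh x / 2 := by ring
    rw [h3, hEE, one_mul]
  let f : ℝ → ENNReal := fun x => ENNReal.ofReal (p x * p x)
  have hfm : Measurable f := ENNReal.measurable_ofReal.comp (hpm.mul hpm)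
  have hsym := hν f hfm
  have hL : ∀ x, f (-x) = ENNReal.ofReal ((1 - Real.tanh x) / 2 * ((1 - Real.tanh x) / 2)) := by
    intro x
    simp only [f]
    rw [hpneg]
  have hR : ∀ x, f x * wE x = ENNReal.ofReal ((1 + Real.tanh x) / 2 * ((1 - Real.tanh x) / 2)) := by
    intro x
    simp only [f, wE]
    rw [← ENNReal.ofReal_mul (mul_nonneg (hp0 x) (hp0 x)), mul_assoc, hpw]
  simp_rw [hL, hR] at hsym
  have hT0 : ∀ x, 0 ≤ (1 - Real.tanh x) / 2 ∧ 0 ≤ (1 + Real.tanh x) / 2 := fun x => by
    have := abs_le.1 (hT1 x)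
    constructor <;> linarith [this.1, this.2]
  have hmL : Measurable (fun x => (1 - Real.tanh x) / 2 * ((1 - Real.tanh x) / 2)) := by
    have : Measurable (fun x => (1 - Real.tanh x) / 2) := (measurable_const.sub hTm).div_const 2
    exact this.mul this
  have hmR : Measurable (fun x => (1 + Real.tanh x) / 2 * ((1 - Real.tanh x) / 2)) :=
    ((measurable_const.add hTm).div_const 2).mul ((measurable_const.sub hTm).div_const 2)
  have hIL := integral_eq_lintegral_of_nonneg_ae
    (Filter.Eventually.of_forall fun x => mul_nonneg (hT0 x).1 (hT0 x).1) hmL.aestronglyMeasurable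
    (μ := ν)
  have hIR := integral_eq_lintegral_of_nonneg_ae
    (Filter.Eventually.of_forall fun x => mul_nonneg (hT0 x).2 (hT0 x).1) hmR.aestronglyMeasurable
    (μ := ν)
  rw [← hsym, ← hIL] at hIR
  -- expand
  have hiT : Integrable Real.tanh ν :=
    Integrable.of_bound hTm.aestronglyMeasurable 1 (Filter.Eventually.of_forall fun x => by
      simpa using hT1 x)
  have hiT2 : Integrable (fun x => Real.tanh x ^ 2) ν :=
    Integrable.of_bound (hTm.pow_const 2).aestronglyMeasurable 1
      (Filter.Eventually.of_forall fun x => by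
        have := hT1 x
        rw [Real.norm_eq_abs, abs_pow]
        exact pow_le_one₀ (abs_nonneg _) this)
  have hiC : Integrable (fun _ : ℝ => (1 : ℝ)) ν := integrable_const 1
  have eL : ∀ x, (1 - Real.tanh x) / 2 * ((1 - Real.tanh x) / 2)
      = 1 / 4 - 1 / 2 * Real.tanh x + 1 / 4 * Real.tanh x ^ 2 := fun x => by ring
  have eR : ∀ x, (1 + Real.tanh x) / 2 * ((1 - Real.tanh x) / 2)
      = 1 / 4 - 1 / 4 * Real.tanh x ^ 2 := fun x => by ring
  simp_rw [eL, eR] at hIR
  have i1 : Integrable (fun x => (1 / 4 : ℝ) - 1 / 2 * Real.tanh x) ν :=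
    (integrable_const _).sub (hiT.const_mul _)
  rw [integral_add i1 (hiT2.const_mul _), integral_sub (integrable_const _) (hiT.const_mul _),
    integral_sub (integrable_const _) (hiT2.const_mul _), integral_const_mul, integral_const_mul]
    at hIR
  simp only [integral_const, probReal_univ, smul_eq_mul, one_mul] at hIR
  linarith

theorem sideL_nishimori (t θ : ℝ) (ht : 0 < t) (h0 : 0 ≤ θ) (h1 : θ < 1) (b R m : ℕ) :
    ∫ x, Real.tanh x ∂(sideL t θ (nuL t θ b R) m) = ∫ x, Real.tanh x ^ 2 ∂(sideL t θ (nuL t θ b R) m) := by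
  have h2 := isProb_nuL h0 h1 t b R
  have h3 := isProb_sideL h0 h1 t (ν := nuL t θ b R) m
  exact nishimori_of_symCh (symCh_sideL h0 h1 ht (symCh_nuL h0 h1 ht b R) m)

end

end Vale.Agent.Lib.P161.LC
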