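import Vale.Agent.Lib.P161.End.LawQ
import Vale.Agent.Lib.P161.End.LawCasc4
import Vale.Agent.Lib.P161.End.LawNish

/-!
P161 endpoint, module LawCasc: spread and the cascade tail (blueprint section 2).
-/

open MeasureTheory ProbabilityTheory Finset

namespace Vale.Agent.Lib.P161

open LC

noncomputable section

theorem sL_pos {t : ℝ} (ht : 0 < t) : 0 < sL t := by
  unfold sL
  have : 0 < min t 1 := lt_min ht one_pos
  positivity

/-- **Main statement of the module.** There are `Cp > 0` and `α ∈ (0,1)` depending only on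
`b, T` such that the joint law of message and cascade has the cascade tail, when the cascade
exponent `p` is at least `Cp / sL t` and the depth is large.  Also: first marginal, and the
cascade lies in `[0, 1]`. -/
theorem lawCasc_main (b : ℕ) (T : ℝ) (hb : 2 ≤ b) (hT : 0 < T) :
    ∃ Cp α : ℝ, 0 < Cp ∧ 0 < α ∧ α < 1 ∧ ∀ t₀ : ℝ, 0 < t₀ → ∃ R₁ : ℕ, ∀ θ t, ExPar b θ t T → t₀ ≤ t →
      ∀ p : ℕ, Cp / sL t ≤ p → ∀ R₀, R₁ ≤ R₀ → ∀ n : ℕ,
        (kapL t θ p b R₀ n).real {w | epsN α n ≤ w.2} ≤ tauN n := by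
  obtain ⟨C, hC1, hC, hClow⟩ := lawQ_main b T hb hT
  have hC0 : 0 < C := by linarith
  have hb2 : (2 : ℝ) ≤ b := by exact_mod_cast hb
  have hb0 : (0 : ℝ) < b := by linarith
  set cv : ℝ := 3 / (4 * b * C ^ 2) with hcv
  have hcv0 : 0 < cv := by positivity
  set c1 : ℝ := cv ^ 2 / (32 * C) with hc1
  have hc10 : 0 < c1 := by positivity
  set α : ℝ := max (1 - c1 / 2) (3 / 4) with hα
  have hα34 : 3 / 4 ≤ α := le_max_right _ _
  have hα1 : α < 1 := max_lt (by linarith) (by norm_num)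
  refine ⟨8 / cv, α, by positivity, by linarith, hα1, ?_⟩
  intro t₀ ht₀
  obtain ⟨R₁, hR₁⟩ := hClow t₀ ht₀
  refine ⟨R₁, ?_⟩
  intro θ t hpar htt₀ p hp R₀ hR₀ n
  obtain ⟨m, rfl⟩ : ∃ m, b = m + 1 := ⟨b - 1, by omega⟩
  have hm1 : 1 ≤ m := by omega
  have hθ0 : 0 ≤ θ := hpar.θ_pos.le
  have hθs : θ ^ 2 ≤ 1 / 2 := by
    have := hpar.ρ_le
    nlinarith
  have hθ1 : θ < 1 := by nlinarith
  have ht : 0 < t := hpar.t_pos
  have hs := sL_pos ht
  refine casc_tail hθ0 hθ1 t p m R₀ hm1 hα34 hα1.le ?_ n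
  intro k u
  obtain ⟨hnu, hq1, hside, hq2, -, -⟩ := hC θ t hpar
  set R := R₀ + k with hR
  set μ := sideL t θ (nuL t θ (m + 1) R) m with hμ
  have hμp : IsProbabilityMeasure μ := (hside R m (by omega)).1
  have hB := (hside R m (by omega)).2
  obtain ⟨hq3, hq4⟩ := hq2 R m hm1 (by omega)
  have hq5 := hR₁ θ t hpar htt₀ R (by omega)
  have hN := sideL_nishimori t θ ht hθ0 hθ1 (m + 1) R m
  set q := ∫ x, Real.tanh x ^ 2 ∂μ with hq
  set v : ℝ := cv * sL t with hv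
  have hv0 : 0 < v := by positivity
  have hθlow : 3 / (4 * ((m + 1 : ℕ) : ℝ)) ≤ θ ^ 2 := by
    rw [div_le_iff₀ (by positivity)]
    have := hpar.ρ_ge
    nlinarith
  have hqlow : 3 / (4 * ((m + 1 : ℕ) : ℝ)) * (sL t / C) ≤ q := by
    calc _ ≤ θ ^ 2 * (sL t / C) := mul_le_mul_of_nonneg_right hθlow (by positivity)
      _ ≤ θ ^ 2 * ∫ x, Real.tanh x ^ 2 ∂(nuL t θ (m + 1) R) :=
          mul_le_mul_of_nonneg_left hq5 (sq_nonneg _)
      _ ≤ q := hq3
  have hq0 : 0 ≤ q := integral_nonneg fun _ => sq_nonneg _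
  have hvq : v ≤ q - q ^ 2 := by
    have h1q : 1 / C ≤ 1 - q := by linarith
    have : q - q ^ 2 = q * (1 - q) := by ring
    rw [this]
    calc v = 3 / (4 * ((m + 1 : ℕ) : ℝ)) * (sL t / C) * (1 / C) := by
          rw [hv, hcv]
          field_simp
      _ ≤ q * (1 - q) := mul_le_mul hqlow h1q (by positivity) hq0
  have hB' : ∫ x, Real.tanh x ^ 4 ∂μ ≤ C * sL t ^ 2 := hB
  have hsp := spread_real μ (q := q) (v := v) (B := C * sL t ^ 2) hN rfl hv0 hvq (by positivity) hB' u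
  have hval : v ^ 2 / (32 * (C * sL t ^ 2)) = c1 := by
    rw [hv, hc1]
    field_simp
  rw [hval] at hsp
  have hp' : 8 / v ≤ p := by
    have : 8 / v = 8 / cv / sL t := by
      rw [hv]
      field_simp
    rw [this]
    exact hp
  calc _ ≤ 1 - c1 / 2 := integral_phi_le hθs μ hv0 hp' u hsp
    _ ≤ α := le_max_left _ _

/-- The first marginal of the joint law is the message law. -/
theorem kapL_fst (b : ℕ) (hb : 1 ≤ b) (t θ : ℝ) (ht : 0 ≤ t) (h0 : 0 ≤ θ) (h1 : θ < 1) (p R₀ n : ℕ) :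
    (kapL t θ p b R₀ n).map Prod.fst = nuL t θ b (R₀ + n) :=
  kapL_fst' b t θ h0 h1 p R₀ n

end

end Vale.Agent.Lib.P161
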