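import Vale.Agent.Lib.P161.End.Defs
import Vale.Agent.Lib.P161.Scalar

/-!
P161 endpoint, module LawCasc, part 1: probability measures, pivot decomposition of the product,
the law of the message sum, first marginal of the joint law.
-/

open MeasureTheory ProbabilityTheory Finset

namespace Vale.Agent.Lib.P161.LC

noncomputable section

theorem measurable_hm' (θ : ℝ) : Measurable (hm θ) := by
  unfold hm
  have h1 : Measurable Real.cosh := Real.continuous_cosh.measurable
  have h2 : Measurable Real.sinh := Real.continuous_sinh.measurable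
  exact (Real.measurable_log.comp ((h1.add (h2.const_mul θ)).div (h1.sub (h2.const_mul θ)))).div_const 2

theorem measurable_phiF (θ : ℝ) : Measurable (phiF θ) := by
  unfold phiF
  have h2 : Measurable Real.sinh := Real.continuous_sinh.measurable
  exact (measurable_const.div (measurable_const.add ((h2.pow_const 2).const_mul _))).pow_const 2

instance isProb_obsL (t : ℝ) : IsProbabilityMeasure (obsL t) := by
  unfold obsL; infer_instance

theorem isProb_berL {θ : ℝ} (h0 : 0 ≤ θ) (h1 : θ < 1) : IsProbabilityMeasure (berL θ) := by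
  constructor
  unfold berL
  simp only [Measure.add_apply, Measure.smul_apply, measure_univ, smul_eq_mul, mul_one]
  rw [← ENNReal.ofReal_add (by linarith) (by linarith)]
  have : (1 + θ) / 2 + (1 - θ) / 2 = 1 := by ring
  rw [this]; simp

theorem integral_berL {θ : ℝ} (h0 : 0 ≤ θ) (h1 : θ < 1) (f : Bool → ℝ) :
    ∫ s, f s ∂(berL θ) = (1 + θ) / 2 * f true + (1 - θ) / 2 * f false := by
  unfold berL
  rw [integral_add_measure, integral_smul_measure, integral_smul_measure, integral_dirac,
    integral_dirac]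
  · rw [ENNReal.toReal_ofReal (by linarith), ENNReal.toReal_ofReal (by linarith)]
    simp [smul_eq_mul]
  · exact (integrable_dirac (by simp)).smul_measure (by simp)
  · exact (integrable_dirac (by simp)).smul_measure (by simp)

theorem isProb_xiL {θ : ℝ} (h0 : 0 ≤ θ) (h1 : θ < 1) {ν : Measure ℝ} [IsProbabilityMeasure ν] :
    IsProbabilityMeasure (xiL θ ν) := by
  have := isProb_berL h0 h1
  unfold xiL
  refine Measure.isProbabilityMeasure_map ?_
  refine Measurable.aemeasurable ?_
  refine (measurable_hm' θ).comp ?_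
  have : Measurable (fun w : Bool × ℝ => spin w.1) := (measurable_of_countable spin).comp measurable_fst
  exact this.mul measurable_snd

theorem isProb_conv {μ ν : Measure ℝ} [IsProbabilityMeasure μ] [IsProbabilityMeasure ν] :
    IsProbabilityMeasure (Measure.conv μ ν) := by
  unfold Measure.conv
  exact Measure.isProbabilityMeasure_map (by fun_prop)

theorem isProb_sideL {θ : ℝ} (h0 : 0 ≤ θ) (h1 : θ < 1) (t : ℝ) {ν : Measure ℝ}
    [IsProbabilityMeasure ν] (m : ℕ) : IsProbabilityMeasure (sideL t θ ν m) := by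
  induction m with
  | zero => exact isProb_obsL t
  | succ m ih =>
    have := ih
    have := isProb_xiL h0 h1 (ν := ν)
    exact isProb_conv

theorem isProb_nuL {θ : ℝ} (h0 : 0 ≤ θ) (h1 : θ < 1) (t : ℝ) (b R : ℕ) :
    IsProbabilityMeasure (nuL t θ b R) := by
  induction R with
  | zero => exact isProb_obsL t
  | succ R ih =>
    have := ih
    exact isProb_sideL h0 h1 t b

/-- The summand. -/
def gX (θ : ℝ) (w : Bool × ℝ × ℝ) : ℝ := hm θ (spin w.1 * w.2.1)

theorem measurable_gX (θ : ℝ) : Measurable (gX θ) := by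
  unfold gX
  refine (measurable_hm' θ).comp ?_
  have : Measurable (fun w : Bool × ℝ × ℝ => spin w.1) :=
    (measurable_of_countable spin).comp measurable_fst
  exact this.mul (measurable_fst.comp measurable_snd)

/-- The product space of observation and `m` child variables. -/
def PP (t θ : ℝ) (κ : Measure (ℝ × ℝ)) (m : ℕ) : Measure (ℝ × (Fin m → Bool × ℝ × ℝ)) :=
  (obsL t).prod (Measure.pi fun _ : Fin m => (berL θ).prod κ)

theorem isProb_PP {θ : ℝ} (h0 : 0 ≤ θ) (h1 : θ < 1) (t : ℝ) {κ : Measure (ℝ × ℝ)}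
    [IsProbabilityMeasure κ] (m : ℕ) : IsProbabilityMeasure (PP t θ κ m) := by
  have := isProb_berL h0 h1
  unfold PP; infer_instance

/-- The message sum. -/
def YY (θ : ℝ) {m : ℕ} (w : ℝ × (Fin m → Bool × ℝ × ℝ)) : ℝ := w.1 + ∑ i, gX θ (w.2 i)

theorem measurable_YY (θ : ℝ) (m : ℕ) : Measurable (YY θ (m := m)) := by
  unfold YY
  refine measurable_fst.add ?_
  refine Finset.measurable_sum _ (fun i _ => ?_)
  exact (measurable_gX θ).comp ((measurable_pi_apply i).comp measurable_snd)

/-- Pivot decomposition of the product space at the coordinate `i`. -/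
def pivE {m : ℕ} (i : Fin (m + 1)) (w : ℝ × (Fin (m + 1) → Bool × ℝ × ℝ)) :
    (ℝ × (Fin m → Bool × ℝ × ℝ)) × (Bool × ℝ × ℝ) :=
  ((w.1, fun j => w.2 (i.succAbove j)), w.2 i)

theorem measurePreserving_pivE {θ : ℝ} (h0 : 0 ≤ θ) (h1 : θ < 1) (t : ℝ) {κ : Measure (ℝ × ℝ)}
    [IsProbabilityMeasure κ] {m : ℕ} (i : Fin (m + 1)) :
    MeasurePreserving (pivE i) (PP t θ κ (m + 1)) ((PP t θ κ m).prod ((berL θ).prod κ)) := by
  have := isProb_berL h0 h1
  have hE := measurePreserving_piFinSuccAbove (fun _ : Fin (m + 1) => (berL θ).prod κ) i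
  have h1' : MeasurePreserving (fun w : ℝ × (Fin (m + 1) → Bool × ℝ × ℝ) =>
      (w.1, MeasurableEquiv.piFinSuccAbove (fun _ : Fin (m + 1) => Bool × ℝ × ℝ) i w.2))
      (PP t θ κ (m + 1))
      ((obsL t).prod (((berL θ).prod κ).prod (Measure.pi fun _ : Fin m => (berL θ).prod κ))) := by
    exact (MeasurePreserving.id (obsL t)).prod hE
  have h2' : MeasurePreserving (fun w : ℝ × ((Bool × ℝ × ℝ) × (Fin m → Bool × ℝ × ℝ)) =>
      (w.1, w.2.2, w.2.1))
      ((obsL t).prod (((berL θ).prod κ).prod (Measure.pi fun _ : Fin m => (berL θ).prod κ)))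
      ((obsL t).prod ((Measure.pi fun _ : Fin m => (berL θ).prod κ).prod ((berL θ).prod κ))) := by
    exact (MeasurePreserving.id (obsL t)).prod (Measure.measurePreserving_swap)
  have h3' : MeasurePreserving (fun w : ℝ × (Fin m → Bool × ℝ × ℝ) × (Bool × ℝ × ℝ) =>
      ((w.1, w.2.1), w.2.2))
      ((obsL t).prod ((Measure.pi fun _ : Fin m => (berL θ).prod κ).prod ((berL θ).prod κ)))
      ((PP t θ κ m).prod ((berL θ).prod κ)) := by
    unfold PP
    exact (measurePreserving_prodAssoc _ _ _).symm
  have := h3'.comp (h2'.comp h1')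
  have hfun : pivE i = (fun w : ℝ × (Fin m → Bool × ℝ × ℝ) × (Bool × ℝ × ℝ) =>
      ((w.1, w.2.1), w.2.2)) ∘ (fun w : ℝ × ((Bool × ℝ × ℝ) × (Fin m → Bool × ℝ × ℝ)) =>
      (w.1, w.2.2, w.2.1)) ∘ (fun w : ℝ × (Fin (m + 1) → Bool × ℝ × ℝ) =>
      (w.1, MeasurableEquiv.piFinSuccAbove (fun _ : Fin (m + 1) => Bool × ℝ × ℝ) i w.2)) := by
    funext w
    rfl
  rw [hfun]
  exact this

theorem YY_pivE (θ : ℝ) {m : ℕ} (i : Fin (m + 1)) (w : ℝ × (Fin (m + 1) → Bool × ℝ × ℝ)) :
    YY θ w = YY θ (pivE i w).1 + gX θ (pivE i w).2 := by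
  unfold YY pivE
  simp only
  rw [Fin.sum_univ_succAbove _ i]
  ring

theorem xiL_map_fst (θ : ℝ) (h0 : 0 ≤ θ) (h1 : θ < 1) (κ : Measure (ℝ × ℝ))
    [IsProbabilityMeasure κ] : xiL θ (κ.map Prod.fst) = ((berL θ).prod κ).map (gX θ) := by
  have := isProb_berL h0 h1
  unfold xiL
  have hmf : Measurable (Prod.fst : ℝ × ℝ → ℝ) := measurable_fst
  have : (berL θ).prod (κ.map Prod.fst) = ((berL θ).prod κ).map (Prod.map id Prod.fst) := by
    rw [← Measure.map_prod_map _ _ measurable_id hmf, Measure.map_id]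
  rw [this, Measure.map_map]
  · rfl
  · refine (measurable_hm' θ).comp ?_
    have : Measurable (fun w : Bool × ℝ => spin w.1) :=
      (measurable_of_countable spin).comp measurable_fst
    exact this.mul measurable_snd
  · exact measurable_id.prodMap hmf

/-- The law of the message sum. -/
theorem map_YY_PP {θ : ℝ} (h0 : 0 ≤ θ) (h1 : θ < 1) (t : ℝ) (κ : Measure (ℝ × ℝ))
    [IsProbabilityMeasure κ] (m : ℕ) :
    (PP t θ κ m).map (YY θ) = sideL t θ (κ.map Prod.fst) m := by
  have := isProb_berL h0 h1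
  induction m with
  | zero =>
    have hYY : (YY θ (m := 0)) = Prod.fst := by
      funext w; simp [YY]
    rw [hYY]
    unfold PP
    rw [Measure.map_fst_prod]
    simp [sideL]
  | succ m ih =>
    have hP := measurePreserving_pivE h0 h1 t (κ := κ) (Fin.last m)
    have hY : YY θ (m := m + 1) =
        (fun z : (ℝ × (Fin m → Bool × ℝ × ℝ)) × (Bool × ℝ × ℝ) => YY θ z.1 + gX θ z.2) ∘
          pivE (Fin.last m) := by
      funext w
      exact YY_pivE θ (Fin.last m) w
    have hPP := isProb_PP h0 h1 t (κ := κ) m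
    have hmY := measurable_YY θ m
    have hmg := measurable_gX θ
    rw [hY, ← Measure.map_map (by
      exact ((hmY.comp measurable_fst).add (hmg.comp measurable_snd))) hP.measurable, hP.map_eq]
    simp only [sideL]
    rw [← ih, xiL_map_fst θ h0 h1 κ]
    unfold Measure.conv
    rw [Measure.map_prod_map _ _ hmY hmg, Measure.map_map measurable_add (hmY.prodMap hmg)]
    rfl

theorem stepK_fst {θ : ℝ} (h0 : 0 ≤ θ) (h1 : θ < 1) (t : ℝ) (p b : ℕ) (κ : Measure (ℝ × ℝ))
    [IsProbabilityMeasure κ] :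
    (stepK t θ p b κ).map Prod.fst = sideL t θ (κ.map Prod.fst) b := by
  rw [← map_YY_PP h0 h1 t κ b]
  unfold stepK
  have hm : Measurable (stepMap θ p b) := by
    unfold stepMap
    refine Measurable.prodMk ?_ ?_
    · exact measurable_YY θ b
    · refine measurable_const.mul ?_
      refine Finset.measurable_sum _ (fun i _ => ?_)
      have h3 : Measurable (fun w : ℝ × (Fin b → Bool × ℝ × ℝ) => w.2 i) :=
        (measurable_pi_apply i).comp measurable_snd
      exact ((((measurable_phiF θ).comp (measurable_fst.comp (measurable_snd.comp h3))).pow_const p)).mul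
        (measurable_snd.comp (measurable_snd.comp h3))
  rw [Measure.map_map measurable_fst hm]
  rfl

theorem measurable_stepMap (θ : ℝ) (p b : ℕ) : Measurable (stepMap θ p b) := by
  unfold stepMap
  refine Measurable.prodMk ?_ ?_
  · exact measurable_YY θ b
  · refine measurable_const.mul ?_
    refine Finset.measurable_sum _ (fun i _ => ?_)
    have h3 : Measurable (fun w : ℝ × (Fin b → Bool × ℝ × ℝ) => w.2 i) :=
      (measurable_pi_apply i).comp measurable_snd
    exact ((((measurable_phiF θ).comp (measurable_fst.comp (measurable_snd.comp h3))).pow_const p)).mul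
      (measurable_snd.comp (measurable_snd.comp h3))

theorem isProb_stepK {θ : ℝ} (h0 : 0 ≤ θ) (h1 : θ < 1) (t : ℝ) (p b : ℕ) (κ : Measure (ℝ × ℝ))
    [IsProbabilityMeasure κ] : IsProbabilityMeasure (stepK t θ p b κ) := by
  have : IsProbabilityMeasure ((obsL t).prod (Measure.pi fun _ : Fin b => (berL θ).prod κ)) :=
    isProb_PP h0 h1 t (κ := κ) b
  unfold stepK
  exact Measure.isProbabilityMeasure_map (measurable_stepMap θ p b).aemeasurable

theorem isProb_kapL {θ : ℝ} (h0 : 0 ≤ θ) (h1 : θ < 1) (t : ℝ) (p b R₀ n : ℕ) :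
    IsProbabilityMeasure (kapL t θ p b R₀ n) := by
  induction n with
  | zero =>
    have := isProb_nuL h0 h1 t b R₀
    simp only [kapL]
    infer_instance
  | succ n ih =>
    simp only [kapL]
    exact isProb_stepK h0 h1 t p b _

theorem kapL_fst' (b : ℕ) (t θ : ℝ) (h0 : 0 ≤ θ) (h1 : θ < 1) (p R₀ n : ℕ) :
    (kapL t θ p b R₀ n).map Prod.fst = nuL t θ b (R₀ + n) := by
  induction n with
  | zero =>
    have := isProb_nuL h0 h1 t b R₀
    simp only [kapL, add_zero]
    rw [Measure.map_fst_prod]
    simp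
  | succ n ih =>
    have := isProb_kapL h0 h1 t p b R₀ n
    simp only [kapL]
    rw [stepK_fst h0 h1, ih]
    rfl

end

end Vale.Agent.Lib.P161.LC
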