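import Vale.Agent.Lib.P161.End.LawCasc1

/-!
P161 endpoint, module LawCasc, part 2: moments of the cascade along the joint recursion.
-/

open MeasureTheory ProbabilityTheory Finset

namespace Vale.Agent.Lib.P161.LC

noncomputable section

/-- The cascade variable lies in `[0, 1]` almost surely. -/
def zOK (κ : Measure (ℝ × ℝ)) : Prop := ∀ᵐ w ∂κ, 0 ≤ w.2 ∧ w.2 ≤ 1

theorem phiF_nonneg (θ x : ℝ) : 0 ≤ phiF θ x := by
  unfold phiF; positivity

theorem phiF_le_one {θ : ℝ} (h : θ ^ 2 ≤ 1) (x : ℝ) : phiF θ x ≤ 1 := by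
  unfold phiF
  have h1 : 0 ≤ (1 - θ ^ 2) * Real.sinh x ^ 2 := mul_nonneg (by linarith) (sq_nonneg _)
  have h2 : 1 / (1 + (1 - θ ^ 2) * Real.sinh x ^ 2) ≤ 1 := by
    rw [div_le_one (by linarith)]; linarith
  have h3 : 0 ≤ 1 / (1 + (1 - θ ^ 2) * Real.sinh x ^ 2) := by positivity
  exact pow_le_one₀ h3 h2

theorem phiF_pow_mem {θ : ℝ} (h : θ ^ 2 ≤ 1) (p : ℕ) (x : ℝ) :
    0 ≤ phiF θ x ^ p ∧ phiF θ x ^ p ≤ 1 :=
  ⟨pow_nonneg (phiF_nonneg θ x) p, pow_le_one₀ (phiF_nonneg θ x) (phiF_le_one h x)⟩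

theorem integrable_of_ae_abs_le {α : Type*} [MeasurableSpace α] {μ : Measure α}
    [IsFiniteMeasure μ] {f : α → ℝ} (hf : Measurable f) (C : ℝ) (h : ∀ᵐ x ∂μ, |f x| ≤ C) :
    Integrable f μ :=
  Integrable.of_bound hf.aestronglyMeasurable C (by simpa using h)

section Setup

variable {θ : ℝ} (h0 : 0 ≤ θ) (h1 : θ < 1) (t : ℝ) {κ : Measure (ℝ × ℝ)} [IsProbabilityMeasure κ]

include h0 h1

theorem sq_le_one_of : θ ^ 2 ≤ 1 := by nlinarith

theorem mp_coord {m : ℕ} (i : Fin m) :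
    MeasurePreserving (fun w : ℝ × (Fin m → Bool × ℝ × ℝ) => w.2 i) (PP t θ κ m)
      ((berL θ).prod κ) := by
  have := isProb_berL h0 h1
  have h2 : MeasurePreserving (Prod.snd : ℝ × (Fin m → Bool × ℝ × ℝ) → _) (PP t θ κ m)
      (Measure.pi fun _ : Fin m => (berL θ).prod κ) := by
    unfold PP
    exact measurePreserving_snd
  exact (measurePreserving_eval (fun _ : Fin m => (berL θ).prod κ) i).comp h2

theorem mp_snd_ber : MeasurePreserving (Prod.snd : Bool × ℝ × ℝ → ℝ × ℝ) ((berL θ).prod κ) κ := by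
  have := isProb_berL h0 h1
  exact measurePreserving_snd

theorem ae_ber {P : ℝ × ℝ → Prop} (h : ∀ᵐ w ∂κ, P w) : ∀ᵐ v ∂((berL θ).prod κ), P v.2 :=
  (mp_snd_ber h0 h1 (κ := κ)).quasiMeasurePreserving.ae h

theorem ae_coord {m : ℕ} (hκ : zOK κ) :
    ∀ᵐ w ∂(PP t θ κ m), ∀ i : Fin m, 0 ≤ (w.2 i).2.2 ∧ (w.2 i).2.2 ≤ 1 := by
  rw [ae_all_iff]
  intro i
  exact (mp_coord h0 h1 t (κ := κ) i).quasiMeasurePreserving.ae (ae_ber h0 h1 hκ)

theorem integral_coord {m : ℕ} (i : Fin m) {f : Bool × ℝ × ℝ → ℝ} (hf : Measurable f) :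
    ∫ w, f (w.2 i) ∂(PP t θ κ m) = ∫ v, f v ∂((berL θ).prod κ) := by
  have hp := mp_coord h0 h1 t (κ := κ) i
  rw [← hp.map_eq, integral_map hp.measurable.aemeasurable hf.aestronglyMeasurable]

theorem integral_ber_snd (f : ℝ × ℝ → ℝ) :
    ∫ v, f v.2 ∂((berL θ).prod κ) = ∫ w, f w ∂κ := by
  have := isProb_berL h0 h1
  rw [integral_fun_snd, probReal_univ, one_smul]

end Setup

/-- The summand of the cascade. -/
def FF (θ : ℝ) (p : ℕ) (v : Bool × ℝ × ℝ) : ℝ := phiF θ v.2.1 ^ p * v.2.2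

theorem measurable_FF (θ : ℝ) (p : ℕ) : Measurable (FF θ p) := by
  unfold FF
  exact ((measurable_phiF θ).comp (measurable_fst.comp measurable_snd)).pow_const p |>.mul
    (measurable_snd.comp measurable_snd)

theorem FF_mem {θ : ℝ} (h : θ ^ 2 ≤ 1) (p : ℕ) {v : Bool × ℝ × ℝ} (hv : 0 ≤ v.2.2 ∧ v.2.2 ≤ 1) :
    0 ≤ FF θ p v ∧ FF θ p v ≤ v.2.2 ∧ FF θ p v ≤ 1 := by
  obtain ⟨a0, a1⟩ := phiF_pow_mem h p v.2.1
  unfold FF
  refine ⟨mul_nonneg a0 hv.1, ?_, ?_⟩
  · nlinarith [hv.1]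
  · nlinarith [hv.1, hv.2]

/-- The first moment weighted by `φ^p`. -/
def aa (θ : ℝ) (p : ℕ) (κ : Measure (ℝ × ℝ)) : ℝ := ∫ w, phiF θ w.1 ^ p * w.2 ∂κ

/-- The exponential moment of the cascade. -/
def MM (κ : Measure (ℝ × ℝ)) (l : ℝ) : ℝ := ∫ w, Real.exp (l * w.2) ∂κ

section Step

variable {θ : ℝ} (h0 : 0 ≤ θ) (h1 : θ < 1) (t : ℝ) {κ : Measure (ℝ × ℝ)} [IsProbabilityMeasure κ]

include h0 h1

theorem zOK_stepK (p b : ℕ) (hκ : zOK κ) : zOK (stepK t θ p b κ) := by
  have hs := sq_le_one_of h0 h1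
  unfold zOK stepK
  have hset : MeasurableSet {w : ℝ × ℝ | 0 ≤ w.2 ∧ w.2 ≤ 1} :=
    (measurableSet_le measurable_const measurable_snd).inter
      (measurableSet_le measurable_snd measurable_const)
  refine (ae_map_iff (measurable_stepMap θ p b).aemeasurable hset).2 ?_
  have := ae_coord h0 h1 t (m := b) hκ
  unfold PP at this
  filter_upwards [this] with w hw
  simp only [stepMap]
  have hF : ∀ i, 0 ≤ FF θ p (w.2 i) ∧ FF θ p (w.2 i) ≤ 1 := fun i =>
    ⟨(FF_mem hs p (hw i)).1, (FF_mem hs p (hw i)).2.2⟩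
  have hF' : ∀ i, phiF θ (w.2 i).2.1 ^ p * (w.2 i).2.2 = FF θ p (w.2 i) := fun i => rfl
  simp only [hF']
  constructor
  · exact mul_nonneg (by positivity) (Finset.sum_nonneg fun i _ => (hF i).1)
  · rcases Nat.eq_zero_or_pos b with rfl | hb
    · simp
    · have hb' : (0 : ℝ) < b := by exact_mod_cast hb
      have : ∑ i, FF θ p (w.2 i) ≤ b := by
        calc _ ≤ ∑ _i : Fin b, (1 : ℝ) := Finset.sum_le_sum fun i _ => (hF i).2
          _ = b := by simp
      rw [one_div, inv_mul_le_iff₀ hb']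
      linarith

theorem integrable_FF (p : ℕ) (hκ : zOK κ) : Integrable (FF θ p) ((berL θ).prod κ) := by
  have := isProb_berL h0 h1
  have hs := sq_le_one_of h0 h1
  refine integrable_of_ae_abs_le (measurable_FF θ p) 1 ?_
  filter_upwards [ae_ber h0 h1 hκ] with v hv
  have := FF_mem hs p hv
  rw [abs_le]
  constructor <;> linarith [this.1, this.2.2]

theorem integral_FF (p : ℕ) : ∫ v, FF θ p v ∂((berL θ).prod κ) = aa θ p κ := by
  exact integral_ber_snd h0 h1 (fun w => phiF θ w.1 ^ p * w.2)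

/-- The first moment after one step. -/
theorem integral_snd_stepK (p b : ℕ) (hb : 0 < b) (hκ : zOK κ) :
    ∫ u, u.2 ∂(stepK t θ p b κ) = aa θ p κ := by
  have hb' : (0 : ℝ) < b := by exact_mod_cast hb
  have hPP := isProb_PP h0 h1 t (κ := κ) b
  unfold stepK
  rw [integral_map (measurable_stepMap θ p b).aemeasurable measurable_snd.aestronglyMeasurable]
  simp only [stepMap]
  rw [integral_const_mul]
  have hint : ∀ i : Fin b, Integrable (fun w : ℝ × (Fin b → Bool × ℝ × ℝ) => FF θ p (w.2 i))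
      (PP t θ κ b) := by
    intro i
    have hp := mp_coord h0 h1 t (κ := κ) i
    exact (integrable_map_measure (measurable_FF θ p).aestronglyMeasurable
      hp.measurable.aemeasurable).1 (by rw [hp.map_eq]; exact integrable_FF h0 h1 p hκ)
  change (1 / (b : ℝ)) * ∫ w, ∑ i, FF θ p (w.2 i) ∂(PP t θ κ b) = _
  rw [integral_finsetSum _ (fun i _ => hint i)]
  simp_rw [integral_coord h0 h1 t _ (measurable_FF θ p), integral_FF h0 h1]
  simp
  field_simp

/-- Weighted first moment after one step. -/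
theorem aa_stepK (p m : ℕ) (hκ : zOK κ) {α : ℝ}
    (hα : ∀ u, ∫ y, phiF θ (y + u) ^ p ∂(sideL t θ (κ.map Prod.fst) m) ≤ α) :
    aa θ p (stepK t θ p (m + 1) κ) ≤ α * aa θ p κ := by
  have hs := sq_le_one_of h0 h1
  have hBer := isProb_berL h0 h1
  have hb' : (0 : ℝ) < ((m + 1 : ℕ) : ℝ) := by positivity
  have hPP := isProb_PP h0 h1 t (κ := κ) (m + 1)
  have hPPm := isProb_PP h0 h1 t (κ := κ) m
  have hmphi : Measurable (fun x => phiF θ x ^ p) := (measurable_phiF θ).pow_const p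
  unfold aa stepK
  have hmm : Measurable (fun w : ℝ × ℝ => phiF θ w.1 ^ p * w.2) :=
    (hmphi.comp measurable_fst).mul measurable_snd
  rw [integral_map (measurable_stepMap θ p (m + 1)).aemeasurable hmm.aestronglyMeasurable]
  change ∫ w, phiF θ (YY θ w) ^ p * ((1 / ((m + 1 : ℕ) : ℝ)) * ∑ i, FF θ p (w.2 i)) ∂(PP t θ κ (m + 1))
    ≤ _
  have hG : ∀ i : Fin (m + 1), ∫ w, phiF θ (YY θ w) ^ p * FF θ p (w.2 i) ∂(PP t θ κ (m + 1))
      ≤ α * aa θ p κ ∧ Integrable (fun w => phiF θ (YY θ w) ^ p * FF θ p (w.2 i))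
        (PP t θ κ (m + 1)) := by
    intro i
    have hP := measurePreserving_pivE h0 h1 t (κ := κ) i
    let G : (ℝ × (Fin m → Bool × ℝ × ℝ)) × (Bool × ℝ × ℝ) → ℝ :=
      fun z => phiF θ (YY θ z.1 + gX θ z.2) ^ p * FF θ p z.2
    have hGm : Measurable G :=
      (hmphi.comp (((measurable_YY θ m).comp measurable_fst).add
        ((measurable_gX θ).comp measurable_snd))).mul ((measurable_FF θ p).comp measurable_snd)
    have hGeq : (fun w => phiF θ (YY θ w) ^ p * FF θ p (w.2 i)) = G ∘ pivE i := by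
      funext w
      simp only [G, Function.comp]
      rw [YY_pivE θ i w]
      rfl
    have hbd : ∀ᵐ z ∂((PP t θ κ m).prod ((berL θ).prod κ)), 0 ≤ FF θ p z.2 ∧ FF θ p z.2 ≤ 1 := by
      have h' : ∀ᵐ v ∂((berL θ).prod κ), 0 ≤ FF θ p v ∧ FF θ p v ≤ 1 := by
        filter_upwards [ae_ber h0 h1 hκ] with v hv
        exact ⟨(FF_mem hs p hv).1, (FF_mem hs p hv).2.2⟩
      exact (measurePreserving_snd (μ := PP t θ κ m)
        (ν := (berL θ).prod κ)).quasiMeasurePreserving.ae h'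
    have hGint : Integrable G ((PP t θ κ m).prod ((berL θ).prod κ)) := by
      refine integrable_of_ae_abs_le hGm 1 ?_
      filter_upwards [hbd] with z hz
      obtain ⟨a0, a1⟩ := phiF_pow_mem hs p (YY θ z.1 + gX θ z.2)
      simp only [G]
      rw [abs_le]
      constructor <;> nlinarith [hz.1, hz.2]
    constructor
    · rw [hGeq]
      change ∫ w, G (pivE i w) ∂(PP t θ κ (m + 1)) ≤ _
      rw [← integral_map hP.measurable.aemeasurable hGm.aestronglyMeasurable, hP.map_eq,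
        integral_prod_symm G hGint]
      have hinner : ∀ v : Bool × ℝ × ℝ, ∫ ζ, G (ζ, v) ∂(PP t θ κ m)
          = (∫ y, phiF θ (y + gX θ v) ^ p ∂(sideL t θ (κ.map Prod.fst) m)) * FF θ p v := by
        intro v
        simp only [G]
        have hmv : Measurable (fun y : ℝ => phiF θ (y + gX θ v) ^ p) :=
          hmphi.comp (measurable_id.add_const _)
        rw [integral_mul_const, ← map_YY_PP h0 h1 t κ m,
          integral_map (measurable_YY θ m).aemeasurable hmv.aestronglyMeasurable]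
      simp_rw [hinner]
      have hFi := integrable_FF h0 h1 (κ := κ) p hκ
      rw [← integral_FF h0 h1 (κ := κ) p, ← integral_const_mul]
      refine integral_mono_of_nonneg ?_ (hFi.const_mul α) ?_
      · filter_upwards [ae_ber h0 h1 hκ] with v hv
        exact mul_nonneg (integral_nonneg fun _ => (phiF_pow_mem hs p _).1) (FF_mem hs p hv).1
      · filter_upwards [ae_ber h0 h1 hκ] with v hv
        exact mul_le_mul_of_nonneg_right (hα _) (FF_mem hs p hv).1
    · rw [hGeq]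
      exact (integrable_map_measure hGm.aestronglyMeasurable hP.measurable.aemeasurable).1
        (by rw [hP.map_eq]; exact hGint)
  have hexp : (fun w : ℝ × (Fin (m + 1) → Bool × ℝ × ℝ) =>
      phiF θ (YY θ w) ^ p * ((1 / ((m + 1 : ℕ) : ℝ)) * ∑ i, FF θ p (w.2 i)))
      = fun w => (1 / ((m + 1 : ℕ) : ℝ)) * ∑ i, phiF θ (YY θ w) ^ p * FF θ p (w.2 i) := by
    funext w
    rw [Finset.mul_sum, Finset.mul_sum, Finset.mul_sum]
    exact Finset.sum_congr rfl fun i _ => by ring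
  rw [hexp, integral_const_mul, integral_finsetSum _ (fun i _ => (hG i).2)]
  calc _ ≤ (1 / ((m + 1 : ℕ) : ℝ)) * ∑ _i : Fin (m + 1), (α * aa θ p κ) :=
        mul_le_mul_of_nonneg_left (Finset.sum_le_sum fun i _ => (hG i).1) (by positivity)
    _ = α * aa θ p κ := by
        simp only [Finset.sum_const, Finset.card_univ, Fintype.card_fin, nsmul_eq_mul]
        field_simp

/-- The exponential moment after one step. -/
theorem MM_stepK (p b : ℕ) (hb : 0 < b) (hκ : zOK κ) {l : ℝ} (hl : 0 ≤ l) :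
    MM (stepK t θ p b κ) l ≤ MM κ (l / b) ^ b := by
  have hs := sq_le_one_of h0 h1
  have hBer := isProb_berL h0 h1
  have hb' : (0 : ℝ) < b := by exact_mod_cast hb
  have hPP := isProb_PP h0 h1 t (κ := κ) b
  have hmexp : Measurable (fun v : Bool × ℝ × ℝ => Real.exp (l / b * v.2.2)) :=
    Real.measurable_exp.comp (measurable_const.mul (measurable_snd.comp measurable_snd))
  unfold MM stepK
  have hmm : Measurable (fun w : ℝ × ℝ => Real.exp (l * w.2)) :=
    Real.measurable_exp.comp (measurable_const.mul measurable_snd)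
  rw [integral_map (measurable_stepMap θ p b).aemeasurable hmm.aestronglyMeasurable]
  have hRHS : (∫ w, Real.exp (l / b * w.2) ∂κ) ^ b
      = ∫ w, ∏ i : Fin b, Real.exp (l / b * (w.2 i).2.2) ∂(PP t θ κ b) := by
    unfold PP
    rw [integral_fun_snd (fun x : Fin b → Bool × ℝ × ℝ => ∏ i, Real.exp (l / b * (x i).2.2))]
    have := integral_fintype_prod_eq_prod (𝕜 := ℝ) (fun _ : Fin b => fun v : Bool × ℝ × ℝ =>
      Real.exp (l / b * v.2.2)) (μ := fun _ : Fin b => (berL θ).prod κ)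
    simp only [probReal_univ, one_smul]
    rw [this]
    simp only [Finset.prod_const, Finset.card_univ, Fintype.card_fin]
    rw [integral_ber_snd h0 h1 (fun w => Real.exp (l / b * w.2))]
  rw [hRHS]
  have hint : Integrable (fun w : ℝ × (Fin b → Bool × ℝ × ℝ) =>
      ∏ i : Fin b, Real.exp (l / b * (w.2 i).2.2)) (PP t θ κ b) := by
    refine integrable_of_ae_abs_le (Finset.measurable_prod _ fun i _ =>
      hmexp.comp ((measurable_pi_apply i).comp measurable_snd)) (Real.exp (l / b) ^ b) ?_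
    filter_upwards [ae_coord h0 h1 t (m := b) hκ] with w hw
    rw [abs_of_nonneg (Finset.prod_nonneg fun i _ => (Real.exp_pos _).le)]
    calc _ ≤ ∏ _i : Fin b, Real.exp (l / b) := Finset.prod_le_prod
            (fun i _ => (Real.exp_pos _).le) (fun i _ => by
              apply Real.exp_le_exp.2
              have : 0 ≤ l / b := by positivity
              nlinarith [(hw i).2])
      _ = _ := by simp
  refine integral_mono_of_nonneg (Filter.Eventually.of_forall fun _ => (Real.exp_pos _).le) hint ?_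
  filter_upwards [ae_coord h0 h1 t (m := b) hκ] with w hw
  simp only [stepMap]
  rw [← Real.exp_sum]
  apply Real.exp_le_exp.2
  have hF' : ∀ i, phiF θ (w.2 i).2.1 ^ p * (w.2 i).2.2 = FF θ p (w.2 i) := fun i => rfl
  simp only [hF']
  have : l * (1 / (b : ℝ) * ∑ i, FF θ p (w.2 i)) = l / b * ∑ i, FF θ p (w.2 i) := by ring
  rw [this, Finset.mul_sum]
  refine Finset.sum_le_sum fun i _ => ?_
  have hd : 0 ≤ l / b := by positivity
  exact mul_le_mul_of_nonneg_left (FF_mem hs p (hw i)).2.1 hd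

end Step

end

end Vale.Agent.Lib.P161.LC
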