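import Vale.Agent.Lib.P161.End.LawCasc2

/-!
P161 endpoint, module LawCasc, part 3: the cascade tail from the decay of the weighted moment.
-/

open MeasureTheory ProbabilityTheory Finset

namespace Vale.Agent.Lib.P161.LC

noncomputable section

theorem integrable_snd_of_zOK {κ : Measure (ℝ × ℝ)} [IsProbabilityMeasure κ] (hκ : zOK κ) :
    Integrable (fun w : ℝ × ℝ => w.2) κ := by
  refine integrable_of_ae_abs_le measurable_snd 1 ?_
  filter_upwards [hκ] with w hw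
  rw [abs_le]; constructor <;> linarith [hw.1, hw.2]

theorem MM_nonneg (κ : Measure (ℝ × ℝ)) (l : ℝ) : 0 ≤ MM κ l :=
  integral_nonneg fun _ => (Real.exp_pos _).le

section Kap

variable {θ : ℝ} (h0 : 0 ≤ θ) (h1 : θ < 1) (t : ℝ) (p b R₀ : ℕ)

include h0 h1

theorem zOK_kapL (n : ℕ) : zOK (kapL t θ p b R₀ n) := by
  induction n with
  | zero =>
    have := isProb_nuL h0 h1 t b R₀
    simp only [kapL, zOK]
    have h' : ∀ᵐ z ∂(Measure.dirac (1 : ℝ)), 0 ≤ z ∧ z ≤ 1 := by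
      rw [ae_dirac_eq]; simp
    exact (measurePreserving_snd (μ := nuL t θ b R₀)
      (ν := Measure.dirac (1 : ℝ))).quasiMeasurePreserving.ae h'
  | succ n ih =>
    have := isProb_kapL h0 h1 t p b R₀ n
    simp only [kapL]
    exact zOK_stepK h0 h1 t p b ih

theorem integral_snd_le_one (n : ℕ) : ∫ w, w.2 ∂(kapL t θ p b R₀ n) ≤ 1 := by
  have := isProb_kapL h0 h1 t p b R₀ n
  have hz := zOK_kapL h0 h1 t p b R₀ n
  have : ∫ w, w.2 ∂(kapL t θ p b R₀ n) ≤ ∫ _w, (1 : ℝ) ∂(kapL t θ p b R₀ n) := by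
    refine integral_mono_of_nonneg ?_ (integrable_const 1) ?_
    · filter_upwards [hz] with w hw using hw.1
    · filter_upwards [hz] with w hw using hw.2
  simpa using this

theorem aa_kapL_zero_le : aa θ p (kapL t θ p b R₀ 0) ≤ 1 := by
  have hs := sq_le_one_of h0 h1
  have := isProb_kapL h0 h1 t p b R₀ 0
  have hz := zOK_kapL h0 h1 t p b R₀ 0
  have : aa θ p (kapL t θ p b R₀ 0) ≤ ∫ _w, (1 : ℝ) ∂(kapL t θ p b R₀ 0) := by
    refine integral_mono_of_nonneg ?_ (integrable_const 1) ?_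
    · filter_upwards [hz] with w hw using mul_nonneg (phiF_pow_mem hs p _).1 hw.1
    · filter_upwards [hz] with w hw
      have := (phiF_pow_mem hs p w.1)
      nlinarith [this.1, this.2, hw.1, hw.2]
  simpa using this

theorem aa_kapL_le {m : ℕ} {α : ℝ} (hα : 0 ≤ α)
    (H : ∀ k u, ∫ y, phiF θ (y + u) ^ p ∂(sideL t θ (nuL t θ (m + 1) (R₀ + k)) m) ≤ α) (n : ℕ) :
    aa θ p (kapL t θ p (m + 1) R₀ n) ≤ α ^ n := by
  induction n with
  | zero => simpa using aa_kapL_zero_le h0 h1 t p (m + 1) R₀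
  | succ n ih =>
    have := isProb_kapL h0 h1 t p (m + 1) R₀ n
    have hz := zOK_kapL h0 h1 t p (m + 1) R₀ n
    simp only [kapL]
    have h2 := aa_stepK h0 h1 t p m hz (α := α) (by
      intro u
      rw [kapL_fst' (m + 1) t θ h0 h1 p R₀ n]
      exact H n u)
    calc _ ≤ α * aa θ p (kapL t θ p (m + 1) R₀ n) := h2
      _ ≤ α * α ^ n := mul_le_mul_of_nonneg_left ih hα
      _ = α ^ (n + 1) := by ring

theorem integral_snd_kapL_le {m : ℕ} {α : ℝ} (hα : 0 ≤ α) (hα1 : α ≤ 1)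
    (H : ∀ k u, ∫ y, phiF θ (y + u) ^ p ∂(sideL t θ (nuL t θ (m + 1) (R₀ + k)) m) ≤ α) {n j : ℕ}
    (hj : j ≤ n) : ∫ w, w.2 ∂(kapL t θ p (m + 1) R₀ n) ≤ α ^ (j - 1) := by
  rcases Nat.eq_zero_or_pos j with rfl | hj0
  · simpa using integral_snd_le_one h0 h1 t p (m + 1) R₀ n
  · obtain ⟨n', rfl⟩ : ∃ n', n = n' + 1 := ⟨n - 1, by omega⟩
    have := isProb_kapL h0 h1 t p (m + 1) R₀ n'
    have hz := zOK_kapL h0 h1 t p (m + 1) R₀ n'
    simp only [kapL]
    rw [integral_snd_stepK h0 h1 t p (m + 1) (by omega) hz]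
    calc _ ≤ α ^ n' := aa_kapL_le h0 h1 t p R₀ hα H n'
      _ ≤ α ^ (j - 1) := pow_le_pow_of_le_one hα hα1 (by omega)

theorem MM_iter (hb : 0 < b) (n : ℕ) {l : ℝ} (hl : 0 ≤ l) (j : ℕ) :
    MM (kapL t θ p b R₀ (n + j)) (l * (b : ℝ) ^ j) ≤ MM (kapL t θ p b R₀ n) l ^ (b ^ j) := by
  have hb' : (0 : ℝ) < b := by exact_mod_cast hb
  induction j with
  | zero => simp
  | succ j ih =>
    have := isProb_kapL h0 h1 t p b R₀ (n + j)
    have hz := zOK_kapL h0 h1 t p b R₀ (n + j)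
    have hl' : 0 ≤ l * (b : ℝ) ^ (j + 1) := by positivity
    have h2 := MM_stepK h0 h1 t p b hb hz hl'
    have h3 : l * (b : ℝ) ^ (j + 1) / b = l * (b : ℝ) ^ j := by
      rw [pow_succ]; field_simp
    rw [h3] at h2
    have h4 : kapL t θ p b R₀ (n + (j + 1)) = stepK t θ p b (kapL t θ p b R₀ (n + j)) := rfl
    rw [h4]
    calc _ ≤ MM (kapL t θ p b R₀ (n + j)) (l * (b : ℝ) ^ j) ^ b := h2
      _ ≤ (MM (kapL t θ p b R₀ n) l ^ (b ^ j)) ^ b :=
          pow_le_pow_left₀ (MM_nonneg _ _) ih b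
      _ = _ := by rw [← pow_mul, pow_succ]

end Kap

theorem exp_le_one_add_two_mul {z : ℝ} (h0 : 0 ≤ z) (h1 : z ≤ 1) : Real.exp z ≤ 1 + 2 * z := by
  have h := convexOn_exp.2 (Set.mem_univ (1 : ℝ)) (Set.mem_univ (0 : ℝ)) h0 (by linarith : 0 ≤ 1 - z)
    (by ring)
  simp only [smul_eq_mul, mul_one, mul_zero, add_zero, Real.exp_zero] at h
  have h2 := Real.exp_one_lt_d9
  nlinarith

theorem MM_one_le {κ : Measure (ℝ × ℝ)} [IsProbabilityMeasure κ] (hκ : zOK κ)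
    (hint : Integrable (fun w : ℝ × ℝ => w.2) κ) :
    MM κ 1 ≤ Real.exp (2 * ∫ w, w.2 ∂κ) := by
  have h1 : MM κ 1 ≤ ∫ w, (1 + 2 * w.2) ∂κ := by
    refine integral_mono_of_nonneg (Filter.Eventually.of_forall fun _ => (Real.exp_pos _).le)
      ((integrable_const 1).add (hint.const_mul 2)) ?_
    filter_upwards [hκ] with w hw
    simpa using exp_le_one_add_two_mul hw.1 hw.2
  have h2 : ∫ w, (1 + 2 * w.2) ∂κ = 1 + 2 * ∫ w, w.2 ∂κ := by
    rw [integral_add (integrable_const 1) (hint.const_mul 2), integral_const_mul]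
    simp
  rw [h2] at h1
  have h3 := Real.add_one_le_exp (2 * ∫ w, w.2 ∂κ)
  linarith

theorem tail_of_MM {κ : Measure (ℝ × ℝ)} [IsProbabilityMeasure κ] (hκ : zOK κ) {l : ℝ}
    (hl : 0 ≤ l) (ε : ℝ) : κ.real {w | ε ≤ w.2} ≤ Real.exp (-(l * ε)) * MM κ l := by
  have hm : Measurable (fun w : ℝ × ℝ => Real.exp (l * w.2)) :=
    Real.measurable_exp.comp (measurable_const.mul measurable_snd)
  have hint : Integrable (fun w : ℝ × ℝ => Real.exp (l * w.2)) κ := by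
    refine integrable_of_ae_abs_le hm (Real.exp l) ?_
    filter_upwards [hκ] with w hw
    rw [abs_of_pos (Real.exp_pos _)]
    apply Real.exp_le_exp.2
    nlinarith [hw.1, hw.2]
  have h1 := mul_meas_ge_le_integral_of_nonneg (f := fun w : ℝ × ℝ => Real.exp (l * w.2))
    (Filter.Eventually.of_forall fun w => (Real.exp_pos (l * w.2)).le) hint (Real.exp (l * ε))
  have h2 : κ.real {w | ε ≤ w.2} ≤ κ.real {w | Real.exp (l * ε) ≤ Real.exp (l * w.2)} := by
    refine measureReal_mono ?_ (measure_ne_top _ _)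
    intro w hw
    simp only [Set.mem_setOf_eq] at hw ⊢
    exact Real.exp_le_exp.2 (mul_le_mul_of_nonneg_left hw hl)
  have h3 : Real.exp (l * ε) * κ.real {w | ε ≤ w.2} ≤ MM κ l :=
    (mul_le_mul_of_nonneg_left h2 (Real.exp_pos _).le).trans h1
  rw [Real.exp_neg, ← div_eq_inv_mul, le_div_iff₀ (Real.exp_pos _)]
  linarith

theorem three_halves_pow_le {α : ℝ} (hα0 : 3 / 4 ≤ α) (hα1 : α ≤ 1) {b : ℕ} (hb : 2 ≤ b) (j : ℕ) :
    (3 / 2 : ℝ) ^ j ≤ (b : ℝ) ^ j * α ^ (j - 1) := by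
  have hb' : (2 : ℝ) ≤ b := by exact_mod_cast hb
  rcases Nat.eq_zero_or_pos j with rfl | hj
  · simp
  · have h1 : α ^ j ≤ α ^ (j - 1) := pow_le_pow_of_le_one (by linarith) hα1 (by omega)
    have h2 : (3 / 2 : ℝ) ^ j ≤ ((b : ℝ) * α) ^ j :=
      pow_le_pow_left₀ (by norm_num) (by nlinarith) j
    rw [mul_pow] at h2
    refine h2.trans (mul_le_mul_of_nonneg_left h1 (by positivity))

/-- The cascade tail, given the uniform bound on the side law. -/
theorem casc_tail {θ : ℝ} (h0 : 0 ≤ θ) (h1 : θ < 1) (t : ℝ) (p m R₀ : ℕ) (hm : 1 ≤ m) {α : ℝ}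
    (hα0 : 3 / 4 ≤ α) (hα1 : α ≤ 1)
    (H : ∀ k u, ∫ y, phiF θ (y + u) ^ p ∂(sideL t θ (nuL t θ (m + 1) (R₀ + k)) m) ≤ α) (N : ℕ) :
    (kapL t θ p (m + 1) R₀ N).real {w | epsN α N ≤ w.2} ≤ tauN N := by
  set b := m + 1 with hbdef
  have hb : 2 ≤ b := by omega
  have hb' : (0 : ℝ) < b := by positivity
  set j := N / 2 with hj
  obtain ⟨n, hn⟩ : ∃ n, N = n + j := ⟨N - j, by omega⟩
  have hjn : j ≤ n := by omega
  have hαpos : 0 ≤ α := by linarith
  have hEz := integral_snd_kapL_le h0 h1 t p R₀ hαpos hα1 H hjn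
  have hpN := isProb_kapL h0 h1 t p b R₀ N
  have hpn := isProb_kapL h0 h1 t p b R₀ n
  have hzN := zOK_kapL h0 h1 t p b R₀ N
  have hzn := zOK_kapL h0 h1 t p b R₀ n
  set l : ℝ := (b : ℝ) ^ j with hl
  have hl0 : 0 ≤ l := by positivity
  have h2 := tail_of_MM hzN hl0 (epsN α N)
  have h3 : MM (kapL t θ p b R₀ N) l ≤ MM (kapL t θ p b R₀ n) 1 ^ (b ^ j) := by
    have := MM_iter h0 h1 t p b R₀ (by omega) n (l := 1) zero_le_one j
    rw [one_mul] at this
    rw [hn]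
    exact this
  have h4 : MM (kapL t θ p b R₀ n) 1 ≤ Real.exp (2 * ∫ w, w.2 ∂(kapL t θ p b R₀ n)) :=
    MM_one_le hzn (integrable_snd_of_zOK hzn)
  set E := ∫ w, w.2 ∂(kapL t θ p b R₀ n) with hE
  have h5 : MM (kapL t θ p b R₀ n) 1 ^ (b ^ j) ≤ Real.exp (l * (2 * E)) := by
    calc _ ≤ Real.exp (2 * E) ^ (b ^ j) := pow_le_pow_left₀ (MM_nonneg _ _) h4 _
      _ = Real.exp (l * (2 * E)) := by
        rw [← Real.exp_nat_mul]
        congr 1
        rw [hl]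
        push_cast
        ring
  have heps : epsN α N = 3 * α ^ (j - 1) := rfl
  have h6 := three_halves_pow_le hα0 hα1 hb j
  unfold tauN
  rw [← hj]
  calc _ ≤ Real.exp (-(l * epsN α N)) * MM (kapL t θ p b R₀ N) l := h2
    _ ≤ Real.exp (-(l * epsN α N)) * Real.exp (l * (2 * E)) :=
        mul_le_mul_of_nonneg_left (h3.trans h5) (Real.exp_pos _).le
    _ = Real.exp (-(l * epsN α N) + l * (2 * E)) := by rw [Real.exp_add]
    _ ≤ _ := by
        apply Real.exp_le_exp.2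
        rw [heps]
        have : l * (2 * E) ≤ l * (2 * α ^ (j - 1)) :=
          mul_le_mul_of_nonneg_left (by linarith) hl0
        nlinarith

end

end Vale.Agent.Lib.P161.LC
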