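import Vale.Agent.Lib.P161.End.LawQBound

/-!
P161 endpoint, module LawQ: the scalar analysis of the message laws (blueprint section 2):
BMS symmetry, the two-channel inequalities, the bounds on `q`, the exponential moments.
-/

open MeasureTheory ProbabilityTheory Finset

namespace Vale.Agent.Lib.P161.LQ

noncomputable section

/-! ### The fourth moments along the side laws -/

lemma abs_tanh_add_le (x y : ℝ) : |Real.tanh (x + y)| ≤ |Real.tanh x| + |Real.tanh y| := by
  have hD := one_add_tanh_mul_pos x y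
  have hx := (abs_lt.1 (Real.abs_tanh_lt_one x))
  have hy := (abs_lt.1 (Real.abs_tanh_lt_one y))
  rw [tanh_add', abs_div, abs_of_pos hD, div_le_iff₀ hD]
  set u := Real.tanh x
  set v := Real.tanh y
  rcases le_total 0 u with hu | hu <;> rcases le_total 0 v with hv | hv
  · rw [abs_of_nonneg hu, abs_of_nonneg hv, abs_of_nonneg (add_nonneg hu hv)]
    nlinarith [mul_nonneg (add_nonneg hu hv) (mul_nonneg hu hv)]
  · rw [abs_of_nonneg hu, abs_of_nonpos hv]
    have hc : 0 ≤ -v := by linarith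
    have h1 : 0 ≤ -v * (2 - u ^ 2 - u * -v) := mul_nonneg hc (by nlinarith)
    have h2 : 0 ≤ u * (2 - u * -v - v ^ 2) := mul_nonneg hu (by nlinarith)
    rw [abs_le]
    constructor <;> nlinarith
  · rw [abs_of_nonpos hu, abs_of_nonneg hv]
    have hc : 0 ≤ -u := by linarith
    have h1 : 0 ≤ -u * (2 - v ^ 2 - v * -u) := mul_nonneg hc (by nlinarith)
    have h2 : 0 ≤ v * (2 - v * -u - u ^ 2) := mul_nonneg hv (by nlinarith)
    rw [abs_le]
    constructor <;> nlinarith
  · rw [abs_of_nonpos hu, abs_of_nonpos hv, abs_of_nonpos (add_nonpos hu hv)]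
    nlinarith [mul_nonneg (add_nonneg (neg_nonneg.2 hu) (neg_nonneg.2 hv)) (mul_nonneg (neg_nonneg.2 hu) (neg_nonneg.2 hv))]

lemma tanh_four_add_le (x y : ℝ) :
    Real.tanh (x + y) ^ 4 ≤ 8 * (Real.tanh x ^ 4 + Real.tanh y ^ 4) := by
  have h := abs_tanh_add_le x y
  set a := |Real.tanh x| with ha
  set c := |Real.tanh y| with hc
  have ha0 : 0 ≤ a := abs_nonneg _
  have hc0 : 0 ≤ c := abs_nonneg _
  have e1 : Real.tanh x ^ 4 = a ^ 4 := by
    have : a ^ 4 = (a ^ 2) ^ 2 := by ring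
    rw [this, ha, sq_abs]
    ring
  have e2 : Real.tanh y ^ 4 = c ^ 4 := by
    have : c ^ 4 = (c ^ 2) ^ 2 := by ring
    rw [this, hc, sq_abs]
    ring
  have e3 : Real.tanh (x + y) ^ 4 = |Real.tanh (x + y)| ^ 4 := by
    have : |Real.tanh (x + y)| ^ 4 = (|Real.tanh (x + y)| ^ 2) ^ 2 := by ring
    rw [this, sq_abs]
    ring
  rw [e1, e2, e3]
  have h4 : |Real.tanh (x + y)| ^ 4 ≤ (a + c) ^ 4 := pow_le_pow_left₀ (abs_nonneg _) h 4
  have h5 : (a + c) ^ 4 ≤ 8 * (a ^ 4 + c ^ 4) := by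
    nlinarith [sq_nonneg (a - c), sq_nonneg (a + c), sq_nonneg (a ^ 2 - c ^ 2),
      mul_nonneg (sq_nonneg (a - c)) (sq_nonneg (a + c)),
      mul_nonneg (sq_nonneg (a - c)) (add_nonneg (sq_nonneg a) (sq_nonneg c))]
  linarith

lemma integrable_tanh_four (ν : Measure ℝ) [IsFiniteMeasure ν] :
    Integrable (fun x => Real.tanh x ^ 4) ν := integrable_of_bdd measurable_tanh_four abs_tanh_four_le

lemma q4F_conv_le {μ ν : Measure ℝ} [IsProbabilityMeasure μ] [IsProbabilityMeasure ν] :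
    q4F (μ.conv ν) ≤ 8 * (q4F μ + q4F ν) := by
  unfold q4F
  rw [integral_conv_real measurable_tanh_four]
  have P3 : ∫ p : ℝ × ℝ, Real.tanh p.1 ^ 4 * 1 ∂(μ.prod ν) = ∫ x, Real.tanh x ^ 4 ∂μ := by
    rw [integral_prod_mul (fun x => Real.tanh x ^ 4) (fun _ => (1 : ℝ))]
    simp
  have P4 : ∫ p : ℝ × ℝ, 1 * Real.tanh p.2 ^ 4 ∂(μ.prod ν) = ∫ x, Real.tanh x ^ 4 ∂ν := by
    rw [integral_prod_mul (fun _ => (1 : ℝ)) (fun x => Real.tanh x ^ 4)]
    simp
  have iP3 : Integrable (fun p : ℝ × ℝ => Real.tanh p.1 ^ 4 * 1) (μ.prod ν) :=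
    (integrable_tanh_four μ).mul_prod (integrable_const _)
  have iP4 : Integrable (fun p : ℝ × ℝ => 1 * Real.tanh p.2 ^ 4) (μ.prod ν) :=
    (integrable_const _).mul_prod (integrable_tanh_four ν)
  rw [← P3, ← P4, ← integral_add iP3 iP4, ← integral_const_mul]
  refine integral_mono
    (integrable_of_bdd (measurable_tanh_four.comp (measurable_fst.add measurable_snd))
      fun p => abs_tanh_four_le _) ((iP3.add iP4).const_mul 8) fun p => ?_
  have := tanh_four_add_le p.1 p.2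
  simpa using this

lemma q4F_side_le {θ t Q : ℝ} (h0 : 0 ≤ θ) (h1 : θ < 1) {ν : Measure ℝ} [IsProbabilityMeasure ν]
    (hQ0 : 0 ≤ Q) (hobs : q4F (obsL t) ≤ Q) (hν : q4F ν ≤ Q) (m : ℕ) :
    q4F (sideL t θ ν m) ≤ 16 ^ m * Q := by
  induction m with
  | zero =>
    simpa [sideL] using hobs
  | succ m ih =>
    have := isProb_xiL h0 h1 ν
    have := isProb_sideL h0 h1 t ν m
    have h2 : q4F (sideL t θ ν (m + 1)) ≤ 8 * (q4F (sideL t θ ν m) + q4F (xiL θ ν)) :=
      q4F_conv_le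
    rw [q4F_xiL h0 h1] at h2
    have h3 : θ ^ 4 ≤ 1 := pow_le_one₀ h0 h1.le
    have h4 : θ ^ 4 * q4F ν ≤ Q := by
      have h5 := q4F_nonneg ν
      nlinarith [pow_nonneg h0 4]
    have h6 : (1 : ℝ) ≤ 16 ^ m := one_le_pow₀ (by norm_num)
    have h7 : Q ≤ 16 ^ m * Q := by nlinarith
    rw [pow_succ]
    nlinarith

/-! ### Bounds under the exact parameters -/

section Bounds

variable {b : ℕ} {θ t T : ℝ}

lemma sL_of_one_lt {t : ℝ} (ht : 1 < t) : sL t = 1 / 16 := by
  unfold sL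
  rw [min_eq_right ht.le]
  norm_num

/-- The good scale. -/
lemma good_scale (hs : 0 < sL t) (hs2 : 1100 * sL t ≤ 1) :
    ∃ l : ℝ, 1 ≤ l ∧ l ≤ 1 / sL t ∧ 0 < l ∧ 1100 * sL t * l ^ 2 = 1 ∧ 1 / l ^ 2 = 1100 * sL t := by
  have hw : 0 < 1100 * sL t := by positivity
  set w := 1100 * sL t with hwdef
  have hsq : 0 < Real.sqrt w := Real.sqrt_pos.2 hw
  have hsq2 : Real.sqrt w ^ 2 = w := Real.sq_sqrt hw.le
  have hsq1 : Real.sqrt w ≤ 1 := Real.sqrt_le_iff.2 ⟨zero_le_one, by simpa using hs2⟩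
  refine ⟨1 / Real.sqrt w, ?_, ?_, by positivity, ?_, ?_⟩
  · rw [le_div_iff₀ hsq]
    linarith
  · -- `s ≤ √w`
    have h1 : sL t ≤ Real.sqrt w := by
      rw [Real.le_sqrt' hs]
      have := sL_le_one_div t
      nlinarith
    exact div_le_div_of_nonneg_left zero_le_one hs h1
  · rw [div_pow, hsq2]
    field_simp
  · rw [div_pow, hsq2]
    field_simp

/-- The fourth moment of the message law. -/
lemma q4F_nu_le (h : ExPar b θ t T) (R : ℕ) :
    q4F (nuL t θ b R) ≤ 144 * 1100 ^ 2 * sL t ^ 2 := by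
  have := nu_prob h R
  have hs := sL_pos h.t_pos
  by_cases hgood : t ≤ 1 ∧ 1100 * sL t ≤ 1
  · obtain ⟨l, hl1, hl2, hl0, hl3, hl4⟩ := good_scale hs hgood.2
    have hM := Mg_nu_small h hgood.1 R hl1 hl2
    rw [hl3] at hM
    have := integral_le_of_Mg (nu_bms h R) (f := fun x => Real.tanh x ^ 4) (K := 24 / l ^ 4)
      measurable_tanh_four (fun x => by positivity) hl0.le (by positivity) (Real.exp_pos _).le hM
      (fun x => (tanh_four_le x).trans (four_le_exp_add hl0 x))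
    have e : 24 / l ^ 4 = 24 * (1100 * sL t) ^ 2 := by
      rw [← hl4]
      field_simp
    rw [e] at this
    have h3 := Real.exp_one_lt_d9
    have h4 : Real.exp 1 ≤ 3 := by linarith
    unfold q4F
    refine this.trans ?_
    have h5 : 0 ≤ 24 * (1100 * sL t) ^ 2 := by positivity
    nlinarith
  · have h1 : 1 ≤ 1100 * sL t := by
      by_contra hc
      push Not at hc
      have ht : 1 < t := by
        by_contra ht
        push Not at ht
        exact hgood ⟨ht, hc.le⟩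
      rw [sL_of_one_lt ht] at hc
      norm_num at hc
    have h2 : q4F (nuL t θ b R) ≤ 1 := by
      unfold q4F
      have h3 := integral_mono (μ := nuL t θ b R) (integrable_tanh_four _)
        (integrable_const (1 : ℝ)) (fun x => (le_abs_self _).trans (abs_tanh_four_le x))
      simpa using h3
    nlinarith

lemma q4F_side_nu_le (h : ExPar b θ t T) (R m : ℕ) (hm : m ≤ b) :
    q4F (sideL t θ (nuL t θ b R) m) ≤ 16 ^ b * (144 * 1100 ^ 2) * sL t ^ 2 := by
  have := nu_prob h R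
  have hQ := q4F_nu_le h R
  have hobs : q4F (obsL t) ≤ 144 * 1100 ^ 2 * sL t ^ 2 := q4F_nu_le h 0
  have h1 := q4F_side_le h.θ_pos.le h.lq_theta_lt (by positivity) hobs hQ m
  refine h1.trans ?_
  have h2 : (16 : ℝ) ^ m ≤ 16 ^ b := pow_le_pow_right₀ (by norm_num) hm
  have h3 : 0 ≤ 144 * 1100 ^ 2 * sL t ^ 2 := by positivity
  nlinarith

/-- The second moment of the message law. -/
lemma second_moment_nu_le (h : ExPar b θ t T) (R : ℕ) :
    ∫ x, x ^ 2 ∂(nuL t θ b R) ≤ (12 * 1100 + 4 * Real.exp (5 + 3 / 2 * T) * 1100) * sL t := by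
  have := nu_prob h R
  have hs := sL_pos h.t_pos
  have hE := Real.exp_pos (5 + 3 / 2 * T)
  by_cases hgood : t ≤ 1 ∧ 1100 * sL t ≤ 1
  · obtain ⟨l, hl1, hl2, hl0, hl3, hl4⟩ := good_scale hs hgood.2
    have hM := Mg_nu_small h hgood.1 R hl1 hl2
    rw [hl3] at hM
    have h2 := integral_le_of_Mg (nu_bms h R) (f := fun x => x ^ 2) (K := 2 / l ^ 2)
      (measurable_id.pow_const 2) (fun x => sq_nonneg x) hl0.le (by positivity) (Real.exp_pos _).le hM
      (fun x => sq_le_exp_add hl0 x)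
    have e : 2 / l ^ 2 = 2 * (1100 * sL t) := by
      rw [← hl4]
      field_simp
    rw [e] at h2
    have h3 := Real.exp_one_lt_d9
    have h4 : Real.exp 1 ≤ 3 := by linarith
    refine h2.trans ?_
    have h5 : 0 ≤ 2 * (1100 * sL t) := by positivity
    have h6 : 0 ≤ 4 * Real.exp (5 + 3 / 2 * T) * 1100 * sL t := by positivity
    nlinarith
  · have h1 : 1 ≤ 1100 * sL t := by
      by_contra hc
      push Not at hc
      have ht : 1 < t := by
        by_contra ht
        push Not at ht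
        exact hgood ⟨ht, hc.le⟩
      rw [sL_of_one_lt ht] at hc
      norm_num at hc
    have hM := Mg_nu_one h R
    have h2 := integral_le_of_Mg (nu_bms h R) (f := fun x => x ^ 2) (K := 2 / 1 ^ 2)
      (l := 1) (measurable_id.pow_const 2) (fun x => sq_nonneg x) zero_le_one (by positivity)
      hE.le hM (fun x => sq_le_exp_add one_pos x)
    refine h2.trans ?_
    norm_num
    nlinarith

/-- The tail of `tanh²` under the message law. -/
lemma tail_nu_le (h : ExPar b θ t T) (R : ℕ) {a C : ℝ} (ha0 : 0 ≤ a) (ha1 : a ≤ 1)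
    (hC1 : 605000 ≤ C) :
    (nuL t θ b R).real {x | a ≤ Real.tanh x ^ 2} ≤ 2 * Real.exp (-a / (C * sL t)) := by
  have := nu_prob h R
  have hs := sL_pos h.t_pos
  have hC0 : 0 < C := by linarith
  have hCs : 0 < C * sL t := by positivity
  have hrw : -a / (C * sL t) = -(a / (C * sL t)) := by ring
  rw [hrw]
  by_cases ht : t ≤ 1
  · set r := Real.sqrt a with hr
    have hr0 : 0 ≤ r := Real.sqrt_nonneg _
    have hr1 : r ≤ 1 := Real.sqrt_le_iff.2 ⟨zero_le_one, by simpa using ha1⟩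
    have hr2 : r ^ 2 = a := Real.sq_sqrt ha0
    by_cases hc : 2200 * sL t ≤ r
    · -- exponential tilting
      set l := r / (2200 * sL t) with hl
      have hl1 : 1 ≤ l := by
        rw [hl, le_div_iff₀ (by positivity)]
        linarith
      have hl2 : l ≤ 1 / sL t := by
        rw [hl, div_le_div_iff₀ (by positivity) hs]
        nlinarith
      have hl0 : 0 < l := by linarith
      have hM := Mg_nu_small h ht R hl1 hl2
      have htail := tail_of_Mg (nu_bms h R) hl0 (Real.exp_pos _).le ha0 hM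
      refine htail.trans ?_
      rw [← hr, ← Real.exp_add]
      have e : 1100 * sL t * l ^ 2 + -(l * r) = -(a / (4400 * sL t)) := by
        rw [hl, ← hr2]
        field_simp
        ring
      rw [e]
      have h2 : a / (C * sL t) ≤ a / (4400 * sL t) :=
        div_le_div_of_nonneg_left ha0 (by positivity)
          (mul_le_mul_of_nonneg_right (by linarith) hs.le)
      have := Real.exp_le_exp.2 (neg_le_neg h2)
      linarith
    · push Not at hc
      refine real_le_two_exp _ ?_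
      rw [div_le_iff₀ hCs]
      have h16 := sL_le_one_div t
      have h3 : a ≤ (2200 * sL t) ^ 2 := by
        rw [← hr2]
        exact pow_le_pow_left₀ hr0 hc.le 2
      have h4 : 605000 * sL t ≤ C * sL t := mul_le_mul_of_nonneg_right hC1 hs.le
      nlinarith
  · push Not at ht
    refine real_le_two_exp _ ?_
    rw [div_le_iff₀ hCs, sL_of_one_lt ht]
    linarith

/-- The upper bound on `q` of the side law. -/
lemma side_q_le (h : ExPar b θ t T) (R m : ℕ) (hm : m ≤ b) :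
    qF (sideL t θ (nuL t θ b R) m) ≤ 1 - Real.exp (-(4 * T)) * (1 / 2) ^ b := by
  have := nu_prob h R
  have hs := side_upper h.θ_pos.le h.lq_theta_lt h.t_pos (nu_bms h R) h.lq_theta_sq_le m
  have hy := theta_sq_qF_le (nuL t θ b R) h.lq_theta_sq_le
  have hy0 := theta_sq_qF_nonneg (nuL t θ b R) θ
  have h1 : (1 / 2 : ℝ) ^ b ≤ (1 - θ ^ 2 * qF (nuL t θ b R)) ^ m := by
    calc (1 / 2 : ℝ) ^ b ≤ (1 / 2) ^ m :=
          pow_le_pow_of_le_one (by norm_num) (by norm_num) hm
      _ ≤ _ := pow_le_pow_left₀ (by norm_num) (by linarith) m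
  have h2 : Real.exp (-(4 * T)) ≤ 1 - qF (obsL t) := by
    have h3 := qF_obs_upper h.t_pos
    have h4 : Real.exp (-(4 * T)) ≤ Real.exp (-(4 * t)) :=
      Real.exp_le_exp.2 (by linarith [h.t_le])
    linarith
  have h5 := mul_le_mul h2 h1 (by positivity) (by linarith [Real.exp_pos (-(4 * T))])
  linarith

end Bounds

end

end Vale.Agent.Lib.P161.LQ

namespace Vale.Agent.Lib.P161

noncomputable section

open LQ in
/-- **Main statement of the module**.  All constants depend on `b, T` only. With `s = sL t`: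
(q₁) `q(ν_R) ≤ C s` for all `R`;
(q₂) `q(ν_R) ≥ s / C` for all `R ≥ R₁(t₀)`, `t ≥ t₀`;
(f₁) the side law with at least one child has `q ≥ θ² q(ν_R)`, `q ≤ 1 - 1/C`;
(f₄) the side laws have `E tanh⁴ ≤ C s²`;
(u) tail of `tanh²` under `ν_R`: `P(a ≤ tanh² x) ≤ 2 exp(-a / (C s))`, `a ∈ [0, 1]`;
(m) second moment `E x² ≤ C s` under `ν_R`. -/
theorem lawQ_main (b : ℕ) (T : ℝ) (hb : 2 ≤ b) (hT : 0 < T) :
    ∃ C : ℝ, 1 ≤ C ∧ (∀ θ t, ExPar b θ t T →
      (∀ R, IsProbabilityMeasure (nuL t θ b R)) ∧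
      (∀ R, ∫ x, Real.tanh x ^ 2 ∂(nuL t θ b R) ≤ C * sL t) ∧
      (∀ R, ∀ m, m ≤ b → IsProbabilityMeasure (sideL t θ (nuL t θ b R) m) ∧
        ∫ x, Real.tanh x ^ 4 ∂(sideL t θ (nuL t θ b R) m) ≤ C * sL t ^ 2) ∧
      (∀ R, ∀ m, 1 ≤ m → m ≤ b →
        θ ^ 2 * ∫ x, Real.tanh x ^ 2 ∂(nuL t θ b R)
            ≤ ∫ x, Real.tanh x ^ 2 ∂(sideL t θ (nuL t θ b R) m) ∧
        ∫ x, Real.tanh x ^ 2 ∂(sideL t θ (nuL t θ b R) m) ≤ 1 - 1 / C) ∧
      (∀ R, ∀ a : ℝ, 0 ≤ a → a ≤ 1 →
        (nuL t θ b R).real {x | a ≤ Real.tanh x ^ 2} ≤ 2 * Real.exp (-a / (C * sL t))) ∧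
      (∀ R, ∫ x, x ^ 2 ∂(nuL t θ b R) ≤ C * sL t)) ∧
    ∀ t₀ : ℝ, 0 < t₀ → ∃ R₁ : ℕ, ∀ θ t, ExPar b θ t T → t₀ ≤ t → ∀ R, R₁ ≤ R →
      sL t / C ≤ ∫ x, Real.tanh x ^ 2 ∂(nuL t θ b R) := by
  -- the constant
  set A : ℝ := Real.exp (4 * T) * 2 ^ b with hA
  set B : ℝ := 16 ^ b * (144 * 1100 ^ 2) with hB
  set D : ℝ := 12 * 1100 + 4 * Real.exp (5 + 3 / 2 * T) * 1100 with hD
  have hA0 : 0 < A := by positivity
  have hB0 : 0 < B := by positivity
  have hD0 : 0 < D := by positivity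
  refine ⟨605000 + A + B + D, by linarith, ?_, ?_⟩
  · intro θ t h
    have hs := sL_pos h.t_pos
    have hC : 0 < 605000 + A + B + D := by linarith
    refine ⟨nu_prob h, ?_, ?_, ?_, ?_, ?_⟩
    · intro R
      have h1 := qF_nu_le h R
      refine h1.trans (mul_le_mul_of_nonneg_right (by linarith) hs.le)
    · intro R m hm
      have := nu_prob h R
      refine ⟨isProb_sideL h.θ_pos.le h.lq_theta_lt t _ m, ?_⟩
      have h1 := q4F_side_nu_le h R m hm
      refine h1.trans (mul_le_mul_of_nonneg_right (by linarith) (sq_nonneg _))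
    · intro R m hm1 hm2
      have := nu_prob h R
      refine ⟨side_q_ge h.θ_pos.le h.lq_theta_lt h.t_pos (nu_bms h R) hm1, ?_⟩
      have h1 := side_q_le h R m hm2
      refine h1.trans ?_
      have h2 : 1 / (605000 + A + B + D) ≤ Real.exp (-(4 * T)) * (1 / 2) ^ b := by
        have e : Real.exp (-(4 * T)) * (1 / 2) ^ b = 1 / A := by
          rw [hA, Real.exp_neg, one_div_pow]
          field_simp
        rw [e]
        exact div_le_div_of_nonneg_left zero_le_one hA0 (by linarith)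
      linarith
    · intro R a ha0 ha1
      exact tail_nu_le h R ha0 ha1 (by linarith)
    · intro R
      refine (second_moment_nu_le h R).trans (mul_le_mul_of_nonneg_right (by linarith) hs.le)
  · intro t₀ ht₀
    have hs₀ := sL_pos ht₀
    refine ⟨⌈4 / (9 * sL t₀)⌉₊, ?_⟩
    intro θ t h ht R hR
    have hs := sL_pos h.t_pos
    have hR' : 4 / (9 * sL t) ≤ R := by
      have h1 : 4 / (9 * sL t) ≤ 4 / (9 * sL t₀) :=
        div_le_div_of_nonneg_left (by norm_num) (by positivity)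
          (mul_le_mul_of_nonneg_left (sL_mono ht) (by norm_num))
      have h2 : 4 / (9 * sL t₀) ≤ (⌈4 / (9 * sL t₀)⌉₊ : ℝ) := Nat.le_ceil _
      have h3 : ((⌈4 / (9 * sL t₀)⌉₊ : ℕ) : ℝ) ≤ R := by exact_mod_cast hR
      linarith
    have h1 := qF_nu_ge h hR'
    refine le_trans ?_ h1
    exact div_le_div_of_nonneg_left hs.le (by norm_num) (by linarith)

end

end Vale.Agent.Lib.P161
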