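import Vale.Agent.Lib.P161.End.Defs
import Vale.Agent.Lib.P161.Scalar

/-!
P161 endpoint, module LawQ, first part: the BMS symmetry of the message laws.
-/

open MeasureTheory ProbabilityTheory Finset
open scoped ENNReal NNReal

namespace Vale.Agent.Lib.P161.LQ

noncomputable section

/-- The weight `1 - tanh x`. -/
def wT (x : ℝ) : ℝ≥0∞ := ENNReal.ofReal (1 - Real.tanh x)

/-- The BMS symmetry: the measure `(1 - tanh x) ν` is even. -/
def BMS (ν : Measure ℝ) : Prop :=
  ∀ f : ℝ → ℝ≥0∞, Measurable f → ∫⁻ x, f (-x) * wT x ∂ν = ∫⁻ x, f x * wT x ∂ν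

lemma measurable_tanh' : Measurable Real.tanh := continuous_tanh.measurable

lemma measurable_wT : Measurable wT :=
  ENNReal.measurable_ofReal.comp (measurable_const.sub measurable_tanh')

lemma one_sub_tanh_pos (x : ℝ) : 0 < 1 - Real.tanh x := by
  have := (abs_lt.1 (Real.abs_tanh_lt_one x)).2
  linarith

lemma one_add_tanh_pos (x : ℝ) : 0 < 1 + Real.tanh x := by
  have := (abs_lt.1 (Real.abs_tanh_lt_one x)).1
  linarith

lemma abs_tanh_le_abs (x : ℝ) : |Real.tanh x| ≤ |x| := by
  have := abs_tanh_sub_le x 0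
  simpa using this

lemma hm_neg {θ : ℝ} (h0 : 0 ≤ θ) (h1 : θ < 1) (x : ℝ) : hm θ (-x) = -hm θ x := by
  have hc := Real.cosh_pos x
  have hs : |θ * Real.sinh x| < Real.cosh x := by
    have h2 : |Real.sinh x| < Real.cosh x := by
      rw [abs_lt]
      constructor <;> nlinarith [Real.sinh_lt_cosh x, Real.sinh_neg x, Real.sinh_lt_cosh (-x),
        Real.cosh_neg x]
    rw [abs_mul, abs_of_nonneg h0]
    nlinarith [abs_nonneg (Real.sinh x)]
  have hp := (abs_lt.1 hs).1
  have hq := (abs_lt.1 hs).2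
  unfold hm
  rw [Real.cosh_neg, Real.sinh_neg]
  have : (Real.cosh x + θ * -Real.sinh x) / (Real.cosh x - θ * -Real.sinh x) =
      ((Real.cosh x + θ * Real.sinh x) / (Real.cosh x - θ * Real.sinh x))⁻¹ := by
    rw [inv_div]
    congr 1 <;> ring
  rw [this, Real.log_inv]
  ring

/-! ### The Gaussian observation -/

lemma bms_obsL {t : ℝ} (ht : 0 < t) : BMS (obsL t) := by
  intro f hf
  have hv : t.toNNReal ≠ 0 := by simpa using ht
  have hvt : ((t.toNNReal : ℝ≥0) : ℝ) = t := Real.coe_toNNReal _ ht.le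
  unfold obsL
  rw [gaussianReal_of_var_ne_zero _ hv]
  have hpdf := measurable_gaussianPDF t t.toNNReal
  have h1 : ∫⁻ x, f (-x) * wT x ∂(volume.withDensity (gaussianPDF t t.toNNReal)) =
      ∫⁻ a, gaussianPDF t t.toNNReal a * (f (-a) * wT a) :=
    lintegral_withDensity_eq_lintegral_mul _ hpdf ((hf.comp measurable_neg).mul measurable_wT)
  have h2 : ∫⁻ x, f x * wT x ∂(volume.withDensity (gaussianPDF t t.toNNReal)) =
      ∫⁻ a, gaussianPDF t t.toNNReal a * (f a * wT a) :=
    lintegral_withDensity_eq_lintegral_mul _ hpdf (hf.mul measurable_wT)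
  rw [h1, h2]
  -- the even weight
  have heven : ∀ x, gaussianPDF t t.toNNReal (-x) * wT (-x) = gaussianPDF t t.toNNReal x * wT x := by
    intro x
    unfold gaussianPDF wT
    rw [← ENNReal.ofReal_mul (gaussianPDFReal_nonneg _ _ _),
      ← ENNReal.ofReal_mul (gaussianPDFReal_nonneg _ _ _)]
    congr 1
    rw [Real.tanh_neg]
    simp only [gaussianPDFReal_def, hvt]
    have hcosh := Real.cosh_pos x
    have e1 : 1 - Real.tanh x = Real.exp (-x) / Real.cosh x := by
      rw [Real.tanh_eq_sinh_div_cosh, Real.cosh_eq, Real.sinh_eq]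
      have : Real.exp x + Real.exp (-x) ≠ 0 := by positivity
      field_simp
      ring
    have e2 : 1 - -Real.tanh x = Real.exp x / Real.cosh x := by
      rw [Real.tanh_eq_sinh_div_cosh, Real.cosh_eq, Real.sinh_eq]
      have : Real.exp x + Real.exp (-x) ≠ 0 := by positivity
      field_simp
      ring
    rw [e1, e2]
    have e3 : Real.exp (-(-x - t) ^ 2 / (2 * t)) * Real.exp x =
        Real.exp (-(x - t) ^ 2 / (2 * t)) * Real.exp (-x) := by
      rw [← Real.exp_add, ← Real.exp_add]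
      congr 1
      field_simp
      ring
    calc _ = (√(2 * Real.pi * t))⁻¹ * (Real.exp (-(-x - t) ^ 2 / (2 * t)) * Real.exp x) /
          Real.cosh x := by ring
      _ = _ := by rw [e3]; ring
  calc ∫⁻ a, gaussianPDF t t.toNNReal a * (f (-a) * wT a)
      = ∫⁻ a, (fun z => f z * (gaussianPDF t t.toNNReal z * wT z)) (-a) := by
        refine lintegral_congr fun a => ?_
        simp only [heven a]
        ring
    _ = ∫⁻ a, f a * (gaussianPDF t t.toNNReal a * wT a) :=
        lintegral_neg_eq_self (fun z => f z * (gaussianPDF t t.toNNReal z * wT z))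
    _ = _ := by
        refine lintegral_congr fun a => ?_
        ring

/-! ### The law of `h(s x)` -/

instance isProb_berL {θ : ℝ} [Fact (|θ| ≤ 1)] : IsProbabilityMeasure (berL θ) := by
  have h := (abs_le.1 (Fact.out : |θ| ≤ 1))
  constructor
  simp only [berL, Measure.coe_add, Measure.coe_smul, Pi.add_apply, Pi.smul_apply, measure_univ,
    smul_eq_mul, mul_one]
  rw [← ENNReal.ofReal_add (by linarith [h.1]) (by linarith [h.2])]
  convert ENNReal.ofReal_one
  ring

lemma isProb_berL' {θ : ℝ} (h0 : 0 ≤ θ) (h1 : θ < 1) : IsProbabilityMeasure (berL θ) := by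
  have : Fact (|θ| ≤ 1) := ⟨by rw [abs_of_nonneg h0]; exact h1.le⟩
  infer_instance

lemma lintegral_berL (θ : ℝ) (g : Bool → ℝ≥0∞) :
    ∫⁻ s, g s ∂(berL θ) =
      ENNReal.ofReal ((1 + θ) / 2) * g true + ENNReal.ofReal ((1 - θ) / 2) * g false := by
  simp [berL, lintegral_add_measure, lintegral_smul_measure]

lemma measurable_hm {θ : ℝ} (h0 : 0 ≤ θ) (h1 : θ < 1) : Measurable (hm θ) :=
  (continuous_hm h0 h1).measurable

lemma measurable_xi_map {θ : ℝ} (h0 : 0 ≤ θ) (h1 : θ < 1) :
    Measurable (fun w : Bool × ℝ => hm θ (spin w.1 * w.2)) := by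
  refine (measurable_hm h0 h1).comp (Measurable.mul ?_ measurable_snd)
  exact (measurable_of_countable spin).comp measurable_fst

/-- Integration against the law of `h(s x)`. -/
lemma lintegral_xiL {θ : ℝ} (h0 : 0 ≤ θ) (h1 : θ < 1) (ν : Measure ℝ) [SFinite ν]
    {g : ℝ → ℝ≥0∞} (hg : Measurable g) :
    ∫⁻ y, g y ∂(xiL θ ν) =
      ENNReal.ofReal ((1 + θ) / 2) * ∫⁻ x, g (hm θ x) ∂ν +
        ENNReal.ofReal ((1 - θ) / 2) * ∫⁻ x, g (-hm θ x) ∂ν := by
  have := isProb_berL' h0 h1
  unfold xiL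
  rw [lintegral_map hg (measurable_xi_map h0 h1),
    lintegral_prod (fun a : Bool × ℝ => g (hm θ (spin a.1 * a.2)))
      (hg.comp (measurable_xi_map h0 h1)).aemeasurable, lintegral_berL]
  simp [spin, hm_neg h0 h1]

lemma wT_hm {θ : ℝ} (h0 : 0 ≤ θ) (h1 : θ < 1) (x : ℝ) :
    wT (hm θ x) = ENNReal.ofReal (1 - θ * Real.tanh x) := by
  rw [wT, tanh_hm h0 h1]

lemma wT_neg_hm {θ : ℝ} (h0 : 0 ≤ θ) (h1 : θ < 1) (x : ℝ) :
    wT (-hm θ x) = ENNReal.ofReal (1 + θ * Real.tanh x) := by
  rw [wT, Real.tanh_neg, tanh_hm h0 h1]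
  congr 1
  ring

lemma abs_theta_tanh_lt {θ : ℝ} (h0 : 0 ≤ θ) (h1 : θ < 1) (x : ℝ) : |θ * Real.tanh x| < 1 := by
  rw [abs_mul, abs_of_nonneg h0]
  have := Real.abs_tanh_lt_one x
  nlinarith [abs_nonneg (Real.tanh x)]

/-- The law of `h(s x)` inherits the symmetry. -/
lemma bms_xiL {θ : ℝ} (h0 : 0 ≤ θ) (h1 : θ < 1) {ν : Measure ℝ} [SFinite ν] (hν : BMS ν) :
    BMS (xiL θ ν) := by
  intro f hf
  have hh := measurable_hm h0 h1
  rw [lintegral_xiL h0 h1 ν (g := fun x => f (-x) * wT x) ((hf.comp measurable_neg).mul measurable_wT),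
    lintegral_xiL h0 h1 ν (g := fun x => f x * wT x) (hf.mul measurable_wT)]
  simp only [neg_neg, wT_hm h0 h1, wT_neg_hm h0 h1]
  -- abbreviations
  set a : ℝ → ℝ≥0∞ := fun x => f (hm θ x) with ha
  set a' : ℝ → ℝ≥0∞ := fun x => f (-hm θ x) with ha'
  have haa : ∀ x, a (-x) = a' x := fun x => by simp only [ha, ha', hm_neg h0 h1]
  have ham : Measurable a := hf.comp hh
  have ham' : Measurable a' := hf.comp hh.neg
  set pp := ENNReal.ofReal ((1 + θ) / 2) with hpp
  set pm := ENNReal.ofReal ((1 - θ) / 2) with hpm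
  set κ : ℝ → ℝ≥0∞ := fun x => pm * ENNReal.ofReal (1 + θ * Real.tanh x) with hκ
  have hκm : Measurable κ := by
    refine measurable_const.mul (ENNReal.measurable_ofReal.comp ?_)
    exact measurable_const.add (measurable_const.mul measurable_tanh')
  -- the splitting of the weight
  have hsplit : ∀ x, pp * ENNReal.ofReal (1 - θ * Real.tanh x) =
      κ x + ENNReal.ofReal θ * wT x := by
    intro x
    have h2 := abs_lt.1 (abs_theta_tanh_lt h0 h1 x)
    have h3 := one_sub_tanh_pos x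
    simp only [hκ, hpp, hpm, wT]
    rw [← ENNReal.ofReal_mul (by linarith), ← ENNReal.ofReal_mul (by linarith),
      ← ENNReal.ofReal_mul h0, ← ENNReal.ofReal_add (by nlinarith) (by positivity)]
    congr 1
    ring
  have hb := hν (fun x => a x * ENNReal.ofReal θ) (ham.mul_const _)
  simp only [haa] at hb
  -- the two sides
  have e1 : ∀ b b' : ℝ → ℝ≥0∞, Measurable b → Measurable b' →
      pp * ∫⁻ x, b x * ENNReal.ofReal (1 - θ * Real.tanh x) ∂ν +
        pm * ∫⁻ x, b' x * ENNReal.ofReal (1 + θ * Real.tanh x) ∂ν =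
      ∫⁻ x, (b x + b' x) * κ x ∂ν + ∫⁻ x, b x * ENNReal.ofReal θ * wT x ∂ν := by
    intro b b' hbm hbm'
    have hw : Measurable fun x => ENNReal.ofReal (1 - θ * Real.tanh x) :=
      ENNReal.measurable_ofReal.comp (measurable_const.sub (measurable_const.mul measurable_tanh'))
    have hw' : Measurable fun x => ENNReal.ofReal (1 + θ * Real.tanh x) :=
      ENNReal.measurable_ofReal.comp (measurable_const.add (measurable_const.mul measurable_tanh'))
    have c1 : pp * ∫⁻ x, b x * ENNReal.ofReal (1 - θ * Real.tanh x) ∂ν =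
        ∫⁻ x, pp * (b x * ENNReal.ofReal (1 - θ * Real.tanh x)) ∂ν :=
      (lintegral_const_mul pp (hbm.mul hw)).symm
    have c2 : pm * ∫⁻ x, b' x * ENNReal.ofReal (1 + θ * Real.tanh x) ∂ν =
        ∫⁻ x, pm * (b' x * ENNReal.ofReal (1 + θ * Real.tanh x)) ∂ν :=
      (lintegral_const_mul pm (hbm'.mul hw')).symm
    have c3 : ∫⁻ x, pp * (b x * ENNReal.ofReal (1 - θ * Real.tanh x)) +
          pm * (b' x * ENNReal.ofReal (1 + θ * Real.tanh x)) ∂ν =
        ∫⁻ x, pp * (b x * ENNReal.ofReal (1 - θ * Real.tanh x)) ∂ν +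
          ∫⁻ x, pm * (b' x * ENNReal.ofReal (1 + θ * Real.tanh x)) ∂ν :=
      lintegral_add_left (measurable_const.mul (hbm.mul hw)) _
    have c4 : ∫⁻ x, (b x + b' x) * κ x + b x * ENNReal.ofReal θ * wT x ∂ν =
        ∫⁻ x, (b x + b' x) * κ x ∂ν + ∫⁻ x, b x * ENNReal.ofReal θ * wT x ∂ν :=
      lintegral_add_left ((hbm.add hbm').mul hκm) _
    rw [c1, c2, ← c3, ← c4]
    refine lintegral_congr fun x => ?_
    have := hsplit x
    calc pp * (b x * ENNReal.ofReal (1 - θ * Real.tanh x)) +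
          pm * (b' x * ENNReal.ofReal (1 + θ * Real.tanh x))
        = b x * (pp * ENNReal.ofReal (1 - θ * Real.tanh x)) + b' x * κ x := by
          simp only [hκ]
          ring
      _ = _ := by
          rw [this]
          ring
  have e2 := e1 a' a ham' ham
  have e3 := e1 a a' ham ham'
  rw [e2, e3, hb]
  congr 1
  refine lintegral_congr fun x => ?_
  ring

/-! ### Convolution -/

lemma tanh_add' (x y : ℝ) :
    Real.tanh (x + y) = (Real.tanh x + Real.tanh y) / (1 + Real.tanh x * Real.tanh y) := by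
  have hx := Real.cosh_pos x
  have hy := Real.cosh_pos y
  have hxy := Real.cosh_pos (x + y)
  rw [Real.tanh_eq_sinh_div_cosh, Real.tanh_eq_sinh_div_cosh, Real.tanh_eq_sinh_div_cosh,
    Real.sinh_add, Real.cosh_add]
  have h : Real.cosh x * Real.cosh y + Real.sinh x * Real.sinh y ≠ 0 := by
    rw [← Real.cosh_add]
    exact hxy.ne'
  have h' : 1 + Real.sinh x / Real.cosh x * (Real.sinh y / Real.cosh y) ≠ 0 := by
    have : 1 + Real.sinh x / Real.cosh x * (Real.sinh y / Real.cosh y) =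
        (Real.cosh x * Real.cosh y + Real.sinh x * Real.sinh y) / (Real.cosh x * Real.cosh y) := by
      field_simp
    rw [this]
    positivity
  field_simp

lemma one_add_tanh_mul_pos (x y : ℝ) : 0 < 1 + Real.tanh x * Real.tanh y := by
  have h1 := Real.abs_tanh_lt_one x
  have h2 := Real.abs_tanh_lt_one y
  have : |Real.tanh x * Real.tanh y| < 1 := by
    rw [abs_mul]
    nlinarith [abs_nonneg (Real.tanh x), abs_nonneg (Real.tanh y)]
  linarith [(abs_lt.1 this).1]

lemma one_sub_tanh_add (x y : ℝ) :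
    1 - Real.tanh (x + y) =
      (1 - Real.tanh x) * (1 - Real.tanh y) / (1 + Real.tanh x * Real.tanh y) := by
  rw [tanh_add']
  have := (one_add_tanh_mul_pos x y).ne'
  field_simp
  ring

/-- The multiplicative formula for the weight. -/
lemma wT_add (x y : ℝ) :
    wT (x + y) = wT x * wT y * ENNReal.ofReal (1 / (1 + Real.tanh x * Real.tanh y)) := by
  have h1 := one_sub_tanh_pos x
  have h2 := one_sub_tanh_pos y
  have h3 := one_add_tanh_mul_pos x y
  unfold wT
  rw [← ENNReal.ofReal_mul h1.le, ← ENNReal.ofReal_mul (by positivity), one_sub_tanh_add]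
  congr 1
  field_simp

/-- The convolution of two symmetric laws is symmetric. -/
lemma bms_conv {μ ν : Measure ℝ} [SFinite μ] [SFinite ν] (hμ : BMS μ) (hν : BMS ν) :
    BMS (μ.conv ν) := by
  intro f hf
  have hD : Measurable fun p : ℝ × ℝ =>
      ENNReal.ofReal (1 / (1 + Real.tanh p.1 * Real.tanh p.2)) := by
    refine ENNReal.measurable_ofReal.comp (measurable_const.div ?_)
    exact measurable_const.add ((measurable_tanh'.comp measurable_fst).mul
      (measurable_tanh'.comp measurable_snd))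
  -- the auxiliary function
  set F : ℝ × ℝ → ℝ≥0∞ := fun p => f (p.1 + p.2) *
      ENNReal.ofReal (1 / (1 + Real.tanh p.1 * Real.tanh p.2)) with hF
  have hFm : Measurable F := (hf.comp (measurable_fst.add measurable_snd)).mul hD
  have hFneg : ∀ x y, F (-x, -y) = f (-(x + y)) *
      ENNReal.ofReal (1 / (1 + Real.tanh x * Real.tanh y)) := by
    intro x y
    simp only [hF, Real.tanh_neg, neg_mul_neg, neg_add]
  set Φ : ℝ → ℝ≥0∞ := fun x => ∫⁻ y, F (x, y) * wT y ∂ν with hΦ
  have hΦm : Measurable Φ :=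
    (hFm.mul (measurable_wT.comp measurable_snd)).lintegral_prod_right'
  have hΦneg : ∀ x, ∫⁻ y, F (-x, -y) * wT y ∂ν = Φ (-x) := by
    intro x
    exact hν (fun y => F (-x, y)) (hFm.comp (by fun_prop))
  rw [Measure.lintegral_conv (f := fun x => f (-x) * wT x) ((hf.comp measurable_neg).mul measurable_wT),
    Measure.lintegral_conv (f := fun x => f x * wT x) (hf.mul measurable_wT)]
  have e1 : ∀ x, ∫⁻ y, f (-(x + y)) * wT (x + y) ∂ν = Φ (-x) * wT x := by
    intro x
    have hm1 : Measurable fun y => F (-x, -y) * wT y :=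
      (hFm.comp (by fun_prop)).mul measurable_wT
    rw [← hΦneg, ← lintegral_mul_const (wT x) hm1]
    refine lintegral_congr fun y => ?_
    rw [hFneg, wT_add]
    ring
  have e2 : ∀ x, ∫⁻ y, f (x + y) * wT (x + y) ∂ν = Φ x * wT x := by
    intro x
    have hm1 : Measurable fun y => F (x, y) * wT y :=
      (hFm.comp (by fun_prop)).mul measurable_wT
    simp only [hΦ]
    rw [← lintegral_mul_const (wT x) hm1]
    refine lintegral_congr fun y => ?_
    simp only [hF]
    rw [wT_add]
    ring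
  simp only [e1, e2]
  exact hμ Φ hΦm

/-! ### The laws -/

instance isProb_obsL (t : ℝ) : IsProbabilityMeasure (obsL t) := by
  unfold obsL
  infer_instance

lemma isProb_xiL {θ : ℝ} (h0 : 0 ≤ θ) (h1 : θ < 1) (ν : Measure ℝ) [IsProbabilityMeasure ν] :
    IsProbabilityMeasure (xiL θ ν) := by
  have := isProb_berL' h0 h1
  unfold xiL
  exact Measure.isProbabilityMeasure_map (measurable_xi_map h0 h1).aemeasurable

lemma isProb_sideL {θ : ℝ} (h0 : 0 ≤ θ) (h1 : θ < 1) (t : ℝ) (ν : Measure ℝ)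
    [IsProbabilityMeasure ν] (m : ℕ) : IsProbabilityMeasure (sideL t θ ν m) := by
  induction m with
  | zero => exact isProb_obsL t
  | succ m ih =>
    have := isProb_xiL h0 h1 ν
    exact (inferInstance : IsProbabilityMeasure (Measure.conv (sideL t θ ν m) (xiL θ ν)))

lemma isProb_nuL {θ : ℝ} (h0 : 0 ≤ θ) (h1 : θ < 1) (t : ℝ) (b R : ℕ) :
    IsProbabilityMeasure (nuL t θ b R) := by
  induction R with
  | zero => exact isProb_obsL t
  | succ R ih => exact isProb_sideL h0 h1 t _ b

lemma bms_sideL {θ t : ℝ} (h0 : 0 ≤ θ) (h1 : θ < 1) (ht : 0 < t) {ν : Measure ℝ}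
    [IsProbabilityMeasure ν] (hν : BMS ν) (m : ℕ) : BMS (sideL t θ ν m) := by
  induction m with
  | zero => exact bms_obsL ht
  | succ m ih =>
    have := isProb_xiL h0 h1 ν
    have := isProb_sideL h0 h1 t ν m
    exact bms_conv ih (bms_xiL h0 h1 hν)

lemma bms_nuL {θ t : ℝ} (h0 : 0 ≤ θ) (h1 : θ < 1) (ht : 0 < t) (b R : ℕ) :
    BMS (nuL t θ b R) := by
  induction R with
  | zero => exact bms_obsL ht
  | succ R ih =>
    have := isProb_nuL h0 h1 t b R
    exact bms_sideL h0 h1 ht ih b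

end

end Vale.Agent.Lib.P161.LQ
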