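import Vale.Agent.Lib.P161.End.LawQMgf

/-!
P161 endpoint, module LawQ, seventh part: the multi-scale induction for the exponential moments,
the tail and moment bounds.
-/

open MeasureTheory ProbabilityTheory Finset
open scoped ENNReal NNReal

namespace Vale.Agent.Lib.P161.LQ

noncomputable section

section Ind

variable {b : ℕ} {θ t T : ℝ}

lemma Mg_obs_le {t l : ℝ} (ht : 0 < t) (hl : 1 ≤ l) :
    Mg (obsL t) l ≤ ENNReal.ofReal (Real.exp (3 / 2 * t * l ^ 2)) := by
  rw [Mg_obs ht]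
  refine ENNReal.ofReal_le_ofReal (Real.exp_le_exp.2 ?_)
  have : t * l ≤ t * l ^ 2 := mul_le_mul_of_nonneg_left (by nlinarith) ht.le
  linarith

lemma ofReal_exp_pow (x : ℝ) (n : ℕ) :
    ENNReal.ofReal (Real.exp x) ^ n = ENNReal.ofReal (Real.exp (n * x)) := by
  rw [← ENNReal.ofReal_pow (Real.exp_pos _).le, Real.exp_nat_mul]

lemma ofReal_exp_mul (x y : ℝ) :
    ENNReal.ofReal (Real.exp x) * ENNReal.ofReal (Real.exp y) =
      ENNReal.ofReal (Real.exp (x + y)) := by
  rw [← ENNReal.ofReal_mul (Real.exp_pos _).le, Real.exp_add]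

/-- The step of the exponential moment along the depth. -/
lemma Mg_nu_succ (h : ExPar b θ t T) (R : ℕ) (l : ℝ) :
    Mg (nuL t θ b (R + 1)) l = Mg (obsL t) l * Mg (xiL θ (nuL t θ b R)) l ^ b := by
  have := nu_prob h R
  exact Mg_side h.θ_pos.le h.lq_theta_lt _ l b

/-- The multi-scale induction. -/
theorem Mg_nu_bound (h : ExPar b θ t T) {Q : ℝ} (hQ : ∀ R, qF (nuL t θ b R) ≤ Q) (k : ℕ) :
    ∀ R l, 1 ≤ l → l ≤ θ⁻¹ ^ k →
      Mg (nuL t θ b R) l ≤ ENNReal.ofReal (Real.exp ((5 * Q + 3 / 2 * (k + 1) * t) * l ^ 2)) := by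
  have hQ0 : 0 ≤ Q := (qF_nonneg _).trans (hQ 0)
  have ht := h.t_pos
  have hθ := h.θ_pos
  have hb0 : (0 : ℝ) ≤ b := Nat.cast_nonneg b
  have hρ := h.ρ_le
  induction k with
  | zero =>
    intro R l hl1 hl2
    have hl : l = 1 := le_antisymm (by simpa using hl2) hl1
    subst hl
    cases R with
    | zero =>
      refine (Mg_obs_le ht hl1).trans (ENNReal.ofReal_le_ofReal (Real.exp_le_exp.2 ?_))
      push_cast
      nlinarith
    | succ R =>
      have := nu_prob h R
      rw [Mg_nu_succ h]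
      have h1 := Mg_obs_le ht hl1
      have h2 := Mg_xi_small hθ.le h.lq_theta_lt h.lq_theta_sq_le hl1 (by nlinarith [h.lq_theta_lt])
        (nu_bms h R)
      have h3 : ENNReal.ofReal (1 + 5 * 1 ^ 2 * (θ ^ 2 * qF (nuL t θ b R))) ≤
          ENNReal.ofReal (Real.exp (5 * 1 ^ 2 * (θ ^ 2 * Q))) := by
        refine ENNReal.ofReal_le_ofReal ?_
        have := Real.add_one_le_exp (5 * 1 ^ 2 * (θ ^ 2 * Q))
        have h4 : θ ^ 2 * qF (nuL t θ b R) ≤ θ ^ 2 * Q :=
          mul_le_mul_of_nonneg_left (hQ R) (sq_nonneg θ)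
        nlinarith
      have h5 := pow_le_pow_left₀ zero_le (h2.trans h3) b
      rw [ofReal_exp_pow] at h5
      refine (mul_le_mul' h1 h5).trans ?_
      rw [ofReal_exp_mul]
      refine ENNReal.ofReal_le_ofReal (Real.exp_le_exp.2 ?_)
      have h6 : (b : ℝ) * (5 * 1 ^ 2 * (θ ^ 2 * Q)) ≤ 5 * Q := by
        have := mul_le_mul_of_nonneg_right hρ hQ0
        nlinarith
      push_cast
      nlinarith
  | succ k ih =>
    intro R l hl1 hl2
    have hl0 : 0 < l := by linarith
    cases R with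
    | zero =>
      refine (Mg_obs_le ht hl1).trans (ENNReal.ofReal_le_ofReal (Real.exp_le_exp.2 ?_))
      have hkk : (0 : ℝ) ≤ k := Nat.cast_nonneg k
      have h4 : 3 / 2 * t * l ^ 2 ≤ (5 * Q + 3 / 2 * ((k + 1 : ℕ) + 1) * t) * l ^ 2 := by
        refine mul_le_mul_of_nonneg_right ?_ (sq_nonneg l)
        push_cast
        nlinarith [mul_nonneg hkk ht.le]
      exact h4
    | succ R =>
      have := nu_prob h R
      rw [Mg_nu_succ h]
      have h1 := Mg_obs_le ht hl1
      by_cases hc : l * θ ≤ 1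
      · have h2 := Mg_xi_small hθ.le h.lq_theta_lt h.lq_theta_sq_le hl1 hc (nu_bms h R)
        have h3 : ENNReal.ofReal (1 + 5 * l ^ 2 * (θ ^ 2 * qF (nuL t θ b R))) ≤
            ENNReal.ofReal (Real.exp (5 * l ^ 2 * (θ ^ 2 * Q))) := by
          refine ENNReal.ofReal_le_ofReal ?_
          have := Real.add_one_le_exp (5 * l ^ 2 * (θ ^ 2 * Q))
          have h4 : θ ^ 2 * qF (nuL t θ b R) ≤ θ ^ 2 * Q :=
            mul_le_mul_of_nonneg_left (hQ R) (sq_nonneg θ)
          have h5 := mul_le_mul_of_nonneg_left h4 (by positivity : 0 ≤ 5 * l ^ 2)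
          linarith
        have h5 := pow_le_pow_left₀ zero_le (h2.trans h3) b
        rw [ofReal_exp_pow] at h5
        refine (mul_le_mul' h1 h5).trans ?_
        rw [ofReal_exp_mul]
        refine ENNReal.ofReal_le_ofReal (Real.exp_le_exp.2 ?_)
        have h6 : (b : ℝ) * (5 * l ^ 2 * (θ ^ 2 * Q)) ≤ 5 * Q * l ^ 2 := by
          have := mul_le_mul_of_nonneg_right hρ (by positivity : 0 ≤ 5 * Q * l ^ 2)
          nlinarith
        have hkk : (0 : ℝ) ≤ k := Nat.cast_nonneg k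
        have h7 : 3 / 2 * t * l ^ 2 ≤ 3 / 2 * ((k + 1 : ℕ) + 1) * t * l ^ 2 := by
          refine mul_le_mul_of_nonneg_right ?_ (sq_nonneg l)
          push_cast
          nlinarith [mul_nonneg hkk ht.le]
        nlinarith
      · push Not at hc
        have hl' : 1 ≤ θ * l := by linarith
        have hl'' : θ * l ≤ θ⁻¹ ^ k := by
          rw [pow_succ] at hl2
          have := mul_le_mul_of_nonneg_left hl2 hθ.le
          have e : θ * (θ⁻¹ ^ k * θ⁻¹) = θ⁻¹ ^ k := by
            field_simp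
          rwa [e] at this
        have h2 := Mg_xi_le hθ.le h.lq_theta_lt (nu_bms h R) hl0.le
        have h3 := ih R (θ * l) hl' hl''
        have h5 := pow_le_pow_left₀ zero_le (h2.trans h3) b
        rw [ofReal_exp_pow] at h5
        refine (mul_le_mul' h1 h5).trans ?_
        rw [ofReal_exp_mul]
        refine ENNReal.ofReal_le_ofReal (Real.exp_le_exp.2 ?_)
        have hkk : (0 : ℝ) ≤ k := Nat.cast_nonneg k
        set W := 5 * Q + 3 / 2 * ((k : ℝ) + 1) * t with hW
        have hW0 : 0 ≤ W := by positivity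
        have h6 : (b : ℝ) * (W * (θ * l) ^ 2) ≤ W * l ^ 2 := by
          have := mul_le_mul_of_nonneg_right hρ (by positivity : 0 ≤ W * l ^ 2)
          nlinarith
        have e : (5 * Q + 3 / 2 * ((k + 1 : ℕ) + 1) * t) * l ^ 2 = W * l ^ 2 + 3 / 2 * t * l ^ 2 := by
          rw [hW]
          push_cast
          ring
        rw [e]
        linarith

/-- The moment generating function at scales up to `1 / s` for small times. -/
theorem Mg_nu_small (h : ExPar b θ t T) (ht1 : t ≤ 1) (R : ℕ) {l : ℝ} (hl1 : 1 ≤ l)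
    (hl2 : l ≤ 1 / sL t) :
    Mg (nuL t θ b R) l ≤ ENNReal.ofReal (Real.exp (1100 * sL t * l ^ 2)) := by
  have hs := sL_pos h.t_pos
  have hs16 := sL_le_one_div t
  set s := sL t with hsdef
  have htt : t = 256 * s ^ 2 := by
    have := sL_sq h.t_pos
    rw [min_eq_left ht1] at this
    linarith
  set n := ⌈1 / s⌉₊ with hn
  have hn1 : 1 / s ≤ n := Nat.le_ceil _
  have hn2 : (n : ℝ) < 1 / s + 1 := Nat.ceil_lt_add_one (by positivity)
  have hθ := h.θ_pos
  -- `θ⁻¹²≥2`
  have hθ2 : 2 ≤ θ⁻¹ ^ 2 := by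
    have h1 := h.lq_theta_sq_le
    rw [inv_pow, ← one_div, le_div_iff₀ (by positivity)]
    linarith
  have hpow : l ≤ θ⁻¹ ^ (2 * n) := by
    rw [pow_mul]
    calc l ≤ 1 / s := hl2
      _ ≤ n := hn1
      _ ≤ (2 : ℝ) ^ n := by
          exact_mod_cast (Nat.lt_two_pow_self (n := n)).le
      _ ≤ (θ⁻¹ ^ 2) ^ n := pow_le_pow_left₀ (by norm_num) hθ2 n
  have hmain := Mg_nu_bound h (qF_nu_le h) (2 * n) R l hl1 hpow
  refine hmain.trans (ENNReal.ofReal_le_ofReal (Real.exp_le_exp.2 ?_))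
  refine mul_le_mul_of_nonneg_right ?_ (sq_nonneg l)
  push_cast
  have h3 : 3 / 2 * (2 * (n : ℝ) + 1) * t ≤ 840 * s := by
    rw [htt]
    have h4 : (n : ℝ) * s ^ 2 ≤ (1 / s + 1) * s ^ 2 :=
      mul_le_mul_of_nonneg_right hn2.le (sq_nonneg s)
    have h5 : (1 / s + 1) * s ^ 2 = s + s ^ 2 := by
      field_simp
    nlinarith
  nlinarith

/-- The moment generating function at `1`, for all times. -/
theorem Mg_nu_one (h : ExPar b θ t T) (R : ℕ) :
    Mg (nuL t θ b R) 1 ≤ ENNReal.ofReal (Real.exp (5 + 3 / 2 * T)) := by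
  have hQ : ∀ R, qF (nuL t θ b R) ≤ 1 := fun R => by
    have := nu_prob h R
    exact qF_le_one _
  have hmain := Mg_nu_bound h hQ 0 R 1 le_rfl (by simp)
  refine hmain.trans (ENNReal.ofReal_le_ofReal (Real.exp_le_exp.2 ?_))
  have := h.t_le
  push_cast
  nlinarith

end Ind

/-! ### Markov -/

lemma markov_real {ν : Measure ℝ} [IsProbabilityMeasure ν] {l B : ℝ} (hB : 0 ≤ B)
    (hM : Mg ν l ≤ ENNReal.ofReal B) (c : ℝ) :
    Real.exp c * ν.real {x | c ≤ l * x} ≤ B := by
  have h1 := mul_meas_ge_le_lintegral (μ := ν) (measurable_ofReal_exp l)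
    (ENNReal.ofReal (Real.exp c))
  have h2 : {x : ℝ | c ≤ l * x} ⊆
      {x | ENNReal.ofReal (Real.exp c) ≤ ENNReal.ofReal (Real.exp (l * x))} := fun x hx =>
    ENNReal.ofReal_le_ofReal (Real.exp_le_exp.2 hx)
  have h3 : ENNReal.ofReal (Real.exp c) * ν {x | c ≤ l * x} ≤ ENNReal.ofReal B :=
    (mul_le_mul_right (measure_mono h2) _).trans (h1.trans hM)
  have h4 : ν {x | c ≤ l * x} = ENNReal.ofReal (ν.real {x | c ≤ l * x}) := by
    rw [measureReal_def, ENNReal.ofReal_toReal (measure_ne_top _ _)]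
  rw [h4, ← ENNReal.ofReal_mul (Real.exp_pos _).le, ENNReal.ofReal_le_ofReal_iff hB] at h3
  exact h3

/-- The tail bound from the exponential moment. -/
lemma tail_of_Mg {ν : Measure ℝ} [IsProbabilityMeasure ν] (hν : BMS ν) {l B a : ℝ} (hl : 0 < l)
    (hB : 0 ≤ B) (ha : 0 ≤ a) (hM : Mg ν l ≤ ENNReal.ofReal B) :
    ν.real {x | a ≤ Real.tanh x ^ 2} ≤ 2 * (B * Real.exp (-(l * Real.sqrt a))) := by
  set r := Real.sqrt a with hr
  have hr0 : 0 ≤ r := Real.sqrt_nonneg _
  have hM' : Mg ν (-l) ≤ ENNReal.ofReal B := (Mg_neg_le hν hl.le).trans hM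
  have h1 := markov_real hB hM (l * r)
  have h2 := markov_real hB hM' (l * r)
  have hsub : {x : ℝ | a ≤ Real.tanh x ^ 2} ⊆ {x | l * r ≤ l * x} ∪ {x | l * r ≤ -l * x} := by
    intro x hx
    have hx' : a ≤ x ^ 2 := le_trans hx (tanh_sq_le_sq x)
    have h3 : r ≤ |x| := by
      rw [hr, ← Real.sqrt_sq_eq_abs]
      exact Real.sqrt_le_sqrt hx'
    rcases le_total 0 x with hx0 | hx0
    · left
      rw [abs_of_nonneg hx0] at h3
      exact mul_le_mul_of_nonneg_left h3 hl.le
    · right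
      rw [abs_of_nonpos hx0] at h3
      have := mul_le_mul_of_nonneg_left h3 hl.le
      show l * r ≤ -l * x
      linarith
  have h4 := (measureReal_mono hsub (measure_ne_top ν _)).trans (measureReal_union_le _ _)
  have hE : Real.exp (-(l * r)) * Real.exp (l * r) = 1 := by
    rw [← Real.exp_add]
    simp
  have h5 : ν.real {x | l * r ≤ l * x} ≤ B * Real.exp (-(l * r)) := by
    have := mul_le_mul_of_nonneg_left h1 (Real.exp_pos (-(l * r))).le
    rw [← mul_assoc, hE, one_mul] at this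
    linarith
  have h6 : ν.real {x | l * r ≤ -l * x} ≤ B * Real.exp (-(l * r)) := by
    have := mul_le_mul_of_nonneg_left h2 (Real.exp_pos (-(l * r))).le
    rw [← mul_assoc, hE, one_mul] at this
    linarith
  linarith

lemma real_le_two_exp {ν : Measure ℝ} [IsProbabilityMeasure ν] (S : Set ℝ) {w : ℝ} (hw : w ≤ 1 / 2) :
    ν.real S ≤ 2 * Real.exp (-w) := by
  have h1 : ν.real S ≤ 1 := measureReal_le_one
  have h2 : Real.exp (-(1 / 2)) ≤ Real.exp (-w) := Real.exp_le_exp.2 (by linarith)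
  have h3 : (1 : ℝ) ≤ 2 * Real.exp (-(1 / 2)) := by
    have h4 : Real.exp (1 / 2) ≤ 2 := by
      have := exp_le_one_add_two (w := 1 / 2) (by norm_num) (by norm_num)
      linarith
    have h5 : Real.exp (-(1 / 2)) * Real.exp (1 / 2) = 1 := by
      rw [← Real.exp_add]
      simp
    have h6 := Real.exp_pos (-(1 / 2 : ℝ))
    nlinarith
  linarith

/-! ### Moments -/

/-- An integral bounded through the exponential moment. -/
lemma integral_le_of_Mg {ν : Measure ℝ} [IsProbabilityMeasure ν] (hν : BMS ν) {l E K : ℝ}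
    {f : ℝ → ℝ} (hf : Measurable f) (hf0 : ∀ x, 0 ≤ f x) (hl : 0 ≤ l) (hK : 0 ≤ K) (hE : 0 ≤ E)
    (hM : Mg ν l ≤ ENNReal.ofReal E)
    (hp : ∀ x, f x ≤ K * (Real.exp (l * x) + Real.exp (-l * x))) :
    ∫ x, f x ∂ν ≤ 2 * K * E := by
  rw [integral_eq_lintegral_of_nonneg_ae (Filter.Eventually.of_forall hf0) hf.aestronglyMeasurable]
  refine ENNReal.toReal_le_of_le_ofReal (by positivity) ?_
  have hM' : Mg ν (-l) ≤ ENNReal.ofReal E := (Mg_neg_le hν hl).trans hM
  calc ∫⁻ x, ENNReal.ofReal (f x) ∂ν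
      ≤ ∫⁻ x, ENNReal.ofReal K * (ENNReal.ofReal (Real.exp (l * x)) +
          ENNReal.ofReal (Real.exp (-l * x))) ∂ν := by
        refine lintegral_mono fun x => ?_
        rw [← ENNReal.ofReal_add (Real.exp_pos _).le (Real.exp_pos _).le,
          ← ENNReal.ofReal_mul hK]
        exact ENNReal.ofReal_le_ofReal (hp x)
    _ = ENNReal.ofReal K * (Mg ν l + Mg ν (-l)) := by
        have hm : Measurable fun x : ℝ => ENNReal.ofReal (Real.exp (l * x)) +
            ENNReal.ofReal (Real.exp (-l * x)) :=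
          (measurable_ofReal_exp l).add (measurable_ofReal_exp (-l))
        rw [lintegral_const_mul _ hm, lintegral_add_left (measurable_ofReal_exp l)]
        rfl
    _ ≤ ENNReal.ofReal K * (ENNReal.ofReal E + ENNReal.ofReal E) := by gcongr
    _ = ENNReal.ofReal (2 * K * E) := by
        rw [← ENNReal.ofReal_add hE hE, ← ENNReal.ofReal_mul hK]
        congr 1
        ring

lemma sq_le_exp_add {l : ℝ} (hl : 0 < l) (x : ℝ) :
    x ^ 2 ≤ 2 / l ^ 2 * (Real.exp (l * x) + Real.exp (-l * x)) := by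
  have h1 := Real.pow_div_factorial_le_exp (l * |x|) (by positivity) 2
  have h2 : Real.exp (l * |x|) ≤ Real.exp (l * x) + Real.exp (-l * x) := by
    have h3 := Real.exp_pos (l * x)
    have h4 := Real.exp_pos (-l * x)
    rcases le_total 0 x with hx | hx
    · rw [abs_of_nonneg hx]
      linarith
    · rw [abs_of_nonpos hx]
      have : l * -x = -l * x := by ring
      rw [this]
      linarith
  have e : (l * |x|) ^ 2 / (Nat.factorial 2 : ℝ) = l ^ 2 * x ^ 2 / 2 := by
    rw [mul_pow, sq_abs]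
    norm_num
  rw [e] at h1
  have h5 : 2 / l ^ 2 * (l ^ 2 * x ^ 2 / 2) = x ^ 2 := by
    field_simp
  rw [← h5]
  exact mul_le_mul_of_nonneg_left (h1.trans h2) (by positivity)

lemma four_le_exp_add {l : ℝ} (hl : 0 < l) (x : ℝ) :
    x ^ 4 ≤ 24 / l ^ 4 * (Real.exp (l * x) + Real.exp (-l * x)) := by
  have h1 := Real.pow_div_factorial_le_exp (l * |x|) (by positivity) 4
  have h2 : Real.exp (l * |x|) ≤ Real.exp (l * x) + Real.exp (-l * x) := by
    have h3 := Real.exp_pos (l * x)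
    have h4 := Real.exp_pos (-l * x)
    rcases le_total 0 x with hx | hx
    · rw [abs_of_nonneg hx]
      linarith
    · rw [abs_of_nonpos hx]
      have : l * -x = -l * x := by ring
      rw [this]
      linarith
  have e : (l * |x|) ^ 4 / (Nat.factorial 4 : ℝ) = l ^ 4 * x ^ 4 / 24 := by
    have e1 : |x| ^ 4 = x ^ 4 := by
      have : |x| ^ 4 = (|x| ^ 2) ^ 2 := by ring
      rw [this, sq_abs]
      ring
    rw [mul_pow, e1]
    norm_num [Nat.factorial]
  rw [e] at h1
  have h5 : 24 / l ^ 4 * (l ^ 4 * x ^ 4 / 24) = x ^ 4 := by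
    field_simp
  rw [← h5]
  exact mul_le_mul_of_nonneg_left (h1.trans h2) (by positivity)

lemma tanh_four_le (x : ℝ) : Real.tanh x ^ 4 ≤ x ^ 4 := by
  have h1 := tanh_sq_le_sq x
  have h2 : Real.tanh x ^ 4 = (Real.tanh x ^ 2) ^ 2 := by ring
  have h3 : x ^ 4 = (x ^ 2) ^ 2 := by ring
  rw [h2, h3]
  exact pow_le_pow_left₀ (sq_nonneg _) h1 2

end

end Vale.Agent.Lib.P161.LQ
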