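import Vale.Agent.Lib.P161.End.LawQTau

/-!
P161 endpoint, module LawQ, sixth part: exponential moments in `ℝ≥0∞`.
-/

open MeasureTheory ProbabilityTheory Finset
open scoped ENNReal NNReal

namespace Vale.Agent.Lib.P161.LQ

noncomputable section

/-- The exponential moment, with values in `ℝ≥0∞`. -/
def Mg (ν : Measure ℝ) (l : ℝ) : ℝ≥0∞ := ∫⁻ x, ENNReal.ofReal (Real.exp (l * x)) ∂ν

lemma measurable_ofReal_exp (l : ℝ) :
    Measurable fun x : ℝ => ENNReal.ofReal (Real.exp (l * x)) := by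
  fun_prop

lemma Mg_obs {t : ℝ} (ht : 0 < t) (l : ℝ) :
    Mg (obsL t) l = ENNReal.ofReal (Real.exp (t * l + t * l ^ 2 / 2)) := by
  unfold Mg
  rw [← ofReal_integral_eq_lintegral_ofReal (integrable_exp_obs t l)
    (Filter.Eventually.of_forall fun x => (Real.exp_pos _).le), integral_exp_obs ht]

lemma Mg_conv {μ ν : Measure ℝ} [SFinite μ] [SFinite ν] (l : ℝ) :
    Mg (μ.conv ν) l = Mg μ l * Mg ν l := by
  unfold Mg
  rw [Measure.lintegral_conv (measurable_ofReal_exp l)]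
  have e : ∀ x y : ℝ, ENNReal.ofReal (Real.exp (l * (x + y))) =
      ENNReal.ofReal (Real.exp (l * x)) * ENNReal.ofReal (Real.exp (l * y)) := fun x y => by
    rw [← ENNReal.ofReal_mul (Real.exp_pos _).le, ← Real.exp_add]
    congr 2
    ring
  simp only [e]
  simp_rw [lintegral_const_mul _ (measurable_ofReal_exp l)]
  rw [lintegral_mul_const _ (measurable_ofReal_exp l)]

lemma Mg_side {θ t : ℝ} (h0 : 0 ≤ θ) (h1 : θ < 1) (ν : Measure ℝ) [IsProbabilityMeasure ν]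
    (l : ℝ) (m : ℕ) : Mg (sideL t θ ν m) l = Mg (obsL t) l * Mg (xiL θ ν) l ^ m := by
  induction m with
  | zero => simp [sideL]
  | succ m ih =>
    have := isProb_xiL h0 h1 ν
    have := isProb_sideL h0 h1 t ν m
    change Mg (Measure.conv (sideL t θ ν m) (xiL θ ν)) l = _
    rw [Mg_conv, ih, pow_succ]
    ring

/-- The symmetrization in `ℝ≥0∞`. -/
lemma BMS.lintegral_sym {ν : Measure ℝ} (hν : BMS ν) {F : ℝ → ℝ} (hF : Measurable F)
    (hF0 : ∀ x, 0 ≤ F x) :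
    ∫⁻ x, ENNReal.ofReal (F x) ∂ν =
      ∫⁻ x, ENNReal.ofReal ((1 + Real.tanh x) / 2 * F x + (1 - Real.tanh x) / 2 * F (-x)) ∂ν := by
  set g : ℝ → ℝ≥0∞ := fun x => ENNReal.ofReal (F x) with hg
  have hgm : Measurable g := ENNReal.measurable_ofReal.comp hF
  set c : ℝ≥0∞ := ENNReal.ofReal (1 / 2) with hc
  have hS := hν (fun x => g x * c) (hgm.mul_const c)
  set P : ℝ → ℝ≥0∞ := fun x => ENNReal.ofReal ((1 + Real.tanh x) / 2) * g x with hP
  have hPm : Measurable P := by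
    refine (ENNReal.measurable_ofReal.comp ?_).mul hgm
    exact (measurable_const.add measurable_tanh').div_const 2
  have e1 : ∀ x, g x = P x + g x * c * wT x := fun x => by
    have h1 : 0 ≤ (1 + Real.tanh x) / 2 := by linarith [one_add_tanh_pos x]
    have h2 := (one_sub_tanh_pos x).le
    have h5 : 0 ≤ F x * (1 / 2) := mul_nonneg (hF0 x) (by norm_num)
    simp only [hP, hg, hc, wT]
    rw [← ENNReal.ofReal_mul h1, ← ENNReal.ofReal_mul (hF0 x),
      ← ENNReal.ofReal_mul h5, ← ENNReal.ofReal_add (mul_nonneg h1 (hF0 x)) (mul_nonneg h5 h2)]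
    congr 1
    ring
  have e2 : ∀ x, ENNReal.ofReal ((1 + Real.tanh x) / 2 * F x + (1 - Real.tanh x) / 2 * F (-x)) =
      P x + g (-x) * c * wT x := fun x => by
    have h1 : 0 ≤ (1 + Real.tanh x) / 2 := by linarith [one_add_tanh_pos x]
    have h2 := (one_sub_tanh_pos x).le
    have h3 := hF0 (-x)
    have h5 : 0 ≤ F (-x) * (1 / 2) := mul_nonneg (hF0 _) (by norm_num)
    simp only [hP, hg, hc, wT]
    rw [← ENNReal.ofReal_mul h1, ← ENNReal.ofReal_mul h3,
      ← ENNReal.ofReal_mul h5, ← ENNReal.ofReal_add (mul_nonneg h1 (hF0 x)) (mul_nonneg h5 h2)]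
    congr 1
    ring
  simp only [e2]
  rw [lintegral_add_left hPm, hS, ← lintegral_add_left hPm]
  exact lintegral_congr fun x => e1 x

lemma Mg_nu_eq {ν : Measure ℝ} (hν : BMS ν) (l : ℝ) :
    Mg ν l = ∫⁻ x, ENNReal.ofReal (Real.cosh (l * x) + Real.tanh x * Real.sinh (l * x)) ∂ν := by
  unfold Mg
  rw [hν.lintegral_sym (F := fun x => Real.exp (l * x)) (by fun_prop)
    (fun x => (Real.exp_pos _).le)]
  refine lintegral_congr fun x => ?_
  congr 1
  rw [Real.cosh_eq, Real.sinh_eq, mul_neg]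
  ring

/-- The integrand of the exponential moment of the law of `h(s x)`. -/
def S1 (θ l x : ℝ) : ℝ :=
  Real.cosh (l * hm θ x) + θ * Real.tanh x * Real.sinh (l * hm θ x)

lemma Mg_xi_eq {θ : ℝ} (h0 : 0 ≤ θ) (h1 : θ < 1) {ν : Measure ℝ} [IsProbabilityMeasure ν]
    (hν : BMS ν) (l : ℝ) :
    Mg (xiL θ ν) l = ∫⁻ x, ENNReal.ofReal (S1 θ l x) ∂ν := by
  have hh := measurable_hm h0 h1
  unfold Mg
  rw [lintegral_xiL h0 h1 ν (measurable_ofReal_exp l)]
  set F : ℝ → ℝ := fun x =>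
    (1 + θ) / 2 * Real.exp (l * hm θ x) + (1 - θ) / 2 * Real.exp (l * -hm θ x) with hF
  have hp : 0 ≤ (1 + θ) / 2 := by linarith
  have hq : 0 ≤ (1 - θ) / 2 := by linarith
  have hFm : Measurable F := by
    simp only [hF]
    refine Measurable.add (measurable_const.mul ?_) (measurable_const.mul ?_)
    · exact Real.measurable_exp.comp (measurable_const.mul hh)
    · exact Real.measurable_exp.comp (measurable_const.mul hh.neg)
  have hF0 : ∀ x, 0 ≤ F x := fun x => by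
    simp only [hF]
    positivity
  have e : ENNReal.ofReal ((1 + θ) / 2) * ∫⁻ x, ENNReal.ofReal (Real.exp (l * hm θ x)) ∂ν +
      ENNReal.ofReal ((1 - θ) / 2) * ∫⁻ x, ENNReal.ofReal (Real.exp (l * -hm θ x)) ∂ν =
      ∫⁻ x, ENNReal.ofReal (F x) ∂ν := by
    have m1 : Measurable fun x => ENNReal.ofReal (Real.exp (l * hm θ x)) :=
      (measurable_ofReal_exp l).comp hh
    have m2 : Measurable fun x => ENNReal.ofReal (Real.exp (l * -hm θ x)) :=
      (measurable_ofReal_exp l).comp hh.neg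
    rw [← lintegral_const_mul _ m1, ← lintegral_const_mul _ m2,
      ← lintegral_add_left (f := fun a =>
        ENNReal.ofReal ((1 + θ) / 2) * ENNReal.ofReal (Real.exp (l * hm θ a)))
        (measurable_const.mul m1)]
    refine lintegral_congr fun x => ?_
    simp only [hF]
    rw [ENNReal.ofReal_add (by positivity) (by positivity), ENNReal.ofReal_mul hp,
      ENNReal.ofReal_mul hq]
  rw [e, hν.lintegral_sym hFm hF0]
  refine lintegral_congr fun x => ?_
  congr 1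
  simp only [hF, S1, hm_neg h0 h1, neg_neg]
  rw [Real.cosh_eq, Real.sinh_eq, mul_neg]
  ring

/-! ### Pointwise inequalities -/

lemma tanh_nonneg_of_nonneg {x : ℝ} (hx : 0 ≤ x) : 0 ≤ Real.tanh x := by
  rw [Real.tanh_eq_sinh_div_cosh]
  exact div_nonneg (Real.sinh_nonneg_iff.2 hx) (Real.cosh_pos x).le

lemma hm_nonneg {θ : ℝ} (h0 : 0 ≤ θ) (h1 : θ < 1) {x : ℝ} (hx : 0 ≤ x) : 0 ≤ hm θ x := by
  by_contra hc
  push Not at hc
  have h2 := tanh_hm h0 h1 x
  have h3 : Real.tanh (hm θ x) < 0 := by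
    rw [Real.tanh_eq_sinh_div_cosh]
    exact div_neg_of_neg_of_pos (Real.sinh_neg_iff.2 hc) (Real.cosh_pos _)
  have h4 := mul_nonneg h0 (tanh_nonneg_of_nonneg hx)
  linarith

lemma S1_neg {θ : ℝ} (h0 : 0 ≤ θ) (h1 : θ < 1) (l x : ℝ) : S1 θ l (-x) = S1 θ l x := by
  unfold S1
  rw [hm_neg h0 h1, Real.tanh_neg, mul_neg, Real.cosh_neg, Real.sinh_neg]
  ring

lemma S1_le_of_nonneg {θ : ℝ} (h0 : 0 ≤ θ) (h1 : θ < 1) {l x : ℝ} (hl : 0 ≤ l) (hx : 0 ≤ x) :
    S1 θ l x ≤ Real.cosh (θ * l * x) + Real.tanh x * Real.sinh (θ * l * x) := by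
  have hy := hm_nonneg h0 h1 hx
  have hA0 : 0 ≤ l * hm θ x := mul_nonneg hl hy
  have hA1 : l * hm θ x ≤ θ * l * x := by
    have h2 := abs_hm_le h0 h1 x
    rw [abs_of_nonneg hy, abs_of_nonneg hx] at h2
    calc l * hm θ x ≤ l * (θ * x) := mul_le_mul_of_nonneg_left h2 hl
      _ = θ * l * x := by ring
  have hu := tanh_nonneg_of_nonneg hx
  have hc : Real.cosh (l * hm θ x) ≤ Real.cosh (θ * l * x) := by
    rw [Real.cosh_le_cosh, abs_of_nonneg hA0, abs_of_nonneg (hA0.trans hA1)]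
    exact hA1
  have hs : Real.sinh (l * hm θ x) ≤ Real.sinh (θ * l * x) := Real.sinh_le_sinh.2 hA1
  have hs0 : 0 ≤ Real.sinh (l * hm θ x) := Real.sinh_nonneg_iff.2 hA0
  unfold S1
  have h3 : θ * Real.tanh x * Real.sinh (l * hm θ x) ≤ Real.tanh x * Real.sinh (l * hm θ x) := by
    have := mul_nonneg hu hs0
    nlinarith
  have h4 := mul_le_mul_of_nonneg_left hs hu
  linarith

/-- The comparison of the law of `h(s x)` with the law of `x`. -/
lemma Mg_xi_le {θ : ℝ} (h0 : 0 ≤ θ) (h1 : θ < 1) {ν : Measure ℝ} [IsProbabilityMeasure ν]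
    (hν : BMS ν) {l : ℝ} (hl : 0 ≤ l) : Mg (xiL θ ν) l ≤ Mg ν (θ * l) := by
  rw [Mg_xi_eq h0 h1 hν, Mg_nu_eq hν]
  refine lintegral_mono fun x => ENNReal.ofReal_le_ofReal ?_
  rcases le_total 0 x with hx | hx
  · exact S1_le_of_nonneg h0 h1 hl hx
  · have h2 := S1_le_of_nonneg h0 h1 hl (neg_nonneg.2 hx)
    rw [S1_neg h0 h1, mul_neg, Real.cosh_neg, Real.sinh_neg, Real.tanh_neg] at h2
    have e : -Real.tanh x * -Real.sinh (θ * l * x) = Real.tanh x * Real.sinh (θ * l * x) := by ring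
    rw [e] at h2
    exact h2

lemma tanh_mul_sinh_nonneg {l : ℝ} (hl : 0 ≤ l) (x : ℝ) : 0 ≤ Real.tanh x * Real.sinh (l * x) := by
  rcases le_total 0 x with hx | hx
  · exact mul_nonneg (tanh_nonneg_of_nonneg hx) (Real.sinh_nonneg_iff.2 (mul_nonneg hl hx))
  · have h1 := tanh_nonneg_of_nonneg (neg_nonneg.2 hx)
    have h2 : 0 ≤ Real.sinh (l * -x) := Real.sinh_nonneg_iff.2 (mul_nonneg hl (neg_nonneg.2 hx))
    have := mul_nonneg h1 h2
    rw [Real.tanh_neg, mul_neg, Real.sinh_neg] at this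
    nlinarith

lemma Mg_neg_le {ν : Measure ℝ} (hν : BMS ν) {l : ℝ} (hl : 0 ≤ l) : Mg ν (-l) ≤ Mg ν l := by
  rw [Mg_nu_eq hν, Mg_nu_eq hν]
  refine lintegral_mono fun x => ENNReal.ofReal_le_ofReal ?_
  have := tanh_mul_sinh_nonneg hl x
  rw [neg_mul, Real.cosh_neg, Real.sinh_neg]
  linarith

lemma sq_le_sinh_sq (y : ℝ) : y ^ 2 ≤ Real.sinh y ^ 2 := by
  rcases le_total 0 y with hy | hy
  · have h := Real.self_le_sinh_iff.2 hy
    nlinarith
  · have h := Real.sinh_le_self_iff.2 hy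
    nlinarith

lemma sinh_sq_le_of_tanh {y : ℝ} (h : Real.tanh y ^ 2 ≤ 1 / 2) :
    Real.sinh y ^ 2 ≤ 2 * Real.tanh y ^ 2 := by
  have hc := Real.cosh_pos y
  have e1 : Real.sinh y = Real.tanh y * Real.cosh y := by
    rw [Real.tanh_eq_sinh_div_cosh]
    field_simp
  have e2 := Real.cosh_sq y
  have e3 : Real.sinh y ^ 2 = Real.tanh y ^ 2 * (Real.sinh y ^ 2 + 1) := by
    nth_rewrite 1 [e1]
    rw [mul_pow, e2]
  nlinarith [sq_nonneg (Real.sinh y), sq_nonneg (Real.tanh y)]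

lemma exp_le_one_add_two {w : ℝ} (h0 : 0 ≤ w) (h1 : w ≤ 1) : Real.exp w ≤ 1 + 2 * w := by
  have := Real.abs_exp_sub_one_sub_id_le (x := w) (by rw [abs_of_nonneg h0]; exact h1)
  have h2 := (abs_le.1 this).2
  nlinarith

/-- The small-argument bound. -/
lemma S1_le_small {θ l : ℝ} (h0 : 0 ≤ θ) (h1 : θ < 1) (h2 : θ ^ 2 ≤ 1 / 2) (hl : 1 ≤ l)
    (hlθ : l * θ ≤ 1) (x : ℝ) :
    S1 θ l x ≤ 1 + 5 * l ^ 2 * (θ ^ 2 * Real.tanh x ^ 2) := by
  set y := hm θ x with hy
  set u := Real.tanh x with hu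
  set z := θ ^ 2 * u ^ 2 with hz
  have hz0 : 0 ≤ z := by positivity
  have hu1 : u ^ 2 ≤ 1 := by
    have := abs_tanh_sq_le x
    exact (le_abs_self _).trans this
  have hzle : z ≤ θ ^ 2 := by
    have := sq_nonneg θ
    nlinarith
  have htan : Real.tanh y ^ 2 = z := by
    rw [hy, tanh_hm h0 h1, hz, mul_pow]
  have hs1 : Real.sinh y ^ 2 ≤ 2 * z := by
    have := sinh_sq_le_of_tanh (y := y) (by rw [htan]; linarith)
    rwa [htan] at this
  have hy2 : y ^ 2 ≤ 2 * z := (sq_le_sinh_sq y).trans hs1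
  set A := l * y with hA
  have hl0 : 0 < l := by linarith
  have hlz : l ^ 2 * z ≤ 1 := by
    have : l ^ 2 * z = (l * θ) ^ 2 * u ^ 2 := by
      rw [hz]
      ring
    rw [this]
    have h3 : (l * θ) ^ 2 ≤ 1 := by
      have h4 : 0 ≤ l * θ := by positivity
      nlinarith
    nlinarith [sq_nonneg (l * θ), sq_nonneg u]
  have hA2 : A ^ 2 ≤ 2 * (l ^ 2 * z) := by
    have : A ^ 2 = l ^ 2 * y ^ 2 := by
      rw [hA]
      ring
    rw [this]
    have := mul_le_mul_of_nonneg_left hy2 (sq_nonneg l)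
    linarith
  have hA3 : A ^ 2 ≤ 2 := by linarith
  have hc : Real.cosh A ≤ 1 + A ^ 2 := by
    refine (Real.cosh_le_exp_half_sq A).trans ?_
    have := exp_le_one_add_two (w := A ^ 2 / 2) (by positivity) (by linarith)
    linarith
  have hc1 := Real.one_le_cosh A
  have hsh : Real.sinh A ^ 2 ≤ 4 * A ^ 2 := by
    have e := Real.cosh_sq A
    have h3 : Real.cosh A ^ 2 ≤ (1 + A ^ 2) ^ 2 := pow_le_pow_left₀ (by linarith) hc 2
    nlinarith [sq_nonneg A]
  have hshabs : |Real.sinh A| ≤ 2 * |A| := by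
    have h3 : Real.sinh A ^ 2 ≤ (2 * A) ^ 2 := by
      rw [mul_pow]
      norm_num
      exact hsh
    have h4 := sq_le_sq.1 h3
    rwa [abs_mul, abs_of_pos (by norm_num : (0 : ℝ) < 2)] at h4
  have hmain : θ * u * Real.sinh A ≤ 3 * l ^ 2 * z := by
    calc θ * u * Real.sinh A ≤ |θ * u * Real.sinh A| := le_abs_self _
      _ = |θ * u| * |Real.sinh A| := abs_mul _ _
      _ ≤ |θ * u| * (2 * |A|) := mul_le_mul_of_nonneg_left hshabs (abs_nonneg _)
      _ = l * (2 * |θ * u| * |y|) := by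
          rw [hA, abs_mul l y, abs_of_pos hl0]
          ring
      _ ≤ l * ((θ * u) ^ 2 + y ^ 2) := by
          refine mul_le_mul_of_nonneg_left ?_ hl0.le
          rw [← sq_abs (θ * u), ← sq_abs y]
          nlinarith [sq_nonneg (|θ * u| - |y|)]
      _ ≤ l * (3 * z) := by
          refine mul_le_mul_of_nonneg_left ?_ hl0.le
          have : (θ * u) ^ 2 = z := by
            rw [hz]
            ring
          linarith
      _ ≤ 3 * l ^ 2 * z := by nlinarith
  unfold S1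
  rw [← hy, ← hu, ← hA]
  nlinarith

lemma integrable_const_add_tanh (ν : Measure ℝ) [IsProbabilityMeasure ν] (c : ℝ) :
    Integrable (fun x => 1 + c * Real.tanh x ^ 2) ν :=
  (integrable_const _).add ((integrable_tanh_sq ν).const_mul c)

/-- The exponential moment of the law of `h(s x)` for small `l θ`. -/
lemma Mg_xi_small {θ l : ℝ} (h0 : 0 ≤ θ) (h1 : θ < 1) (h2 : θ ^ 2 ≤ 1 / 2) (hl : 1 ≤ l)
    (hlθ : l * θ ≤ 1) {ν : Measure ℝ} [IsProbabilityMeasure ν] (hν : BMS ν) :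
    Mg (xiL θ ν) l ≤ ENNReal.ofReal (1 + 5 * l ^ 2 * (θ ^ 2 * qF ν)) := by
  rw [Mg_xi_eq h0 h1 hν]
  have e : ∀ x, 1 + 5 * l ^ 2 * (θ ^ 2 * Real.tanh x ^ 2) =
      1 + (5 * l ^ 2 * θ ^ 2) * Real.tanh x ^ 2 := fun x => by ring
  have h3 : 1 + 5 * l ^ 2 * (θ ^ 2 * qF ν) =
      ∫ x, (1 + (5 * l ^ 2 * θ ^ 2) * Real.tanh x ^ 2) ∂ν := by
    rw [integral_add (integrable_const _) ((integrable_tanh_sq ν).const_mul _), integral_const_mul]
    simp only [integral_const, probReal_univ, smul_eq_mul, mul_one, qF]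
    ring
  rw [h3, ofReal_integral_eq_lintegral_ofReal (integrable_const_add_tanh ν _)
    (Filter.Eventually.of_forall fun x => by positivity)]
  refine lintegral_mono fun x => ENNReal.ofReal_le_ofReal ?_
  rw [← e]
  exact S1_le_small h0 h1 h2 hl hlθ x

end

end Vale.Agent.Lib.P161.LQ
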