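import Vale.Agent.Lib.P161.End.LawQBms

/-!
P161 endpoint, module LawQ, second part: the two-channel inequalities and the recursion for
`q(ν) = E tanh² x`.
-/

open MeasureTheory ProbabilityTheory Finset
open scoped ENNReal NNReal

namespace Vale.Agent.Lib.P161.LQ

noncomputable section

/-- The functional `q(ν) = E tanh² x`. -/
def qF (ν : Measure ℝ) : ℝ := ∫ x, Real.tanh x ^ 2 ∂ν

lemma integrable_of_bdd {α : Type*} [MeasurableSpace α] {μ : Measure α} [IsFiniteMeasure μ]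
    {f : α → ℝ} (hf : Measurable f) {K : ℝ} (hb : ∀ x, |f x| ≤ K) : Integrable f μ :=
  Integrable.of_bound hf.aestronglyMeasurable K
    (Filter.Eventually.of_forall fun x => by simpa [Real.norm_eq_abs] using hb x)

lemma abs_tanh_sq_le (x : ℝ) : |Real.tanh x ^ 2| ≤ 1 := by
  rw [abs_pow]
  exact pow_le_one₀ (abs_nonneg _) (abs_tanh_le_one x)

lemma measurable_tanh_sq : Measurable fun x : ℝ => Real.tanh x ^ 2 := measurable_tanh'.pow_const 2

/-- The symmetry against bounded real functions. -/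
lemma BMS.integral_neg {ν : Measure ℝ} [IsFiniteMeasure ν] (hν : BMS ν) {f : ℝ → ℝ}
    (hf : Measurable f) {K : ℝ} (hb : ∀ x, |f x| ≤ K) :
    ∫ x, f (-x) * (1 - Real.tanh x) ∂ν = ∫ x, f x * (1 - Real.tanh x) ∂ν := by
  have hK : 0 ≤ K := (abs_nonneg _).trans (hb 0)
  have hw : Measurable fun x : ℝ => 1 - Real.tanh x := measurable_const.sub measurable_tanh'
  have hwb : ∀ x : ℝ, |1 - Real.tanh x| ≤ 2 := fun x => by
    have := abs_le.1 (abs_tanh_le_one x)
    rw [abs_le]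
    constructor <;> linarith [this.1, this.2]
  -- nonnegative version
  have hnn : ∀ g : ℝ → ℝ, Measurable g → (∀ x, 0 ≤ g x) →
      ∫ x, g (-x) * (1 - Real.tanh x) ∂ν = ∫ x, g x * (1 - Real.tanh x) ∂ν := by
    intro g hg hg0
    have h := hν (fun x => ENNReal.ofReal (g x)) (ENNReal.measurable_ofReal.comp hg)
    have e1 : ∀ G : ℝ → ℝ, Measurable G → (∀ x, 0 ≤ G x) →
        ∫ x, G x * (1 - Real.tanh x) ∂ν =
          (∫⁻ x, ENNReal.ofReal (G x) * wT x ∂ν).toReal := by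
      intro G hG hG0
      rw [integral_eq_lintegral_of_nonneg_ae
        (Filter.Eventually.of_forall fun x => mul_nonneg (hG0 x) (one_sub_tanh_pos x).le)
        (hG.mul hw).aestronglyMeasurable]
      congr 1
      refine lintegral_congr fun x => ?_
      rw [ENNReal.ofReal_mul (hG0 x), wT]
    rw [e1 g hg hg0, e1 (fun x => g (-x)) (hg.comp measurable_neg) (fun x => hg0 _), h]
  -- the shift
  have hg1 := hnn (fun x => f x + K) (hf.add_const K) (fun x => by
    have := (abs_le.1 (hb x)).1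
    show 0 ≤ f x + K
    linarith)
  simp only [add_mul] at hg1
  have hI : ∀ G : ℝ → ℝ, Measurable G → (∀ x, |G x| ≤ K) →
      Integrable (fun x => G x * (1 - Real.tanh x)) ν := by
    intro G hG hGb
    refine integrable_of_bdd (K := K * 2) (hG.mul hw) fun x => ?_
    rw [abs_mul]
    exact mul_le_mul (hGb x) (hwb x) (abs_nonneg _) hK
  have hIc : Integrable (fun x => K * (1 - Real.tanh x)) ν :=
    integrable_of_bdd (K := K * 2) (measurable_const.mul hw) fun x => by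
      rw [abs_mul, abs_of_nonneg hK]
      exact mul_le_mul_of_nonneg_left (hwb x) hK
  have e1 : ∫ x, (f (-x) * (1 - Real.tanh x) + K * (1 - Real.tanh x)) ∂ν =
      ∫ x, f (-x) * (1 - Real.tanh x) ∂ν + ∫ x, K * (1 - Real.tanh x) ∂ν :=
    integral_add (f := fun x => f (-x) * (1 - Real.tanh x))
      (hI (fun x => f (-x)) (hf.comp measurable_neg) (fun x => hb _)) hIc
  have e2 : ∫ x, (f x * (1 - Real.tanh x) + K * (1 - Real.tanh x)) ∂ν =
      ∫ x, f x * (1 - Real.tanh x) ∂ν + ∫ x, K * (1 - Real.tanh x) ∂ν :=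
    integral_add (f := fun x => f x * (1 - Real.tanh x)) (hI f hf hb) hIc
  rw [e1, e2] at hg1
  linarith

/-- The symmetry in the form of a random sign. -/
lemma BMS.integral_eq {ν : Measure ℝ} [IsFiniteMeasure ν] (hν : BMS ν) {f : ℝ → ℝ}
    (hf : Measurable f) {K : ℝ} (hb : ∀ x, |f x| ≤ K) :
    ∫ x, f x ∂ν =
      ∫ x, ((1 + Real.tanh x) / 2 * f x + (1 - Real.tanh x) / 2 * f (-x)) ∂ν := by
  have h := hν.integral_neg hf hb
  have hK : 0 ≤ K := (abs_nonneg _).trans (hb 0)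
  have hw : Measurable fun x : ℝ => 1 - Real.tanh x := measurable_const.sub measurable_tanh'
  have hwb : ∀ x : ℝ, |1 - Real.tanh x| ≤ 2 := fun x => by
    have := abs_le.1 (abs_tanh_le_one x)
    rw [abs_le]
    constructor <;> linarith [this.1, this.2]
  have hI : ∀ G : ℝ → ℝ, Measurable G → (∀ x, |G x| ≤ K) →
      Integrable (fun x => G x * (1 - Real.tanh x)) ν := by
    intro G hG hGb
    refine integrable_of_bdd (K := K * 2) (hG.mul hw) fun x => ?_
    rw [abs_mul]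
    exact mul_le_mul (hGb x) (hwb x) (abs_nonneg _) hK
  have e : ∀ x, (1 + Real.tanh x) / 2 * f x + (1 - Real.tanh x) / 2 * f (-x) =
      f x + (f (-x) * (1 - Real.tanh x) - f x * (1 - Real.tanh x)) / 2 := fun x => by ring
  simp only [e]
  have hI1 : Integrable (fun x => f (-x) * (1 - Real.tanh x)) ν :=
    hI (fun x => f (-x)) (hf.comp measurable_neg) (fun x => hb _)
  have hI2 : Integrable (fun x => f x * (1 - Real.tanh x)) ν := hI f hf hb
  have e3 : ∫ x, (f x + (f (-x) * (1 - Real.tanh x) - f x * (1 - Real.tanh x)) / 2) ∂ν =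
      ∫ x, f x ∂ν + ∫ x, (f (-x) * (1 - Real.tanh x) - f x * (1 - Real.tanh x)) / 2 ∂ν :=
    integral_add (integrable_of_bdd hf hb) ((hI1.sub hI2).div_const 2)
  have e4 : ∫ x, (f (-x) * (1 - Real.tanh x) - f x * (1 - Real.tanh x)) / 2 ∂ν =
      (∫ x, f (-x) * (1 - Real.tanh x) ∂ν - ∫ x, f x * (1 - Real.tanh x) ∂ν) / 2 := by
    rw [integral_div]
    congr 1
    exact integral_sub hI1 hI2
  rw [e3, e4, h]
  simp

/-- Nishimori identity. -/
lemma BMS.nishimori {ν : Measure ℝ} [IsFiniteMeasure ν] (hν : BMS ν) :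
    ∫ x, Real.tanh x ∂ν = qF ν := by
  rw [hν.integral_eq measurable_tanh' (K := 1) abs_tanh_le_one, qF]
  congr 1
  funext x
  rw [Real.tanh_neg]
  ring

/-! ### Two channels -/

lemma two_channel_pointwise (x y : ℝ) :
    (1 + Real.tanh x) / 2 * ((1 + Real.tanh y) / 2 * (1 - Real.tanh (x + y) ^ 2) +
        (1 - Real.tanh y) / 2 * (1 - Real.tanh (x + -y) ^ 2)) +
      (1 - Real.tanh x) / 2 * ((1 + Real.tanh y) / 2 * (1 - Real.tanh (-x + y) ^ 2) +
        (1 - Real.tanh y) / 2 * (1 - Real.tanh (-x + -y) ^ 2)) =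
      (1 - Real.tanh x ^ 2) * (1 - Real.tanh y ^ 2) / (1 - Real.tanh x ^ 2 * Real.tanh y ^ 2) := by
  set u := Real.tanh x with hu
  set v := Real.tanh y with hv
  have h1 : 0 < 1 + u * v := one_add_tanh_mul_pos x y
  have h2 : 0 < 1 - u * v := by
    have := one_add_tanh_mul_pos x (-y)
    rw [Real.tanh_neg] at this
    nlinarith
  have e1 : Real.tanh (x + y) = (u + v) / (1 + u * v) := tanh_add' x y
  have e2 : Real.tanh (x + -y) = (u - v) / (1 - u * v) := by
    rw [tanh_add', Real.tanh_neg]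
    congr 1 <;> ring
  have e3 : Real.tanh (-x + y) = -((u - v) / (1 - u * v)) := by
    rw [tanh_add', Real.tanh_neg, ← neg_div]
    congr 1 <;> ring
  have e4 : Real.tanh (-x + -y) = -((u + v) / (1 + u * v)) := by
    rw [tanh_add', Real.tanh_neg, Real.tanh_neg, ← neg_div]
    congr 1 <;> ring
  rw [e1, e2, e3, e4]
  have h3 : 1 - u ^ 2 * v ^ 2 ≠ 0 := by
    have : 1 - u ^ 2 * v ^ 2 = (1 + u * v) * (1 - u * v) := by ring
    rw [this]
    positivity
  have h4 : 1 + u * v ≠ 0 := h1.ne'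
  have h5 : 1 - u * v ≠ 0 := h2.ne'
  field_simp
  ring

lemma two_channel_bounds (x y : ℝ) :
    let A := Real.tanh x ^ 2
    let C := Real.tanh y ^ 2
    (1 - A) * (1 - C) ≤ (1 - A) * (1 - C) / (1 - A * C) ∧
      (1 - A) * (1 - C) / (1 - A * C) ≤ (1 - A) * (1 - C) + A * C ∧
      (1 - A) * (1 - C) / (1 - A * C) ≤ 1 - A ∧
      (1 - A) * (1 - C) / (1 - A * C) ≤ 1 - C := by
  intro A C
  have hA0 : 0 ≤ A := sq_nonneg _
  have hC0 : 0 ≤ C := sq_nonneg _
  have hA1 : A < 1 := by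
    have := Real.abs_tanh_lt_one x
    simp only [A]
    nlinarith [abs_nonneg (Real.tanh x), sq_abs (Real.tanh x)]
  have hC1 : C < 1 := by
    have := Real.abs_tanh_lt_one y
    simp only [C]
    nlinarith [abs_nonneg (Real.tanh y), sq_abs (Real.tanh y)]
  have hD : 0 < 1 - A * C := by nlinarith
  have hD1 : 1 - A * C ≤ 1 := by nlinarith [mul_nonneg hA0 hC0]
  have hP : 0 ≤ (1 - A) * (1 - C) := mul_nonneg (by linarith) (by linarith)
  refine ⟨?_, ?_, ?_, ?_⟩
  · rw [le_div_iff₀ hD]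
    nlinarith [mul_nonneg hP (mul_nonneg hA0 hC0)]
  · rw [div_le_iff₀ hD]
    nlinarith [mul_nonneg (mul_nonneg hA0 hC0) (mul_nonneg (sub_nonneg.2 hA1.le) hC0),
      mul_nonneg (mul_nonneg hA0 hC0) (mul_nonneg hA0 (sub_nonneg.2 hC1.le)),
      mul_nonneg hP (mul_nonneg hA0 hC0), mul_nonneg (mul_nonneg hA0 hC0) (sub_nonneg.2 hA1.le),
      mul_nonneg (mul_nonneg hA0 hC0) (sub_nonneg.2 hC1.le)]
  · rw [div_le_iff₀ hD]
    nlinarith [mul_nonneg (sub_nonneg.2 hA1.le) hC0, mul_nonneg (sub_nonneg.2 hA1.le) (sub_nonneg.2 hA1.le), mul_nonneg (mul_nonneg (sub_nonneg.2 hA1.le) hC0) (sub_nonneg.2 hA1.le)]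
  · rw [div_le_iff₀ hD]
    nlinarith [mul_nonneg (sub_nonneg.2 hC1.le) hA0, mul_nonneg (mul_nonneg (sub_nonneg.2 hC1.le) hA0) (sub_nonneg.2 hC1.le)]

end

end Vale.Agent.Lib.P161.LQ
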