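import Vale.Agent.Lib.P161.End.LawQTwo

/-!
P161 endpoint, module LawQ, fourth part: the law of `h(s x)`, the side laws, the scalar recursion.
-/

open MeasureTheory ProbabilityTheory Finset
open scoped ENNReal NNReal

namespace Vale.Agent.Lib.P161.LQ

noncomputable section

/-- Integration of a bounded real function against the law of `h(s x)`. -/
lemma integral_xiL {θ : ℝ} (h0 : 0 ≤ θ) (h1 : θ < 1) (ν : Measure ℝ) [IsProbabilityMeasure ν]
    {g : ℝ → ℝ} (hg : Measurable g) {K : ℝ} (hb : ∀ x, |g x| ≤ K) :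
    ∫ y, g y ∂(xiL θ ν) =
      (1 + θ) / 2 * ∫ x, g (hm θ x) ∂ν + (1 - θ) / 2 * ∫ x, g (-hm θ x) ∂ν := by
  have := isProb_berL' h0 h1
  unfold xiL
  have hFm : Measurable fun w : Bool × ℝ => g (hm θ (spin w.1 * w.2)) :=
    hg.comp (measurable_xi_map h0 h1)
  rw [integral_map (measurable_xi_map h0 h1).aemeasurable hg.aestronglyMeasurable,
    integral_prod _ (integrable_of_bdd hFm fun w => hb _)]
  have hp : 0 ≤ (1 + θ) / 2 := by linarith
  have hm' : 0 ≤ (1 - θ) / 2 := by linarith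
  set Φ : Bool → ℝ := fun s => ∫ x, g (hm θ (spin s * x)) ∂ν with hΦ
  have e : ∫ s, Φ s ∂(berL θ) = (1 + θ) / 2 * Φ true + (1 - θ) / 2 * Φ false := by
    unfold berL
    haveI : IsFiniteMeasure (ENNReal.ofReal ((1 + θ) / 2) • (Measure.dirac true : Measure Bool)) :=
      Measure.smul_finite _ ENNReal.ofReal_ne_top
    haveI : IsFiniteMeasure (ENNReal.ofReal ((1 - θ) / 2) • (Measure.dirac false : Measure Bool)) :=
      Measure.smul_finite _ ENNReal.ofReal_ne_top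
    rw [integral_add_measure (Integrable.of_finite) (Integrable.of_finite),
      integral_smul_measure, integral_smul_measure, integral_dirac, integral_dirac,
      ENNReal.toReal_ofReal hp, ENNReal.toReal_ofReal hm']
    simp
  rw [e]
  simp only [hΦ, spin]
  simp [hm_neg h0 h1]

lemma qF_xiL {θ : ℝ} (h0 : 0 ≤ θ) (h1 : θ < 1) (ν : Measure ℝ) [IsProbabilityMeasure ν] :
    qF (xiL θ ν) = θ ^ 2 * qF ν := by
  unfold qF
  rw [integral_xiL h0 h1 ν measurable_tanh_sq abs_tanh_sq_le]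
  simp only [Real.tanh_neg, tanh_hm h0 h1, neg_sq, mul_pow, integral_const_mul]
  ring

/-- The fourth moment of `tanh`. -/
def q4F (ν : Measure ℝ) : ℝ := ∫ x, Real.tanh x ^ 4 ∂ν

lemma measurable_tanh_four : Measurable fun x : ℝ => Real.tanh x ^ 4 := measurable_tanh'.pow_const 4

lemma abs_tanh_four_le (x : ℝ) : |Real.tanh x ^ 4| ≤ 1 := by
  rw [abs_pow]
  exact pow_le_one₀ (abs_nonneg _) (abs_tanh_le_one x)

lemma q4F_xiL {θ : ℝ} (h0 : 0 ≤ θ) (h1 : θ < 1) (ν : Measure ℝ) [IsProbabilityMeasure ν] :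
    q4F (xiL θ ν) = θ ^ 4 * q4F ν := by
  unfold q4F
  rw [integral_xiL h0 h1 ν measurable_tanh_four abs_tanh_four_le]
  have e : ∀ x, Real.tanh (-hm θ x) ^ 4 = θ ^ 4 * Real.tanh x ^ 4 := fun x => by
    rw [Real.tanh_neg, tanh_hm h0 h1]
    ring
  have e' : ∀ x, Real.tanh (hm θ x) ^ 4 = θ ^ 4 * Real.tanh x ^ 4 := fun x => by
    rw [tanh_hm h0 h1]
    ring
  simp only [e, e', integral_const_mul]
  ring

lemma q4F_nonneg (ν : Measure ℝ) : 0 ≤ q4F ν := integral_nonneg fun x => by positivity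

/-! ### The side laws -/

section Side

variable {θ t : ℝ} {ν : Measure ℝ} [IsProbabilityMeasure ν]

lemma qF_side_zero : qF (sideL t θ ν 0) = qF (obsL t) := rfl

/-- The one-step inequalities along the side laws. -/
lemma qF_side_succ (h0 : 0 ≤ θ) (h1 : θ < 1) (ht : 0 < t) (hν : BMS ν) (m : ℕ) :
    (1 - qF (sideL t θ ν m)) * (1 - θ ^ 2 * qF ν) ≤ 1 - qF (sideL t θ ν (m + 1)) ∧
      1 - qF (sideL t θ ν (m + 1)) ≤ (1 - qF (sideL t θ ν m)) * (1 - θ ^ 2 * qF ν) +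
        qF (sideL t θ ν m) * (θ ^ 2 * qF ν) ∧
      qF (sideL t θ ν m) ≤ qF (sideL t θ ν (m + 1)) ∧
      θ ^ 2 * qF ν ≤ qF (sideL t θ ν (m + 1)) := by
  have := isProb_xiL h0 h1 ν
  have := isProb_sideL h0 h1 t ν m
  have h := qF_conv_bounds (bms_sideL h0 h1 ht hν m) (bms_xiL h0 h1 hν)
  rw [qF_xiL h0 h1] at h
  change (1 - qF (sideL t θ ν m)) * (1 - θ ^ 2 * qF ν) ≤ 1 - qF (sideL t θ ν (m + 1)) ∧
      1 - qF (sideL t θ ν (m + 1)) ≤ (1 - qF (sideL t θ ν m)) * (1 - θ ^ 2 * qF ν) +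
        qF (sideL t θ ν m) * (θ ^ 2 * qF ν) ∧
      1 - qF (sideL t θ ν (m + 1)) ≤ 1 - qF (sideL t θ ν m) ∧
      1 - qF (sideL t θ ν (m + 1)) ≤ 1 - θ ^ 2 * qF ν at h
  exact ⟨h.1, h.2.1, by linarith [h.2.2.1], by linarith [h.2.2.2]⟩

lemma theta_sq_qF_nonneg (ν : Measure ℝ) (θ : ℝ) : 0 ≤ θ ^ 2 * qF ν :=
  mul_nonneg (sq_nonneg _) (qF_nonneg ν)

lemma theta_sq_qF_le {θ : ℝ} (ν : Measure ℝ) [IsProbabilityMeasure ν] (h : θ ^ 2 ≤ 1 / 2) :
    θ ^ 2 * qF ν ≤ 1 / 2 := by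
  have := qF_le_one ν
  have := qF_nonneg ν
  nlinarith [sq_nonneg θ]

/-- Upper bound for `q` of the side law. -/
lemma side_upper (h0 : 0 ≤ θ) (h1 : θ < 1) (ht : 0 < t) (hν : BMS ν) (h2 : θ ^ 2 ≤ 1 / 2) (m : ℕ) :
    (1 - qF (obsL t)) * (1 - θ ^ 2 * qF ν) ^ m ≤ 1 - qF (sideL t θ ν m) := by
  induction m with
  | zero => simp [qF_side_zero]
  | succ m ih =>
    refine le_trans ?_ (qF_side_succ h0 h1 ht hν m).1
    rw [pow_succ, ← mul_assoc]
    exact mul_le_mul_of_nonneg_right ih (by linarith [theta_sq_qF_le ν h2])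

/-- Lower bound for `q` of the side law. -/
lemma side_lower (h0 : 0 ≤ θ) (h1 : θ < 1) (ht : 0 < t) (hν : BMS ν) (h2 : θ ^ 2 ≤ 1 / 2) (m : ℕ) :
    1 - 2 * qF (sideL t θ ν m) ≤ (1 - 2 * qF (obsL t)) * (1 - 2 * (θ ^ 2 * qF ν)) ^ m := by
  induction m with
  | zero => simp [qF_side_zero]
  | succ m ih =>
    have h := (qF_side_succ h0 h1 ht hν m).2.1
    have hy := theta_sq_qF_le ν h2
    rw [pow_succ, ← mul_assoc]
    have := mul_le_mul_of_nonneg_right ih (by linarith : 0 ≤ 1 - 2 * (θ ^ 2 * qF ν))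
    nlinarith

lemma side_ge_obs (h0 : 0 ≤ θ) (h1 : θ < 1) (ht : 0 < t) (hν : BMS ν) (m : ℕ) :
    qF (obsL t) ≤ qF (sideL t θ ν m) := by
  induction m with
  | zero => exact le_rfl
  | succ m ih => exact ih.trans (qF_side_succ h0 h1 ht hν m).2.2.1

/-- The bound of the side law by the two ingredients. -/
lemma side_q_ge (h0 : 0 ≤ θ) (h1 : θ < 1) (ht : 0 < t) (hν : BMS ν) {m : ℕ} (hm : 1 ≤ m) :
    θ ^ 2 * qF ν ≤ qF (sideL t θ ν m) := by
  obtain ⟨m, rfl⟩ : ∃ k, m = k + 1 := ⟨m - 1, by omega⟩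
  exact (qF_side_succ h0 h1 ht hν m).2.2.2

end Side

/-! ### Scalars -/

lemma one_sub_half_sq_le (y : ℝ) (hy : 0 ≤ y) (b : ℕ) (hb : 2 ≤ b) (hby : (b : ℝ) * y ≤ 1) :
    (1 - (b : ℝ) * y / 2) ^ 2 ≤ (1 - y) ^ b := by
  induction b, hb using Nat.le_induction with
  | base =>
    norm_num
  | succ b hb ih =>
    push_cast at hby ih ⊢
    have hb2 : (2 : ℝ) ≤ b := by exact_mod_cast hb
    have hby' : (b : ℝ) * y ≤ 1 := by nlinarith
    have ih' := ih hby'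
    have hy1 : y ≤ 1 / 3 := by nlinarith
    have hA : 1 / 2 ≤ 1 - (b : ℝ) * y / 2 := by linarith
    rw [pow_succ]
    have h3 := mul_le_mul_of_nonneg_right ih' (by linarith : 0 ≤ 1 - y)
    refine le_trans ?_ h3
    have key : (1 / 2 : ℝ) ≤ (1 - (b : ℝ) * y / 2) * b := by nlinarith
    nlinarith [mul_nonneg (mul_nonneg hy hy) (sub_nonneg.2 key)]

lemma one_sub_pow_le_quad (x : ℝ) (hx0 : 0 ≤ x) (hx1 : x ≤ 1) (b : ℕ) :
    (1 - x) ^ b ≤ 1 - (b : ℝ) * x + (b : ℝ) * ((b : ℝ) - 1) / 2 * x ^ 2 := by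
  induction b with
  | zero => simp
  | succ b ih =>
    rw [pow_succ]
    have h3 := mul_le_mul_of_nonneg_right ih (by linarith : 0 ≤ 1 - x)
    refine h3.trans ?_
    push_cast
    have hb0 : (0 : ℝ) ≤ b := Nat.cast_nonneg b
    have : 0 ≤ (b : ℝ) * ((b : ℝ) - 1) / 2 * x ^ 3 ∨ b = 0 := by
      rcases Nat.eq_zero_or_pos b with h | h
      · right
        exact h
      · left
        have h1 : (1 : ℝ) ≤ b := by exact_mod_cast h
        have : 0 ≤ (b : ℝ) * ((b : ℝ) - 1) := mul_nonneg hb0 (by linarith)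
        positivity
    rcases this with h | h
    · nlinarith
    · subst h
      simp

/-- The upper recursion for `q`. -/
lemma rec_upper_scalar {τ q q' ρ y : ℝ} {b : ℕ} (hb : 2 ≤ b) (hy : y = ρ / b * q) (hρ0 : 0 ≤ ρ) (hρ1 : ρ ≤ 1)
    (hτ0 : 0 ≤ τ) (hτ1 : τ ≤ 1) (hq0 : 0 ≤ q) (hq1 : q ≤ 1)
    (h : (1 - τ) * (1 - y) ^ b ≤ 1 - q') : q' ≤ τ + q - q ^ 2 / 4 := by
  have hb0 : (0 : ℝ) < b := by
    have : (2 : ℝ) ≤ b := by exact_mod_cast hb
    linarith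
  have hby : (b : ℝ) * y = ρ * q := by
    rw [hy]
    field_simp
  have hy0 : 0 ≤ y := by
    rw [hy]
    positivity
  have hrq : ρ * q ≤ 1 := by nlinarith
  have hrq0 : 0 ≤ ρ * q := by positivity
  have h1 := one_sub_half_sq_le y hy0 b hb (by rw [hby]; exact hrq)
  rw [hby] at h1
  have h2 := mul_le_mul_of_nonneg_left h1 (by linarith : 0 ≤ 1 - τ)
  have h3 : q' ≤ 1 - (1 - τ) * (1 - ρ * q / 2) ^ 2 := by linarith
  have h4 : (1 - ρ * q / 2) ^ 2 ≤ 1 := by nlinarith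
  have h5 : τ * (1 - ρ * q / 2) ^ 2 ≤ τ := by nlinarith
  have h6 : ρ * q - (ρ * q) ^ 2 / 4 ≤ q - q ^ 2 / 4 := by
    have : ρ * q ≤ q := by nlinarith
    nlinarith [mul_nonneg (sub_nonneg.2 this) (by nlinarith : 0 ≤ 4 - (q + ρ * q))]
  nlinarith

/-- The lower recursion for `q`. -/
lemma rec_lower_scalar {τ q q' ρ y : ℝ} {b : ℕ} (hb : 2 ≤ b) (hy : y = ρ / b * q) (hρ0 : 0 ≤ ρ) (hρ1 : ρ ≤ 1)
    (hτ0 : 0 ≤ τ) (hτ1 : 1 - 2 * τ ≥ 0) (hq0 : 0 ≤ q) (hq1 : q ≤ 1) (hy2 : y ≤ 1 / 2)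
    (h : 1 - 2 * q' ≤ (1 - 2 * τ) * (1 - 2 * y) ^ b) : τ + ρ * q - q ^ 2 - 2 * τ * q ≤ q' := by
  have hb0 : (0 : ℝ) < b := by
    have : (2 : ℝ) ≤ b := by exact_mod_cast hb
    linarith
  have hby : (b : ℝ) * y = ρ * q := by
    rw [hy]
    field_simp
  have hy0 : 0 ≤ y := by
    rw [hy]
    positivity
  have hrq0 : 0 ≤ ρ * q := by positivity
  have h1 := one_sub_pow_le_quad (2 * y) (by linarith) (by linarith) b
  have h2 : (1 - 2 * y) ^ b ≤ 1 - 2 * (ρ * q) + 2 * q ^ 2 := by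
    refine h1.trans ?_
    have e1 : (b : ℝ) * (2 * y) = 2 * (ρ * q) := by rw [← hby]; ring
    have e2 : (b : ℝ) * ((b : ℝ) - 1) / 2 * (2 * y) ^ 2 = 2 * ((b : ℝ) * y) ^ 2 - 2 * (b * y ^ 2) := by ring
    rw [e1, e2, hby]
    have h3 : (ρ * q) ^ 2 ≤ q ^ 2 := by
      have : ρ * q ≤ q := by nlinarith
      nlinarith
    have h4 : 0 ≤ (b : ℝ) * y ^ 2 := by positivity
    nlinarith
  have h3 := mul_le_mul_of_nonneg_left h2 hτ1
  have h4 : τ * (ρ * q) ≤ τ * q := by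
    have : ρ * q ≤ q := by nlinarith
    exact mul_le_mul_of_nonneg_left this hτ0
  nlinarith [mul_nonneg hτ0 (sq_nonneg q)]

/-! ### The sequences -/

/-- Invariance of `[0, 2σ]` under the upper recursion. -/
lemma seq_upper {q : ℕ → ℝ} {σ τ : ℝ} (hσ0 : 0 ≤ σ) (hσ1 : σ ≤ 1) (hτ : τ = σ ^ 2)
    (h0 : q 0 = τ) (hq0 : ∀ n, 0 ≤ q n) (hrec : ∀ n, q (n + 1) ≤ τ + q n - q n ^ 2 / 4) (n : ℕ) :
    q n ≤ 2 * σ := by
  induction n with
  | zero =>
    rw [h0, hτ]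
    nlinarith
  | succ n ih =>
    refine (hrec n).trans ?_
    have h1 := hq0 n
    rw [hτ]
    nlinarith [mul_nonneg (sub_nonneg.2 ih) (by nlinarith : 0 ≤ 4 - (q n + 2 * σ))]

/-- Growth under the lower recursion. -/
lemma seq_lower {q : ℕ → ℝ} {σ τ ρ : ℝ} (hσ0 : 0 < σ) (hσ1 : σ < 1 / 16) (hτ : τ = σ ^ 2)
    (hρ0 : 3 / 4 ≤ ρ) (hρ1 : ρ ≤ 1) (hgap : 1 - ρ ≤ σ / 9)
    (hq0 : ∀ n, 0 ≤ q n) (hq1 : ∀ n, q n ≤ 2 * σ)
    (hrec : ∀ n, τ + ρ * q n - q n ^ 2 - 2 * τ * q n ≤ q (n + 1)) (n : ℕ) :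
    min (σ / 2) (n * τ / 8) ≤ q n := by
  have hτ0 : 0 < τ := by
    rw [hτ]
    positivity
  have hτ1 : τ ≤ σ / 16 := by
    rw [hτ]
    nlinarith
  induction n with
  | zero =>
    refine (min_le_right _ _).trans ?_
    simpa using hq0 0
  | succ n ih =>
    -- the monotonicity of the recursion on `[0, 2σ]`
    set m := min (σ / 2) (n * τ / 8) with hm
    have hm0 : 0 ≤ m := by
      refine le_min (by linarith) ?_
      positivity
    have hm1 : m ≤ σ / 2 := min_le_left _ _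
    have hmono : τ + ρ * m - m ^ 2 - 2 * τ * m ≤ q (n + 1) := by
      refine le_trans ?_ (hrec n)
      have h1 := hq1 n
      have h2 : 0 ≤ ρ - (q n + m) - 2 * τ := by nlinarith
      have h3 := mul_nonneg (sub_nonneg.2 ih) h2
      nlinarith
    refine le_trans ?_ hmono
    by_cases hc : σ / 2 ≤ n * τ / 8
    · have hm2 : m = σ / 2 := min_eq_left hc
      refine (min_le_left _ _).trans ?_
      rw [hm2, hτ]
      have h5 : (1 - ρ) * σ ≤ σ / 9 * σ := mul_le_mul_of_nonneg_right hgap hσ0.le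
      nlinarith [mul_pos hσ0 hσ0, mul_pos (mul_pos hσ0 hσ0) hσ0]
    · push Not at hc
      have hm2 : m = n * τ / 8 := min_eq_right hc.le
      refine (min_le_right _ _).trans ?_
      push_cast
      have e : ((n : ℝ) + 1) * τ / 8 = m + τ / 8 := by
        rw [hm2]
        ring
      rw [e]
      have h5 : (1 - ρ) * m ≤ σ / 9 * (σ / 2) :=
        mul_le_mul hgap hm1 hm0 (by positivity)
      have h6 : m ^ 2 ≤ (σ / 2) ^ 2 := by nlinarith
      have h7 : 2 * τ * m ≤ 2 * τ * (σ / 2) :=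
        mul_le_mul_of_nonneg_left hm1 (by positivity)
      have e2 : σ / 9 * (σ / 2) = τ / 18 := by
        rw [hτ]
        ring
      have e3 : (σ / 2) ^ 2 = τ / 4 := by
        rw [hτ]
        ring
      have e4 : 2 * τ * (σ / 2) ≤ τ / 16 := by nlinarith
      nlinarith

end

end Vale.Agent.Lib.P161.LQ
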