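import Vale.Agent.Lib.P161.End.LawQSide

/-!
P161 endpoint, module LawQ, fifth part: the Gaussian observation, the time scale and
the bounds on `q`.
-/

open MeasureTheory ProbabilityTheory Finset
open scoped ENNReal NNReal

namespace Vale.Agent.Lib.P161

noncomputable section

/-- The parameters admitted in the exact analysis. -/
structure ExPar (b : ℕ) (θ t T : ℝ) : Prop where
  two_le : 2 ≤ b
  θ_pos : 0 < θ
  ρ_ge : 3 / 4 ≤ (b : ℝ) * θ ^ 2
  ρ_le : (b : ℝ) * θ ^ 2 ≤ 1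
  t_pos : 0 < t
  t_le : t ≤ T
  gap : 1 - (b : ℝ) * θ ^ 2 ≤ sL t

lemma ExPar.lq_theta_sq_le {b : ℕ} {θ t T : ℝ} (h : ExPar b θ t T) : θ ^ 2 ≤ 1 / 2 := by
  have hb : (2 : ℝ) ≤ b := by exact_mod_cast h.two_le
  have h1 := h.ρ_le
  nlinarith [sq_nonneg θ]

lemma ExPar.lq_theta_lt {b : ℕ} {θ t T : ℝ} (h : ExPar b θ t T) : θ < 1 := by
  have := h.lq_theta_sq_le
  nlinarith [h.θ_pos]

end

end Vale.Agent.Lib.P161

namespace Vale.Agent.Lib.P161.LQ

noncomputable section

/-! ### The Gaussian observation -/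

lemma obsL_eq (t : ℝ) : obsL t = gaussianReal t t.toNNReal := rfl

lemma integrable_exp_obs (t l : ℝ) : Integrable (fun x => Real.exp (l * x)) (obsL t) :=
  integrable_exp_mul_gaussianReal l

lemma integral_exp_obs {t : ℝ} (ht : 0 < t) (l : ℝ) :
    ∫ x, Real.exp (l * x) ∂(obsL t) = Real.exp (t * l + t * l ^ 2 / 2) := by
  have h := congrFun (mgf_fun_id_gaussianReal (μ := t) (v := t.toNNReal)) l
  simp only [mgf, Real.coe_toNNReal _ ht.le] at h
  exact h

lemma integrable_sq_obs (t : ℝ) : Integrable (fun x => x ^ 2) (obsL t) := by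
  have := (memLp_id_gaussianReal' (μ := t) (v := t.toNNReal) 2 (by simp)).integrable_sq
  exact this

lemma integral_sq_obs {t : ℝ} (ht : 0 < t) : ∫ x, x ^ 2 ∂(obsL t) = t + t ^ 2 := by
  have h := variance_eq_sub (μ := gaussianReal t t.toNNReal) (X := id)
    (memLp_id_gaussianReal' (μ := t) (v := t.toNNReal) 2 (by simp))
  rw [variance_id_gaussianReal, Real.coe_toNNReal _ ht.le] at h
  have h2 : (gaussianReal t t.toNNReal)[id] = t := integral_id_gaussianReal
  rw [h2] at h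
  have h3 : ∫ x, x ^ 2 ∂(obsL t) = (gaussianReal t t.toNNReal)[id ^ 2] := rfl
  rw [h3]
  linarith

lemma tanh_sq_le_sq (x : ℝ) : Real.tanh x ^ 2 ≤ x ^ 2 := by
  have := abs_tanh_le_abs x
  rw [← sq_abs (Real.tanh x), ← sq_abs x]
  exact pow_le_pow_left₀ (abs_nonneg _) this 2

lemma qF_obs_le {t : ℝ} (ht : 0 < t) : qF (obsL t) ≤ t + t ^ 2 := by
  rw [← integral_sq_obs ht]
  exact integral_mono (integrable_tanh_sq _) (integrable_sq_obs t) tanh_sq_le_sq

lemma one_sub_tanh_le_exp (x : ℝ) : 1 - Real.tanh x ≤ Real.exp (-x) := by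
  have hc := Real.cosh_pos x
  have hc1 := Real.one_le_cosh x
  rw [Real.tanh_eq_sinh_div_cosh, ← Real.cosh_sub_sinh x]
  have : 1 - Real.sinh x / Real.cosh x = (Real.cosh x - Real.sinh x) / Real.cosh x := by
    field_simp
  rw [this]
  have h2 : 0 < Real.cosh x - Real.sinh x := by
    rw [Real.cosh_sub_sinh]
    exact Real.exp_pos _
  exact div_le_self h2.le hc1

lemma qF_obs_ge {t : ℝ} (ht : 0 < t) : 1 - Real.exp (-(t / 2)) ≤ qF (obsL t) := by
  have hN := (bms_obsL ht).nishimori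
  have hi : Integrable Real.tanh (obsL t) := integrable_of_bdd measurable_tanh' (K := 1) abs_tanh_le_one
  have h1 : ∫ x, (1 - Real.tanh x) ∂(obsL t) ≤ ∫ x, Real.exp ((-1) * x) ∂(obsL t) := by
    refine integral_mono ((integrable_const _).sub hi) (integrable_exp_obs t (-1)) fun x => ?_
    have := one_sub_tanh_le_exp x
    simpa using this
  rw [integral_sub (integrable_const _) hi, integral_exp_obs ht, hN] at h1
  simp only [integral_const, probReal_univ, smul_eq_mul, mul_one] at h1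
  have e : t * -1 + t * (-1) ^ 2 / 2 = -(t / 2) := by ring
  rw [e] at h1
  linarith

lemma cosh_sq_eq (x : ℝ) :
    Real.cosh x ^ 2 = (Real.exp (2 * x) + Real.exp ((-2) * x) + 2) / 4 := by
  rw [Real.cosh_eq]
  have h1 : Real.exp (2 * x) = Real.exp x ^ 2 := by
    rw [← Real.exp_nat_mul]
    norm_num
  have h2 : Real.exp ((-2) * x) = Real.exp (-x) ^ 2 := by
    rw [← Real.exp_nat_mul]
    congr 1
    push_cast
    ring
  have h3 : Real.exp x * Real.exp (-x) = 1 := by
    rw [← Real.exp_add]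
    simp
  rw [h1, h2]
  nlinarith

lemma sech_sq_ge (x a : ℝ) : 2 * a - a ^ 2 * Real.cosh x ^ 2 ≤ 1 - Real.tanh x ^ 2 := by
  have hc := Real.cosh_pos x
  have e : 1 - Real.tanh x ^ 2 = 1 / Real.cosh x ^ 2 := by
    rw [Real.tanh_eq_sinh_div_cosh]
    have := Real.cosh_sq x
    field_simp
    linarith
  rw [e]
  have h : 0 ≤ (1 / Real.cosh x - a * Real.cosh x) ^ 2 := sq_nonneg _
  have e2 : (1 / Real.cosh x - a * Real.cosh x) ^ 2 =
      1 / Real.cosh x ^ 2 - 2 * a + a ^ 2 * Real.cosh x ^ 2 := by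
    field_simp
    ring
  rw [e2] at h
  linarith

lemma qF_obs_upper {t : ℝ} (ht : 0 < t) : qF (obsL t) ≤ 1 - Real.exp (-(4 * t)) := by
  set a := Real.exp (-(4 * t)) with ha
  have ha0 : 0 < a := Real.exp_pos _
  have hi : ∀ l : ℝ, Integrable (fun x => Real.exp (l * x)) (obsL t) := integrable_exp_obs t
  have hIC : Integrable (fun x => Real.cosh x ^ 2) (obsL t) := by
    have : (fun x => Real.cosh x ^ 2) = fun x =>
        (Real.exp (2 * x) + Real.exp ((-2) * x) + 2) / 4 := funext cosh_sq_eq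
    rw [this]
    exact (((hi 2).add (hi (-2))).add (integrable_const _)).div_const 4
  have hIK : ∫ x, Real.cosh x ^ 2 ∂(obsL t) = (Real.exp (4 * t) + 1 + 2) / 4 := by
    have : (fun x => Real.cosh x ^ 2) = fun x =>
        (Real.exp (2 * x) + Real.exp ((-2) * x) + 2) / 4 := funext cosh_sq_eq
    have e3 : ∫ x, (Real.exp (2 * x) + Real.exp ((-2) * x) + 2) ∂(obsL t) =
        ∫ x, (Real.exp (2 * x) + Real.exp ((-2) * x)) ∂(obsL t) + ∫ _, (2 : ℝ) ∂(obsL t) :=
      integral_add (f := fun x => Real.exp (2 * x) + Real.exp ((-2) * x))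
        ((hi 2).add (hi (-2))) (integrable_const _)
    have e4 : ∫ x, (Real.exp (2 * x) + Real.exp ((-2) * x)) ∂(obsL t) =
        ∫ x, Real.exp (2 * x) ∂(obsL t) + ∫ x, Real.exp ((-2) * x) ∂(obsL t) :=
      integral_add (hi 2) (hi (-2))
    rw [this, integral_div, e3, e4, integral_exp_obs ht, integral_exp_obs ht]
    have e1 : t * 2 + t * 2 ^ 2 / 2 = 4 * t := by ring
    have e2 : t * -2 + t * (-2) ^ 2 / 2 = 0 := by ring
    rw [e1, e2]
    simp
  have h1 : ∫ x, (2 * a - a ^ 2 * Real.cosh x ^ 2) ∂(obsL t) ≤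
      ∫ x, (1 - Real.tanh x ^ 2) ∂(obsL t) :=
    integral_mono ((integrable_const _).sub (hIC.const_mul _))
      ((integrable_const _).sub (integrable_tanh_sq _)) fun x => sech_sq_ge x a
  have e5 : ∫ x, (2 * a - a ^ 2 * Real.cosh x ^ 2) ∂(obsL t) =
      2 * a - a ^ 2 * ((Real.exp (4 * t) + 1 + 2) / 4) := by
    rw [integral_sub (integrable_const _) (hIC.const_mul _), ← hIK,
      integral_const_mul (a ^ 2) (fun x => Real.cosh x ^ 2)]
    simp
  rw [e5, integral_sub (integrable_const _) (integrable_tanh_sq _)] at h1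
  simp only [integral_const, probReal_univ, smul_eq_mul, mul_one] at h1
  have h2 : a * Real.exp (4 * t) = 1 := by
    rw [ha, ← Real.exp_add]
    simp
  have h3 : 1 ≤ Real.exp (4 * t) := Real.one_le_exp (by positivity)
  have h4 : a ^ 2 * ((Real.exp (4 * t) + 1 + 2) / 4) ≤ a := by
    have : a ^ 2 * ((Real.exp (4 * t) + 1 + 2) / 4) ≤ a ^ 2 * Real.exp (4 * t) :=
      mul_le_mul_of_nonneg_left (by linarith) (sq_nonneg a)
    have e : a ^ 2 * Real.exp (4 * t) = a := by
      calc a ^ 2 * Real.exp (4 * t) = a * (a * Real.exp (4 * t)) := by ring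
        _ = a := by rw [h2, mul_one]
    linarith
  have e3 : ∫ x, Real.tanh x ^ 2 ∂(obsL t) = qF (obsL t) := rfl
  rw [e3] at h1
  linarith

/-! ### The time scale -/

lemma sL_pos {t : ℝ} (ht : 0 < t) : 0 < sL t := by
  unfold sL
  have : 0 < min t 1 := lt_min ht one_pos
  positivity

lemma sL_le_one_div (t : ℝ) : sL t ≤ 1 / 16 := by
  unfold sL
  have : Real.sqrt (min t 1) ≤ 1 :=
    Real.sqrt_le_iff.2 ⟨zero_le_one, by simpa using min_le_right t 1⟩
  linarith

lemma sL_sq {t : ℝ} (ht : 0 < t) : 256 * sL t ^ 2 = min t 1 := by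
  unfold sL
  have h : 0 ≤ min t 1 := (lt_min ht one_pos).le
  have := Real.sq_sqrt h
  nlinarith

lemma sL_mono {t₀ t : ℝ} (h : t₀ ≤ t) : sL t₀ ≤ sL t := by
  unfold sL
  have : min t₀ 1 ≤ min t 1 := min_le_min_right _ h
  have := Real.sqrt_le_sqrt this
  linarith

lemma min_div_three_le_qF {t : ℝ} (ht : 0 < t) : min t 1 / 3 ≤ qF (obsL t) := by
  refine le_trans ?_ (qF_obs_ge ht)
  set m := min t 1 with hm
  have hm0 : 0 < m := lt_min ht one_pos
  have hm1 : m ≤ 1 := min_le_right _ _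
  have hmt : m ≤ t := min_le_left _ _
  have h1 : Real.exp (-(t / 2)) ≤ Real.exp (-(m / 2)) := Real.exp_le_exp.2 (by linarith)
  have h2 : Real.exp (-(m / 2)) * (1 + m / 2) ≤ 1 := by
    have h3 : 1 + m / 2 ≤ Real.exp (m / 2) := by
      have := Real.add_one_le_exp (m / 2)
      linarith
    have h4 : Real.exp (-(m / 2)) * Real.exp (m / 2) = 1 := by
      rw [← Real.exp_add]
      simp
    calc Real.exp (-(m / 2)) * (1 + m / 2) ≤ Real.exp (-(m / 2)) * Real.exp (m / 2) :=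
          mul_le_mul_of_nonneg_left h3 (Real.exp_pos _).le
      _ = 1 := h4
  have h5 : Real.exp (-(m / 2)) ≤ 1 - m / 3 := by
    have h6 : 1 ≤ (1 - m / 3) * (1 + m / 2) := by nlinarith
    have h7 : 0 < 1 + m / 2 := by positivity
    by_contra hc
    push Not at hc
    have := mul_lt_mul_of_pos_right hc h7
    linarith
  linarith

/-- The root of the observation `q`. -/
def sigmaL (t : ℝ) : ℝ := Real.sqrt (qF (obsL t))

lemma sigmaL_sq (t : ℝ) : sigmaL t ^ 2 = qF (obsL t) := Real.sq_sqrt (qF_nonneg _)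

lemma sigmaL_nonneg (t : ℝ) : 0 ≤ sigmaL t := Real.sqrt_nonneg _

lemma sigmaL_le_one (t : ℝ) : sigmaL t ≤ 1 := by
  unfold sigmaL
  exact Real.sqrt_le_iff.2 ⟨zero_le_one, by simpa using qF_le_one (obsL t)⟩

lemma nine_sL_le_sigma {t : ℝ} (ht : 0 < t) : 9 * sL t ≤ sigmaL t := by
  have h1 := min_div_three_le_qF ht
  rw [← sL_sq ht, ← sigmaL_sq] at h1
  have h2 := sL_pos ht
  have h3 := sigmaL_nonneg t
  by_contra hc
  push Not at hc
  nlinarith

lemma sigma_le_sL {t : ℝ} (ht : 0 < t) (ht1 : t ≤ 1) : sigmaL t ≤ 23 * sL t := by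
  have h1 := qF_obs_le ht
  have h2 := sL_sq ht
  rw [min_eq_left ht1] at h2
  rw [← sigmaL_sq] at h1
  have h3 := sL_pos ht
  by_contra hc
  push Not at hc
  nlinarith

/-! ### The recursion along the depth -/

section Rec

variable {b : ℕ} {θ t T : ℝ}

lemma nu_prob (h : ExPar b θ t T) (R : ℕ) : IsProbabilityMeasure (nuL t θ b R) :=
  isProb_nuL h.θ_pos.le h.lq_theta_lt t b R

lemma nu_bms (h : ExPar b θ t T) (R : ℕ) : BMS (nuL t θ b R) :=
  bms_nuL h.θ_pos.le h.lq_theta_lt h.t_pos b R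

lemma qF_nu_zero : qF (nuL t θ b 0) = qF (obsL t) := rfl

lemma qF_nu_rec_upper (h : ExPar b θ t T) (R : ℕ) :
    qF (nuL t θ b (R + 1)) ≤ qF (obsL t) + qF (nuL t θ b R) - qF (nuL t θ b R) ^ 2 / 4 := by
  have := nu_prob h R
  have hb0 : (0 : ℝ) < b := by
    have : (2 : ℝ) ≤ b := by exact_mod_cast h.two_le
    linarith
  have hs := side_upper h.θ_pos.le h.lq_theta_lt h.t_pos (nu_bms h R) h.lq_theta_sq_le b
  refine rec_upper_scalar (ρ := (b : ℝ) * θ ^ 2) h.two_le ?_ (by positivity) h.ρ_le (qF_nonneg _)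
    (qF_le_one _) (qF_nonneg _) (qF_le_one _) hs
  field_simp

lemma qF_nu_rec_lower (h : ExPar b θ t T) (hτ : 1 - 2 * qF (obsL t) ≥ 0) (R : ℕ) :
    qF (obsL t) + ((b : ℝ) * θ ^ 2) * qF (nuL t θ b R) - qF (nuL t θ b R) ^ 2 -
      2 * qF (obsL t) * qF (nuL t θ b R) ≤ qF (nuL t θ b (R + 1)) := by
  have := nu_prob h R
  have hb0 : (0 : ℝ) < b := by
    have : (2 : ℝ) ≤ b := by exact_mod_cast h.two_le
    linarith
  have hs := side_lower h.θ_pos.le h.lq_theta_lt h.t_pos (nu_bms h R) h.lq_theta_sq_le b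
  refine rec_lower_scalar (ρ := (b : ℝ) * θ ^ 2) h.two_le ?_ (by positivity) h.ρ_le (qF_nonneg _)
    hτ (qF_nonneg _) (qF_le_one _) (theta_sq_qF_le _ h.lq_theta_sq_le) hs
  field_simp

lemma qF_nu_le_two_sigma (h : ExPar b θ t T) (R : ℕ) :
    qF (nuL t θ b R) ≤ 2 * sigmaL t :=
  seq_upper (q := fun R => qF (nuL t θ b R)) (sigmaL_nonneg t) (sigmaL_le_one t)
    (sigmaL_sq t).symm rfl (fun _ => qF_nonneg _) (qF_nu_rec_upper h) R

/-- The bound (q₁). -/
theorem qF_nu_le (h : ExPar b θ t T) (R : ℕ) : qF (nuL t θ b R) ≤ 46 * sL t := by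
  by_cases ht : t ≤ 1
  · have h1 := qF_nu_le_two_sigma h R
    have h2 := sigma_le_sL h.t_pos ht
    linarith
  · push Not at ht
    have := nu_prob h R
    have h1 := qF_le_one (nuL t θ b R)
    have h2 : sL t = 1 / 16 := by
      unfold sL
      rw [min_eq_right ht.le]
      norm_num
    rw [h2]
    linarith

lemma qF_obs_le_nu (h : ExPar b θ t T) (R : ℕ) : qF (obsL t) ≤ qF (nuL t θ b R) := by
  cases R with
  | zero => exact le_rfl
  | succ R =>
    have := nu_prob h R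
    exact side_ge_obs h.θ_pos.le h.lq_theta_lt h.t_pos (nu_bms h R) b

/-- The bound (q₂). -/
theorem qF_nu_ge (h : ExPar b θ t T) {R : ℕ} (hR : 4 / (9 * sL t) ≤ R) :
    sL t / 16 ≤ qF (nuL t θ b R) := by
  have hs := sL_pos h.t_pos
  by_cases hσ : 1 / 16 ≤ sigmaL t
  · refine le_trans ?_ (qF_obs_le_nu h R)
    rw [← sigmaL_sq]
    have := sL_le_one_div t
    nlinarith
  · push Not at hσ
    have hσ0 : 0 < sigmaL t := by
      have := nine_sL_le_sigma h.t_pos
      linarith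
    have hτ : qF (obsL t) = sigmaL t ^ 2 := (sigmaL_sq t).symm
    have hlow : 1 - 2 * qF (obsL t) ≥ 0 := by
      rw [hτ]
      nlinarith
    have h9 := nine_sL_le_sigma h.t_pos
    have hmain : min (sigmaL t / 2) (R * qF (obsL t) / 8) ≤ qF (nuL t θ b R) :=
      seq_lower (q := fun R => qF (nuL t θ b R)) hσ0 hσ hτ h.ρ_ge h.ρ_le
      (by linarith [h.gap]) (fun _ => qF_nonneg _) (qF_nu_le_two_sigma h)
      (qF_nu_rec_lower h hlow) R
    refine le_trans ?_ hmain
    refine le_min (by linarith) ?_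
    -- `R τ / 8 ≥ s / 16`
    have hRσ : 4 / sigmaL t ≤ R := by
      refine le_trans ?_ hR
      exact div_le_div_of_nonneg_left (by norm_num) (by positivity) h9
    have h1 : 4 ≤ R * sigmaL t := by
      rwa [div_le_iff₀ hσ0] at hRσ
    have h2 : sigmaL t / 2 ≤ R * qF (obsL t) / 8 := by
      rw [hτ]
      nlinarith
    linarith

end Rec

end

end Vale.Agent.Lib.P161.LQ
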