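import Vale.Agent.Lib.P161.End.LawQRec

/-!
P161 endpoint, module LawQ, third part: the two-channel inequalities integrated.
-/

open MeasureTheory ProbabilityTheory Finset
open scoped ENNReal NNReal

namespace Vale.Agent.Lib.P161.LQ

noncomputable section

/-- The two-fold random sign. -/
def sym2 (G : ℝ × ℝ → ℝ) (x y : ℝ) : ℝ :=
  (1 + Real.tanh x) / 2 * ((1 + Real.tanh y) / 2 * G (x, y) + (1 - Real.tanh y) / 2 * G (x, -y)) +
    (1 - Real.tanh x) / 2 * ((1 + Real.tanh y) / 2 * G (-x, y) + (1 - Real.tanh y) / 2 * G (-x, -y))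

lemma abs_one_add_tanh_div (x : ℝ) : |(1 + Real.tanh x) / 2| ≤ 1 := by
  have := abs_lt.1 (Real.abs_tanh_lt_one x)
  rw [abs_le]
  constructor <;> linarith [this.1, this.2]

lemma abs_one_sub_tanh_div (x : ℝ) : |(1 - Real.tanh x) / 2| ≤ 1 := by
  have := abs_lt.1 (Real.abs_tanh_lt_one x)
  rw [abs_le]
  constructor <;> linarith [this.1, this.2]

/-- The symmetrization of a bounded function of two independent symmetric variables. -/
lemma BMS.integral_sym2 {μ ν : Measure ℝ} [IsProbabilityMeasure μ] [IsProbabilityMeasure ν]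
    (hμ : BMS μ) (hν : BMS ν) {G : ℝ × ℝ → ℝ} (hG : Measurable G) {K : ℝ}
    (hb : ∀ p, |G p| ≤ K) :
    ∫ p, G p ∂(μ.prod ν) = ∫ p, sym2 G p.1 p.2 ∂(μ.prod ν) := by
  have hK : 0 ≤ K := (abs_nonneg _).trans (hb 0)
  have hm1 : Measurable fun x : ℝ => (1 + Real.tanh x) / 2 :=
    (measurable_const.add measurable_tanh').div_const 2
  have hm2 : Measurable fun x : ℝ => (1 - Real.tanh x) / 2 :=
    (measurable_const.sub measurable_tanh').div_const 2
  -- the inner function
  set H : ℝ × ℝ → ℝ := fun p =>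
    (1 + Real.tanh p.2) / 2 * G (p.1, p.2) + (1 - Real.tanh p.2) / 2 * G (p.1, -p.2) with hH
  have hHm : Measurable H := by
    refine Measurable.add ((hm1.comp measurable_snd).mul ?_) ((hm2.comp measurable_snd).mul ?_)
    · exact hG.comp (by fun_prop)
    · exact hG.comp (by fun_prop)
  have hHb : ∀ p, |H p| ≤ 2 * K := fun p => by
    have h1 : |(1 + Real.tanh p.2) / 2 * G (p.1, p.2)| ≤ 1 * K := by
      rw [abs_mul]
      exact mul_le_mul (abs_one_add_tanh_div _) (hb _) (abs_nonneg _) zero_le_one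
    have h2 : |(1 - Real.tanh p.2) / 2 * G (p.1, -p.2)| ≤ 1 * K := by
      rw [abs_mul]
      exact mul_le_mul (abs_one_sub_tanh_div _) (hb _) (abs_nonneg _) zero_le_one
    exact (abs_add_le _ _).trans (by linarith)
  set Φ : ℝ → ℝ := fun x => ∫ y, H (x, y) ∂ν with hΦ
  have hΦm : Measurable Φ := hHm.stronglyMeasurable.integral_prod_right'.measurable
  have hΦb : ∀ x, |Φ x| ≤ 2 * K := fun x => by
    have := norm_integral_le_of_norm_le_const (μ := ν) (f := fun y => H (x, y)) (C := 2 * K)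
      (Filter.Eventually.of_forall fun y => by simpa [Real.norm_eq_abs] using hHb (x, y))
    simpa [Real.norm_eq_abs, hΦ, measure_univ] using this
  have hGi : Integrable G (μ.prod ν) := integrable_of_bdd hG hb
  have hSm : Measurable fun p : ℝ × ℝ => sym2 G p.1 p.2 := by
    unfold sym2
    refine Measurable.add ((hm1.comp measurable_fst).mul ?_) ((hm2.comp measurable_fst).mul ?_)
    · exact hHm
    · exact hHm.comp (measurable_fst.neg.prodMk measurable_snd)
  have hSb : ∀ p : ℝ × ℝ, |sym2 G p.1 p.2| ≤ 2 * (2 * K) := fun p => by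
    unfold sym2
    have h1 : |(1 + Real.tanh p.1) / 2 * H (p.1, p.2)| ≤ 1 * (2 * K) := by
      rw [abs_mul]
      exact mul_le_mul (abs_one_add_tanh_div _) (hHb _) (abs_nonneg _) zero_le_one
    have h2 : |(1 - Real.tanh p.1) / 2 * H (-p.1, p.2)| ≤ 1 * (2 * K) := by
      rw [abs_mul]
      exact mul_le_mul (abs_one_sub_tanh_div _) (hHb _) (abs_nonneg _) zero_le_one
    exact (abs_add_le _ _).trans (by linarith)
  have hSi : Integrable (fun p : ℝ × ℝ => sym2 G p.1 p.2) (μ.prod ν) := integrable_of_bdd hSm hSb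
  rw [integral_prod _ hGi, integral_prod _ hSi]
  have e1 : ∀ x, ∫ y, G (x, y) ∂ν = Φ x := fun x => by
    simp only [hΦ, hH]
    exact hν.integral_eq (f := fun y => G (x, y)) (hG.comp (by fun_prop)) (fun y => hb _)
  have e2 : ∀ x, ∫ y, sym2 G (x, y).1 (x, y).2 ∂ν =
      (1 + Real.tanh x) / 2 * Φ x + (1 - Real.tanh x) / 2 * Φ (-x) := fun x => by
    simp only [hΦ]
    rw [← integral_const_mul, ← integral_const_mul, ← integral_add]
    · rfl
    · exact (integrable_of_bdd (hHm.comp (by fun_prop)) fun y => hHb _).const_mul _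
    · exact (integrable_of_bdd (hHm.comp (by fun_prop)) fun y => hHb _).const_mul _
  simp only [e1, e2]
  exact hμ.integral_eq hΦm hΦb

lemma integral_conv_real {μ ν : Measure ℝ} [IsProbabilityMeasure μ] [IsProbabilityMeasure ν]
    {f : ℝ → ℝ} (hf : Measurable f) :
    ∫ x, f x ∂(μ.conv ν) = ∫ p, f (p.1 + p.2) ∂(μ.prod ν) := by
  unfold Measure.conv
  rw [integral_map (by fun_prop) hf.aestronglyMeasurable]

lemma qF_nonneg (ν : Measure ℝ) : 0 ≤ qF ν := integral_nonneg fun _ => sq_nonneg _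

lemma qF_le_one (ν : Measure ℝ) [IsProbabilityMeasure ν] : qF ν ≤ 1 := by
  have := norm_integral_le_of_norm_le_const (μ := ν) (f := fun x => Real.tanh x ^ 2) (C := 1)
    (Filter.Eventually.of_forall fun y => by simpa [Real.norm_eq_abs] using abs_tanh_sq_le y)
  have h2 := le_abs_self (qF ν)
  simp only [Real.norm_eq_abs, probReal_univ, mul_one] at this
  unfold qF at h2 ⊢
  linarith

lemma integrable_tanh_sq (ν : Measure ℝ) [IsFiniteMeasure ν] :
    Integrable (fun x => Real.tanh x ^ 2) ν := integrable_of_bdd measurable_tanh_sq abs_tanh_sq_le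

/-- The two-channel inequalities. -/
theorem qF_conv_bounds {μ ν : Measure ℝ} [IsProbabilityMeasure μ] [IsProbabilityMeasure ν]
    (hμ : BMS μ) (hν : BMS ν) :
    (1 - qF μ) * (1 - qF ν) ≤ 1 - qF (μ.conv ν) ∧
      1 - qF (μ.conv ν) ≤ (1 - qF μ) * (1 - qF ν) + qF μ * qF ν ∧
      1 - qF (μ.conv ν) ≤ 1 - qF μ ∧
      1 - qF (μ.conv ν) ≤ 1 - qF ν := by
  -- the integrand
  set G : ℝ × ℝ → ℝ := fun p => 1 - Real.tanh (p.1 + p.2) ^ 2 with hG
  have hGm : Measurable G :=
    measurable_const.sub (measurable_tanh_sq.comp (measurable_fst.add measurable_snd))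
  have hGb : ∀ p, |G p| ≤ 2 := fun p => by
    have := abs_tanh_sq_le (p.1 + p.2)
    simp only [hG]
    have h1 := abs_le.1 this
    rw [abs_le]
    constructor <;> linarith [h1.1, h1.2]
  have hq : 1 - qF (μ.conv ν) = ∫ p, G p ∂(μ.prod ν) := by
    unfold qF
    rw [integral_conv_real measurable_tanh_sq]
    have h1 : Integrable (fun p : ℝ × ℝ => Real.tanh (p.1 + p.2) ^ 2) (μ.prod ν) :=
      integrable_of_bdd (measurable_tanh_sq.comp (measurable_fst.add measurable_snd))
        (fun p => abs_tanh_sq_le _)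
    simp only [hG]
    rw [integral_sub (integrable_const _) h1]
    simp
  rw [hq, hμ.integral_sym2 hν hGm hGb]
  have hsym : ∀ p : ℝ × ℝ, sym2 G p.1 p.2 =
      (1 - Real.tanh p.1 ^ 2) * (1 - Real.tanh p.2 ^ 2) /
        (1 - Real.tanh p.1 ^ 2 * Real.tanh p.2 ^ 2) := fun p =>
    two_channel_pointwise p.1 p.2
  simp only [hsym]
  set K : ℝ × ℝ → ℝ := fun p => (1 - Real.tanh p.1 ^ 2) * (1 - Real.tanh p.2 ^ 2) /
        (1 - Real.tanh p.1 ^ 2 * Real.tanh p.2 ^ 2) with hK
  have hSm : Measurable fun p : ℝ × ℝ => sym2 G p.1 p.2 := by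
    unfold sym2
    refine Measurable.add (((measurable_const.add (measurable_tanh'.comp measurable_fst)).div_const 2).mul ?_)
      (((measurable_const.sub (measurable_tanh'.comp measurable_fst)).div_const 2).mul ?_)
    · refine Measurable.add (((measurable_const.add (measurable_tanh'.comp measurable_snd)).div_const 2).mul ?_)
        (((measurable_const.sub (measurable_tanh'.comp measurable_snd)).div_const 2).mul ?_)
      · exact hGm.comp (by fun_prop)
      · exact hGm.comp (by fun_prop)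
    · refine Measurable.add (((measurable_const.add (measurable_tanh'.comp measurable_snd)).div_const 2).mul ?_)
        (((measurable_const.sub (measurable_tanh'.comp measurable_snd)).div_const 2).mul ?_)
      · exact hGm.comp (by fun_prop)
      · exact hGm.comp (by fun_prop)
  have hKm : Measurable K := by
    have : K = fun p : ℝ × ℝ => sym2 G p.1 p.2 := by
      funext p
      exact (hsym p).symm
    rw [this]
    exact hSm
  have hKb : ∀ p, |K p| ≤ 1 := fun p => by
    have h := two_channel_bounds p.1 p.2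
    simp only at h
    have h0 : 0 ≤ (1 - Real.tanh p.1 ^ 2) * (1 - Real.tanh p.2 ^ 2) := by
      have h1 := abs_le.1 (abs_tanh_sq_le p.1)
      have h2 := abs_le.1 (abs_tanh_sq_le p.2)
      exact mul_nonneg (by linarith [h1.2]) (by linarith [h2.2])
    simp only [hK]
    rw [abs_le]
    constructor
    · linarith [h.1]
    · linarith [h.2.2.1, sq_nonneg (Real.tanh p.1)]
  have hKi : Integrable K (μ.prod ν) := integrable_of_bdd hKm hKb
  have hm1 : Measurable fun x : ℝ => 1 - Real.tanh x ^ 2 := measurable_const.sub measurable_tanh_sq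
  have hb1 : ∀ x : ℝ, |1 - Real.tanh x ^ 2| ≤ 1 := fun x => by
    have h1 := abs_le.1 (abs_tanh_sq_le x)
    rw [abs_le]
    constructor <;> linarith [h1.1, h1.2, sq_nonneg (Real.tanh x)]
  have hqq : ∀ ρ : Measure ℝ, [IsProbabilityMeasure ρ] → ∫ x, (1 - Real.tanh x ^ 2) ∂ρ = 1 - qF ρ := by
    intro ρ _
    rw [integral_sub (integrable_const _) (integrable_tanh_sq ρ)]
    simp [qF]
  -- the products
  have P1 : ∫ p : ℝ × ℝ, (1 - Real.tanh p.1 ^ 2) * (1 - Real.tanh p.2 ^ 2) ∂(μ.prod ν) =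
      (1 - qF μ) * (1 - qF ν) := by
    rw [integral_prod_mul (fun x => 1 - Real.tanh x ^ 2) (fun x => 1 - Real.tanh x ^ 2), hqq, hqq]
  have P2 : ∫ p : ℝ × ℝ, Real.tanh p.1 ^ 2 * Real.tanh p.2 ^ 2 ∂(μ.prod ν) = qF μ * qF ν := by
    rw [integral_prod_mul (fun x => Real.tanh x ^ 2) (fun x => Real.tanh x ^ 2)]
    rfl
  have P3 : ∫ p : ℝ × ℝ, (1 - Real.tanh p.1 ^ 2) * 1 ∂(μ.prod ν) = 1 - qF μ := by
    rw [integral_prod_mul (fun x => 1 - Real.tanh x ^ 2) (fun _ => (1 : ℝ)), hqq]
    simp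
  have P4 : ∫ p : ℝ × ℝ, 1 * (1 - Real.tanh p.2 ^ 2) ∂(μ.prod ν) = 1 - qF ν := by
    rw [integral_prod_mul (fun _ => (1 : ℝ)) (fun x => 1 - Real.tanh x ^ 2), hqq]
    simp
  have iP1 : Integrable (fun p : ℝ × ℝ => (1 - Real.tanh p.1 ^ 2) * (1 - Real.tanh p.2 ^ 2)) (μ.prod ν) :=
    (integrable_of_bdd hm1 hb1).mul_prod (integrable_of_bdd hm1 hb1)
  have iP2 : Integrable (fun p : ℝ × ℝ => Real.tanh p.1 ^ 2 * Real.tanh p.2 ^ 2) (μ.prod ν) :=
    (integrable_tanh_sq μ).mul_prod (integrable_tanh_sq ν)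
  have iP3 : Integrable (fun p : ℝ × ℝ => (1 - Real.tanh p.1 ^ 2) * 1) (μ.prod ν) :=
    (integrable_of_bdd hm1 hb1).mul_prod (integrable_const _)
  have iP4 : Integrable (fun p : ℝ × ℝ => 1 * (1 - Real.tanh p.2 ^ 2)) (μ.prod ν) :=
    (integrable_const _).mul_prod (integrable_of_bdd hm1 hb1)
  refine ⟨?_, ?_, ?_, ?_⟩
  · rw [← P1]
    exact integral_mono iP1 hKi fun p => (two_channel_bounds p.1 p.2).1
  · rw [← P1, ← P2, ← integral_add iP1 iP2]
    exact integral_mono hKi (iP1.add iP2) fun p => (two_channel_bounds p.1 p.2).2.1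
  · rw [← P3]
    refine integral_mono hKi iP3 fun p => ?_
    have := (two_channel_bounds p.1 p.2).2.2.1
    simpa using this
  · rw [← P4]
    refine integral_mono hKi iP4 fun p => ?_
    have := (two_channel_bounds p.1 p.2).2.2.2
    simpa using this

end

end Vale.Agent.Lib.P161.LQ
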