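import Vale.Agent.Lib.P161.Stage
import Vale.Agent.Lib.P161.Tree

/-!
P161 endpoint, module Local: invariance of the uniform field under automorphisms, equivariance and
locality of the master chain, vanishing of correlations at large distance.
-/

open MeasureTheory ProbabilityTheory Finset

namespace Vale.Agent.Lib.P161

noncomputable section

variable {V : Type*} {G : SimpleGraph V} [G.LocallyFinite] [DecidableEq V] {θ : ℝ}

/-- Invariance of the uniform field. -/
theorem integral_uniformField_comp (e : V ≃ V) (f : (V → unitInterval) → ℝ) (hf : Measurable f) :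
    ∫ u, f (u ∘ e) ∂(uniformField V) = ∫ u, f u ∂(uniformField V) := by
  have hm : Measurable (fun u : V → unitInterval => fun i => u (e i)) :=
    measurable_pi_lambda _ fun i => measurable_pi_apply _
  have h : (uniformField V).map (fun u : V → unitInterval => fun i => u (e i)) = uniformField V :=
    Measure.map_infinitePi_infinitePi_of_inj (P := fun _ : V => (volume : Measure unitInterval))
      e.injective
  conv_rhs => rw [← h]
  rw [integral_map hm.aemeasurable hf.aestronglyMeasurable]
  rfl

/-- Equivariance of the master chain. -/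
theorem masterChain_equiv (γ : ℕ → ℕ → unitInterval → ℝ) (e : G ≃g G) (ℓ j k : ℕ)
    (u : V → unitInterval) (a b : V) :
    masterChain G θ γ ℓ j k (u ∘ e.symm) (e a) (e b) = masterChain G θ γ ℓ j k u a b := by
  unfold masterChain
  refine cavChain_equiv e ℓ _ (fun i a => ?_) k a b
  simp

section congr

variable {W W' : V → V → ℝ} {g g' : V → ℝ}

/-- `Nsq` depends only on the weights near the start. -/
lemma Nsq_congr_ball (hc : G.Connected) (ℓ : ℕ) (a b : V)
    (h : ∀ c a', G.Adj c a' → G.dist a c ≤ ℓ → G.dist a a' ≤ ℓ → W c a' = W' c a') :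
    Nsq (nbV G) W ℓ a b = Nsq (nbV G) W' ℓ a b := by
  induction ℓ generalizing a b with
  | zero => rfl
  | succ ℓ ih =>
    simp only [Nsq]
    congr 1
    refine Finset.sum_congr rfl fun c hc' => ?_
    have hadj : G.Adj a c := by
      have := Finset.mem_of_mem_erase hc'
      simpa [nbV] using this
    have hd1 : G.dist a c = 1 := SimpleGraph.dist_eq_one_iff_adj.2 hadj
    rw [h c a hadj.symm (by omega) (by simp)]
    rw [ih c a fun c' a' hadj' h1 h2 => h c' a' hadj'
      (by have := hc.dist_triangle (u := a) (v := c) (w := c'); omega)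
      (by have := hc.dist_triangle (u := a) (v := c) (w := a'); omega)]

/-- `Lin` depends only on the weights and the noise near the start. -/
lemma Lin_congr_ball (hc : G.Connected) (ℓ : ℕ) (a b : V)
    (h : ∀ c a', G.Adj c a' → G.dist a c ≤ ℓ → G.dist a a' ≤ ℓ → W c a' = W' c a')
    (hg : ∀ v, G.dist a v ≤ ℓ → g v = g' v) :
    Lin (nbV G) W g ℓ a b = Lin (nbV G) W' g' ℓ a b := by
  induction ℓ generalizing a b with
  | zero => exact hg a (by simp)
  | succ ℓ ih =>
    simp only [Lin]
    rw [hg a (by simp)]
    congr 1
    refine Finset.sum_congr rfl fun c hc' => ?_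
    have hadj : G.Adj a c := by
      have := Finset.mem_of_mem_erase hc'
      simpa [nbV] using this
    have hd1 : G.dist a c = 1 := SimpleGraph.dist_eq_one_iff_adj.2 hadj
    rw [h c a hadj.symm (by omega) (by simp)]
    rw [ih c a (fun c' a' hadj' h1 h2 => h c' a' hadj'
      (by have := hc.dist_triangle (u := a) (v := c) (w := c'); omega)
      (by have := hc.dist_triangle (u := a) (v := c) (w := a'); omega))
      (fun v hv => hg v (by have := hc.dist_triangle (u := a) (v := c) (w := v); omega))]

end congr

/-- Locality of the master chain: its value on `(a, b)` at step `k` only depends on the field in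
the ball of radius `k * (ℓ + 2)` around `a`. -/
theorem masterChain_local (hc : G.Connected) (γ : ℕ → ℕ → unitInterval → ℝ) (ℓ j k : ℕ)
    (u u' : V → unitInterval) (a b : V) (hab : G.Adj a b)
    (h : ∀ w, G.dist a w ≤ k * (ℓ + 2) → u w = u' w) :
    masterChain G θ γ ℓ j k u a b = masterChain G θ γ ℓ j k u' a b := by
  unfold masterChain
  induction k generalizing a b with
  | zero => rfl
  | succ k ih =>
    simp only [cavChain, cavStep]
    have e1 : (k + 1) * (ℓ + 2) = k * (ℓ + 2) + (ℓ + 2) := by ring
    rw [e1] at h
    have h1 := ih a b hab (fun w hw => h w (by omega))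
    have hdab : G.dist a b = 1 := SimpleGraph.dist_eq_one_iff_adj.2 hab
    have h2 := ih b a hab.symm (fun w hw => h w (by
      have := hc.dist_triangle (u := a) (v := b) (w := w)
      omega))
    have hW : ∀ c a', G.Adj c a' → G.dist a c ≤ ℓ → G.dist a a' ≤ ℓ →
        wgt θ (cavChain θ (nbV G) ℓ ((1 / 2 : ℝ) ^ j) (fun i w => γ j i (u w)) k) c a' =
        wgt θ (cavChain θ (nbV G) ℓ ((1 / 2 : ℝ) ^ j) (fun i w => γ j i (u' w)) k) c a' := by
      intro c a' hadj hc1 _
      simp only [wgt]
      rw [ih c a' hadj (fun w hw => h w (by
        have := hc.dist_triangle (u := a) (v := c) (w := w)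
        omega))]
    rw [h1, h2, Nsq_congr_ball hc ℓ a b hW, Lin_congr_ball hc ℓ a b hW (fun v hv => by
      rw [h v (by omega)])]

/-- Functions of the uniform field depending on disjoint finite sets of coordinates are
uncorrelated. -/
theorem integral_mul_of_local {f f' : (V → unitInterval) → ℝ} {A A' : Finset V}
    (hd : Disjoint A A') (hf : Measurable f) (hf' : Measurable f')
    (hA : ∀ u u', (∀ w ∈ A, u w = u' w) → f u = f u')
    (hA' : ∀ u u', (∀ w ∈ A', u w = u' w) → f' u = f' u') :
    ∫ u, f u * f' u ∂(uniformField V)
      = (∫ u, f u ∂(uniformField V)) * ∫ u, f' u ∂(uniformField V) := by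
  have hI : iIndepFun (fun (v : V) (u : V → unitInterval) => u v) (uniformField V) :=
    iIndepFun_infinitePi (P := fun _ : V => (volume : Measure unitInterval))
      (X := fun _ x => x) (fun _ => measurable_id)
  have hind := hI.indepFun_finset A A' hd (fun v => measurable_pi_apply v)
  -- extension by a default value
  let ext : (B : Finset V) → (↥B → unitInterval) → (V → unitInterval) := fun B x v =>
    if h : v ∈ B then x ⟨v, h⟩ else 0
  have hext : ∀ B : Finset V, Measurable (ext B) := by
    intro B
    refine measurable_pi_lambda _ fun v => ?_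
    by_cases h : v ∈ B
    · simp only [ext, h, dif_pos]
      exact measurable_pi_apply _
    · simp only [ext, h, dif_neg, not_false_eq_true]
      exact measurable_const
  have hext2 : ∀ (B : Finset V) (u : V → unitInterval) (w : V), w ∈ B →
      u w = ext B (fun i : ↥B => u i) w := by
    intro B u w hw
    simp [ext, hw]
  have hff : f = (f ∘ ext A) ∘ fun u (i : ↥A) => u i := by
    funext u
    exact hA _ _ (hext2 A u)
  have hff' : f' = (f' ∘ ext A') ∘ fun u (i : ↥A') => u i := by
    funext u
    exact hA' _ _ (hext2 A' u)
  have hind2 : IndepFun f f' (uniformField V) := by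
    rw [hff, hff']
    exact hind.comp (hf.comp (hext A)) (hf'.comp (hext A'))
  exact hind2.integral_fun_mul_eq_mul_integral hf.aestronglyMeasurable hf'.aestronglyMeasurable

end

end Vale.Agent.Lib.P161
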