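import Vale.Agent.Lib.P161.End.StatNum

/-!
P161 endpoint, module StatP1: the sum over the terms of the path expansion (elementary).
-/

open Finset

namespace Vale.Agent.Lib.P161

noncomputable section

theorem tail_geom_le {ρ : ℝ} (h0 : 0 ≤ ρ) (h1 : ρ < 1) (n : ℕ) (s : Finset ℕ)
    (hs : ∀ m ∈ s, n ≤ m) : ∑ m ∈ s, ρ ^ m ≤ ρ ^ n / (1 - ρ) := by
  have e1 : ∑ m ∈ s, ρ ^ m = ρ ^ n * ∑ m ∈ s, ρ ^ (m - n) := by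
    rw [mul_sum]
    refine sum_congr rfl fun m hm => ?_
    rw [← pow_add, Nat.add_sub_cancel' (hs m hm)]
  have e2 : ∑ m ∈ s, ρ ^ (m - n) = ∑ i ∈ s.image (fun m => m - n), ρ ^ i := by
    rw [sum_image]
    intro a ha b hb hab
    have h3 := hs a ha
    have h4 := hs b hb
    simp only at hab
    omega
  rw [e1, e2]
  have h3 := sum_pow_le h0 h1 (s.image (fun m => m - n))
  have h4 : 0 ≤ ρ ^ n := pow_nonneg h0 n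
  calc ρ ^ n * ∑ i ∈ s.image (fun m => m - n), ρ ^ i ≤ ρ ^ n * (1 / (1 - ρ)) :=
        mul_le_mul_of_nonneg_left h3 h4
    _ = ρ ^ n / (1 - ρ) := by ring

/-- The bound of one term in the middle range. -/
theorem P_term_mid {CT x μ CD δ₁ β γ κ α T : ℝ} {m L : ℕ} (hβ0 : 0 < β)
    (h3 : T ≤ 2 * γ ^ m * (CT * m * x + (m : ℝ) ^ 2 * μ ^ 2)
        + 2 * (β ^ m)⁻¹ * (m : ℝ) ^ 2 * (κ * epsN α ((m - 1) / 2 - 1) * x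
          + (Real.exp L * ((β ^ m)⁻¹) ^ 3) * (tauN ((m - 1) / 2 - 1) + δ₁)
          + (8192 * CD / (Real.exp L * ((β ^ m)⁻¹) ^ 3) + 32 * δ₁)))
    (ha : Real.exp L * (m : ℝ) ^ 2 * ((β ^ m)⁻¹) ^ 4 * tauN ((m - 1) / 2 - 1)
        ≤ Real.exp (-(L : ℝ)) * β ^ m) :
    T ≤ (2 * CT * x * ((m : ℝ) * γ ^ m) + 2 * μ ^ 2 * ((m : ℝ) ^ 2 * γ ^ m))
      + 2 * x * ((β ^ m)⁻¹ * (m : ℝ) ^ 2 * (κ * epsN α ((m - 1) / 2 - 1)))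
      + 2 * Real.exp (-(L : ℝ)) * β ^ m
      + 16384 * CD * Real.exp (-(L : ℝ)) * ((m : ℝ) ^ 2 * (β ^ 2) ^ m)
      + 2 * (β ^ m)⁻¹ * (m : ℝ) ^ 2 * (Real.exp L * ((β ^ m)⁻¹) ^ 3 + 32) * δ₁ := by
  have hβm : β ^ m ≠ 0 := (pow_pos hβ0 m).ne'
  have e : 2 * (β ^ m)⁻¹ * (m : ℝ) ^ 2 * (8192 * CD / (Real.exp L * ((β ^ m)⁻¹) ^ 3))
      = 16384 * CD * Real.exp (-(L : ℝ)) * ((m : ℝ) ^ 2 * (β ^ 2) ^ m) := by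
    rw [Real.exp_neg, ← pow_mul, mul_comm 2 m, pow_mul]
    field_simp
    ring
  have e2 : 2 * γ ^ m * (CT * m * x + (m : ℝ) ^ 2 * μ ^ 2)
        + 2 * (β ^ m)⁻¹ * (m : ℝ) ^ 2 * (κ * epsN α ((m - 1) / 2 - 1) * x
          + (Real.exp L * ((β ^ m)⁻¹) ^ 3) * (tauN ((m - 1) / 2 - 1) + δ₁)
          + (8192 * CD / (Real.exp L * ((β ^ m)⁻¹) ^ 3) + 32 * δ₁))
      = (2 * CT * x * ((m : ℝ) * γ ^ m) + 2 * μ ^ 2 * ((m : ℝ) ^ 2 * γ ^ m))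
        + 2 * x * ((β ^ m)⁻¹ * (m : ℝ) ^ 2 * (κ * epsN α ((m - 1) / 2 - 1)))
        + 2 * (Real.exp L * (m : ℝ) ^ 2 * ((β ^ m)⁻¹) ^ 4 * tauN ((m - 1) / 2 - 1))
        + 2 * (β ^ m)⁻¹ * (m : ℝ) ^ 2 * (8192 * CD / (Real.exp L * ((β ^ m)⁻¹) ^ 3))
        + 2 * (β ^ m)⁻¹ * (m : ℝ) ^ 2 * (Real.exp L * ((β ^ m)⁻¹) ^ 3 + 32) * δ₁ := by
    ring
  rw [e2, e] at h3
  linarith

/-- The sum of the terms in the middle range. -/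
theorem P_sum_mid {CT Kn x μ CD δ₁ β γ κ α : ℝ} {t : ℕ → ℝ} {M m₀ L : ℕ} {s₂ : Finset ℕ}
    (hCT : 0 ≤ CT) (hx : 0 ≤ x) (hCD : 0 ≤ CD) (hδ₁ : 0 ≤ δ₁) (hβ0 : 0 < β) (hβ1 : β < 1)
    (hγ0 : 0 ≤ γ) (hγ1 : γ < 1) (hs₂m : ∀ m ∈ s₂, M ≤ m ∧ m ≤ m₀)
    (h3 : ∀ m : ℕ, M ≤ m → m ≤ m₀ →
      t m ≤ 2 * γ ^ m * (CT * m * x + (m : ℝ) ^ 2 * μ ^ 2)
        + 2 * (β ^ m)⁻¹ * (m : ℝ) ^ 2 * (κ * epsN α ((m - 1) / 2 - 1) * x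
          + (Real.exp L * ((β ^ m)⁻¹) ^ 3) * (tauN ((m - 1) / 2 - 1) + δ₁)
          + (8192 * CD / (Real.exp L * ((β ^ m)⁻¹) ^ 3) + 32 * δ₁)))
    (ha : ∀ m : ℕ, M ≤ m → Real.exp L * (m : ℝ) ^ 2 * ((β ^ m)⁻¹) ^ 4 * tauN ((m - 1) / 2 - 1)
        ≤ Real.exp (-(L : ℝ)) * β ^ m)
    (hb : ∀ s : Finset ℕ, (∀ m ∈ s, M ≤ m) →
      ∑ m ∈ s, (β ^ m)⁻¹ * (m : ℝ) ^ 2 * (κ * epsN α ((m - 1) / 2 - 1)) ≤ Kn) :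
    ∑ m ∈ s₂, t m ≤
      (2 * CT / (1 - γ) ^ 2 + 2 * Kn) * x + 4 / (1 - γ) ^ 3 * μ ^ 2
      + (2 / (1 - β) + 32768 * CD / (1 - β ^ 2) ^ 3) * Real.exp (-(L : ℝ))
      + (∑ m ∈ range (m₀ + 1), 2 * (β ^ m)⁻¹ * (m : ℝ) ^ 2
            * (Real.exp L * ((β ^ m)⁻¹) ^ 3 + 32)) * δ₁ := by
  have hpt : ∀ m ∈ s₂, t m ≤ _ := fun m hm =>
    P_term_mid hβ0 (h3 m (hs₂m m hm).1 (hs₂m m hm).2) (ha m (hs₂m m hm).1)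
  have hbinv : ∀ m : ℕ, 0 < (β ^ m)⁻¹ := fun m => inv_pos.2 (pow_pos hβ0 m)
  have hexp : 0 < Real.exp (L : ℝ) := Real.exp_pos _
  have hβ2 : β ^ 2 < 1 := by nlinarith
  refine (sum_le_sum hpt).trans ?_
  rw [sum_add_distrib, sum_add_distrib, sum_add_distrib, sum_add_distrib, sum_add_distrib]
  have b1 := sum_mul_pow_le hγ0 hγ1 s₂
  have b2 := sum_sq_mul_pow_le hγ0 hγ1 s₂
  have b3 := hb s₂ (fun m hm => (hs₂m m hm).1)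
  have b4 := sum_pow_le hβ0.le hβ1 s₂
  have b5 := sum_sq_mul_pow_le (by positivity : (0 : ℝ) ≤ β ^ 2) hβ2 s₂
  have b6 : ∑ m ∈ s₂, 2 * (β ^ m)⁻¹ * (m : ℝ) ^ 2 * (Real.exp L * ((β ^ m)⁻¹) ^ 3 + 32)
      ≤ ∑ m ∈ range (m₀ + 1), 2 * (β ^ m)⁻¹ * (m : ℝ) ^ 2
          * (Real.exp L * ((β ^ m)⁻¹) ^ 3 + 32) := by
    refine sum_le_sum_of_subset_of_nonneg (fun m hm => ?_) (fun m _ _ => ?_)
    · exact mem_range.2 (by have := (hs₂m m hm).2; omega)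
    · have := hbinv m
      positivity
  have E1 : ∑ m ∈ s₂, 2 * CT * x * ((m : ℝ) * γ ^ m) = 2 * CT * x * ∑ m ∈ s₂, (m : ℝ) * γ ^ m :=
    (mul_sum _ _ _).symm
  have E2 : ∑ m ∈ s₂, 2 * μ ^ 2 * ((m : ℝ) ^ 2 * γ ^ m)
      = 2 * μ ^ 2 * ∑ m ∈ s₂, (m : ℝ) ^ 2 * γ ^ m := (mul_sum _ _ _).symm
  have E3 : ∑ m ∈ s₂, 2 * x * ((β ^ m)⁻¹ * (m : ℝ) ^ 2 * (κ * epsN α ((m - 1) / 2 - 1)))
      = 2 * x * ∑ m ∈ s₂, (β ^ m)⁻¹ * (m : ℝ) ^ 2 * (κ * epsN α ((m - 1) / 2 - 1)) :=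
    (mul_sum _ _ _).symm
  have E4 : ∑ m ∈ s₂, 2 * Real.exp (-(L : ℝ)) * β ^ m
      = 2 * Real.exp (-(L : ℝ)) * ∑ m ∈ s₂, β ^ m := (mul_sum _ _ _).symm
  have E5 : ∑ m ∈ s₂, 16384 * CD * Real.exp (-(L : ℝ)) * ((m : ℝ) ^ 2 * (β ^ 2) ^ m)
      = 16384 * CD * Real.exp (-(L : ℝ)) * ∑ m ∈ s₂, (m : ℝ) ^ 2 * (β ^ 2) ^ m :=
    (mul_sum _ _ _).symm
  have E6 : ∑ m ∈ s₂, 2 * (β ^ m)⁻¹ * (m : ℝ) ^ 2 * (Real.exp L * ((β ^ m)⁻¹) ^ 3 + 32) * δ₁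
      = (∑ m ∈ s₂, 2 * (β ^ m)⁻¹ * (m : ℝ) ^ 2 * (Real.exp L * ((β ^ m)⁻¹) ^ 3 + 32)) * δ₁ :=
    (sum_mul _ _ _).symm
  rw [E1, E2, E3, E4, E5, E6]
  have hexp2 : 0 < Real.exp (-(L : ℝ)) := Real.exp_pos _
  have c1 := mul_le_mul_of_nonneg_left b1 (by positivity : 0 ≤ 2 * CT * x)
  have c2 := mul_le_mul_of_nonneg_left b2 (by positivity : 0 ≤ 2 * μ ^ 2)
  have c3 := mul_le_mul_of_nonneg_left b3 (by positivity : 0 ≤ 2 * x)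
  have c4 := mul_le_mul_of_nonneg_left b4 (by positivity : 0 ≤ 2 * Real.exp (-(L : ℝ)))
  have c5 := mul_le_mul_of_nonneg_left b5
    (by positivity : 0 ≤ 16384 * CD * Real.exp (-(L : ℝ)))
  have c6 := mul_le_mul_of_nonneg_right b6 hδ₁
  have e1 : 2 * CT * x * (1 / (1 - γ) ^ 2) = 2 * CT / (1 - γ) ^ 2 * x := by ring
  have e2 : 2 * μ ^ 2 * (2 / (1 - γ) ^ 3) = 4 / (1 - γ) ^ 3 * μ ^ 2 := by ring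
  have e4 : 2 * Real.exp (-(L : ℝ)) * (1 / (1 - β)) = 2 / (1 - β) * Real.exp (-(L : ℝ)) := by ring
  have e5 : 16384 * CD * Real.exp (-(L : ℝ)) * (2 / (1 - β ^ 2) ^ 3)
      = 32768 * CD / (1 - β ^ 2) ^ 3 * Real.exp (-(L : ℝ)) := by ring
  rw [e1] at c1
  rw [e2] at c2
  rw [e4] at c4
  rw [e5] at c5
  have e7 : (2 * CT / (1 - γ) ^ 2 + 2 * Kn) * x + 4 / (1 - γ) ^ 3 * μ ^ 2
      + (2 / (1 - β) + 32768 * CD / (1 - β ^ 2) ^ 3) * Real.exp (-(L : ℝ))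
      = 2 * CT / (1 - γ) ^ 2 * x + 4 / (1 - γ) ^ 3 * μ ^ 2 + 2 * x * Kn
        + 2 / (1 - β) * Real.exp (-(L : ℝ))
        + 32768 * CD / (1 - β ^ 2) ^ 3 * Real.exp (-(L : ℝ)) := by ring
  rw [e7]
  linarith

/-- The sum of the terms of the expansion. -/
theorem P_sum_bound {CT Kn x μ CD δ₁ ρ₁ ρ₂ β γ κ α : ℝ} {t : ℕ → ℝ} {M m₀ ℓ L : ℕ}
    (hCT : 0 ≤ CT) (hx : 0 ≤ x) (hCD : 0 ≤ CD) (hδ₁ : 0 ≤ δ₁) (hρ₁0 : 0 ≤ ρ₁) (hρ₁1 : ρ₁ < 1)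
    (hρ₂0 : 0 ≤ ρ₂) (hρ₂1 : ρ₂ < 1) (hβ0 : 0 < β) (hβ1 : β < 1) (hγ0 : 0 ≤ γ) (hγ1 : γ < 1)
    (h1 : ∀ m : ℕ, t m ≤ 2 * (CT * m * x + (m : ℝ) ^ 2 * μ ^ 2))
    (h2 : ∀ m : ℕ, t m ≤ ρ₁ ^ m + ρ₂ ^ m)
    (h3 : ∀ m : ℕ, M ≤ m → m ≤ m₀ →
      t m ≤ 2 * γ ^ m * (CT * m * x + (m : ℝ) ^ 2 * μ ^ 2)
        + 2 * (β ^ m)⁻¹ * (m : ℝ) ^ 2 * (κ * epsN α ((m - 1) / 2 - 1) * x
          + (Real.exp L * ((β ^ m)⁻¹) ^ 3) * (tauN ((m - 1) / 2 - 1) + δ₁)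
          + (8192 * CD / (Real.exp L * ((β ^ m)⁻¹) ^ 3) + 32 * δ₁)))
    (ha : ∀ m : ℕ, M ≤ m → Real.exp L * (m : ℝ) ^ 2 * ((β ^ m)⁻¹) ^ 4 * tauN ((m - 1) / 2 - 1)
        ≤ Real.exp (-(L : ℝ)) * β ^ m)
    (hb : ∀ s : Finset ℕ, (∀ m ∈ s, M ≤ m) →
      ∑ m ∈ s, (β ^ m)⁻¹ * (m : ℝ) ^ 2 * (κ * epsN α ((m - 1) / 2 - 1)) ≤ Kn) :
    ∑ m ∈ range (ℓ + 1), t m ≤ (2 * CT * (M : ℝ) ^ 2 + 2 * CT / (1 - γ) ^ 2 + 2 * Kn) * x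
        + (2 * (M : ℝ) ^ 3 + 4 / (1 - γ) ^ 3) * μ ^ 2
        + (2 / (1 - β) + 32768 * CD / (1 - β ^ 2) ^ 3) * Real.exp (-(L : ℝ))
        + (∑ m ∈ range (m₀ + 1), 2 * (β ^ m)⁻¹ * (m : ℝ) ^ 2
            * (Real.exp L * ((β ^ m)⁻¹) ^ 3 + 32)) * δ₁
        + ρ₁ ^ (m₀ + 1) / (1 - ρ₁) + ρ₂ ^ (m₀ + 1) / (1 - ρ₂) := by
  classical
  set s := range (ℓ + 1) with hs
  set s₁ := s.filter (fun m => m < M) with hs₁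
  set s' := s.filter (fun m => ¬ m < M) with hs'
  set s₂ := s'.filter (fun m => m ≤ m₀) with hs₂
  set s₃ := s'.filter (fun m => ¬ m ≤ m₀) with hs₃
  have hsplit : ∑ m ∈ s, t m = ∑ m ∈ s₁, t m + (∑ m ∈ s₂, t m + ∑ m ∈ s₃, t m) := by
    rw [sum_filter_add_sum_filter_not, sum_filter_add_sum_filter_not]
  rw [hsplit]
  -- the part `m < M`
  have hMnn : (0 : ℝ) ≤ (M : ℝ) := Nat.cast_nonneg M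
  have hs₁m : ∀ m ∈ s₁, (m : ℝ) ≤ M ∧ m ∈ range M := by
    intro m hm
    have h := (mem_filter.1 hm).2
    exact ⟨by exact_mod_cast h.le, mem_range.2 h⟩
  have hsub : s₁ ⊆ range M := fun m hm => (hs₁m m hm).2
  have hcard : (s₁.card : ℝ) ≤ M := by
    have := card_le_card hsub
    rw [card_range] at this
    exact_mod_cast this
  have hS1a : ∑ m ∈ s₁, (m : ℝ) ≤ (M : ℝ) ^ 2 := by
    calc ∑ m ∈ s₁, (m : ℝ) ≤ ∑ _m ∈ s₁, (M : ℝ) := sum_le_sum fun m hm => (hs₁m m hm).1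
      _ = s₁.card * (M : ℝ) := by rw [sum_const, nsmul_eq_mul]
      _ ≤ (M : ℝ) * M := mul_le_mul_of_nonneg_right hcard hMnn
      _ = _ := by ring
  have hS1b : ∑ m ∈ s₁, (m : ℝ) ^ 2 ≤ (M : ℝ) ^ 3 := by
    calc ∑ m ∈ s₁, (m : ℝ) ^ 2 ≤ ∑ _m ∈ s₁, (M : ℝ) ^ 2 :=
          sum_le_sum fun m hm => pow_le_pow_left₀ (Nat.cast_nonneg m) (hs₁m m hm).1 2
      _ = s₁.card * (M : ℝ) ^ 2 := by rw [sum_const, nsmul_eq_mul]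
      _ ≤ (M : ℝ) * (M : ℝ) ^ 2 := mul_le_mul_of_nonneg_right hcard (by positivity)
      _ = _ := by ring
  have hP1 : ∑ m ∈ s₁, t m ≤ 2 * CT * (M : ℝ) ^ 2 * x + 2 * (M : ℝ) ^ 3 * μ ^ 2 := by
    calc ∑ m ∈ s₁, t m ≤ ∑ m ∈ s₁, 2 * (CT * m * x + (m : ℝ) ^ 2 * μ ^ 2) :=
          sum_le_sum fun m _ => h1 m
      _ = 2 * CT * x * ∑ m ∈ s₁, (m : ℝ) + 2 * μ ^ 2 * ∑ m ∈ s₁, (m : ℝ) ^ 2 := by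
          rw [mul_sum, mul_sum, ← sum_add_distrib]
          refine sum_congr rfl fun m _ => ?_
          ring
      _ ≤ 2 * CT * x * (M : ℝ) ^ 2 + 2 * μ ^ 2 * (M : ℝ) ^ 3 :=
          add_le_add (mul_le_mul_of_nonneg_left hS1a (by positivity))
            (mul_le_mul_of_nonneg_left hS1b (by positivity))
      _ = _ := by ring
  -- the tail
  have hs₃m : ∀ m ∈ s₃, m₀ + 1 ≤ m := by
    intro m hm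
    have h := (mem_filter.1 hm).2
    omega
  have hP3 : ∑ m ∈ s₃, t m ≤ ρ₁ ^ (m₀ + 1) / (1 - ρ₁) + ρ₂ ^ (m₀ + 1) / (1 - ρ₂) := by
    calc ∑ m ∈ s₃, t m ≤ ∑ m ∈ s₃, (ρ₁ ^ m + ρ₂ ^ m) := sum_le_sum fun m _ => h2 m
      _ = ∑ m ∈ s₃, ρ₁ ^ m + ∑ m ∈ s₃, ρ₂ ^ m := sum_add_distrib
      _ ≤ _ := add_le_add (tail_geom_le hρ₁0 hρ₁1 _ _ hs₃m) (tail_geom_le hρ₂0 hρ₂1 _ _ hs₃m)
  -- the middle part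
  have hs₂m : ∀ m ∈ s₂, M ≤ m ∧ m ≤ m₀ := by
    intro m hm
    have h := mem_filter.1 hm
    have h' := (mem_filter.1 h.1).2
    exact ⟨by omega, h.2⟩
  have hP2 := P_sum_mid (s₂ := s₂) hCT hx hCD hδ₁ hβ0 hβ1 hγ0 hγ1 hs₂m h3 ha hb
  have e : (2 * CT * (M : ℝ) ^ 2 + 2 * CT / (1 - γ) ^ 2 + 2 * Kn) * x
        + (2 * (M : ℝ) ^ 3 + 4 / (1 - γ) ^ 3) * μ ^ 2
      = (2 * CT * (M : ℝ) ^ 2 * x + 2 * (M : ℝ) ^ 3 * μ ^ 2)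
        + ((2 * CT / (1 - γ) ^ 2 + 2 * Kn) * x + 4 / (1 - γ) ^ 3 * μ ^ 2) := by ring
  rw [e]
  linarith

end

end Vale.Agent.Lib.P161
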