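import Vale.Agent.Lib.P161.End.StatP
import Vale.Agent.Lib.P161.End.StatP1

/-!
P161 endpoint, module StatP2: the static bound of `P = E ‖coef¹ - coef²‖²` (assembly).
See notes/P161_endpoint_blueprint.md, section 4.
-/

open MeasureTheory ProbabilityTheory Finset

namespace Vale.Agent.Lib.P161

noncomputable section

variable {V : Type*} [DecidableEq V] {G : SimpleGraph V} [G.LocallyFinite] {d : ℕ}

/-- An exponential bound used for the tail of `tanh²`. -/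
theorem W_exp_le {s L : ℝ} (hs0 : 0 < s) (hs : s ≤ 1 / 16) (hL : 1 ≤ L) :
    (1 / s ^ 2 + L) ^ 2 * Real.exp (2 * L) ≤ Real.exp (9 * L * (1 / Real.sqrt s)) := by
  set y := 1 / Real.sqrt s with hy
  have hrs : 0 < Real.sqrt s := Real.sqrt_pos.2 hs0
  have hrs2 : Real.sqrt s ^ 2 = s := Real.sq_sqrt hs0.le
  have hrs1 : Real.sqrt s ≤ 1 / 4 := by
    have : Real.sqrt s ≤ Real.sqrt ((1 / 4) ^ 2) := Real.sqrt_le_sqrt (by norm_num; linarith)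
    rwa [Real.sqrt_sq (by norm_num)] at this
  have hy4 : 4 ≤ y := by
    rw [hy, le_div_iff₀ hrs]
    linarith
  have hy0 : 0 < y := by linarith
  have e1 : 1 / s ^ 2 = y ^ 4 := by
    have h4 : Real.sqrt s ^ 4 = s ^ 2 := by
      calc Real.sqrt s ^ 4 = (Real.sqrt s ^ 2) ^ 2 := by ring
        _ = s ^ 2 := by rw [hrs2]
    rw [hy, div_pow, one_pow, h4]
  have h1 : y ≤ Real.exp y := by linarith [Real.add_one_le_exp y]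
  have h2 : y ^ 4 ≤ Real.exp (4 * y) := by
    have : Real.exp (4 * y) = Real.exp y ^ 4 := by
      rw [← Real.exp_nat_mul]
      norm_num
    rw [this]
    exact pow_le_pow_left₀ hy0.le h1 4
  have h3 : 1 + L ≤ Real.exp L := by linarith [Real.add_one_le_exp L]
  have h4 : y ^ 4 + L ≤ Real.exp (4 * y + L) := by
    rw [Real.exp_add]
    have h5 : (1 : ℝ) ≤ y ^ 4 := one_le_pow₀ (by linarith)
    calc y ^ 4 + L ≤ y ^ 4 * (1 + L) := by nlinarith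
      _ ≤ _ := mul_le_mul h2 h3 (by linarith) (Real.exp_pos _).le
  rw [e1]
  have h5 : (0 : ℝ) ≤ y ^ 4 + L := by positivity
  calc (y ^ 4 + L) ^ 2 * Real.exp (2 * L) ≤ Real.exp (4 * y + L) ^ 2 * Real.exp (2 * L) :=
        mul_le_mul_of_nonneg_right (pow_le_pow_left₀ h5 h4 2) (Real.exp_pos _).le
    _ = Real.exp (8 * y + 4 * L) := by
        rw [← Real.exp_nat_mul, ← Real.exp_add]
        congr 1
        push_cast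
        ring
    _ ≤ _ := by
        apply Real.exp_le_exp.2
        nlinarith

/-- The algebra of the final bound. -/
theorem P_algebra {K₅ s L N x μ R R₀ E1 D δ₁ Lp dt2 τ₁ τ₂ c Ca CD Tail P Qm δ : ℝ}
    (hK₅ : 0 < K₅) (hs0 : 0 < s) (hs : s ≤ 1 / 16) (hL : 1 ≤ L) (hN : 0 ≤ N) (hCa : 0 ≤ Ca)
    (hCD : 0 ≤ CD) (hδ₁ : 0 ≤ δ₁) (hdt : 0 ≤ dt2) (hLp : 0 ≤ Lp) (hRR : R ≤ R₀) (hR₀ : 0 ≤ R₀)
    (hQm : K₅ * (1 / s ^ 2 + L) ≤ Qm)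
    (hc1 : c ≤ 1) (hc2 : c ≤ Ca * Real.sqrt s * L)
    (hc0 : 0 ≤ c)
    (hτ₁ : τ₁ ≤ 2 * Real.exp (-(9 * L * (1 / Real.sqrt s))) + δ₁)
    (hτ₂ : τ₂ ≤ 2 * Real.exp (-(9 * L * (1 / Real.sqrt s))) + δ₁)
    (hx0 : 0 ≤ x)
    (hx : x ≤ 16 * c * N + 8 * (K₅ * (1 / s ^ 2 + L) * Real.exp L) * (τ₁ + τ₂)
      + 16 * (16 * CD / (K₅ * (1 / s ^ 2 + L) * Real.exp L) + 4 * δ₁) + Lp * dt2)
    (hP : P ≤ K₅ * (1 / s ^ 2 + L) * x + R * μ ^ 2 + E1 * Real.exp (-L) + D * δ₁ + Tail)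
    (hsmall : (D + 64 * Qm + 16 * Qm * (Qm * Real.exp L)) * δ₁ + Tail ≤ δ) :
    P ≤ 16 * K₅ * (Ca + 1) * L * (1 + 1 / (s * Real.sqrt s)) * N
      + (E1 + 256 * CD + 32 * K₅ ^ 2) * Real.exp (-L)
      + (R₀ + Qm * Lp) * (μ ^ 2 + dt2) + δ := by
  set W := 1 / s ^ 2 + L with hW
  have hW1 : 0 < W := by positivity
  have hrs : 0 < Real.sqrt s := Real.sqrt_pos.2 hs0
  have hrs2 : Real.sqrt s * Real.sqrt s = s := Real.mul_self_sqrt hs0.le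
  set Q := K₅ * W with hQ
  have hQ0 : 0 < Q := by positivity
  have hQ1 : Q ≤ Qm := hQm
  have hE : 0 < Real.exp L := Real.exp_pos _
  have hs1 : s ≤ 1 := by linarith
  -- the first term
  have t1 : W * c ≤ (Ca + 1) * L * (1 + 1 / (s * Real.sqrt s)) := by
    have key : ∀ r : ℝ, 0 < r → 1 / (r * r) ^ 2 * (Ca * r * L) = Ca * L * (1 / ((r * r) * r)) := by
      intro r hr
      field_simp
    have e : 1 / s ^ 2 * (Ca * Real.sqrt s * L) = Ca * L * (1 / (s * Real.sqrt s)) := by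
      have := key (Real.sqrt s) hrs
      rwa [hrs2] at this
    have h1 : 1 / s ^ 2 * c ≤ Ca * L * (1 / (s * Real.sqrt s)) := by
      rw [← e]
      exact mul_le_mul_of_nonneg_left hc2 (by positivity)
    have h2 : L * c ≤ L := by nlinarith
    have h3 : 0 ≤ 1 / (s * Real.sqrt s) := by positivity
    have h4 : 0 ≤ Ca * L := by positivity
    have h5 : 0 ≤ L * (1 / (s * Real.sqrt s)) := by positivity
    calc W * c = 1 / s ^ 2 * c + L * c := by rw [hW]; ring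
      _ ≤ Ca * L * (1 / (s * Real.sqrt s)) + L := add_le_add h1 h2
      _ ≤ _ := by nlinarith
  have T1 : Q * (16 * c * N) ≤ 16 * K₅ * (Ca + 1) * L * (1 + 1 / (s * Real.sqrt s)) * N := by
    have := mul_le_mul_of_nonneg_right t1 (by positivity : 0 ≤ 16 * K₅ * N)
    calc Q * (16 * c * N) = W * c * (16 * K₅ * N) := by rw [hQ]; ring
      _ ≤ _ := this
      _ = _ := by ring
  -- the second term
  have hexpm : Real.exp (-(9 * L * (1 / Real.sqrt s))) * Real.exp (9 * L * (1 / Real.sqrt s)) = 1 := by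
    rw [← Real.exp_add]; simp
  have hW2 := W_exp_le hs0 hs hL
  have t2 : W ^ 2 * Real.exp L * Real.exp (-(9 * L * (1 / Real.sqrt s))) ≤ Real.exp (-L) := by
    have hp : 0 < Real.exp (-(9 * L * (1 / Real.sqrt s))) := Real.exp_pos _
    have h1 : W ^ 2 * Real.exp (2 * L) * Real.exp (-(9 * L * (1 / Real.sqrt s))) ≤ 1 := by
      calc _ ≤ Real.exp (9 * L * (1 / Real.sqrt s)) * Real.exp (-(9 * L * (1 / Real.sqrt s))) :=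
            mul_le_mul_of_nonneg_right hW2 hp.le
        _ = 1 := by rw [mul_comm]; exact hexpm
    have e : Real.exp (2 * L) = Real.exp L * Real.exp L := by
      rw [← Real.exp_add]; congr 1; ring
    have hm : Real.exp L * Real.exp (-L) = 1 := by rw [← Real.exp_add]; simp
    have hpos : 0 < Real.exp (-L) := Real.exp_pos _
    calc W ^ 2 * Real.exp L * Real.exp (-(9 * L * (1 / Real.sqrt s)))
        = (W ^ 2 * Real.exp (2 * L) * Real.exp (-(9 * L * (1 / Real.sqrt s)))) * Real.exp (-L) := by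
          rw [e]
          calc _ = W ^ 2 * Real.exp L * Real.exp (-(9 * L * (1 / Real.sqrt s))) *
                (Real.exp L * Real.exp (-L)) := by rw [hm]; ring
            _ = _ := by ring
      _ ≤ 1 * Real.exp (-L) := mul_le_mul_of_nonneg_right h1 hpos.le
      _ = _ := one_mul _
  set A := Q * Real.exp L with hA
  have hA0 : 0 < A := by positivity
  have T2 : Q * (8 * A * (τ₁ + τ₂)) ≤ 32 * K₅ ^ 2 * Real.exp (-L) + 16 * Q * A * δ₁ := by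
    have h1 : 8 * A * (τ₁ + τ₂)
        ≤ 8 * A * (4 * Real.exp (-(9 * L * (1 / Real.sqrt s))) + 2 * δ₁) :=
      mul_le_mul_of_nonneg_left (by linarith) (by positivity)
    have h2 := mul_le_mul_of_nonneg_left h1 hQ0.le
    refine h2.trans ?_
    have h3 : Q * (8 * A * (4 * Real.exp (-(9 * L * (1 / Real.sqrt s)))))
        = 32 * K₅ ^ 2 * (W ^ 2 * Real.exp L * Real.exp (-(9 * L * (1 / Real.sqrt s)))) := by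
      rw [hA, hQ]; ring
    have h4 := mul_le_mul_of_nonneg_left t2 (by positivity : 0 ≤ 32 * K₅ ^ 2)
    have e : Q * (8 * A * (4 * Real.exp (-(9 * L * (1 / Real.sqrt s))) + 2 * δ₁))
        = Q * (8 * A * (4 * Real.exp (-(9 * L * (1 / Real.sqrt s))))) + 16 * Q * A * δ₁ := by ring
    rw [e, h3]
    linarith
  -- the third term
  have T3 : Q * (16 * (16 * CD / A + 4 * δ₁)) = 256 * CD * Real.exp (-L) + 64 * Q * δ₁ := by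
    have hm : Real.exp (-L) = (Real.exp L)⁻¹ := Real.exp_neg L
    rw [hm, hA]
    field_simp
    ring
  -- the assembly
  have hQx : Q * x ≤ Q * (16 * c * N) + Q * (8 * A * (τ₁ + τ₂))
      + Q * (16 * (16 * CD / A + 4 * δ₁)) + Q * (Lp * dt2) := by
    have := mul_le_mul_of_nonneg_left hx hQ0.le
    calc Q * x ≤ _ := this
      _ = _ := by ring
  have T4 : Q * (Lp * dt2) ≤ Qm * Lp * dt2 := by
    have := mul_le_mul_of_nonneg_right hQ1 (by positivity : 0 ≤ Lp * dt2)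
    calc Q * (Lp * dt2) ≤ Qm * (Lp * dt2) := this
      _ = _ := by ring
  have T5 : R * μ ^ 2 ≤ R₀ * μ ^ 2 := mul_le_mul_of_nonneg_right hRR (sq_nonneg _)
  have T6 : 64 * Q * δ₁ + 16 * Q * A * δ₁ ≤ (64 * Qm + 16 * Qm * (Qm * Real.exp L)) * δ₁ := by
    have hA1 : A ≤ Qm * Real.exp L := mul_le_mul_of_nonneg_right hQ1 hE.le
    have hQm0 : 0 < Qm := lt_of_lt_of_le hQ0 hQ1
    have h1 : Q * A ≤ Qm * (Qm * Real.exp L) := mul_le_mul hQ1 hA1 hA0.le hQm0.le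
    have h2 : 64 * Q + 16 * (Q * A) ≤ 64 * Qm + 16 * (Qm * (Qm * Real.exp L)) := by linarith
    have := mul_le_mul_of_nonneg_right h2 hδ₁
    calc 64 * Q * δ₁ + 16 * Q * A * δ₁ = (64 * Q + 16 * (Q * A)) * δ₁ := by ring
      _ ≤ _ := this
      _ = _ := by ring
  have e1 : (E1 + 256 * CD + 32 * K₅ ^ 2) * Real.exp (-L)
      = E1 * Real.exp (-L) + 256 * CD * Real.exp (-L) + 32 * K₅ ^ 2 * Real.exp (-L) := by ring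
  have e2 : (R₀ + Qm * Lp) * (μ ^ 2 + dt2)
      = R₀ * μ ^ 2 + R₀ * dt2 + Qm * Lp * μ ^ 2 + Qm * Lp * dt2 := by ring
  have hQm0 : 0 < Qm := lt_of_lt_of_le hQ0 hQ1
  have hp1 : 0 ≤ R₀ * dt2 := mul_nonneg hR₀ hdt
  have hp2 : 0 ≤ Qm * Lp * μ ^ 2 := by positivity
  rw [e1, e2]
  have hD : D * δ₁ + (64 * Q * δ₁ + 16 * Q * A * δ₁) + Tail ≤ δ := by
    have e3 : (D + 64 * Qm + 16 * Qm * (Qm * Real.exp L)) * δ₁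
        = D * δ₁ + (64 * Qm + 16 * Qm * (Qm * Real.exp L)) * δ₁ := by ring
    rw [e3] at hsmall
    linarith
  rw [T3] at hQx
  linarith


/-- `137 ^ p ≤ β ^ (-m)` for `m ≥ C p`. -/
theorem pow137_le {β : ℝ} (h0 : 0 < β) (h1 : β < 1) {p m : ℕ}
    (h : Real.log 137 / Real.log (1 / β) * p ≤ m) : (137 : ℝ) ^ p ≤ (β ^ m)⁻¹ := by
  have hb : 1 < 1 / β := by rw [lt_div_iff₀ h0]; linarith
  have hl : 0 < Real.log (1 / β) := Real.log_pos hb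
  have e1 : (137 : ℝ) ^ p = Real.exp (p * Real.log 137) := by
    rw [Real.exp_nat_mul, Real.exp_log (by norm_num)]
  have e2 : (β ^ m)⁻¹ = Real.exp (m * Real.log (1 / β)) := by
    rw [Real.exp_nat_mul, Real.exp_log (by positivity), one_div, inv_pow]
  rw [e1, e2]
  apply Real.exp_le_exp.2
  rw [div_mul_eq_mul_div, div_le_iff₀ hl] at h
  linarith

/-- The raw bound of `P`, from the three bounds of the terms. -/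
theorem P_raw (hT : G.IsTree) (hdeg : ∀ v, G.degree v = d) (hd : 3 ≤ d) {CT : ℝ} (hCT : 0 < CT)
    (hterm : ∀ (θ₁ θ₂ : ℝ), GoodT d θ₁ → GoodT d θ₂ → |θ₁ - θ₂| ≤ dThetaMax d →
      ∀ (η₁ η₂ : (V → unitInterval) → V → V → ℝ) (p : ℕ) (α κ CD Cu s δ₁ : ℝ) (m₀ : ℕ), 0 < α →
      α < 1 → 1 ≤ κ → 0 ≤ δ₁ → 0 ≤ CD →
      FieldPack G d θ₁ η₁ p α κ CD Cu s m₀ δ₁ → FieldPack G d θ₂ η₂ p α κ CD Cu s m₀ δ₁ →
      ∀ (r : ℕ → V), IsRay G r → ∀ m : ℕ,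
        let t := ((d : ℝ) - 1) ^ m *
          ∫ u, (prodW (wgt θ₁ (η₁ u)) (rayList r m) - prodW (wgt θ₂ (η₂ u)) (rayList r m)) ^ 2
            ∂(uniformField V)
        let x := ∫ u, lX θ₁ θ₂ (η₁ u) (η₂ u) (r 1) (r 0) ^ 2 ∂(uniformField V)
        let μ := ∫ u, lX θ₁ θ₂ (η₁ u) (η₂ u) (r 1) (r 0) ∂(uniformField V)
        t ≤ 2 * (CT * m * x + (m : ℝ) ^ 2 * μ ^ 2) ∧
        t ≤ (θ₁ ^ 2 * ((d : ℝ) - 1)) ^ m + (θ₂ ^ 2 * ((d : ℝ) - 1)) ^ m ∧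
        ∀ (β γ A : ℝ), 0 < β → β < 1 → 0 < γ → γ < 1 → γ ^ p = β → 1 ≤ A → 1 ≤ (m - 1) / 2 →
          (m - 1) / 2 ≤ m₀ →
          t ≤ 2 * γ ^ m * (CT * m * x + (m : ℝ) ^ 2 * μ ^ 2)
            + 2 * (β ^ m)⁻¹ * (m : ℝ) ^ 2 * (κ * epsN α ((m - 1) / 2 - 1) * x
              + A * (tauN ((m - 1) / 2 - 1) + δ₁) + (8192 * CD / A + 32 * δ₁)))
    {β Kn CD Cu s δ₁ : ℝ} (hβ0 : 0 < β) (hβ1 : β < 1) {N₀ N₁ L : ℕ}
    (hCD : 0 ≤ CD) (hδ₁ : 0 ≤ δ₁)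
    (ha : ∀ L : ℕ, 1 ≤ L → ∀ m : ℕ, nLev N₀ N₁ L ≤ m →
        Real.exp L * (m : ℝ) ^ 2 * (β ^ m)⁻¹ ^ 4 * tauN ((m - 1) / 2 - 1)
          ≤ Real.exp (-(L : ℝ)) * β ^ m)
    (hb : ∀ (κ : ℝ) (s : Finset ℕ), 0 ≤ κ → (∀ m ∈ s, N₀ ≤ m ∧ κ ≤ (β ^ m)⁻¹) →
        ∑ m ∈ s, (β ^ m)⁻¹ * (m : ℝ) ^ 2 * (κ * epsN (β ^ 32) ((m - 1) / 2 - 1)) ≤ Kn)
    (hL : 1 ≤ L) {θ₁ θ₂ : ℝ} (hg₁ : GoodT d θ₁) (hg₂ : GoodT d θ₂) (hdθ : |θ₁ - θ₂| ≤ dThetaMax d)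
    {p m₀ : ℕ} (hp : 1 ≤ p) {η₁ η₂ : (V → unitInterval) → V → V → ℝ}
    (hp₁ : FieldPack G d θ₁ η₁ p (β ^ 32) (137 ^ p) CD Cu s m₀ δ₁)
    (hp₂ : FieldPack G d θ₂ η₂ p (β ^ 32) (137 ^ p) CD Cu s m₀ δ₁)
    {a b : V} (hab : G.Adj a b) (ℓ : ℕ) :
    ∃ γ : ℝ, 0 < γ ∧ γ < 1 ∧ 1 / (1 - γ) ≤ 1 + p / Real.log (1 / β) ∧
      ∫ u, nsq (coef (nbV G) (wgt θ₁ (η₁ u)) ℓ a b - coef (nbV G) (wgt θ₂ (η₂ u)) ℓ a b)
          ∂(uniformField V)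
        ≤ (2 * CT * ((⌈Real.log 137 / Real.log (1 / β) * p⌉₊ + nLev N₀ N₁ L + 3 : ℕ) : ℝ) ^ 2
            + 2 * CT / (1 - γ) ^ 2 + 2 * Kn)
            * (∫ u, lX θ₁ θ₂ (η₁ u) (η₂ u) a b ^ 2 ∂(uniformField V))
          + (2 * ((⌈Real.log 137 / Real.log (1 / β) * p⌉₊ + nLev N₀ N₁ L + 3 : ℕ) : ℝ) ^ 3
            + 4 / (1 - γ) ^ 3) * (∫ u, lX θ₁ θ₂ (η₁ u) (η₂ u) a b ∂(uniformField V)) ^ 2
          + (2 / (1 - β) + 32768 * CD / (1 - β ^ 2) ^ 3) * Real.exp (-(L : ℝ))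
          + (∑ m ∈ range (m₀ + 1), 2 * (β ^ m)⁻¹ * (m : ℝ) ^ 2
              * (Real.exp L * ((β ^ m)⁻¹) ^ 3 + 32)) * δ₁
          + (θ₁ ^ 2 * ((d : ℝ) - 1)) ^ (m₀ + 1) / (1 - θ₁ ^ 2 * ((d : ℝ) - 1))
          + (θ₂ ^ 2 * ((d : ℝ) - 1)) ^ (m₀ + 1) / (1 - θ₂ ^ 2 * ((d : ℝ) - 1)) := by
  classical
  haveI := limit_uniformField_prob V
  obtain ⟨γ, hγ0, hγ1, hγp, hγb⟩ := exists_root hβ0 hβ1 hp
  refine ⟨γ, hγ0, hγ1, hγb, ?_⟩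
  obtain ⟨r, hr, hr0, hr1⟩ := exists_ray (d := d) hT hdeg (by omega) hab
  subst hr0 hr1
  set M := ⌈Real.log 137 / Real.log (1 / β) * p⌉₊ + nLev N₀ N₁ L + 3 with hM
  have hd1 : (1 : ℝ) ≤ (d : ℝ) - 1 := by
    have : (3 : ℝ) ≤ d := by exact_mod_cast hd
    linarith
  have hκ : (1 : ℝ) ≤ 137 ^ p := one_le_pow₀ (by norm_num)
  have hα0 : 0 < β ^ 32 := pow_pos hβ0 _
  have hα1 : β ^ 32 < 1 := pow_lt_one₀ hβ0.le hβ1 (by norm_num)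
  have hT' := hterm θ₁ θ₂ hg₁ hg₂ hdθ η₁ η₂ p (β ^ 32) (137 ^ p) CD Cu s δ₁ m₀ hα0 hα1 hκ hδ₁ hCD
    hp₁ hp₂ r hr
  have hP := P_expansion (d := d) hT hdeg (by omega) hg₁.1.le (GoodT.lt_one hd hg₁) hg₂.1.le
    (GoodT.lt_one hd hg₂) hp₁.eqf hp₂.eqf hr ℓ
  rw [hP]
  have hx0 : 0 ≤ ∫ u, lX θ₁ θ₂ (η₁ u) (η₂ u) (r 1) (r 0) ^ 2 ∂(uniformField V) :=
    integral_nonneg fun _ => sq_nonneg _
  have hρ : ∀ θ : ℝ, GoodT d θ → 0 ≤ θ ^ 2 * ((d : ℝ) - 1) ∧ θ ^ 2 * ((d : ℝ) - 1) < 1 :=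
    fun θ h => ⟨by positivity, h.2.2⟩
  refine P_sum_bound (CT := CT) (Kn := Kn) (CD := CD) (δ₁ := δ₁) (β := β) (γ := γ) (κ := 137 ^ p)
    (α := β ^ 32) (M := M) (m₀ := m₀) (ℓ := ℓ) (L := L) hCT.le hx0 hCD hδ₁
    (hρ θ₁ hg₁).1 (hρ θ₁ hg₁).2 (hρ θ₂ hg₂).1 (hρ θ₂ hg₂).2 hβ0 hβ1 hγ0.le hγ1
    (fun m => (hT' m).1) (fun m => (hT' m).2.1) ?_ ?_ ?_
  · intro m hm1 hm2
    have hm3 : 3 ≤ m := by omega
    have hA : 1 ≤ Real.exp L * ((β ^ m)⁻¹) ^ 3 := by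
      have h1 : 1 ≤ Real.exp (L : ℝ) := Real.one_le_exp (Nat.cast_nonneg L)
      have h2 : 1 ≤ (β ^ m)⁻¹ := (one_le_inv₀ (pow_pos hβ0 m)).2 (pow_le_one₀ hβ0.le hβ1.le)
      have h3 : 1 ≤ ((β ^ m)⁻¹) ^ 3 := one_le_pow₀ h2
      nlinarith
    exact (hT' m).2.2 β γ _ hβ0 hβ1 hγ0 hγ1 hγp hA (by omega) (by omega)
  · intro m hm
    have hn : nLev N₀ N₁ L ≤ m := by omega
    exact ha L hL m hn
  · intro t ht
    refine hb (137 ^ p) t (by positivity) fun m hm => ⟨?_, ?_⟩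
    · have h1 := ht m hm
      have h2 : N₀ ≤ nLev N₀ N₁ L := Nat.le_add_right _ _
      omega
    · refine pow137_le hβ0 hβ1 ?_
      have h1 := ht m hm
      have h2 : Real.log 137 / Real.log (1 / β) * p ≤ ⌈Real.log 137 / Real.log (1 / β) * p⌉₊ :=
        Nat.le_ceil _
      have h3 : ((⌈Real.log 137 / Real.log (1 / β) * p⌉₊ : ℕ) : ℝ) ≤ (m : ℝ) := by
        exact_mod_cast (by omega : ⌈Real.log 137 / Real.log (1 / β) * p⌉₊ ≤ m)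
      linarith


/-- The bound of `M²`. -/
theorem M_sq_le {Cs Cq Kn s : ℝ} {p M n : ℕ} {L : ℕ} (hCs : 0 ≤ Cs) (hCq : 0 < Cq)
    (hKn : 1 ≤ Kn) (hs0 : 0 < s) (hs : s ≤ 1 / 16)
    (hpq : (p : ℝ) ≤ Cq / s) (hn : (n : ℝ) ^ 2 ≤ Kn * L)
    (hM : M = ⌈Cs * p⌉₊ + n + 3) :
    (M : ℝ) ^ 2 ≤ 3 * (Cs ^ 2 * Cq ^ 2 + Kn + 1) * (1 / s ^ 2 + L) := by
  have hp0 : (0 : ℝ) ≤ p := Nat.cast_nonneg p
  have hL0 : (0 : ℝ) ≤ L := Nat.cast_nonneg L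
  have hs2 : 16 ≤ 1 / s ^ 2 := by
    rw [le_div_iff₀ (by positivity)]
    nlinarith
  have hM1 : (M : ℝ) ≤ Cs * p + n + 4 := by
    have h1 : ((⌈Cs * p⌉₊ : ℕ) : ℝ) < Cs * p + 1 := Nat.ceil_lt_add_one (by positivity)
    rw [hM]
    push_cast
    linarith
  have hM0 : (0 : ℝ) ≤ M := Nat.cast_nonneg M
  have hcp : (Cs * p) ^ 2 ≤ Cs ^ 2 * Cq ^ 2 * (1 / s ^ 2) := by
    have h1 : (p : ℝ) ^ 2 ≤ (Cq / s) ^ 2 := pow_le_pow_left₀ hp0 hpq 2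
    have e : Cs ^ 2 * Cq ^ 2 * (1 / s ^ 2) = Cs ^ 2 * (Cq / s) ^ 2 := by
      rw [div_pow]
      ring
    rw [e, mul_pow]
    exact mul_le_mul_of_nonneg_left h1 (sq_nonneg _)
  have h1 : (M : ℝ) ^ 2 ≤ (Cs * p + n + 4) ^ 2 := pow_le_pow_left₀ hM0 hM1 2
  obtain ⟨X, hX⟩ : ∃ X, X = Cs * p := ⟨_, rfl⟩
  rw [← hX] at h1 hcp
  have h2 : (X + n + 4) ^ 2 ≤ 3 * (X ^ 2 + (n : ℝ) ^ 2 + 16) := by
    have e : 3 * (X ^ 2 + (n : ℝ) ^ 2 + 16) - (X + n + 4) ^ 2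
        = (X - n) ^ 2 + (X - 4) ^ 2 + ((n : ℝ) - 4) ^ 2 := by ring
    have := sq_nonneg (X - n)
    have := sq_nonneg (X - 4)
    have := sq_nonneg ((n : ℝ) - 4)
    linarith
  obtain ⟨Y, hY⟩ : ∃ Y, Y = 1 / s ^ 2 := ⟨_, rfl⟩
  rw [← hY] at hs2 hcp ⊢
  obtain ⟨Z, hZ⟩ : ∃ Z, Z = Cs ^ 2 * Cq ^ 2 := ⟨_, rfl⟩
  have hZ0 : 0 ≤ Z := by rw [hZ]; positivity
  rw [← hZ] at hcp ⊢
  have h3 : 3 * (Z + Kn + 1) * (Y + L) = 3 * (Z * Y + Z * L + Kn * Y + Kn * L + Y + L) := by ring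
  have h4 : 0 ≤ Z * (L : ℝ) := mul_nonneg hZ0 hL0
  have h5 : 0 ≤ Kn * Y := by
    apply mul_nonneg <;> linarith
  rw [h3]
  linarith

/-- Numerical bound of `1 / (1 - γ)`. -/
theorem G_le {Cq lam s γ : ℝ} {p : ℕ} (hlam : 0 < lam) (hs0 : 0 < s) (hs : s ≤ 1 / 16)
    (hpq : (p : ℝ) ≤ Cq / s) (hγb : 1 / (1 - γ) ≤ 1 + p / lam) :
    1 / (1 - γ) ≤ (1 + Cq / lam) / s := by
  have hss : 1 ≤ 1 / s := by
    rw [le_div_iff₀ hs0]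
    linarith
  have h1 : (p : ℝ) / lam ≤ Cq / s / lam := div_le_div_of_nonneg_right hpq hlam.le
  have e : (1 + Cq / lam) / s = 1 / s + Cq / s / lam := by
    field_simp
  rw [e]
  linarith

/-- The tail of a geometric series. -/
theorem exists_tail_small {ρ ε : ℝ} (h0 : 0 ≤ ρ) (h1 : ρ < 1) (hε : 0 < ε) :
    ∃ n : ℕ, ∀ m, n ≤ m → ρ ^ m / (1 - ρ) ≤ ε := by
  have hp : 0 < 1 - ρ := by linarith
  obtain ⟨n, hn⟩ := exists_pow_lt_of_lt_one (mul_pos hε hp) h1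
  refine ⟨n, fun m hm => ?_⟩
  rw [div_le_iff₀ hp]
  exact (pow_le_pow_of_le_one h0 h1.le hm).trans hn.le

/-- `s^(3/2) = s √s`. -/
theorem rpow_three_halves {s : ℝ} (hs : 0 < s) : s ^ (3 / 2 : ℝ) = s * Real.sqrt s := by
  rw [show (3 / 2 : ℝ) = 1 + 1 / 2 by norm_num, Real.rpow_add hs, Real.rpow_one, Real.sqrt_eq_rpow]

/-- The coefficient of `x`. -/
theorem coef_x_le {CT Kn K₄ K₅ A₀ G M s W : ℝ} (hCT : 0 < CT) (hKn : 1 ≤ Kn)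
    (hK₅e : K₅ = 2 * CT * K₄ + 2 * CT * A₀ ^ 2 + 2 * Kn) (hs0 : 0 < s)
    (hW1 : 1 ≤ W) (hss : 1 / s ^ 2 ≤ W) (hG0 : 0 < G) (hG : G ≤ A₀ / s)
    (hM : M ^ 2 ≤ K₄ * W) : 2 * CT * M ^ 2 + 2 * CT * G ^ 2 + 2 * Kn ≤ K₅ * W := by
  have hG2 : G ^ 2 ≤ A₀ ^ 2 * W := by
    have h2 : G ^ 2 ≤ (A₀ / s) ^ 2 := pow_le_pow_left₀ hG0.le hG 2
    have h3 : (A₀ / s) ^ 2 = A₀ ^ 2 * (1 / s ^ 2) := by
      rw [div_pow]
      ring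
    rw [h3] at h2
    exact h2.trans (mul_le_mul_of_nonneg_left hss (sq_nonneg _))
  have h5 := mul_le_mul_of_nonneg_left hM (by positivity : 0 ≤ 2 * CT)
  have h6 := mul_le_mul_of_nonneg_left hG2 (by positivity : 0 ≤ 2 * CT)
  have h7 : 2 * Kn * 1 ≤ 2 * Kn * W := mul_le_mul_of_nonneg_left hW1 (by linarith)
  rw [hK₅e]
  calc _ ≤ 2 * CT * (K₄ * W) + 2 * CT * (A₀ ^ 2 * W) + 2 * Kn * W := by linarith
    _ = _ := by ring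

/-- The coefficient of `μ²`. -/
theorem coef_mu_le {K₄ A₀ G M s s₀ W W₀ : ℝ} (hK₄ : 0 ≤ K₄) (hA₀ : 0 ≤ A₀) (hs₀ : 0 < s₀)
    (hs₀s : s₀ ≤ s) (hWW : W ≤ W₀) (hG0 : 0 < G) (hG : G ≤ A₀ / s) (hM0 : 0 ≤ M)
    (hM : M ^ 2 ≤ K₄ * W) :
    2 * M ^ 3 + 4 * G ^ 3 ≤ 2 * (K₄ * W₀ * (K₄ * W₀ + 1)) + 4 * (A₀ / s₀) ^ 3 := by
  have hM3 : M ^ 2 ≤ K₄ * W₀ := hM.trans (mul_le_mul_of_nonneg_left hWW hK₄)
  have hM4 : M ^ 3 ≤ K₄ * W₀ * (K₄ * W₀ + 1) := by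
    have h1 : M ≤ M ^ 2 + 1 := by nlinarith [sq_nonneg (M - 1)]
    have h2 : M ≤ K₄ * W₀ + 1 := by linarith
    have h3 : 0 ≤ K₄ * W₀ := le_trans (sq_nonneg M) hM3
    calc M ^ 3 = M ^ 2 * M := by ring
      _ ≤ _ := mul_le_mul hM3 h2 hM0 h3
  have hG4 : G ≤ A₀ / s₀ := hG.trans (div_le_div_of_nonneg_left hA₀ hs₀ hs₀s)
  have hG5 : G ^ 3 ≤ (A₀ / s₀) ^ 3 := pow_le_pow_left₀ hG0.le hG4 3
  linarith

/-- The last step of the combination. -/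
theorem P_last {K₅ Ca E1 CD K C' L I N R₀ Qm Lp μ dt2 δ P : ℝ} (hK₅ : 0 < K₅) (hL : 1 ≤ L) (hN : 0 ≤ N)
    (hI0 : 0 ≤ I) (hdt : 0 ≤ dt2) (hK1 : 16 * K₅ * (Ca + 1) ≤ K)
    (hK2 : E1 + 256 * CD + 32 * K₅ ^ 2 ≤ K) (hC' : R₀ + Qm * Lp ≤ C')
    (hfin : P ≤ 16 * K₅ * (Ca + 1) * L * I * N + (E1 + 256 * CD + 32 * K₅ ^ 2) * Real.exp (-L)
      + (R₀ + Qm * Lp) * (μ ^ 2 + dt2) + δ) :
    P ≤ K * L * I * N + K * Real.exp (-L) + C' * (μ ^ 2 + dt2) + δ := by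
  have h3 := mul_le_mul_of_nonneg_right hK1 (by positivity : 0 ≤ L * I * N)
  have h4 := mul_le_mul_of_nonneg_right hK2 (Real.exp_pos (-L)).le
  have h5 : 0 ≤ μ ^ 2 + dt2 := by positivity
  have h6 := mul_le_mul_of_nonneg_right hC' h5
  have e1 : 16 * K₅ * (Ca + 1) * L * I * N = 16 * K₅ * (Ca + 1) * (L * I * N) := by ring
  have e2 : K * L * I * N = K * (L * I * N) := by ring
  rw [e1] at hfin
  rw [e2]
  linarith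

/-- The combination of the raw bound and the algebra. -/
theorem P_combine {CT Kn x μ E1 D δ₁ t₁ t₂ K₄ K₅ A₀ G M W₀ s s₀ L N Lp dt2 τ₁ τ₂ c Ca CD P δ K C' Z : ℝ}
    (hCT : 0 < CT) (hKn : 1 ≤ Kn) (hK₄ : 0 ≤ K₄) (hK₅ : 0 < K₅) (hA₀ : 0 ≤ A₀)
    (hK₅e : K₅ = 2 * CT * K₄ + 2 * CT * A₀ ^ 2 + 2 * Kn) (hs₀ : 0 < s₀) (hs₀s : s₀ ≤ s)
    (hs : s ≤ 1 / 16) (hL : 1 ≤ L) (hN : 0 ≤ N) (hCa : 0 ≤ Ca) (hCD : 0 ≤ CD) (hδ₁ : 0 ≤ δ₁)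
    (hdt : 0 ≤ dt2) (hLp : 0 ≤ Lp) (hW₀ : W₀ = 1 / s₀ ^ 2 + L) (hG0 : 0 < G) (hG : G ≤ A₀ / s)
    (hM0 : 0 ≤ M) (hM : M ^ 2 ≤ K₄ * (1 / s ^ 2 + L))
    (hraw : P ≤ (2 * CT * M ^ 2 + 2 * CT * G ^ 2 + 2 * Kn) * x + (2 * M ^ 3 + 4 * G ^ 3) * μ ^ 2
      + E1 * Real.exp (-L) + D * δ₁ + t₁ + t₂)
    (hc1 : c ≤ 1) (hc2 : c ≤ Ca * Real.sqrt s * L) (hc0 : 0 ≤ c)
    (hτ₁ : τ₁ ≤ 2 * Real.exp (-(9 * L * (1 / Real.sqrt s))) + δ₁)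
    (hτ₂ : τ₂ ≤ 2 * Real.exp (-(9 * L * (1 / Real.sqrt s))) + δ₁) (hx0 : 0 ≤ x)
    (hx : x ≤ 16 * c * N + 8 * (K₅ * (1 / s ^ 2 + L) * Real.exp L) * (τ₁ + τ₂)
      + 16 * (16 * CD / (K₅ * (1 / s ^ 2 + L) * Real.exp L) + 4 * δ₁) + Lp * dt2)
    (hZ : Z = D + 64 * (K₅ * W₀) + 16 * (K₅ * W₀) * ((K₅ * W₀) * Real.exp L))
    (hsmall : Z * δ₁ + (t₁ + t₂) ≤ δ) (hK1 : 16 * K₅ * (Ca + 1) ≤ K)
    (hK2 : E1 + 256 * CD + 32 * K₅ ^ 2 ≤ K)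
    (hC' : 2 * (K₄ * W₀ * (K₄ * W₀ + 1)) + 4 * (A₀ / s₀) ^ 3 + K₅ * W₀ * Lp ≤ C') :
    P ≤ K * L * (1 + 1 / (s * Real.sqrt s)) * N + K * Real.exp (-L) + C' * (μ ^ 2 + dt2) + δ := by
  have hs0 : 0 < s := lt_of_lt_of_le hs₀ hs₀s
  have hs2 : 16 ≤ 1 / s ^ 2 := by
    rw [le_div_iff₀ (by positivity)]
    nlinarith
  have hW1 : 1 ≤ 1 / s ^ 2 + L := by linarith
  have hWW : 1 / s ^ 2 + L ≤ W₀ := by
    rw [hW₀]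
    have : 1 / s ^ 2 ≤ 1 / s₀ ^ 2 :=
      one_div_le_one_div_of_le (by positivity) (pow_le_pow_left₀ hs₀.le hs₀s 2)
    linarith
  have hss : 1 / s ^ 2 ≤ 1 / s ^ 2 + L := by linarith
  have hco1 := coef_x_le hCT hKn hK₅e hs0 hW1 hss hG0 hG hM
  have hco2 := coef_mu_le hK₄ hA₀ hs₀ hs₀s hWW hG0 hG hM0 hM
  have hW₀0 : 0 ≤ W₀ := le_trans (by linarith) hWW
  have hR₀ : 0 ≤ 2 * (K₄ * W₀ * (K₄ * W₀ + 1)) + 4 * (A₀ / s₀) ^ 3 := by positivity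
  have hraw2 : P ≤ K₅ * (1 / s ^ 2 + L) * x + (2 * M ^ 3 + 4 * G ^ 3) * μ ^ 2
      + E1 * Real.exp (-L) + D * δ₁ + (t₁ + t₂) := by
    have h1 := mul_le_mul_of_nonneg_right hco1 hx0
    linarith only [h1, hraw]
  have hfin := P_algebra (δ := δ) (R₀ := 2 * (K₄ * W₀ * (K₄ * W₀ + 1)) + 4 * (A₀ / s₀) ^ 3)
    (Qm := K₅ * W₀) (Lp := Lp) (dt2 := dt2) (CD := CD) (Ca := Ca) hK₅ hs0 hs hL hN hCa hCD hδ₁ hdt hLp hco2 hR₀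
    (mul_le_mul_of_nonneg_left hWW hK₅.le) hc1 hc2 hc0 hτ₁ hτ₂ hx0
    hx hraw2 (by rw [hZ] at hsmall; exact hsmall)
  have hrs : 0 < Real.sqrt s := Real.sqrt_pos.2 hs0
  exact P_last hK₅ hL hN (by positivity) hdt hK1 hK2 hC' hfin

/-- The tail of `tanh²` at the level `c`. -/
theorem utail_level {θ : ℝ} {η : (V → unitInterval) → V → V → ℝ} {p : ℕ} {α κ CD Cu s δ₁ : ℝ}
    {m₀ : ℕ} {L : ℕ} (hCu : 0 < Cu) (hs0 : 0 < s) (hδ₁ : 0 ≤ δ₁)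
    (hpk : FieldPack G d θ η p α κ CD Cu s m₀ δ₁) {a b : V} (hab : G.Adj a b) :
    ∫ u, max (Real.tanh (η u a b) ^ 2 - min 1 (9 * Cu * Real.sqrt s * L)) 0 ∂(uniformField V)
      ≤ 2 * Real.exp (-(9 * (L : ℝ) * (1 / Real.sqrt s))) + δ₁ := by
  have hrs : 0 < Real.sqrt s := Real.sqrt_pos.2 hs0
  have hc0 : 0 ≤ min 1 (9 * Cu * Real.sqrt s * L) := le_min zero_le_one (by positivity)
  have hc1 : min 1 (9 * Cu * Real.sqrt s * L) ≤ 1 := min_le_left _ _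
  rcases min_choice 1 (9 * Cu * Real.sqrt s * L) with hcc | hcc
  · have e : ∀ u, max (Real.tanh (η u a b) ^ 2 - min 1 (9 * Cu * Real.sqrt s * L)) 0 = 0 := by
      intro u
      rw [hcc]
      have h1 : Real.tanh (η u a b) ^ 2 ≤ 1 := (Real.tanh_sq_lt_one _).le
      exact max_eq_right (by linarith)
    simp only [e, integral_zero]
    positivity
  · have h := hpk.utail_le a b hab _ hc0 hc1
    rw [hcc] at h ⊢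
    have e : -(9 * Cu * Real.sqrt s * L) / (Cu * s) = -(9 * (L : ℝ) * (1 / Real.sqrt s)) := by
      have hrs2 : Real.sqrt s * Real.sqrt s = s := Real.mul_self_sqrt hs0.le
      have key : ∀ r : ℝ, 0 < r → -(9 * Cu * r * L) / (Cu * (r * r)) = -(9 * L * (1 / r)) := by
        intro r hr
        field_simp
      have := key (Real.sqrt s) hrs
      rwa [hrs2] at this
    rwa [e] at h

/-- **Main statement of the module.** -/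
theorem static_P (hT : G.IsTree) (hdeg : ∀ v, G.degree v = d) (hd : 3 ≤ d) {α CD Cu Cq : ℝ}
    (hα : 0 < α) (hα1 : α < 1) (hCD : 0 < CD) (hCu : 0 < Cu) (hCq : 0 < Cq) :
    ∃ K : ℝ, 0 < K ∧ ∀ L : ℕ, 1 ≤ L → ∀ s₀ : ℝ, 0 < s₀ → ∃ C' : ℝ, 0 < C' ∧
      ∀ θ₁ θ₂ : ℝ, GoodT d θ₁ → GoodT d θ₂ → |θ₁ - θ₂| ≤ dThetaMax d →
      ∀ δ : ℝ, 0 < δ → ∃ (m₀ : ℕ) (δ₁ : ℝ), 0 < δ₁ ∧
        ∀ (s : ℝ) (p : ℕ), s₀ ≤ s → s ≤ 1 / 16 → 1 ≤ p → (p : ℝ) ≤ Cq / s →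
        ∀ η₁ η₂ : (V → unitInterval) → V → V → ℝ,
          FieldPack G d θ₁ η₁ p α (137 ^ p) CD Cu s m₀ δ₁ →
          FieldPack G d θ₂ η₂ p α (137 ^ p) CD Cu s m₀ δ₁ →
        ∀ a b, G.Adj a b → ∀ ℓ : ℕ,
          ∫ u, nsq (coef (nbV G) (wgt θ₁ (η₁ u)) ℓ a b - coef (nbV G) (wgt θ₂ (η₂ u)) ℓ a b)
              ∂(uniformField V)
            ≤ K * L * (1 + 1 / s ^ (3 / 2 : ℝ)) * (∫ u, (η₁ u a b - η₂ u a b) ^ 2 ∂(uniformField V))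
              + K * Real.exp (-(L : ℝ))
              + C' * ((∫ u, lX θ₁ θ₂ (η₁ u) (η₂ u) a b ∂(uniformField V)) ^ 2 + (θ₁ - θ₂) ^ 2)
              + δ := by
  classical
  haveI := limit_uniformField_prob V
  obtain ⟨β, hβ0, hβ1, hβ32⟩ : ∃ β : ℝ, 0 < β ∧ β < 1 ∧ β ^ 32 = α := by
    refine ⟨α ^ ((1 : ℝ) / 32), Real.rpow_pos_of_pos hα _, Real.rpow_lt_one hα.le hα1 (by norm_num),
      ?_⟩
    rw [← Real.rpow_natCast, ← Real.rpow_mul hα.le]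
    norm_num
  subst hβ32
  obtain ⟨N₀, N₁, Kn, hN₀, hN₁, hKn, ha, hb, -, hdn⟩ := statNum_main hβ0 hβ1
  obtain ⟨CT, hCT, hterm⟩ := term_bounds (G := G) hT hdeg hd
  obtain ⟨lam, hlamdef⟩ : ∃ lam, lam = Real.log (1 / β) := ⟨_, rfl⟩
  have hlam : 0 < lam := by
    rw [hlamdef]
    apply Real.log_pos
    rw [lt_div_iff₀ hβ0]
    linarith
  obtain ⟨Cs, hCsdef⟩ : ∃ Cs, Cs = Real.log 137 / lam := ⟨_, rfl⟩
  have hCs : 0 ≤ Cs := by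
    rw [hCsdef]
    exact div_nonneg (Real.log_nonneg (by norm_num)) hlam.le
  obtain ⟨K₄, hK₄⟩ : ∃ K₄, K₄ = 3 * (Cs ^ 2 * Cq ^ 2 + Kn + 1) := ⟨_, rfl⟩
  have hK₄0 : 0 < K₄ := by
    rw [hK₄]
    have : (0 : ℝ) < Kn := by linarith
    positivity
  obtain ⟨A₀, hA₀⟩ : ∃ A₀, A₀ = 1 + Cq / lam := ⟨_, rfl⟩
  have hA₀0 : 0 < A₀ := by
    rw [hA₀]
    positivity
  obtain ⟨K₅, hK₅e⟩ : ∃ K₅, K₅ = 2 * CT * K₄ + 2 * CT * A₀ ^ 2 + 2 * Kn := ⟨_, rfl⟩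
  have hK₅ : 0 < K₅ := by
    rw [hK₅e]
    have : (0 : ℝ) < Kn := by linarith
    positivity
  obtain ⟨Ca, hCa⟩ : ∃ Ca, Ca = 9 * Cu := ⟨_, rfl⟩
  have hCa0 : 0 < Ca := by
    rw [hCa]
    positivity
  obtain ⟨E1, hE1⟩ : ∃ E1, E1 = 2 / (1 - β) + 32768 * CD / (1 - β ^ 2) ^ 3 := ⟨_, rfl⟩
  have hE10 : 0 < E1 := by
    have hβ2 : β ^ 2 < 1 := by nlinarith
    have h1 : 0 < 1 - β := by linarith
    have h2 : 0 < 1 - β ^ 2 := by linarith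
    rw [hE1]
    positivity
  refine ⟨16 * K₅ * (Ca + 1) + (E1 + 256 * CD + 32 * K₅ ^ 2) + 1, by positivity, ?_⟩
  intro L hL s₀ hs₀
  have hL1 : (1 : ℝ) ≤ L := by exact_mod_cast hL
  obtain ⟨W₀, hW₀⟩ : ∃ W₀, W₀ = 1 / s₀ ^ 2 + (L : ℝ) := ⟨_, rfl⟩
  have hW₀0 : 0 < W₀ := by
    rw [hW₀]
    positivity
  obtain ⟨Lp, hLp⟩ : ∃ Lp, Lp = 2 * lipTheta d ^ 2 := ⟨_, rfl⟩
  have hLp0 : 0 ≤ Lp := by
    rw [hLp]
    positivity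
  refine ⟨2 * (K₄ * W₀ * (K₄ * W₀ + 1)) + 4 * (A₀ / s₀) ^ 3 + K₅ * W₀ * Lp + 1, by positivity, ?_⟩
  intro θ₁ θ₂ hg₁ hg₂ hdθ δ hδ
  have hρ : ∀ θ : ℝ, GoodT d θ → 0 ≤ θ ^ 2 * ((d : ℝ) - 1) ∧ θ ^ 2 * ((d : ℝ) - 1) < 1 := by
    intro θ h
    have hd1 : (1 : ℝ) ≤ (d : ℝ) - 1 := by
      have : (3 : ℝ) ≤ d := by exact_mod_cast hd
      linarith
    exact ⟨by positivity, h.2.2⟩
  obtain ⟨n₁, hn₁⟩ := exists_tail_small (hρ θ₁ hg₁).1 (hρ θ₁ hg₁).2 (by positivity : 0 < δ / 4)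
  obtain ⟨n₂, hn₂⟩ := exists_tail_small (hρ θ₂ hg₂).1 (hρ θ₂ hg₂).2 (by positivity : 0 < δ / 4)
  obtain ⟨m₀, hm₀⟩ : ∃ m₀, m₀ = max n₁ n₂ := ⟨_, rfl⟩
  obtain ⟨D, hD⟩ : ∃ D, D = ∑ m ∈ range (m₀ + 1), 2 * (β ^ m)⁻¹ * (m : ℝ) ^ 2
    * (Real.exp L * ((β ^ m)⁻¹) ^ 3 + 32) := ⟨_, rfl⟩
  have hD0 : 0 ≤ D := by
    rw [hD]
    refine sum_nonneg fun m _ => ?_
    have : 0 < (β ^ m)⁻¹ := inv_pos.2 (pow_pos hβ0 m)
    positivity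
  obtain ⟨Z, hZ⟩ : ∃ Z, Z = D + 64 * (K₅ * W₀) + 16 * (K₅ * W₀) * ((K₅ * W₀) * Real.exp L) :=
    ⟨_, rfl⟩
  have hZ0 : 0 < Z := by
    have : 0 < Real.exp (L : ℝ) := Real.exp_pos _
    rw [hZ]
    positivity
  obtain ⟨δ₁, hδ₁⟩ : ∃ δ₁, δ₁ = δ / (2 * Z) := ⟨_, rfl⟩
  have hδ₁p : 0 < δ₁ := by
    rw [hδ₁]
    positivity
  refine ⟨m₀, δ₁, hδ₁p, ?_⟩
  intro s p hs₀s hs hp hpq η₁ η₂ hp₁ hp₂ a b hab ℓ
  have hs0 : 0 < s := lt_of_lt_of_le hs₀ hs₀s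
  obtain ⟨γ, hγ0, hγ1, hγb, hraw⟩ := P_raw hT hdeg hd hCT hterm hβ0 hβ1 hCD.le hδ₁p.le ha hb hL hg₁
    hg₂ hdθ hp hp₁ hp₂ hab ℓ
  rw [← hlamdef, ← hCsdef, ← hD] at hraw
  rw [← hlamdef] at hγb
  obtain ⟨n, hn⟩ : ∃ n, n = nLev N₀ N₁ L := ⟨_, rfl⟩
  rw [← hn] at hraw
  obtain ⟨M, hM⟩ : ∃ M, M = ⌈Cs * p⌉₊ + n + 3 := ⟨_, rfl⟩
  rw [← hM] at hraw
  have hMs := M_sq_le hCs hCq (by linarith : 1 ≤ Kn) hs0 hs hpq (by rw [hn]; exact hdn L hL) hM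
  rw [← hK₄] at hMs
  have hG := G_le hlam hs0 hs hpq hγb
  rw [← hA₀] at hG
  have hG0 : 0 < 1 - γ := by linarith
  have e1 : 2 * CT / (1 - γ) ^ 2 = 2 * CT * (1 / (1 - γ)) ^ 2 := by
    field_simp
  have e2 : 4 / (1 - γ) ^ 3 = 4 * (1 / (1 - γ)) ^ 3 := by
    field_simp
  rw [e1, e2, ← hE1] at hraw
  have hxb := lX_int_le hT hdeg hd hg₁ hg₂ hdθ hp₁ hp₂ hab
    (c := min 1 (9 * Cu * Real.sqrt s * L)) (le_min zero_le_one (by positivity)) (min_le_left _ _)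
    (A := K₅ * (1 / s ^ 2 + L) * Real.exp L) (by positivity)
  rw [← hLp] at hxb
  have h2 := hn₁ (m₀ + 1) (by have := le_max_left n₁ n₂; omega)
  have h3 := hn₂ (m₀ + 1) (by have := le_max_right n₁ n₂; omega)
  have hsmall : Z * δ₁ + (((θ₁ ^ 2 * ((d : ℝ) - 1)) ^ (m₀ + 1) / (1 - θ₁ ^ 2 * ((d : ℝ) - 1)))
      + ((θ₂ ^ 2 * ((d : ℝ) - 1)) ^ (m₀ + 1) / (1 - θ₂ ^ 2 * ((d : ℝ) - 1)))) ≤ δ := by
    have e : Z * δ₁ = δ / 2 := by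
      rw [hδ₁]
      field_simp
    rw [e]
    linarith
  have hfin := P_combine (K := 16 * K₅ * (Ca + 1) + (E1 + 256 * CD + 32 * K₅ ^ 2) + 1)
    (C' := 2 * (K₄ * W₀ * (K₄ * W₀ + 1)) + 4 * (A₀ / s₀) ^ 3 + K₅ * W₀ * Lp + 1) (Ca := Ca)
    hCT (by linarith : 1 ≤ Kn) hK₄0.le hK₅ hA₀0.le hK₅e hs₀ hs₀s hs hL1
    (integral_nonneg fun _ => sq_nonneg _) hCa0.le hCD.le hδ₁p.le (sq_nonneg (θ₁ - θ₂)) hLp0 hW₀
    (by positivity : 0 < 1 / (1 - γ)) hG (Nat.cast_nonneg M) hMs hraw (min_le_left _ _)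
    (by rw [hCa]; exact min_le_right _ _) (le_min zero_le_one (by positivity))
    (utail_level hCu hs0 hδ₁p.le hp₁ hab) (utail_level hCu hs0 hδ₁p.le hp₂ hab)
    (integral_nonneg fun _ => sq_nonneg _) hxb hZ hsmall
    (by
      have : 0 < E1 + 256 * CD + 32 * K₅ ^ 2 := by positivity
      linarith)
    (by
      have : 0 < 16 * K₅ * (Ca + 1) := by positivity
      linarith) (by linarith)
  rw [rpow_three_halves hs0]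
  exact hfin

end

end Vale.Agent.Lib.P161
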