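import Vale.Agent.Lib.P161.End.Defs

/-!
P161 endpoint, module StatNum: the elementary sums in the static estimates.
Throughout `0 < β < 1`, `α = β ^ 32`, and `k m = (m - 1) / 2` (natural number division).
See notes/P161_endpoint_blueprint.md, section 4.
-/

open Finset

namespace Vale.Agent.Lib.P161

noncomputable section

/-- The integer `n_L = N₀ + N₁ (⌊√L⌋ + 1)`: the threshold in `m` at level `L`. -/
def nLev (N₀ N₁ L : ℕ) : ℕ := N₀ + N₁ * (Nat.sqrt L + 1)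

/-- `∑_{m ∈ s} m γ^m ≤ 1 / (1 - γ)²`. -/
theorem sum_mul_pow_le {γ : ℝ} (h0 : 0 ≤ γ) (h1 : γ < 1) (s : Finset ℕ) :
    ∑ m ∈ s, (m : ℝ) * γ ^ m ≤ 1 / (1 - γ) ^ 2 := by
  have hn : ‖γ‖ < 1 := by rwa [Real.norm_of_nonneg h0]
  have hS := hasSum_coe_mul_geometric_of_norm_lt_one hn
  have h2 : ∑ m ∈ s, (m : ℝ) * γ ^ m ≤ γ / (1 - γ) ^ 2 :=
    sum_le_hasSum _ (fun k _ => by positivity) hS
  refine h2.trans ?_
  have : 0 < (1 - γ) ^ 2 := by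
    have : 0 < 1 - γ := by linarith
    positivity
  exact div_le_div_of_nonneg_right h1.le this.le

/-- `∑_{m ∈ s} m² γ^m ≤ 2 / (1 - γ)³`. -/
theorem sum_sq_mul_pow_le {γ : ℝ} (h0 : 0 ≤ γ) (h1 : γ < 1) (s : Finset ℕ) :
    ∑ m ∈ s, (m : ℝ) ^ 2 * γ ^ m ≤ 2 / (1 - γ) ^ 3 := by
  have hn : ‖γ‖ < 1 := by rwa [Real.norm_of_nonneg h0]
  have hS := hasSum_choose_mul_geometric_of_norm_lt_one 2 hn
  have h2 : ∑ m ∈ s, (((m + 2).choose 2 : ℕ) : ℝ) * γ ^ m ≤ 1 / (1 - γ) ^ (2 + 1) :=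
    sum_le_hasSum _ (fun k _ => by positivity) hS
  have h3 : ∀ m : ℕ, (m : ℝ) ^ 2 ≤ 2 * (((m + 2).choose 2 : ℕ) : ℝ) := by
    intro m
    have e : ((m + 2).choose 2 : ℕ) = (m + 2) * (m + 1) / 2 := by
      rw [Nat.choose_two_right]
      rfl
    have e2 : 2 * ((m + 2).choose 2 : ℕ) = (m + 2) * (m + 1) := by
      rw [e]
      exact Nat.mul_div_cancel' (by
        have := Nat.even_mul_succ_self (m + 1)
        rw [show (m + 1) * (m + 1 + 1) = (m + 2) * (m + 1) by ring] at this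
        exact this.two_dvd)
    have e3 : (2 : ℝ) * (((m + 2).choose 2 : ℕ) : ℝ) = ((m : ℝ) + 2) * ((m : ℝ) + 1) := by
      have := congrArg (fun x : ℕ => (x : ℝ)) e2
      simpa using this
    rw [e3]
    nlinarith [(Nat.cast_nonneg m : (0 : ℝ) ≤ m)]
  calc ∑ m ∈ s, (m : ℝ) ^ 2 * γ ^ m
      ≤ ∑ m ∈ s, 2 * ((((m + 2).choose 2 : ℕ) : ℝ) * γ ^ m) := by
        refine Finset.sum_le_sum fun m _ => ?_
        have := mul_le_mul_of_nonneg_right (h3 m) (pow_nonneg h0 m)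
        linarith
    _ = 2 * ∑ m ∈ s, (((m + 2).choose 2 : ℕ) : ℝ) * γ ^ m := by rw [Finset.mul_sum]
    _ ≤ 2 * (1 / (1 - γ) ^ (2 + 1)) := by linarith
    _ = 2 / (1 - γ) ^ 3 := by ring

/-- `∑_{m ∈ s} γ^m ≤ 1 / (1 - γ)`. -/
theorem sum_pow_le {γ : ℝ} (h0 : 0 ≤ γ) (h1 : γ < 1) (s : Finset ℕ) :
    ∑ m ∈ s, γ ^ m ≤ 1 / (1 - γ) := by
  have hS := hasSum_geometric_of_lt_one h0 h1
  rw [one_div]
  exact sum_le_hasSum _ (fun k _ => by positivity) hS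

/-- The root: `γ = β^(1/p)` satisfies `γ^p = β`, `0 < γ < 1`, `1 / (1 - γ) ≤ 1 + p / λ`,
with `λ = log (1/β)`. -/
theorem exists_root {β : ℝ} (h0 : 0 < β) (h1 : β < 1) {p : ℕ} (hp : 1 ≤ p) :
    ∃ γ : ℝ, 0 < γ ∧ γ < 1 ∧ γ ^ p = β ∧ 1 / (1 - γ) ≤ 1 + p / Real.log (1 / β) := by
  have hlam : 0 < Real.log (1 / β) := Real.log_pos (by
    rw [lt_div_iff₀ h0]
    linarith)
  set lam := Real.log (1 / β) with hl
  have hpR : (0 : ℝ) < p := by exact_mod_cast hp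
  set x := lam / p with hx
  have hx0 : 0 < x := div_pos hlam hpR
  have hβ : β = Real.exp (-lam) := by
    rw [hl, Real.log_div one_ne_zero h0.ne', Real.log_one, zero_sub, neg_neg, Real.exp_log h0]
  refine ⟨Real.exp (-x), Real.exp_pos _, ?_, ?_, ?_⟩
  · rw [Real.exp_lt_one_iff]
    linarith
  · rw [← Real.exp_nat_mul, hβ]
    congr 1
    rw [hx]
    field_simp
  · have h2 : Real.exp (-x) ≤ 1 / (1 + x) := by
      rw [Real.exp_neg, one_div]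
      exact inv_anti₀ (by positivity) (by linarith [Real.add_one_le_exp x])
    have h3 : x / (1 + x) ≤ 1 - Real.exp (-x) := by
      have : x / (1 + x) = 1 - 1 / (1 + x) := by
        field_simp
        ring
      rw [this]
      linarith
    have h4 : 0 < x / (1 + x) := by positivity
    calc 1 / (1 - Real.exp (-x)) ≤ 1 / (x / (1 + x)) := one_div_le_one_div_of_le h4 h3
      _ = 1 + p / lam := by
        rw [hx]
        field_simp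
        ring

lemma three_halves_pow_ge (j : ℕ) : (j : ℝ) ^ 2 / 4 ≤ (3 / 2 : ℝ) ^ j := by
  induction j using Nat.strong_induction_on with
  | _ j ih =>
    match j with
    | 0 => norm_num
    | 1 => norm_num
    | 2 => norm_num
    | 3 => norm_num
    | 4 => norm_num
    | 5 => norm_num
    | n + 6 =>
      have h := ih (n + 5) (by omega)
      rw [pow_succ (3 / 2 : ℝ)]
      push_cast at h ⊢
      have hn : (0 : ℝ) ≤ n := Nat.cast_nonneg n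
      have h2 : ((n : ℝ) + 6) ^ 2 / 4 ≤ ((n : ℝ) + 5) ^ 2 / 4 * (3 / 2) := by nlinarith
      have h3 := mul_le_mul_of_nonneg_right h (by norm_num : (0 : ℝ) ≤ 3 / 2)
      linarith

lemma nLev_sq_aux (N₀ N₁ L : ℕ) (hL : 1 ≤ L) :
    ((nLev N₀ N₁ L : ℕ) : ℝ) ^ 2 ≤ 4 * ((N₀ : ℝ) + N₁) ^ 2 * L := by
  unfold nLev
  set q := Nat.sqrt L with hq
  have hq1 : 1 ≤ q := by
    rw [hq]
    exact Nat.sqrt_pos.2 hL
  have hqL : q * q ≤ L := Nat.sqrt_le L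
  have hqR : (q : ℝ) * q ≤ L := by exact_mod_cast hqL
  have hq1R : (1 : ℝ) ≤ q := by exact_mod_cast hq1
  have h2 : ((q : ℝ) + 1) ^ 2 ≤ 4 * L := by nlinarith
  have h3 : ((N₀ + N₁ * (q + 1) : ℕ) : ℝ) ≤ ((N₀ : ℝ) + N₁) * ((q : ℝ) + 1) := by
    push_cast
    have h30 : (0 : ℝ) ≤ N₀ := Nat.cast_nonneg _
    have h31 : (N₀ : ℝ) * 1 ≤ N₀ * ((q : ℝ) + 1) :=
      mul_le_mul_of_nonneg_left (by linarith) h30
    rw [add_mul]
    linarith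
  have h4 : (((N₀ + N₁ * (q + 1) : ℕ) : ℝ)) ^ 2 ≤ (((N₀ : ℝ) + N₁) * ((q : ℝ) + 1)) ^ 2 := by
    have : (0 : ℝ) ≤ ((N₀ + N₁ * (q + 1) : ℕ) : ℝ) := Nat.cast_nonneg _
    gcongr
  have h50 : (0 : ℝ) ≤ ((N₀ : ℝ) + N₁) ^ 2 := by positivity
  have h51 := mul_le_mul_of_nonneg_left h2 h50
  calc ((N₀ + N₁ * (q + 1) : ℕ) : ℝ) ^ 2 ≤ (((N₀ : ℝ) + N₁) * ((q : ℝ) + 1)) ^ 2 := h4
    _ = ((N₀ : ℝ) + N₁) ^ 2 * ((q : ℝ) + 1) ^ 2 := by ring
    _ ≤ ((N₀ : ℝ) + N₁) ^ 2 * (4 * L) := h51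
    _ = 4 * ((N₀ : ℝ) + N₁) ^ 2 * L := by ring

/-- **Main statement of the module.** All constants depend only on `β`.
(a) the threshold: for `m ≥ nLev N₀ N₁ L`, `e^L m² β^(-4m) τ_{k(m)-1} ≤ e^(-L) β^m`;
(b) sum of the `ε`-terms, when `κ ≤ β^(-m)` for the `m` in the sum;
(c) sum for the tail of the cascade in `V`;
(d) `nLev² ≤ K₁ L`, where `K₁ = K₁(N₀, N₁)`. -/
theorem statNum_main {β : ℝ} (h0 : 0 < β) (h1 : β < 1) :
    ∃ (N₀ N₁ : ℕ) (K : ℝ), 1 ≤ N₀ ∧ 1 ≤ N₁ ∧ 1 ≤ K ∧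
      (∀ L : ℕ, 1 ≤ L → ∀ m : ℕ, nLev N₀ N₁ L ≤ m →
        Real.exp L * (m : ℝ) ^ 2 * (β ^ m)⁻¹ ^ 4 * tauN ((m - 1) / 2 - 1)
          ≤ Real.exp (-(L : ℝ)) * β ^ m) ∧
      (∀ (κ : ℝ) (s : Finset ℕ), 0 ≤ κ → (∀ m ∈ s, N₀ ≤ m ∧ κ ≤ (β ^ m)⁻¹) →
        ∑ m ∈ s, (β ^ m)⁻¹ * (m : ℝ) ^ 2 * (κ * epsN (β ^ 32) ((m - 1) / 2 - 1)) ≤ K) ∧
      (∀ s : Finset ℕ, (∀ m ∈ s, N₀ ≤ m) →
        ∑ m ∈ s, (β ^ m)⁻¹ * epsN (β ^ 32) m ≤ K) ∧
      (∀ L : ℕ, 1 ≤ L → ((nLev N₀ N₁ L : ℕ) : ℝ) ^ 2 ≤ K * L) := by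
  have hlam : 0 < Real.log (1 / β) := Real.log_pos (by
    rw [lt_div_iff₀ h0]
    linarith)
  set lam := Real.log (1 / β) with hl
  have hβ : β = Real.exp (-lam) := by
    rw [hl, Real.log_div one_ne_zero h0.ne', Real.log_one, zero_sub, neg_neg, Real.exp_log h0]
  set c := 5 * lam + 2 with hc
  have hc0 : 0 < c := by positivity
  set J₀ : ℕ := ⌈80 * c⌉₊ + 1 with hJ₀
  have hJ₀R : 80 * c ≤ (J₀ : ℝ) := by
    rw [hJ₀]
    push_cast
    linarith [Nat.le_ceil (80 * c)]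
  set N₀ : ℕ := 4 * J₀ + 16 with hN₀
  set N₁ : ℕ := 28 with hN₁
  have hβ6 : β ^ 6 < 1 := pow_lt_one₀ h0.le h1 (by norm_num)
  have hβ15 : β ^ 15 < 1 := pow_lt_one₀ h0.le h1 (by norm_num)
  have h6 : 0 < 1 - β ^ 6 := by linarith
  have h15 : 0 < 1 - β ^ 15 := by linarith
  set Kb : ℝ := 3 * (β ^ 80)⁻¹ * (2 / (1 - β ^ 6) ^ 3) with hKb
  set Kc : ℝ := 3 * (β ^ 48)⁻¹ * (1 / (1 - β ^ 15)) with hKc
  set Kd : ℝ := 4 * ((N₀ : ℝ) + N₁) ^ 2 with hKd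
  have hKb0 : 0 ≤ Kb := by positivity
  have hKc0 : 0 ≤ Kc := by positivity
  have hKd0 : 0 ≤ Kd := by positivity
  refine ⟨N₀, N₁, 1 + Kb + Kc + Kd, by omega, by omega, by linarith, ?_, ?_, ?_, ?_⟩
  · -- (a)
    intro L hL m hm
    unfold nLev at hm
    set q := Nat.sqrt L with hq
    have hLq : (L : ℝ) ≤ ((q : ℝ) + 1) ^ 2 := by
      have := (Nat.lt_succ_sqrt L).le
      rw [← hq] at this
      have h2 : (L : ℝ) ≤ ((q + 1 : ℕ) : ℝ) * ((q + 1 : ℕ) : ℝ) := by exact_mod_cast this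
      push_cast at h2
      nlinarith
    have hm0 : N₀ + 28 * (q + 1) ≤ m := by simpa [hN₁] using hm
    set j := ((m - 1) / 2 - 1) / 2 with hj
    have hmj : m ≤ 4 * j + 6 := by omega
    have hjq : 4 * (q + 1) ≤ j := by omega
    have hjJ : J₀ ≤ j := by omega
    have hmR : (m : ℝ) ≤ 4 * (j : ℝ) + 6 := by exact_mod_cast hmj
    have hjqR : 4 * ((q : ℝ) + 1) ≤ j := by exact_mod_cast hjq
    have hjJR : (J₀ : ℝ) ≤ j := by exact_mod_cast hjJ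
    have hj1 : (1 : ℝ) ≤ j := by
      have : (1 : ℝ) ≤ J₀ := by
        rw [hJ₀]
        push_cast
        linarith [(Nat.cast_nonneg _ : (0 : ℝ) ≤ (⌈80 * c⌉₊ : ℝ))]
      linarith
    have hmpos : (0 : ℝ) < m := by
      have : 1 ≤ m := by omega
      exact_mod_cast this
    have hT : (j : ℝ) ^ 2 / 4 ≤ (3 / 2 : ℝ) ^ j := three_halves_pow_ge j
    have hjc : 80 * c ≤ (j : ℝ) := hJ₀R.trans hjJR
    have hlog : Real.log m ≤ m := by
      have := Real.log_le_sub_one_of_pos hmpos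
      linarith
    have hmc : 5 * (m : ℝ) * lam + 2 * Real.log m ≤ (j : ℝ) ^ 2 / 8 := by
      have h2 : 5 * (m : ℝ) * lam + 2 * Real.log m ≤ m * c := by
        rw [hc]
        nlinarith
      have h3 : (m : ℝ) * c ≤ (4 * (j : ℝ) + 6) * c := mul_le_mul_of_nonneg_right hmR hc0.le
      have h4 : (4 * (j : ℝ) + 6) * c ≤ 10 * j * c :=
        mul_le_mul_of_nonneg_right (by linarith) hc0.le
      have h5 : 10 * (j : ℝ) * c ≤ (j : ℝ) ^ 2 / 8 := by nlinarith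
      linarith
    have hLj : 2 * (L : ℝ) ≤ (j : ℝ) ^ 2 / 8 := by
      have h2 : (4 * ((q : ℝ) + 1)) ^ 2 ≤ (j : ℝ) ^ 2 := by
        have : 0 ≤ 4 * ((q : ℝ) + 1) := by positivity
        gcongr
      nlinarith
    have hfin : 2 * (L : ℝ) + 5 * m * lam + 2 * Real.log m ≤ (3 / 2 : ℝ) ^ j := by linarith
    have e1 : (β ^ m)⁻¹ = Real.exp (m * lam) := by
      conv_lhs => rw [hβ]
      rw [← Real.exp_nat_mul, ← Real.exp_neg]
      congr 1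
      ring
    have e2 : β ^ m = Real.exp (-(m * lam)) := by
      conv_lhs => rw [hβ]
      rw [← Real.exp_nat_mul]
      congr 1
      ring
    have e3 : (m : ℝ) ^ 2 = Real.exp (2 * Real.log m) := by
      rw [two_mul, Real.exp_add, Real.exp_log hmpos]
      ring
    have e4 : Real.exp (m * lam) ^ 4 = Real.exp (4 * (m * lam)) := by
      rw [← Real.exp_nat_mul]
      norm_num
    have e5 : tauN ((m - 1) / 2 - 1) = Real.exp (-(3 / 2 : ℝ) ^ j) := rfl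
    rw [e1, e4, e5, e3, e2, ← Real.exp_add, ← Real.exp_add, ← Real.exp_add, ← Real.exp_add]
    apply Real.exp_le_exp.2
    linarith
  · -- (b)
    intro κ s hκ hs
    have hterm : ∀ m ∈ s, (β ^ m)⁻¹ * (m : ℝ) ^ 2 * (κ * epsN (β ^ 32) ((m - 1) / 2 - 1))
        ≤ 3 * (β ^ 80)⁻¹ * ((m : ℝ) ^ 2 * (β ^ 6) ^ m) := by
      intro m hm
      obtain ⟨hm1, hm2⟩ := hs m hm
      have hm10 : 10 ≤ m := by omega
      set q := ((m - 1) / 2 - 1) / 2 - 1 with hq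
      have hle : 8 * m ≤ 32 * q + 80 := by omega
      have h2 : (β ^ 32) ^ q ≤ (β ^ 80)⁻¹ * β ^ (8 * m) := by
        rw [← pow_mul]
        have h3 : β ^ (32 * q + 80) ≤ β ^ (8 * m) := pow_le_pow_of_le_one h0.le h1.le hle
        rw [pow_add] at h3
        rw [inv_mul_eq_div, le_div_iff₀ (by positivity)]
        exact h3
      have e : epsN (β ^ 32) ((m - 1) / 2 - 1) = 3 * (β ^ 32) ^ q := rfl
      rw [e]
      have hx : 0 < β ^ m := by positivity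
      have e2 : β ^ (8 * m) = (β ^ m) ^ 8 := by rw [← pow_mul, mul_comm]
      have e3 : (β ^ 6) ^ m = (β ^ m) ^ 6 := by rw [← pow_mul, ← pow_mul, mul_comm]
      rw [e2] at h2
      rw [e3]
      set x := β ^ m with hxdef
      have hx8 : x⁻¹ * (x⁻¹ * x ^ 8) = x ^ 6 := by
        field_simp
      calc x⁻¹ * (m : ℝ) ^ 2 * (κ * (3 * (β ^ 32) ^ q))
          ≤ x⁻¹ * (m : ℝ) ^ 2 * (x⁻¹ * (3 * ((β ^ 80)⁻¹ * x ^ 8))) := by
            gcongr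
        _ = 3 * (β ^ 80)⁻¹ * ((m : ℝ) ^ 2 * (x⁻¹ * (x⁻¹ * x ^ 8))) := by ring
        _ = 3 * (β ^ 80)⁻¹ * ((m : ℝ) ^ 2 * x ^ 6) := by rw [hx8]
    calc ∑ m ∈ s, (β ^ m)⁻¹ * (m : ℝ) ^ 2 * (κ * epsN (β ^ 32) ((m - 1) / 2 - 1))
        ≤ ∑ m ∈ s, 3 * (β ^ 80)⁻¹ * ((m : ℝ) ^ 2 * (β ^ 6) ^ m) := Finset.sum_le_sum hterm
      _ = 3 * (β ^ 80)⁻¹ * ∑ m ∈ s, (m : ℝ) ^ 2 * (β ^ 6) ^ m := by rw [Finset.mul_sum]
      _ ≤ Kb := by
        rw [hKb]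
        exact mul_le_mul_of_nonneg_left (sum_sq_mul_pow_le (by positivity) hβ6 s) (by positivity)
      _ ≤ 1 + Kb + Kc + Kd := by linarith
  · -- (c)
    intro s hs
    have hterm : ∀ m ∈ s, (β ^ m)⁻¹ * epsN (β ^ 32) m ≤ 3 * (β ^ 48)⁻¹ * (β ^ 15) ^ m := by
      intro m hm
      have hm1 := hs m hm
      have hm10 : 10 ≤ m := by omega
      set q := m / 2 - 1 with hq
      have hle : 16 * m ≤ 32 * q + 48 := by omega
      have h2 : (β ^ 32) ^ q ≤ (β ^ 48)⁻¹ * β ^ (16 * m) := by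
        rw [← pow_mul]
        have h3 : β ^ (32 * q + 48) ≤ β ^ (16 * m) := pow_le_pow_of_le_one h0.le h1.le hle
        rw [pow_add] at h3
        rw [inv_mul_eq_div, le_div_iff₀ (by positivity)]
        exact h3
      have e : epsN (β ^ 32) m = 3 * (β ^ 32) ^ q := rfl
      rw [e]
      have hx : 0 < β ^ m := by positivity
      have e2 : β ^ (16 * m) = (β ^ m) ^ 16 := by rw [← pow_mul, mul_comm]
      have e3 : (β ^ 15) ^ m = (β ^ m) ^ 15 := by rw [← pow_mul, ← pow_mul, mul_comm]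
      rw [e2] at h2
      rw [e3]
      set x := β ^ m with hxdef
      have hx8 : x⁻¹ * x ^ 16 = x ^ 15 := by
        field_simp
      calc x⁻¹ * (3 * (β ^ 32) ^ q) ≤ x⁻¹ * (3 * ((β ^ 48)⁻¹ * x ^ 16)) := by gcongr
        _ = 3 * (β ^ 48)⁻¹ * (x⁻¹ * x ^ 16) := by ring
        _ = 3 * (β ^ 48)⁻¹ * x ^ 15 := by rw [hx8]
    calc ∑ m ∈ s, (β ^ m)⁻¹ * epsN (β ^ 32) m
        ≤ ∑ m ∈ s, 3 * (β ^ 48)⁻¹ * (β ^ 15) ^ m := Finset.sum_le_sum hterm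
      _ = 3 * (β ^ 48)⁻¹ * ∑ m ∈ s, (β ^ 15) ^ m := by rw [Finset.mul_sum]
      _ ≤ Kc := by
        rw [hKc]
        exact mul_le_mul_of_nonneg_left (sum_pow_le (by positivity) hβ15 s) (by positivity)
      _ ≤ 1 + Kb + Kc + Kd := by linarith
  · -- (d)
    intro L hL
    have hLR : (1 : ℝ) ≤ L := by exact_mod_cast hL
    have h5 := nLev_sq_aux N₀ N₁ L hL
    have h6 : Kd * L ≤ (1 + Kb + Kc + Kd) * L := by
      have : Kd ≤ 1 + Kb + Kc + Kd := by linarith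
      exact mul_le_mul_of_nonneg_right this (by linarith)
    exact h5.trans h6

end

end Vale.Agent.Lib.P161
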