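import Vale.Agent.Lib.P161.End.StatA
import Vale.Agent.Lib.P161.End.StatNum

/-!
P161 endpoint, module StatV: the static bound of `E [Y V]`, `V = ‖coef‖²`.
See notes/P161_endpoint_blueprint.md, section 4.
-/

open MeasureTheory ProbabilityTheory Finset

set_option linter.unusedSectionVars false

namespace Vale.Agent.Lib.P161

noncomputable section

variable {V : Type*} [DecidableEq V] {G : SimpleGraph V} [G.LocallyFinite] {d : ℕ}

/-- Expansion of the recursive squared norm in terms of cascades. -/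
theorem Nsq_eq_sum_casc (N : V → Finset V) (bb θ : ℝ) (hbb : bb ≠ 0) (η : V → V → ℝ) (ℓ : ℕ)
    (a b : V) :
    Nsq N (wgt θ η) ℓ a b
      = ∑ m ∈ range (ℓ + 1), (bb * θ ^ 2) ^ m * casc N bb (fun x y => phiF θ (η x y)) m a b := by
  induction ℓ generalizing a b with
  | zero => simp [Nsq, casc]
  | succ ℓ ih =>
    rw [Finset.sum_range_succ']
    simp only [Nsq, casc, pow_zero, one_mul]
    rw [add_comm]
    congr 1
    simp_rw [ih, wgt, hd1_sq_eq, mul_sum]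
    rw [sum_comm]
    refine sum_congr rfl fun m _ => ?_
    refine sum_congr rfl fun c _ => ?_
    rw [pow_succ]
    field_simp
    ring

lemma prodW_powV (W : V → V → ℝ) (p : ℕ) (π : List V) :
    prodW (fun x y => W x y ^ p) π = prodW W π ^ p := by
  induction π with
  | nil => simp [prodW]
  | cons x l ih =>
    cases l with
    | nil => simp [prodW]
    | cons y l =>
      cases l with
      | nil => simp [prodW]
      | cons z l =>
        rw [prodW_cons, prodW_cons, ih, mul_pow]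

/-- The cascade of `φ` in terms of the cascade of `φ^p`, with `γ^p = β`. -/
theorem casc_le_casc_pow (hdeg : ∀ v, G.degree v = d) (hd : 2 ≤ d) {θ : ℝ} (h0 : 0 ≤ θ)
    (h1 : θ < 1) (η : V → V → ℝ) {p : ℕ} {β γ : ℝ} (hγ0 : 0 < γ) (hγ1 : γ < 1) (hγ : γ ^ p = β)
    (m : ℕ) {a b : V} (hab : G.Adj a b) :
    casc (nbV G) ((d : ℝ) - 1) (fun x y => phiF θ (η x y)) m a b
      ≤ γ ^ m + (β ^ m)⁻¹ * casc (nbV G) ((d : ℝ) - 1) (fun x y => phiF θ (η x y) ^ p) m a b := by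
  have hdR : (2 : ℝ) ≤ d := by exact_mod_cast hd
  set bb : ℝ := (d : ℝ) - 1 with hbb
  have hbb0 : 0 < bb := by linarith
  set w : V → V → ℝ := fun x y => phiF θ (η x y) with hw
  have hw0 : ∀ x y, 0 ≤ w x y := fun x y => (phiF_pos h0 h1 _).le
  have hw1 : ∀ x y, w x y ≤ 1 := fun x y => phiF_le_one h0 h1 _
  have hβ0 : 0 < β := by rw [← hγ]; positivity
  have hb : ∀ π, prodW w π ≤ γ ^ m + (β ^ m)⁻¹ * prodW (fun x y => w x y ^ p) π := by
    intro π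
    rw [prodW_powV]
    have hx0 := prodW_nonneg hw0 π
    have hx1 := prodW_le_one hw0 hw1 π
    set x := prodW w π
    have hy0 : 0 < γ ^ m := by positivity
    have hy1 : γ ^ m ≤ 1 := pow_le_one₀ hγ0.le hγ1.le
    rcases Nat.eq_zero_or_pos p with hp | hp
    · subst hp
      have hβ1 : β = 1 := by rw [← hγ, pow_zero]
      rw [hβ1]
      simp only [one_pow, inv_one, pow_zero, mul_one]
      linarith
    · have := le_add_pow_div hx0 hy0 hy1 hp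
      have e : (γ ^ m) ^ p = β ^ m := by
        rw [← pow_mul, mul_comm, pow_mul, hγ]
      rw [e, div_eq_inv_mul] at this
      exact this
  have h2 := pathSum_mono (N := nbV G) hb m a b [a, b]
  rw [pathSum_add, pathSum_const hdeg (by omega) _ m a b _ hab, pathSum_const_mul,
    pathSum_prodW (nbV G) bb hbb0.ne' w m a b [],
    pathSum_prodW (nbV G) bb hbb0.ne' _ m a b []] at h2
  simp only [prodW, one_mul] at h2
  have hbp : 0 < bb ^ m := by positivity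
  have e : bb ^ m * (γ ^ m + (β ^ m)⁻¹ * casc (nbV G) bb (fun x y => w x y ^ p) m a b)
      = bb ^ m * γ ^ m + (β ^ m)⁻¹ * (bb ^ m * casc (nbV G) bb (fun x y => w x y ^ p) m a b) := by
    ring
  exact le_of_mul_le_mul_left (by rw [e]; exact h2) hbp

/-- The threshold inequality for a function `Y` which is only integrable. -/
theorem integralV_threshold_ae {Ω : Type*} [MeasurableSpace Ω] {P : Measure Ω}
    [IsProbabilityMeasure P]
    {Z Y : Ω → ℝ} (hZm : Measurable Z) (hYi : Integrable Y P)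
    (hZ0 : ∀ u, 0 ≤ Z u) (hZ1 : ∀ u, Z u ≤ 1) (hY0 : ∀ u, 0 ≤ Y u) {ε A : ℝ} (hε : 0 ≤ ε)
    (hA : 0 < A) :
    ∫ u, Z u * Y u ∂P ≤ ε * ∫ u, Y u ∂P + A * ∫ u, max (Z u - ε) 0 ∂P
      + ∫ u, max (Y u - A) 0 ∂P := by
  have i1 : Integrable (fun u => Z u * Y u) P := by
    refine hYi.mono' (hZm.aestronglyMeasurable.mul hYi.1)
      (Filter.Eventually.of_forall fun u => ?_)
    rw [Real.norm_eq_abs, abs_of_nonneg (mul_nonneg (hZ0 u) (hY0 u))]
    exact mul_le_of_le_one_left (hY0 u) (hZ1 u)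
  have i2 : Integrable (fun u => max (Z u - ε) 0) P := by
    refine (integrable_const (1 : ℝ)).mono'
      ((hZm.sub_const ε).max measurable_const).aestronglyMeasurable
      (Filter.Eventually.of_forall fun u => ?_)
    rw [Real.norm_eq_abs, abs_of_nonneg (le_max_right _ _)]
    exact max_le (by linarith [hZ1 u]) zero_le_one
  have i3 : Integrable (fun u => max (Y u - A) 0) P := (hYi.sub (integrable_const A)).pos_part
  have key : ∀ u, Z u * Y u ≤ ε * Y u + A * max (Z u - ε) 0 + max (Y u - A) 0 := by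
    intro u
    have hm1 := le_max_left (Z u - ε) 0
    have hm2 := le_max_right (Z u - ε) 0
    have hm3 := le_max_left (Y u - A) 0
    have hm4 := le_max_right (Y u - A) 0
    by_cases h : Z u ≤ ε
    · have : Z u * Y u ≤ ε * Y u := mul_le_mul_of_nonneg_right h (hY0 u)
      have h5 : 0 ≤ A * max (Z u - ε) 0 := mul_nonneg hA.le hm2
      linarith
    · push Not at h
      have hle : Z u - ε ≤ 1 := by linarith [hZ1 u]
      have hz : 0 ≤ Z u - ε := by linarith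
      have e1 : (Z u - ε) * Y u ≤ (Z u - ε) * A + max (Y u - A) 0 := by
        have e2 : Y u ≤ A + max (Y u - A) 0 := by linarith
        have e3 : (Z u - ε) * Y u ≤ (Z u - ε) * (A + max (Y u - A) 0) :=
          mul_le_mul_of_nonneg_left e2 hz
        have e4 : (Z u - ε) * max (Y u - A) 0 ≤ 1 * max (Y u - A) 0 :=
          mul_le_mul_of_nonneg_right hle hm4
        nlinarith
      have e5 : A * (Z u - ε) ≤ A * max (Z u - ε) 0 := mul_le_mul_of_nonneg_left hm1 hA.le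
      nlinarith
  calc ∫ u, Z u * Y u ∂P
      ≤ ∫ u, (ε * Y u + A * max (Z u - ε) 0 + max (Y u - A) 0) ∂P :=
        integral_mono i1 (((hYi.const_mul ε).add (i2.const_mul A)).add i3) key
    _ = _ := by
        have e1 : ∫ u, (ε * Y u + A * max (Z u - ε) 0 + max (Y u - A) 0) ∂P
            = ∫ u, (ε * Y u + A * max (Z u - ε) 0) ∂P + ∫ u, max (Y u - A) 0 ∂P :=
          integral_add ((hYi.const_mul ε).add (i2.const_mul A)) i3
        have e2 : ∫ u, (ε * Y u + A * max (Z u - ε) 0) ∂P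
            = ∫ u, ε * Y u ∂P + ∫ u, A * max (Z u - ε) 0 ∂P :=
          integral_add (hYi.const_mul ε) (i2.const_mul A)
        rw [e1, e2, integral_const_mul, integral_const_mul]

lemma integrableV_casc_mul {Ω : Type*} [MeasurableSpace Ω] {P : Measure Ω}
    {Z Y : Ω → ℝ} (hZm : Measurable Z) (hYi : Integrable Y P)
    (hZ0 : ∀ u, 0 ≤ Z u) (hZ1 : ∀ u, Z u ≤ 1) (hY0 : ∀ u, 0 ≤ Y u) :
    Integrable (fun u => Z u * Y u) P := by
  refine hYi.mono' (hZm.aestronglyMeasurable.mul hYi.1)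
    (Filter.Eventually.of_forall fun u => ?_)
  rw [Real.norm_eq_abs, abs_of_nonneg (mul_nonneg (hZ0 u) (hY0 u))]
  exact mul_le_of_le_one_left (hY0 u) (hZ1 u)

/-- The bound of one term: `E [Y casc(φ) m]` in terms of the tail of `casc(φ^p) m`. -/
lemma termV_mid (hdeg : ∀ v, G.degree v = d) (hd : 2 ≤ d) {θ : ℝ} (h0 : 0 ≤ θ) (h1 : θ < 1)
    {η : (V → unitInterval) → V → V → ℝ} (hm : ∀ x y, Measurable fun u => η u x y)
    {p : ℕ} {β γ ε A : ℝ} (hγ0 : 0 < γ) (hγ1 : γ < 1) (hγ : γ ^ p = β) (hε : 0 ≤ ε) (hA : 0 < A)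
    {Y : (V → unitInterval) → ℝ} (hY0 : ∀ u, 0 ≤ Y u) (hYi : Integrable Y (uniformField V))
    {a b : V} (hab : G.Adj a b) (m : ℕ) :
    ∫ u, casc (nbV G) ((d : ℝ) - 1) (fun x y => phiF θ (η u x y)) m a b * Y u ∂(uniformField V)
      ≤ γ ^ m * (∫ u, Y u ∂(uniformField V))
        + (β ^ m)⁻¹ * (ε * (∫ u, Y u ∂(uniformField V))
          + A * (∫ u, max (casc (nbV G) ((d : ℝ) - 1) (fun x y => phiF θ (η u x y) ^ p) m a b - ε) 0
              ∂(uniformField V))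
          + ∫ u, max (Y u - A) 0 ∂(uniformField V)) := by
  have hβ0 : 0 < β := by rw [← hγ]; positivity
  have : IsProbabilityMeasure (uniformField V) := limit_uniformField_prob V
  set Z : (V → unitInterval) → ℝ :=
    fun u => casc (nbV G) ((d : ℝ) - 1) (fun x y => phiF θ (η u x y)) m a b with hZ
  set Z' : (V → unitInterval) → ℝ :=
    fun u => casc (nbV G) ((d : ℝ) - 1) (fun x y => phiF θ (η u x y) ^ p) m a b with hZ'
  have hZm : Measurable Z := casc_measurable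
    (W := fun u x y => phiF θ (η u x y)) (fun x y => (measurable_phiF_A4 θ).comp (hm x y)) m a b
  have hZ'm : Measurable Z' := casc_measurable
    (W := fun u x y => phiF θ (η u x y) ^ p)
    (fun x y => ((measurable_phiF_A4 θ).comp (hm x y)).pow_const p) m a b
  have hZb : ∀ u, 0 ≤ Z u ∧ Z u ≤ 1 := fun u =>
    casc_mem_Icc hdeg hd (fun x y => (phiF_pos h0 h1 _).le) (fun x y => phiF_le_one h0 h1 _) m hab
  have hZ'b : ∀ u, 0 ≤ Z' u ∧ Z' u ≤ 1 := fun u =>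
    casc_mem_Icc hdeg hd (fun x y => pow_nonneg (phiF_pos h0 h1 _).le p)
      (fun x y => pow_le_one₀ (phiF_pos h0 h1 _).le (phiF_le_one h0 h1 _)) m hab
  have i1 := integrableV_casc_mul hZm hYi (fun u => (hZb u).1) (fun u => (hZb u).2) hY0
  have i2 := integrableV_casc_mul hZ'm hYi (fun u => (hZ'b u).1) (fun u => (hZ'b u).2) hY0
  have hle : ∀ u, Z u * Y u ≤ γ ^ m * Y u + (β ^ m)⁻¹ * (Z' u * Y u) := by
    intro u
    have h2 := casc_le_casc_pow hdeg hd h0 h1 (η u) hγ0 hγ1 hγ m hab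
    have h3 := mul_le_mul_of_nonneg_right h2 (hY0 u)
    calc Z u * Y u ≤ _ := h3
      _ = γ ^ m * Y u + (β ^ m)⁻¹ * (Z' u * Y u) := by
        simp only [hZ']
        ring
  have h4 : ∫ u, Z u * Y u ∂(uniformField V)
      ≤ γ ^ m * (∫ u, Y u ∂(uniformField V))
        + (β ^ m)⁻¹ * ∫ u, Z' u * Y u ∂(uniformField V) := by
    calc ∫ u, Z u * Y u ∂(uniformField V)
        ≤ ∫ u, (γ ^ m * Y u + (β ^ m)⁻¹ * (Z' u * Y u)) ∂(uniformField V) :=
          integral_mono i1 ((hYi.const_mul _).add (i2.const_mul _)) hle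
      _ = _ := by
          rw [integral_add (hYi.const_mul _) (i2.const_mul _), integral_const_mul,
            integral_const_mul]
  have h5 := integralV_threshold_ae (P := uniformField V) hZ'm hYi (fun u => (hZ'b u).1)
    (fun u => (hZ'b u).2) hY0 hε hA
  have hbi : 0 ≤ (β ^ m)⁻¹ := by positivity
  have h6 := mul_le_mul_of_nonneg_left h5 hbi
  linarith

/-- `e^L β^(-3m) τ_m` from statement (a) of `statNum_main`. -/
lemma tauV_cube_le {β E : ℝ} (h0 : 0 < β) (h1 : β < 1) (hE : 0 ≤ E) {m : ℕ} (hm : 1 ≤ m) :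
    E * ((β ^ m)⁻¹) ^ 3 * tauN m
      ≤ E * (m : ℝ) ^ 2 * (β ^ m)⁻¹ ^ 4 * tauN ((m - 1) / 2 - 1) := by
  have hbi : 1 ≤ (β ^ m)⁻¹ := by
    have : β ^ m ≤ 1 := pow_le_one₀ h0.le h1.le
    exact (one_le_inv₀ (by positivity)).2 this
  have hm2 : (1 : ℝ) ≤ (m : ℝ) ^ 2 := by
    have : (1 : ℝ) ≤ m := by exact_mod_cast hm
    nlinarith
  have ht : tauN m ≤ tauN ((m - 1) / 2 - 1) := by
    unfold tauN
    apply Real.exp_le_exp.2
    apply neg_le_neg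
    apply pow_le_pow_right₀ (by norm_num)
    omega
  have ht0 : 0 ≤ tauN m := (Real.exp_pos _).le
  have hb3 : ((β ^ m)⁻¹) ^ 3 ≤ (m : ℝ) ^ 2 * (β ^ m)⁻¹ ^ 4 := by
    have h3 : ((β ^ m)⁻¹) ^ 3 ≤ ((β ^ m)⁻¹) ^ 4 := pow_le_pow_right₀ hbi (by norm_num)
    have h4 : (1 : ℝ) * ((β ^ m)⁻¹) ^ 4 ≤ (m : ℝ) ^ 2 * ((β ^ m)⁻¹) ^ 4 :=
      mul_le_mul_of_nonneg_right hm2 (by positivity)
    linarith
  calc E * ((β ^ m)⁻¹) ^ 3 * tauN m
      ≤ E * ((m : ℝ) ^ 2 * (β ^ m)⁻¹ ^ 4) * tauN ((m - 1) / 2 - 1) := by gcongr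
    _ = _ := by ring

/-- The sum of a geometric tail over an initial segment. -/
lemma sumV_ite_tail {ρ : ℝ} (h0 : 0 ≤ ρ) (h1 : ρ < 1) (m₀ n : ℕ) :
    ∑ m ∈ range n, (if m₀ < m then ρ ^ m else 0) ≤ ρ ^ (m₀ + 1) / (1 - ρ) := by
  rw [← Finset.sum_filter]
  have e : (range n).filter (fun m => m₀ < m) = Ico (m₀ + 1) n := by
    ext m
    simp only [mem_filter, mem_range, mem_Ico]
    omega
  rw [e, Finset.sum_Ico_eq_sum_range]
  simp_rw [pow_add ρ (m₀ + 1)]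
  rw [← mul_sum]
  have := sum_pow_le h0 h1 (range (n - (m₀ + 1)))
  have h2 := mul_le_mul_of_nonneg_left this (pow_nonneg h0 (m₀ + 1))
  calc _ ≤ _ := h2
    _ = _ := by ring

lemma sumV_ite_lt (M n : ℕ) : ∑ m ∈ range n, (if m < M then (1 : ℝ) else 0) ≤ M := by
  rw [Finset.sum_boole]
  have : ((range n).filter (fun m => m < M)).card ≤ (range M).card := by
    apply Finset.card_le_card
    intro m hm
    simp only [mem_filter, mem_range] at hm ⊢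
    exact hm.2
  rw [card_range] at this
  exact_mod_cast this

/-- The algebra of the case `M ≤ m ≤ m₀`. -/
lemma midV_num {J γm x I ε EL EM CY τ δ₁ T T' : ℝ} (hx : 0 < x) (hEL : 0 < EL) (hEEM : EM = EL⁻¹)
    (hmid : J ≤ γm * I + x⁻¹ * (ε * I + (EL * x⁻¹ ^ 2) * T + T'))
    (hT : T ≤ τ + δ₁) (hT' : T' ≤ CY / (EL * x⁻¹ ^ 2) + 4 * δ₁)
    (hτ : EL * x⁻¹ ^ 3 * τ ≤ EM * x) :
    J ≤ γm * I + x⁻¹ * ε * I + (1 + CY) * EM * x + x⁻¹ * (EL * x⁻¹ ^ 2 + 4) * δ₁ := by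
  have hbi : 0 < x⁻¹ := by positivity
  have hA : 0 < EL * x⁻¹ ^ 2 := by positivity
  have h1 : x⁻¹ * (ε * I + (EL * x⁻¹ ^ 2) * T + T')
      ≤ x⁻¹ * (ε * I + (EL * x⁻¹ ^ 2) * (τ + δ₁) + (CY / (EL * x⁻¹ ^ 2) + 4 * δ₁)) := by
    apply mul_le_mul_of_nonneg_left _ hbi.le
    have := mul_le_mul_of_nonneg_left hT hA.le
    linarith
  have h2 : x⁻¹ * (ε * I + (EL * x⁻¹ ^ 2) * (τ + δ₁) + (CY / (EL * x⁻¹ ^ 2) + 4 * δ₁))
      = x⁻¹ * ε * I + EL * x⁻¹ ^ 3 * τ + x⁻¹ * (CY / (EL * x⁻¹ ^ 2))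
        + x⁻¹ * (EL * x⁻¹ ^ 2 + 4) * δ₁ := by ring
  have h3 : x⁻¹ * (CY / (EL * x⁻¹ ^ 2)) = CY * EM * x := by
    rw [hEEM]
    field_simp
  have h4 : (1 + CY) * EM * x = EM * x + CY * EM * x := by ring
  rw [h4]
  rw [h2, h3] at h1
  linarith

/-- The case analysis of one term. -/
lemma termV_num {ρm J I γm t2v EE Cd T4 : ℝ} {m M m₀ : ℕ} (hρm0 : 0 ≤ ρm) (hρm1 : ρm ≤ 1)
    (hJ0 : 0 ≤ J) (hJI : J ≤ I) (hI0 : 0 ≤ I) (hI5 : I ≤ T4) (hγm : 0 ≤ γm) (ht2 : 0 ≤ t2v)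
    (hEE : 0 ≤ EE) (hCd : 0 ≤ Cd) (hT4 : 0 ≤ T4)
    (hmid : M ≤ m → m ≤ m₀ → J ≤ γm * I + t2v * I + EE + Cd) :
    ρm * J ≤ ((if m < M then (1 : ℝ) else 0) + γm + (if M ≤ m then t2v else 0)) * I + EE
      + (if m ≤ m₀ then Cd else 0) + (if m₀ < m then ρm * T4 else 0) := by
  have h1 : ρm * J ≤ J := mul_le_of_le_one_left hJ0 hρm1
  have h0' : 0 ≤ ρm * T4 := mul_nonneg hρm0 hT4
  by_cases hmM : m < M
  · have hn : ¬ M ≤ m := by omega
    rw [if_pos hmM, if_neg hn]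
    have h2 : 0 ≤ γm * I := mul_nonneg hγm hI0
    have h3 : 0 ≤ (if m ≤ m₀ then Cd else 0) := by split_ifs <;> linarith
    have h4 : 0 ≤ (if m₀ < m then ρm * T4 else 0) := by split_ifs <;> linarith
    have e : (1 + γm + 0) * I = I + γm * I := by ring
    rw [e]
    linarith
  · push Not at hmM
    have hn : ¬ m < M := by omega
    rw [if_neg hn, if_pos hmM]
    have e : (0 + γm + t2v) * I = γm * I + t2v * I := by ring
    rw [e]
    have h5 : 0 ≤ γm * I + t2v * I := add_nonneg (mul_nonneg hγm hI0) (mul_nonneg ht2 hI0)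
    by_cases hmm : m ≤ m₀
    · have hn2 : ¬ m₀ < m := by omega
      rw [if_pos hmm, if_neg hn2]
      have := hmid hmM hmm
      linarith
    · have hn2 : m₀ < m := by omega
      rw [if_neg hmm, if_pos hn2]
      have := mul_le_mul_of_nonneg_left (hJI.trans hI5) hρm0
      linarith

/-- Summation of the bounds. -/
lemma sumV_num {J : ℕ → ℝ} {ρ I E β γ Kn CY δ₁ : ℝ} {C t2 : ℕ → ℝ} {M m₀ : ℕ}
    (hρ0 : 0 ≤ ρ) (hρ1 : ρ < 1) (hI0 : 0 ≤ I) (hβ0 : 0 ≤ β) (hβ1 : β < 1) (hγ0 : 0 ≤ γ)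
    (hγ1 : γ < 1) (hE : 0 ≤ E) (hC0 : ∀ m, 0 ≤ C m) (hδ₁ : 0 ≤ δ₁) (hCY : 0 ≤ CY)
    (ht2 : ∀ s : Finset ℕ, (∀ m ∈ s, M ≤ m) → ∑ m ∈ s, t2 m ≤ Kn) (ℓ : ℕ)
    (hterm : ∀ m, ρ ^ m * J m
      ≤ ((if m < M then (1 : ℝ) else 0) + γ ^ m + (if M ≤ m then t2 m else 0)) * I + E * β ^ m
      + (if m ≤ m₀ then C m * δ₁ else 0) + (if m₀ < m then ρ ^ m * (5 + CY) else 0)) :
    ∑ m ∈ range (ℓ + 1), ρ ^ m * J m
      ≤ ((M : ℝ) + 1 / (1 - γ) + Kn) * I + E * (1 / (1 - β))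
        + (∑ m ∈ range (m₀ + 1), C m) * δ₁ + (5 + CY) * (ρ ^ (m₀ + 1) / (1 - ρ)) := by
  have hs1 : ∑ m ∈ range (ℓ + 1), (if m < M then (1 : ℝ) else 0) ≤ M := sumV_ite_lt M (ℓ + 1)
  have hs2 : ∑ m ∈ range (ℓ + 1), γ ^ m ≤ 1 / (1 - γ) := sum_pow_le hγ0 hγ1 _
  have hs3 : ∑ m ∈ range (ℓ + 1), (if M ≤ m then t2 m else 0) ≤ Kn := by
    rw [← Finset.sum_filter]
    refine ht2 _ ?_
    intro m hm
    exact (mem_filter.1 hm).2
  have hs4 : ∑ m ∈ range (ℓ + 1), E * β ^ m ≤ E * (1 / (1 - β)) := by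
    rw [← mul_sum]
    exact mul_le_mul_of_nonneg_left (sum_pow_le hβ0 hβ1 _) hE
  have hs5 : ∑ m ∈ range (ℓ + 1), (if m ≤ m₀ then C m * δ₁ else 0)
      ≤ (∑ m ∈ range (m₀ + 1), C m) * δ₁ := by
    rw [← Finset.sum_filter, sum_mul]
    refine Finset.sum_le_sum_of_subset_of_nonneg ?_ ?_
    · intro m hm
      have := (mem_filter.1 hm).2
      simp only [mem_range]
      omega
    · intro m _ _
      exact mul_nonneg (hC0 m) hδ₁
  have hs6 : ∑ m ∈ range (ℓ + 1), (if m₀ < m then ρ ^ m * (5 + CY) else 0)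
      ≤ (5 + CY) * (ρ ^ (m₀ + 1) / (1 - ρ)) := by
    have h2 := sumV_ite_tail hρ0 hρ1 m₀ (ℓ + 1)
    have h3 := mul_le_mul_of_nonneg_left h2 (by linarith : 0 ≤ 5 + CY)
    refine le_trans (le_of_eq ?_) h3
    rw [mul_sum]
    refine sum_congr rfl fun m _ => ?_
    split_ifs <;> ring
  calc ∑ m ∈ range (ℓ + 1), ρ ^ m * J m
      ≤ ∑ m ∈ range (ℓ + 1),
        (((if m < M then (1 : ℝ) else 0) + γ ^ m + (if M ≤ m then t2 m else 0)) * I + E * β ^ m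
      + (if m ≤ m₀ then C m * δ₁ else 0) + (if m₀ < m then ρ ^ m * (5 + CY) else 0)) :=
        Finset.sum_le_sum fun m _ => hterm m
    _ = (∑ m ∈ range (ℓ + 1), (if m < M then (1 : ℝ) else 0) + ∑ m ∈ range (ℓ + 1), γ ^ m
          + ∑ m ∈ range (ℓ + 1), (if M ≤ m then t2 m else 0)) * I
          + ∑ m ∈ range (ℓ + 1), E * β ^ m
          + ∑ m ∈ range (ℓ + 1), (if m ≤ m₀ then C m * δ₁ else 0)
          + ∑ m ∈ range (ℓ + 1), (if m₀ < m then ρ ^ m * (5 + CY) else 0) := by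
        rw [Finset.sum_add_distrib, Finset.sum_add_distrib, Finset.sum_add_distrib,
          ← Finset.sum_mul, Finset.sum_add_distrib, Finset.sum_add_distrib]
    _ ≤ _ := by
        have : (∑ m ∈ range (ℓ + 1), (if m < M then (1 : ℝ) else 0) + ∑ m ∈ range (ℓ + 1), γ ^ m
          + ∑ m ∈ range (ℓ + 1), (if M ≤ m then t2 m else 0)) * I
          ≤ ((M : ℝ) + 1 / (1 - γ) + Kn) * I :=
          mul_le_mul_of_nonneg_right (by linarith) hI0
        linarith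

/-- The bound of `∫ Y`. -/
lemma intV_Y_le {Y : (V → unitInterval) → ℝ} (hYi : Integrable Y (uniformField V)) {CY δ₁ : ℝ}
    (hδ₁ : δ₁ ≤ 1)
    (hYt : ∀ A : ℝ, 0 < A → ∫ u, max (Y u - A) 0 ∂(uniformField V) ≤ CY / A + 4 * δ₁) :
    ∫ u, Y u ∂(uniformField V) ≤ 5 + CY := by
  have : IsProbabilityMeasure (uniformField V) := limit_uniformField_prob V
  have h2 := hYt 1 one_pos
  have i1 : Integrable (fun u => max (Y u - 1) 0) (uniformField V) :=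
    (hYi.sub (integrable_const 1)).pos_part
  have h3 : ∫ u, Y u ∂(uniformField V) ≤ ∫ u, (1 + max (Y u - 1) 0) ∂(uniformField V) := by
    refine integral_mono hYi ((integrable_const _).add i1) ?_
    intro u
    have := le_max_left (Y u - 1) 0
    simp only
    linarith
  have e : ∫ u, (1 + max (Y u - 1) 0) ∂(uniformField V)
      = 1 + ∫ u, max (Y u - 1) 0 ∂(uniformField V) := by
    rw [integral_add (integrable_const _) i1]
    simp
  rw [e] at h3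
  simp only [div_one] at h2
  linarith

/-- The core estimate, before the choice of the constants. -/
lemma static_V_core (hdeg : ∀ v, G.degree v = d) (hd : 3 ≤ d) {θ β γ Kn CY δ₁ : ℝ} {p M m₀ L : ℕ}
    (hθ0 : 0 < θ) (hθ1 : θ < 1)
    (hρ0 : 0 ≤ ((d : ℝ) - 1) * θ ^ 2) (hρ1 : ((d : ℝ) - 1) * θ ^ 2 < 1)
    (hβ0 : 0 < β) (hβ1 : β < 1) (hγ0 : 0 < γ) (hγ1 : γ < 1) (hγp : γ ^ p = β)
    (hM1 : 1 ≤ M) (hCY : 0 ≤ CY) (hδ₁0 : 0 < δ₁) (hδ₁1 : δ₁ ≤ 1)
    (ha : ∀ m : ℕ, M ≤ m → Real.exp L * (m : ℝ) ^ 2 * (β ^ m)⁻¹ ^ 4 * tauN ((m - 1) / 2 - 1)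
      ≤ Real.exp (-(L : ℝ)) * β ^ m)
    (hc : ∀ s : Finset ℕ, (∀ m ∈ s, M ≤ m) → ∑ m ∈ s, (β ^ m)⁻¹ * epsN (β ^ 32) m ≤ Kn)
    {η : (V → unitInterval) → V → V → ℝ} (hηm : ∀ x y, Measurable fun u => η u x y)
    (hcl : ∀ x y, G.Adj x y → ∀ n, n ≤ m₀ →
      ∫ u, max (casc (nbV G) ((d : ℝ) - 1) (fun x y => phiF θ (η u x y) ^ p) n x y
        - epsN (β ^ 32) n) 0 ∂(uniformField V) ≤ tauN n + δ₁)
    {Y : (V → unitInterval) → ℝ} (hY0 : ∀ u, 0 ≤ Y u) (hYi : Integrable Y (uniformField V))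
    (hYt : ∀ A : ℝ, 0 < A → ∫ u, max (Y u - A) 0 ∂(uniformField V) ≤ CY / A + 4 * δ₁)
    {a b : V} (hab : G.Adj a b) (ℓ : ℕ) :
    ∫ u, Y u * Nsq (nbV G) (wgt θ (η u)) ℓ a b ∂(uniformField V)
      ≤ ((M : ℝ) + 1 / (1 - γ) + Kn) * (∫ u, Y u ∂(uniformField V))
        + (1 + CY) * Real.exp (-(L : ℝ)) * (1 / (1 - β))
        + (∑ m ∈ range (m₀ + 1), (β ^ m)⁻¹ * (Real.exp L * ((β ^ m)⁻¹) ^ 2 + 4)) * δ₁
        + (5 + CY) * ((((d : ℝ) - 1) * θ ^ 2) ^ (m₀ + 1) / (1 - ((d : ℝ) - 1) * θ ^ 2)) := by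
  have : IsProbabilityMeasure (uniformField V) := limit_uniformField_prob V
  have hd2 : 2 ≤ d := by omega
  have hdR : (3 : ℝ) ≤ d := by exact_mod_cast hd
  have hbb0 : 0 < (d : ℝ) - 1 := by linarith
  have hI0 : 0 ≤ ∫ u, Y u ∂(uniformField V) := integral_nonneg hY0
  have hI5 := intV_Y_le hYi hδ₁1 hYt
  have hEL0 := Real.exp_pos (L : ℝ)
  have hEEM : Real.exp (-(L : ℝ)) = (Real.exp L)⁻¹ := Real.exp_neg _
  have hZm : ∀ m, Measurable fun u => casc (nbV G) ((d : ℝ) - 1)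
      (fun x y => phiF θ (η u x y)) m a b := fun m => casc_measurable
    (W := fun u x y => phiF θ (η u x y)) (fun x y => (measurable_phiF_A4 θ).comp (hηm x y)) m a b
  have hZb : ∀ m u, 0 ≤ casc (nbV G) ((d : ℝ) - 1) (fun x y => phiF θ (η u x y)) m a b ∧
      casc (nbV G) ((d : ℝ) - 1) (fun x y => phiF θ (η u x y)) m a b ≤ 1 := fun m u =>
    casc_mem_Icc hdeg hd2 (fun x y => (phiF_pos hθ0.le hθ1 _).le)
      (fun x y => phiF_le_one hθ0.le hθ1 _) m hab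
  have hZi : ∀ m, Integrable (fun u => casc (nbV G) ((d : ℝ) - 1)
      (fun x y => phiF θ (η u x y)) m a b * Y u) (uniformField V) := fun m =>
    integrableV_casc_mul (hZm m) hYi (fun u => (hZb m u).1) (fun u => (hZb m u).2) hY0
  have hexp : ∫ u, Y u * Nsq (nbV G) (wgt θ (η u)) ℓ a b ∂(uniformField V)
      = ∑ m ∈ range (ℓ + 1), (((d : ℝ) - 1) * θ ^ 2) ^ m *
        ∫ u, casc (nbV G) ((d : ℝ) - 1) (fun x y => phiF θ (η u x y)) m a b * Y u
          ∂(uniformField V) := by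
    have e : ∀ u, Y u * Nsq (nbV G) (wgt θ (η u)) ℓ a b
        = ∑ m ∈ range (ℓ + 1), (((d : ℝ) - 1) * θ ^ 2) ^ m *
          (casc (nbV G) ((d : ℝ) - 1) (fun x y => phiF θ (η u x y)) m a b * Y u) := by
      intro u
      rw [Nsq_eq_sum_casc (nbV G) ((d : ℝ) - 1) θ hbb0.ne' (η u) ℓ a b, mul_sum]
      refine sum_congr rfl fun m _ => ?_
      ring
    simp_rw [e]
    rw [integral_finsetSum _ fun m _ => (hZi m).const_mul _]
    refine sum_congr rfl fun m _ => ?_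
    rw [integral_const_mul]
  rw [hexp]
  refine sumV_num (t2 := fun m => (β ^ m)⁻¹ * epsN (β ^ 32) m) hρ0 hρ1 hI0 hβ0.le hβ1 hγ0.le hγ1
    (by positivity) (fun m => by positivity) hδ₁0.le hCY hc ℓ ?_
  intro m
  have heps : 0 ≤ epsN (β ^ 32) m := by
    unfold epsN
    positivity
  refine termV_num (pow_nonneg hρ0 m) (pow_le_one₀ hρ0 hρ1.le)
    (integral_nonneg fun u => mul_nonneg (hZb m u).1 (hY0 u))
    (integral_mono (hZi m) hYi fun u => mul_le_of_le_one_left (hY0 u) (hZb m u).2)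
    hI0 hI5 (by positivity) (by positivity) (by positivity) (by positivity) (by linarith) ?_
  intro hmM hmm
  have hm1 : 1 ≤ m := by omega
  have hx0 : 0 < β ^ m := by positivity
  have hA0 : 0 < Real.exp L * ((β ^ m)⁻¹) ^ 2 := by positivity
  have hmid := termV_mid hdeg hd2 hθ0.le hθ1 hηm hγ0 hγ1 hγp heps hA0 hY0 hYi hab m
  have h6 := tauV_cube_le hβ0 hβ1 hEL0.le hm1
  have h7 := ha m hmM
  have := midV_num (J := ∫ u, casc (nbV G) ((d : ℝ) - 1) (fun x y => phiF θ (η u x y)) m a b * Y u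
      ∂(uniformField V)) hx0 hEL0 hEEM hmid (hcl a b hab m hmm) (hYt _ hA0) (h6.trans h7)
  linarith

/-- The final algebra of the coefficient. -/
lemma coefV_num {M γi Kn KK L X q : ℝ} (hM : M ≤ Kn * L) (hγ : γi ≤ 1 + q * X) (hKn : 0 ≤ Kn)
    (hKK : 2 * Kn + 1 + q ≤ KK) (hq : 0 ≤ q) (hL : 1 ≤ L) (hX : 0 ≤ X) :
    M + γi + Kn ≤ KK * L * (1 + X) := by
  have hKK0 : 0 ≤ KK := by linarith
  have h2 : KK * L * (1 + X) = KK * L + KK * L * X := by ring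
  have h4 : KK * X ≤ KK * L * X := by
    have h5 : KK * 1 ≤ KK * L := mul_le_mul_of_nonneg_left hL hKK0
    have h6 := mul_le_mul_of_nonneg_right h5 hX
    linarith
  have h5 : q * X ≤ KK * X := mul_le_mul_of_nonneg_right (by linarith) hX
  have h6 : (2 * Kn + 1) * L ≤ KK * L := mul_le_mul_of_nonneg_right (by linarith) (by linarith)
  have h7 : Kn * 1 ≤ Kn * L := mul_le_mul_of_nonneg_left hL hKn
  have h8 : (2 * Kn + 1) * L = Kn * L + Kn * L + L := by ring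
  rw [h2]
  linarith

/-- **Main statement of the module.**  `Y ≥ 0` with tail `∫ (Y - A)₊ ≤ CY / A + 4 δ₁`. -/
theorem static_V (hT : G.IsTree) (hdeg : ∀ v, G.degree v = d) (hd : 3 ≤ d) {α CD Cu Cq : ℝ}
    (hα : 0 < α) (hα1 : α < 1) (hCD : 0 < CD) (hCu : 0 < Cu) (hCq : 0 < Cq) :
    ∃ K : ℝ, 0 < K ∧ ∀ L : ℕ, 1 ≤ L → ∀ s₀ : ℝ, 0 < s₀ →
      ∀ θ : ℝ, GoodT d θ → ∀ CY : ℝ, 0 ≤ CY →
      ∀ δ : ℝ, 0 < δ → ∃ (m₀ : ℕ) (δ₁ : ℝ), 0 < δ₁ ∧
        ∀ (s : ℝ) (p : ℕ), s₀ ≤ s → s ≤ 1 / 16 → 1 ≤ p → (p : ℝ) ≤ Cq / s →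
        ∀ η : (V → unitInterval) → V → V → ℝ,
          FieldPack G d θ η p α (137 ^ p) CD Cu s m₀ δ₁ →
        ∀ Y : (V → unitInterval) → ℝ, (∀ u, 0 ≤ Y u) → Integrable Y (uniformField V) →
          (∀ A : ℝ, 0 < A → ∫ u, max (Y u - A) 0 ∂(uniformField V) ≤ CY / A + 4 * δ₁) →
        ∀ a b, G.Adj a b → ∀ ℓ : ℕ,
          ∫ u, Y u * Nsq (nbV G) (wgt θ (η u)) ℓ a b ∂(uniformField V)
            ≤ K * L * (1 + 1 / s ^ (3 / 2 : ℝ)) * (∫ u, Y u ∂(uniformField V))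
              + K * (1 + CY) * Real.exp (-(L : ℝ)) + δ := by
  have hdR : (3 : ℝ) ≤ d := by exact_mod_cast hd
  have hbb0 : 0 < (d : ℝ) - 1 := by linarith
  set β : ℝ := α ^ ((1 : ℝ) / 32) with hβdef
  have hβ0 : 0 < β := Real.rpow_pos_of_pos hα _
  have hβ1 : β < 1 := Real.rpow_lt_one hα.le hα1 (by norm_num)
  have hβ32 : β ^ 32 = α := by
    rw [hβdef, ← Real.rpow_natCast, ← Real.rpow_mul hα.le]
    norm_num
  obtain ⟨N₀, N₁, Kn, hN₀, hN₁, hKn, ha, -, hc, hd'⟩ := statNum_main hβ0 hβ1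
  have hlam : 0 < Real.log (1 / β) := Real.log_pos (by
    rw [lt_div_iff₀ hβ0]
    linarith)
  have h1β : 0 < 1 - β := by linarith
  have hKn0 : 0 ≤ Kn := by linarith
  have hq0 : 0 ≤ Cq / Real.log (1 / β) := by positivity
  have hb0 : 0 < 1 / (1 - β) := by positivity
  refine ⟨2 * Kn + 1 + Cq / Real.log (1 / β) + 1 / (1 - β), by positivity, ?_⟩
  intro L hL s₀ hs₀ θ hθ CY hCY δ hδ
  obtain ⟨hθ0, hθ34, hθ1⟩ := hθ
  have hρ0 : 0 < ((d : ℝ) - 1) * θ ^ 2 := by positivity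
  have hρ1 : ((d : ℝ) - 1) * θ ^ 2 < 1 := by
    rw [mul_comm]
    exact hθ1
  have hθlt : θ < 1 := by
    have h2 : θ ^ 2 * 2 ≤ θ ^ 2 * ((d : ℝ) - 1) :=
      mul_le_mul_of_nonneg_left (by linarith) (sq_nonneg _)
    nlinarith
  have h1ρ : 0 < 1 - ((d : ℝ) - 1) * θ ^ 2 := by linarith
  have h5CY : 0 < 5 + CY := by linarith
  obtain ⟨m₀, hm₀⟩ : ∃ m₀ : ℕ, (5 + CY) * ((((d : ℝ) - 1) * θ ^ 2) ^ (m₀ + 1)
      / (1 - ((d : ℝ) - 1) * θ ^ 2)) ≤ δ / 2 := by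
    have h2 : 0 < δ * (1 - ((d : ℝ) - 1) * θ ^ 2) / (2 * (5 + CY)) := by positivity
    obtain ⟨n, hn⟩ := exists_pow_lt_of_lt_one h2 hρ1
    refine ⟨n, ?_⟩
    have h3 : (((d : ℝ) - 1) * θ ^ 2) ^ (n + 1) ≤ (((d : ℝ) - 1) * θ ^ 2) ^ n :=
      pow_le_pow_of_le_one hρ0.le hρ1.le (by omega)
    have h4 : (((d : ℝ) - 1) * θ ^ 2) ^ (n + 1)
        ≤ δ * (1 - ((d : ℝ) - 1) * θ ^ 2) / (2 * (5 + CY)) := by linarith
    calc (5 + CY) * ((((d : ℝ) - 1) * θ ^ 2) ^ (n + 1) / (1 - ((d : ℝ) - 1) * θ ^ 2))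
        ≤ (5 + CY) * ((δ * (1 - ((d : ℝ) - 1) * θ ^ 2) / (2 * (5 + CY)))
            / (1 - ((d : ℝ) - 1) * θ ^ 2)) := by gcongr
      _ = δ / 2 := by field_simp
  set S : ℝ := ∑ m ∈ range (m₀ + 1), (β ^ m)⁻¹ * (Real.exp L * ((β ^ m)⁻¹) ^ 2 + 4) with hS
  have hS0 : 0 ≤ S := Finset.sum_nonneg fun m _ => by positivity
  have hδ₁0 : 0 < min 1 (δ / (2 * (S + 1))) := lt_min one_pos (by positivity)
  have hδ₁1 : min 1 (δ / (2 * (S + 1))) ≤ 1 := min_le_left _ _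
  have hSδ : S * min 1 (δ / (2 * (S + 1))) ≤ δ / 2 := by
    have h2 : min 1 (δ / (2 * (S + 1))) ≤ δ / (2 * (S + 1)) := min_le_right _ _
    calc S * min 1 (δ / (2 * (S + 1))) ≤ (S + 1) * (δ / (2 * (S + 1))) :=
          mul_le_mul (by linarith) h2 hδ₁0.le (by linarith)
      _ = δ / 2 := by field_simp
  refine ⟨m₀, min 1 (δ / (2 * (S + 1))), hδ₁0, ?_⟩
  intro s p hs₀s hs hp hpq η hP Y hY0 hYi hYt a b hab ℓ
  have hs0 : 0 < s := by linarith
  have hs1 : s ≤ 1 := by linarith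
  obtain ⟨γ, hγ0, hγ1, hγp, hγbd⟩ := exists_root hβ0 hβ1 hp
  have hMN : N₀ ≤ nLev N₀ N₁ L := by
    unfold nLev
    omega
  have hcl := hP.casc_le
  rw [← hβ32] at hcl
  have hcore := static_V_core hdeg hd hθ0 hθlt hρ0.le hρ1 hβ0 hβ1 hγ0 hγ1 hγp
    (M := nLev N₀ N₁ L) (L := L) (Kn := Kn) (by omega) hCY hδ₁0 hδ₁1 (ha L hL)
    (fun s hs => hc s fun m hm => hMN.trans (hs m hm)) hP.eqf.meas hcl hY0 hYi hYt hab ℓ
  rw [← hS] at hcore
  have hI0 : 0 ≤ ∫ u, Y u ∂(uniformField V) := by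
    have : IsProbabilityMeasure (uniformField V) := limit_uniformField_prob V
    exact integral_nonneg hY0
  have hLR : (1 : ℝ) ≤ L := by exact_mod_cast hL
  have hMKn : ((nLev N₀ N₁ L : ℕ) : ℝ) ≤ Kn * L := by
    have h2 := hd' L hL
    have hM1 : (1 : ℝ) ≤ (nLev N₀ N₁ L : ℕ) := by
      have : 1 ≤ nLev N₀ N₁ L := by omega
      exact_mod_cast this
    have h3 : ((nLev N₀ N₁ L : ℕ) : ℝ) * 1 ≤ ((nLev N₀ N₁ L : ℕ) : ℝ) * ((nLev N₀ N₁ L : ℕ) : ℝ) :=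
      mul_le_mul_of_nonneg_left hM1 (by linarith)
    rw [sq] at h2
    linarith
  have hX0 : 0 ≤ 1 / s ^ (3 / 2 : ℝ) := by positivity
  have h1s : 1 / s ≤ 1 / s ^ (3 / 2 : ℝ) := by
    have h2 : s ^ (3 / 2 : ℝ) ≤ s ^ (1 : ℝ) :=
      Real.rpow_le_rpow_of_exponent_ge hs0 hs1 (by norm_num)
    rw [Real.rpow_one] at h2
    exact one_div_le_one_div_of_le (by positivity) h2
  have hγ2 : 1 / (1 - γ) ≤ 1 + Cq / Real.log (1 / β) * (1 / s ^ (3 / 2 : ℝ)) := by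
    refine hγbd.trans ?_
    have h2 : (p : ℝ) / Real.log (1 / β) ≤ Cq / Real.log (1 / β) * (1 / s ^ (3 / 2 : ℝ)) := by
      have h3 : (p : ℝ) / Real.log (1 / β) ≤ (Cq / s) / Real.log (1 / β) :=
        div_le_div_of_nonneg_right hpq hlam.le
      have h4 : (Cq / s) / Real.log (1 / β) = Cq / Real.log (1 / β) * (1 / s) := by
        field_simp
      rw [h4] at h3
      exact h3.trans (mul_le_mul_of_nonneg_left h1s hq0)
    linarith
  have hcoef := coefV_num hMKn hγ2 hKn0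
    (KK := 2 * Kn + 1 + Cq / Real.log (1 / β) + 1 / (1 - β)) (by linarith) hq0 hLR hX0
  have hmain := mul_le_mul_of_nonneg_right hcoef hI0
  have hEM0 := Real.exp_pos (-(L : ℝ))
  have h1CY : 0 ≤ (1 + CY) * Real.exp (-(L : ℝ)) := by positivity
  have herr : (1 + CY) * Real.exp (-(L : ℝ)) * (1 / (1 - β))
      ≤ (2 * Kn + 1 + Cq / Real.log (1 / β) + 1 / (1 - β)) * (1 + CY) * Real.exp (-(L : ℝ)) := by
    have h2 : 1 / (1 - β) ≤ 2 * Kn + 1 + Cq / Real.log (1 / β) + 1 / (1 - β) := by linarith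
    have h3 := mul_le_mul_of_nonneg_left h2 h1CY
    calc _ ≤ _ := h3
      _ = _ := by ring
  linarith

end

end Vale.Agent.Lib.P161
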