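import Vale.Agent.Lib.P161.End.DynA
import Vale.Agent.Lib.P161.End.StatP2
import Vale.Agent.Lib.P161.End.StatV

/-!
P161 endpoint, module OneStepEnd: the one step inequality for the distance of two master chains.
See notes/P161_endpoint_blueprint.md, section 5.
-/

open MeasureTheory ProbabilityTheory Finset

namespace Vale.Agent.Lib.P161

noncomputable section

namespace OSE

theorem sL_pos' {t : ℝ} (ht : 0 < t) : 0 < sL t := by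
  unfold sL
  have : 0 < min t 1 := lt_min ht one_pos
  positivity

theorem sL_le' (t : ℝ) : sL t ≤ 1 / 16 := by
  unfold sL
  have : Real.sqrt (min t 1) ≤ 1 :=
    Real.sqrt_le_iff.2 ⟨zero_le_one, by simpa using min_le_right t 1⟩
  linarith

theorem sL_mono' {t₀ t : ℝ} (h : t₀ ≤ t) : sL t₀ ≤ sL t := by
  unfold sL
  have : min t₀ 1 ≤ min t 1 := min_le_min_right _ h
  have := Real.sqrt_le_sqrt this
  linarith

/-- Integrability of the positive part of a shifted integrable function. -/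
theorem integrable_max_sub {Ω : Type*} [MeasurableSpace Ω] {P : Measure Ω} [IsFiniteMeasure P]
    {f : Ω → ℝ} (hf : Integrable f P) (A : ℝ) :
    Integrable (fun u => max (f u - A) 0) P := by
  have h := (hf.sub (integrable_const A)).sup (integrable_zero Ω ℝ P)
  exact h

/-- The tail of the square of a difference. -/
theorem tail_sub {Ω : Type*} [MeasurableSpace Ω] {P : Measure Ω} [IsFiniteMeasure P]
    {f g : Ω → ℝ} (hf : MemLp f 2 P) (hg : MemLp g 2 P) {CD δ₁ : ℝ}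
    (tf : ∀ A : ℝ, 0 < A → ∫ u, max (f u ^ 2 - A) 0 ∂P ≤ CD / A + δ₁)
    (tg : ∀ A : ℝ, 0 < A → ∫ u, max (g u ^ 2 - A) 0 ∂P ≤ CD / A + δ₁) {A : ℝ} (hA : 0 < A) :
    ∫ u, max ((f u - g u) ^ 2 - A) 0 ∂P ≤ 16 * CD / A + 4 * δ₁ := by
  have hf2 : Integrable (fun u => f u ^ 2) P := hf.integrable_sq
  have hg2 : Integrable (fun u => g u ^ 2) P := hg.integrable_sq
  have hd2 : Integrable (fun u => (f u - g u) ^ 2) P := (hf.sub hg).integrable_sq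
  have hA4 : 0 < A / 4 := by positivity
  have i1 := integrable_max_sub hd2 A
  have i2 := integrable_max_sub hf2 (A / 4)
  have i3 := integrable_max_sub hg2 (A / 4)
  have hmono : ∫ u, max ((f u - g u) ^ 2 - A) 0 ∂P
      ≤ ∫ u, (2 * max (f u ^ 2 - A / 4) 0 + 2 * max (g u ^ 2 - A / 4) 0) ∂P := by
    refine integral_mono i1 ((i2.const_mul 2).add (i3.const_mul 2)) fun u => ?_
    have h1 := le_max_left (f u ^ 2 - A / 4) 0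
    have h2 := le_max_left (g u ^ 2 - A / 4) 0
    have h3 := le_max_right (f u ^ 2 - A / 4) 0
    have h4 := le_max_right (g u ^ 2 - A / 4) 0
    refine max_le ?_ (by linarith)
    nlinarith [sq_nonneg (f u + g u)]
  have hsplit : ∫ u, (2 * max (f u ^ 2 - A / 4) 0 + 2 * max (g u ^ 2 - A / 4) 0) ∂P
      = 2 * ∫ u, max (f u ^ 2 - A / 4) 0 ∂P + 2 * ∫ u, max (g u ^ 2 - A / 4) 0 ∂P := by
    rw [integral_add (i2.const_mul 2) (i3.const_mul 2), integral_const_mul, integral_const_mul]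
  rw [hsplit] at hmono
  have t1 := tf (A / 4) hA4
  have t2 := tg (A / 4) hA4
  have e : CD / (A / 4) = 4 * CD / A := by field_simp
  have e' : 16 * CD / A = 4 * (4 * CD / A) := by ring
  rw [e] at t1 t2
  rw [e']
  linarith

/-- The tail of the constant `1`. -/
theorem tail_one {Ω : Type*} [MeasurableSpace Ω] {P : Measure Ω} [IsProbabilityMeasure P]
    {A : ℝ} (hA : 0 < A) {δ₁ : ℝ} (hδ : 0 ≤ δ₁) :
    ∫ _u : Ω, max ((1 : ℝ) - A) 0 ∂P ≤ 1 / A + 4 * δ₁ := by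
  rw [integral_const, probReal_univ, one_smul]
  have h1 : 0 < 1 / A := by positivity
  refine max_le ?_ (by linarith)
  rcases le_total 1 A with h | h
  · linarith
  · have : 1 ≤ 1 / A := by rw [le_div_iff₀ hA]; linarith
    linarith

/-- The arithmetic of the final assembly. -/
theorem arith {KP KV CD CP' L w W₀ N e μ dθ δ' δ P A6 A2 A1 Vv εt : ℝ}
    (hKP : 0 ≤ KP) (hKV : 0 ≤ KV) (hCD : 0 ≤ CD) (hL : 1 ≤ L) (hN0 : 0 ≤ N) (hw0 : 0 ≤ w)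
    (hwW : w ≤ W₀) (he0 : 0 ≤ e) (he1 : e ≤ 1) (hδ'1 : δ' ≤ 1) (hδ'2 : δ' ≤ δ / 100)
    (hCP' : 0 ≤ CP') (hδ : 0 ≤ δ)
    (bP : P ≤ KP * L * w * N + KP * e + CP' * (μ ^ 2 + dθ ^ 2) + δ')
    (b6 : A6 ≤ KV * L * w * N + KV * (1 + 16 * CD) * e + δ')
    (b2 : A2 ≤ KV * L * w * N + KV * (1 + 16 * CD) * e + δ')
    (b1 : A1 ≤ KV * L * w * N + KV * (1 + 16 * CD) * e + δ')
    (bV : Vv ≤ KV * L * w + KV * (1 + 1) * e + δ') (hε : εt ≤ δ') :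
    2 * P + 6 * A6 + 2 * A2 + A1 + (2 * dθ) ^ 2 * Vv + εt
      ≤ (2 * KP + 9 * KV * (1 + 16 * CD) + 1) * L * w * N
        + (2 * KP + 9 * KV * (1 + 16 * CD) + 1) * e
        + (2 * CP' + 4 * (KV * L * W₀ + 2 * KV + 1)) * (μ ^ 2 + dθ ^ 2) + δ := by
  have hL0 : 0 ≤ L := by linarith
  have hCD16 : 0 ≤ 16 * CD := by positivity
  have hbV' : Vv ≤ KV * L * W₀ + 2 * KV + 1 := by
    have h1 : KV * L * w ≤ KV * L * W₀ := mul_le_mul_of_nonneg_left hwW (by positivity)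
    have h2 : KV * (1 + 1) * e ≤ 2 * KV := by nlinarith
    linarith
  have hbV'' : (2 * dθ) ^ 2 * Vv ≤ 4 * (KV * L * W₀ + 2 * KV + 1) * dθ ^ 2 := by
    have := mul_le_mul_of_nonneg_left hbV' (sq_nonneg (2 * dθ))
    nlinarith
  have hX : 0 ≤ L * w * N := by positivity
  have hK1 : (2 * KP + 9 * KV) * (L * w * N)
      ≤ (2 * KP + 9 * KV * (1 + 16 * CD) + 1) * (L * w * N) := by
    refine mul_le_mul_of_nonneg_right ?_ hX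
    nlinarith [mul_nonneg hKV hCD16]
  have hK2' : (2 * KP + 9 * (KV * (1 + 16 * CD))) * e
      ≤ (2 * KP + 9 * KV * (1 + 16 * CD) + 1) * e := by
    refine mul_le_mul_of_nonneg_right ?_ he0
    linarith
  have hC : 2 * CP' * (μ ^ 2 + dθ ^ 2) + 4 * (KV * L * W₀ + 2 * KV + 1) * dθ ^ 2
      ≤ (2 * CP' + 4 * (KV * L * W₀ + 2 * KV + 1)) * (μ ^ 2 + dθ ^ 2) := by
    have hW0 : 0 ≤ W₀ := hw0.trans hwW
    have : 0 ≤ 4 * (KV * L * W₀ + 2 * KV + 1) * μ ^ 2 := by positivity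
    nlinarith
  have e1 : (2 * KP + 9 * KV * (1 + 16 * CD) + 1) * L * w * N
      = (2 * KP + 9 * KV * (1 + 16 * CD) + 1) * (L * w * N) := by ring
  have e2 : KP * L * w * N = KP * (L * w * N) := by ring
  have e3 : KV * L * w * N = KV * (L * w * N) := by ring
  rw [e1]
  rw [e2] at bP
  rw [e3] at b1 b2 b6
  have e4 : (2 * KP + 9 * KV) * (L * w * N)
      = 2 * (KP * (L * w * N)) + 9 * (KV * (L * w * N)) := by ring
  have e5 : (2 * KP + 9 * (KV * (1 + 16 * CD))) * e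
      = 2 * (KP * e) + 9 * (KV * (1 + 16 * CD) * e) := by ring
  have e6 : 2 * CP' * (μ ^ 2 + dθ ^ 2) = 2 * (CP' * (μ ^ 2 + dθ ^ 2)) := by ring
  rw [e4] at hK1
  rw [e5] at hK2'
  rw [e6] at hC
  linarith

end OSE

variable {V : Type*} [DecidableEq V] {G : SimpleGraph V} [G.LocallyFinite] {d : ℕ}

open OSE in
/-- **Main statement of the module.**  `K` does not depend on `t₀, L`. -/
theorem one_step_main (hT : G.IsTree) (hdeg : ∀ v, G.degree v = d) (hd : 3 ≤ d) (T : ℝ)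
    (hT0 : 0 < T) :
    ∃ K : ℝ, 1 ≤ K ∧ ∀ t₀ : ℝ, 0 < t₀ → ∀ L : ℕ, 1 ≤ L → ∃ C' : ℝ, 0 < C' ∧
      ∀ θ₁ θ₂ : ℝ, GoodT d θ₁ → GoodT d θ₂ → 1 - θ₁ ^ 2 * ((d : ℝ) - 1) ≤ sL t₀ →
      1 - θ₂ ^ 2 * ((d : ℝ) - 1) ≤ sL t₀ → |θ₁ - θ₂| ≤ dThetaMax d →
      ∀ {γ : ℕ → ℕ → unitInterval → ℝ},
      (∀ j, IsNoise (uniformField V) (fun (k : ℕ) (v : V) (u : V → unitInterval) => γ j k (u v))) →
      ∀ δ : ℝ, 0 < δ → ∃ ℓ₀ j₀ : ℕ, ∀ ℓ j, ℓ₀ ≤ ℓ → j₀ ≤ j → ∀ k : ℕ,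
        t₀ ≤ (k : ℝ) * (1 / 2 : ℝ) ^ j → (k : ℝ) * (1 / 2 : ℝ) ^ j ≤ T → ∀ a b, G.Adj a b →
          NN G θ₁ θ₂ γ ℓ j (k + 1) a b ≤ NN G θ₁ θ₂ γ ℓ j k a b + (1 / 2 : ℝ) ^ j * (
            K * L * wF ((k : ℝ) * (1 / 2 : ℝ) ^ j) * NN G θ₁ θ₂ γ ℓ j k a b
            + K * Real.exp (-(L : ℝ))
            + C' * (MM G θ₁ θ₂ γ ℓ j k a b ^ 2 + (θ₁ - θ₂) ^ 2) + δ) := by
  haveI := limit_uniformField_prob V
  obtain ⟨α, Cp, Cu, CD, hα, hα1, hCp, hCu, hCD, hpack⟩ := pack_chain (G := G) hT hdeg hd T hT0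
  have hCq : 0 < Cp + 1 := by linarith
  obtain ⟨KP, hKP, hstatP⟩ := static_P (G := G) hT hdeg hd hα hα1 hCD hCu hCq
  obtain ⟨KV, hKV, hstatV⟩ := static_V (G := G) hT hdeg hd hα hα1 hCD hCu hCq
  have hCD16 : 0 ≤ 16 * CD := by positivity
  refine ⟨2 * KP + 9 * KV * (1 + 16 * CD) + 1, ?_, ?_⟩
  · have : 0 ≤ 2 * KP + 9 * KV * (1 + 16 * CD) := by positivity
    linarith
  intro t₀ ht₀ L hL
  have hs₀ : 0 < sL t₀ := sL_pos' ht₀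
  obtain ⟨CP', hCP', hstatP'⟩ := hstatP L hL (sL t₀) hs₀
  have hLpos : (1 : ℝ) ≤ L := by exact_mod_cast hL
  have hW₀ : 0 < 1 + 1 / sL t₀ ^ (3 / 2 : ℝ) := by positivity
  refine ⟨2 * CP' + 4 * (KV * L * (1 + 1 / sL t₀ ^ (3 / 2 : ℝ)) + 2 * KV + 1), by positivity, ?_⟩
  intro θ₁ θ₂ hg₁ hg₂ hθ₁ hθ₂ hdθ γ hn δ hδ
  obtain ⟨δ', hδ'def⟩ : ∃ δ' : ℝ, δ' = min (δ / 100) 1 := ⟨_, rfl⟩
  have hδ' : 0 < δ' := by rw [hδ'def]; exact lt_min (by positivity) one_pos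
  have hδ'1 : δ' ≤ 1 := by rw [hδ'def]; exact min_le_right _ _
  have hδ'2 : δ' ≤ δ / 100 := by rw [hδ'def]; exact min_le_left _ _
  obtain ⟨mP, dP, hdP, hP⟩ := hstatP' θ₁ θ₂ hg₁ hg₂ hdθ δ' hδ'
  obtain ⟨m1, d1, hd1, hV1⟩ := hstatV L hL (sL t₀) hs₀ θ₁ hg₁ (16 * CD) hCD16 δ' hδ'
  obtain ⟨m2, d2, hd2, hV2⟩ := hstatV L hL (sL t₀) hs₀ θ₂ hg₂ (16 * CD) hCD16 δ' hδ'
  obtain ⟨m3, d3, hd3, hV3⟩ := hstatV L hL (sL t₀) hs₀ θ₁ hg₁ 1 zero_le_one δ' hδ'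
  obtain ⟨m₀, hm₀⟩ : ∃ m₀ : ℕ, m₀ = max mP (max m1 (max m2 m3)) := ⟨_, rfl⟩
  have hmP : mP ≤ m₀ := by rw [hm₀]; omega
  have hm1 : m1 ≤ m₀ := by rw [hm₀]; omega
  have hm2 : m2 ≤ m₀ := by rw [hm₀]; omega
  have hm3 : m3 ≤ m₀ := by rw [hm₀]; omega
  obtain ⟨δ₁, hδ₁def⟩ : ∃ δ₁ : ℝ, δ₁ = min dP (min d1 (min d2 d3)) := ⟨_, rfl⟩
  have hδ₁ : 0 < δ₁ := by
    rw [hδ₁def]; exact lt_min hdP (lt_min hd1 (lt_min hd2 hd3))
  have hδP : δ₁ ≤ dP := by rw [hδ₁def]; exact min_le_left _ _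
  have hδ1 : δ₁ ≤ d1 := by
    rw [hδ₁def]; exact (min_le_right _ _).trans (min_le_left _ _)
  have hδ2 : δ₁ ≤ d2 := by
    rw [hδ₁def]; exact (min_le_right _ _).trans ((min_le_right _ _).trans (min_le_left _ _))
  have hδ3 : δ₁ ≤ d3 := by
    rw [hδ₁def]; exact (min_le_right _ _).trans ((min_le_right _ _).trans (min_le_right _ _))
  obtain ⟨ℓ₁, j₁, hpack₁⟩ := hpack t₀ ht₀ θ₁ hg₁ hθ₁ hn ⌈(Cp + 1) / sL t₀⌉₊ m₀ δ₁ hδ₁
  obtain ⟨ℓ₂, j₂, hpack₂⟩ := hpack t₀ ht₀ θ₂ hg₂ hθ₂ hn ⌈(Cp + 1) / sL t₀⌉₊ m₀ δ₁ hδ₁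
  obtain ⟨j₃, hj₃⟩ : ∃ j₃ : ℕ, (1 / 2 : ℝ) ^ j₃ * (K2 θ₁ d + K2 θ₂ d) ^ 2 ≤ δ' := by
    have hK0 : 0 ≤ (K2 θ₁ d + K2 θ₂ d) ^ 2 := sq_nonneg _
    obtain ⟨n, hn'⟩ := exists_pow_lt_of_lt_one
      (show 0 < δ' / ((K2 θ₁ d + K2 θ₂ d) ^ 2 + 1) by positivity)
      (show (1 / 2 : ℝ) < 1 by norm_num)
    refine ⟨n, ?_⟩
    have h1 : (1 / 2 : ℝ) ^ n * ((K2 θ₁ d + K2 θ₂ d) ^ 2 + 1) < δ' := by
      rwa [lt_div_iff₀ (by positivity)] at hn'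
    have h2 : (0 : ℝ) ≤ (1 / 2 : ℝ) ^ n := by positivity
    nlinarith
  refine ⟨max ℓ₁ ℓ₂, max j₁ (max j₂ j₃), ?_⟩
  intro ℓ j hℓ hj k hk hkT a b hab
  have hℓ₁ : ℓ₁ ≤ ℓ := le_trans (le_max_left _ _) hℓ
  have hℓ₂ : ℓ₂ ≤ ℓ := le_trans (le_max_right _ _) hℓ
  have hj₁ : j₁ ≤ j := le_trans (le_max_left _ _) hj
  have hj₂ : j₂ ≤ j := le_trans ((le_max_left _ _).trans (le_max_right _ _)) hj
  have hj₃' : j₃ ≤ j := le_trans ((le_max_right _ _).trans (le_max_right _ _)) hj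
  have hkpos : 0 < (k : ℝ) * (1 / 2 : ℝ) ^ j := lt_of_lt_of_le ht₀ hk
  obtain ⟨s, hsdef⟩ : ∃ s : ℝ, s = sL ((k : ℝ) * (1 / 2 : ℝ) ^ j) := ⟨_, rfl⟩
  have hs : 0 < s := by rw [hsdef]; exact sL_pos' hkpos
  have hss₀ : sL t₀ ≤ s := by rw [hsdef]; exact sL_mono' hk
  have hs16 : s ≤ 1 / 16 := by rw [hsdef]; exact sL_le' _
  obtain ⟨p, hpdef⟩ : ∃ p : ℕ, p = ⌈Cp / s⌉₊ := ⟨_, rfl⟩
  have hp1 : 1 ≤ p := by
    rw [hpdef]
    exact Nat.ceil_pos.mpr (div_pos hCp hs)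
  have hpC : Cp / s ≤ p := by rw [hpdef]; exact Nat.le_ceil _
  have hpQ : (p : ℝ) ≤ (Cp + 1) / s := by
    have h1 : (p : ℝ) < Cp / s + 1 := by
      rw [hpdef]; exact Nat.ceil_lt_add_one (div_pos hCp hs).le
    have h2 : (1 : ℝ) ≤ 1 / s := by
      rw [le_div_iff₀ hs]; linarith
    have h3 : (Cp + 1) / s = Cp / s + 1 / s := by ring
    rw [h3]; linarith
  have hpmax : p ≤ ⌈(Cp + 1) / sL t₀⌉₊ := by
    have h1 : (Cp + 1) / s ≤ (Cp + 1) / sL t₀ :=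
      div_le_div_of_nonneg_left hCq.le hs₀ hss₀
    have h2 : (p : ℝ) ≤ (⌈(Cp + 1) / sL t₀⌉₊ : ℝ) := (hpQ.trans h1).trans (Nat.le_ceil _)
    exact_mod_cast h2
  have hF₁ := hpack₁ ℓ j hℓ₁ hj₁ k p hk hkT (by rw [← hsdef]; exact hpC) hpmax
  have hF₂ := hpack₂ ℓ j hℓ₂ hj₂ k p hk hkT (by rw [← hsdef]; exact hpC) hpmax
  rw [← hsdef] at hF₁ hF₂
  -- the two fields
  obtain ⟨η₁, hη₁⟩ : ∃ η₁ : (V → unitInterval) → V → V → ℝ, η₁ = masterChain G θ₁ γ ℓ j k :=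
    ⟨_, rfl⟩
  obtain ⟨η₂, hη₂⟩ : ∃ η₂ : (V → unitInterval) → V → V → ℝ, η₂ = masterChain G θ₂ γ ℓ j k :=
    ⟨_, rfl⟩
  rw [← hη₁] at hF₁
  rw [← hη₂] at hF₂
  have hdyn := dyn_step_le hT hdeg hd hg₁ hg₂ hn ℓ j k hab
  have hNN : NN G θ₁ θ₂ γ ℓ j k a b = ∫ u, (η₁ u a b - η₂ u a b) ^ 2 ∂(uniformField V) := by
    rw [hη₁, hη₂]; rfl
  have hMM : MM G θ₁ θ₂ γ ℓ j k a b = ∫ u, lX θ₁ θ₂ (η₁ u) (η₂ u) a b ∂(uniformField V) := by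
    rw [hη₁, hη₂]; rfl
  rw [← hη₁, ← hη₂] at hdyn
  rw [hNN, hMM]
  rw [hNN] at hdyn
  have hwF : wF ((k : ℝ) * (1 / 2 : ℝ) ^ j) = 1 + 1 / s ^ (3 / 2 : ℝ) := by
    rw [hsdef]; rfl
  rw [hwF]
  -- integrability and tails of the two differences
  have htailD : ∀ x y, G.Adj x y → ∀ A : ℝ, 0 < A →
      ∫ u, max ((η₁ u x y - η₂ u x y) ^ 2 - A) 0 ∂(uniformField V) ≤ 16 * CD / A + 4 * δ₁ := by
    intro x y hxy A hA
    exact tail_sub (hF₁.eqf.memLp x y) (hF₂.eqf.memLp x y) (fun A hA => hF₁.tail_le x y hxy A hA)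
      (fun A hA => hF₂.tail_le x y hxy A hA) hA
  have hintD : ∀ x y, Integrable (fun u => (η₁ u x y - η₂ u x y) ^ 2) (uniformField V) := by
    intro x y
    exact ((hF₁.eqf.memLp x y).sub (hF₂.eqf.memLp x y)).integrable_sq
  have hNsym : ∫ u, (η₁ u b a - η₂ u b a) ^ 2 ∂(uniformField V)
      = ∫ u, (η₁ u a b - η₂ u a b) ^ 2 ∂(uniformField V) := by
    refine integral_edge_const hT hdeg (by omega) (fun u x y => (η₁ u x y - η₂ u x y) ^ 2)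
      (fun x y => ((hF₁.eqf.meas x y).sub (hF₂.eqf.meas x y)).pow_const 2)
      (fun g u x y => ?_) hab.symm hab
    simp only [hF₁.eqf.equiv g u x y, hF₂.eqf.equiv g u x y]
  have mono₁ : ∀ {m' : ℕ} {d' : ℝ}, m' ≤ m₀ → δ₁ ≤ d' →
      FieldPack G d θ₁ η₁ p α ((137 : ℝ) ^ p) CD Cu s m' d' := fun hm hd' => hF₁.mono hm hd'
  have mono₂ : ∀ {m' : ℕ} {d' : ℝ}, m' ≤ m₀ → δ₁ ≤ d' →
      FieldPack G d θ₂ η₂ p α ((137 : ℝ) ^ p) CD Cu s m' d' := fun hm hd' => hF₂.mono hm hd'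
  -- the static bounds
  have bP := hP s p hss₀ hs16 hp1 hpQ η₁ η₂ (mono₁ hmP hδP) (mono₂ hmP hδP) a b hab ℓ
  have b6 := hV1 s p hss₀ hs16 hp1 hpQ η₁ (mono₁ hm1 hδ1)
    (fun u => (η₁ u a b - η₂ u a b) ^ 2) (fun u => sq_nonneg _) (hintD a b)
    (fun A hA => (htailD a b hab A hA).trans (by linarith)) a b hab ℓ
  have b2 := hV2 s p hss₀ hs16 hp1 hpQ η₂ (mono₂ hm2 hδ2)
    (fun u => (η₁ u a b - η₂ u a b) ^ 2) (fun u => sq_nonneg _) (hintD a b)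
    (fun A hA => (htailD a b hab A hA).trans (by linarith)) a b hab ℓ
  have b1 := hV1 s p hss₀ hs16 hp1 hpQ η₁ (mono₁ hm1 hδ1)
    (fun u => (η₁ u b a - η₂ u b a) ^ 2) (fun u => sq_nonneg _) (hintD b a)
    (fun A hA => (htailD b a hab.symm A hA).trans (by linarith)) a b hab ℓ
  have bV := hV3 s p hss₀ hs16 hp1 hpQ η₁ (mono₁ hm3 hδ3)
    (fun _ => (1 : ℝ)) (fun _ => zero_le_one) (integrable_const _)
    (fun A hA => tail_one hA (by linarith)) a b hab ℓ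
  simp only [one_mul, integral_const, probReal_univ, one_smul, mul_one] at bV
  rw [hNsym] at b1
  have hN0 : 0 ≤ ∫ u, (η₁ u a b - η₂ u a b) ^ 2 ∂(uniformField V) :=
    integral_nonneg fun u => sq_nonneg _
  have hwW : 1 + 1 / s ^ (3 / 2 : ℝ) ≤ 1 + 1 / sL t₀ ^ (3 / 2 : ℝ) := by
    have : sL t₀ ^ (3 / 2 : ℝ) ≤ s ^ (3 / 2 : ℝ) :=
      Real.rpow_le_rpow hs₀.le hss₀ (by norm_num)
    have h2 : 1 / s ^ (3 / 2 : ℝ) ≤ 1 / sL t₀ ^ (3 / 2 : ℝ) :=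
      one_div_le_one_div_of_le (by positivity) this
    linarith
  have hw0 : 0 ≤ 1 + 1 / s ^ (3 / 2 : ℝ) := by positivity
  have he0 : 0 ≤ Real.exp (-(L : ℝ)) := by positivity
  have he1 : Real.exp (-(L : ℝ)) ≤ 1 := Real.exp_le_one_iff.mpr (by linarith)
  -- the epsilon term
  have hε : (1 / 2 : ℝ) ^ j * (K2 θ₁ d + K2 θ₂ d) ^ 2 ≤ δ' := by
    refine le_trans ?_ hj₃
    exact mul_le_mul_of_nonneg_right
      (pow_le_pow_of_le_one (by norm_num) (by norm_num) hj₃') (sq_nonneg _)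
  have hε0 : (0 : ℝ) ≤ (1 / 2 : ℝ) ^ j := by positivity
  refine hdyn.trans ?_
  refine add_le_add_right ?_ _
  refine mul_le_mul_of_nonneg_left ?_ hε0
  exact arith hKP.le hKV.le hCD.le hLpos hN0 hw0 hwW he0 he1 hδ'1 hδ'2 hCP'.le hδ.le bP b6 b2 b1 bV hε

end

end Vale.Agent.Lib.P161
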