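import Vale.Agent.Lib.P161.End.Field

/-!
P161 endpoint, module Pack: the hypotheses of the static estimates on one field at one time.
See notes/P161_endpoint_blueprint.md, section 4.
-/

open MeasureTheory ProbabilityTheory Finset

namespace Vale.Agent.Lib.P161

noncomputable section

variable {V : Type*} [DecidableEq V]

/-- The admissible parameters below the critical one: `3/4 ≤ θ²(d-1) < 1`. -/
def GoodT (d : ℕ) (θ : ℝ) : Prop :=
  0 < θ ∧ 3 / 4 ≤ θ ^ 2 * ((d : ℝ) - 1) ∧ θ ^ 2 * ((d : ℝ) - 1) < 1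

/-- The lower bound on admissible parameters. -/
def thetaLow (d : ℕ) : ℝ := Real.sqrt (3 / (4 * ((d : ℝ) - 1)))

/-- The constant in the Lipschitz bound of `lF` in `θ`. -/
def lipTheta (d : ℕ) : ℝ := 1 / thetaLow d + 4

/-- The allowed difference of two parameters (so that `2 (lipTheta d * |θ₁ - θ₂|)² ≤ 1/2`). -/
def dThetaMax (d : ℕ) : ℝ := 1 / (2 * lipTheta d)

/-- The difference of the logarithmic derivatives along the edge `(x, y)`. -/
def lX (θ₁ θ₂ : ℝ) (η₁ η₂ : V → V → ℝ) (x y : V) : ℝ := lF θ₁ (η₁ x y) - lF θ₂ (η₂ x y)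

/-- The hypotheses of the static estimates on one field `η`, for the exponent `p` of the cascade:
the tail of the cascade behind an edge (`casc_le`), the tail of the cascade in front of an edge
(`front_le`), the tail of the field (`tail_le`), the tail of `tanh² (η)` (`utail_le`). -/
structure FieldPack (G : SimpleGraph V) [G.LocallyFinite] (d : ℕ) (θ : ℝ)
    (η : (V → unitInterval) → V → V → ℝ) (p : ℕ) (α κ CD Cu s : ℝ) (m₀ : ℕ) (δ₁ : ℝ) : Prop where
  eqf : EqField G η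
  casc_le : ∀ x y, G.Adj x y → ∀ n, n ≤ m₀ →
    ∫ u, max (casc (nbV G) ((d : ℝ) - 1) (fun x y => phiF θ (η u x y) ^ p) n x y - epsN α n) 0
      ∂(uniformField V) ≤ tauN n + δ₁
  front_le : ∀ x y, G.Adj x y → ∀ n, n ≤ m₀ →
    ∫ u, max (casc (nbV G) ((d : ℝ) - 1) (fun x y => phiF θ (η u y x) ^ p) (n + 1) x y
        - κ * epsN α n) 0 ∂(uniformField V) ≤ tauN n + δ₁
  tail_le : ∀ x y, G.Adj x y → ∀ A : ℝ, 0 < A →
    ∫ u, max (η u x y ^ 2 - A) 0 ∂(uniformField V) ≤ CD / A + δ₁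
  utail_le : ∀ x y, G.Adj x y → ∀ a : ℝ, 0 ≤ a → a ≤ 1 →
    ∫ u, max (Real.tanh (η u x y) ^ 2 - a) 0 ∂(uniformField V)
      ≤ 2 * Real.exp (-a / (Cu * s)) + δ₁

theorem FieldPack.mono {G : SimpleGraph V} [G.LocallyFinite] {d : ℕ} {θ : ℝ}
    {η : (V → unitInterval) → V → V → ℝ} {p : ℕ} {α κ CD Cu s δ₁ δ₂ : ℝ} {m₁ m₂ : ℕ}
    (h : FieldPack G d θ η p α κ CD Cu s m₁ δ₁) (hm : m₂ ≤ m₁) (hδ : δ₁ ≤ δ₂) :
    FieldPack G d θ η p α κ CD Cu s m₂ δ₂ where
  eqf := h.eqf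
  casc_le x y hxy n hn := (h.casc_le x y hxy n (hn.trans hm)).trans (by linarith)
  front_le x y hxy n hn := (h.front_le x y hxy n (hn.trans hm)).trans (by linarith)
  tail_le x y hxy A hA := (h.tail_le x y hxy A hA).trans (by linarith)
  utail_le x y hxy a ha ha' := (h.utail_le x y hxy a ha ha').trans (by linarith)

/-- Mean square distance of two master chains. -/
def NN (G : SimpleGraph V) [G.LocallyFinite] (θ₁ θ₂ : ℝ) (γ : ℕ → ℕ → unitInterval → ℝ)
    (ℓ j k : ℕ) (a b : V) : ℝ :=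
  ∫ u, (masterChain G θ₁ γ ℓ j k u a b - masterChain G θ₂ γ ℓ j k u a b) ^ 2 ∂(uniformField V)

/-- Mean of the difference of the logarithmic derivatives along two master chains. -/
def MM (G : SimpleGraph V) [G.LocallyFinite] (θ₁ θ₂ : ℝ) (γ : ℕ → ℕ → unitInterval → ℝ)
    (ℓ j k : ℕ) (a b : V) : ℝ :=
  ∫ u, lX θ₁ θ₂ (masterChain G θ₁ γ ℓ j k u) (masterChain G θ₂ γ ℓ j k u) a b ∂(uniformField V)

/-- The weight in the dynamic inequality. -/
def wF (t : ℝ) : ℝ := 1 + 1 / sL t ^ (3 / 2 : ℝ)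

end

end Vale.Agent.Lib.P161
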