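import Vale.Agent.Lib.P161.End.Pack
import Vale.Agent.Lib.P161.End.LawQBound
import Vale.Agent.Lib.P161.Facts
import Vale.Agent.Lib.P161.FieldChain

/-!
P161 endpoint, module PackChain, parts P0 and P1: tree parameters, the master chain as an
equivariant local field, the tail of the field at chain level.
-/

open MeasureTheory ProbabilityTheory Finset
open scoped NNReal

namespace Vale.Agent.Lib.P161.PC1

noncomputable section

variable {V : Type*} [DecidableEq V] {G : SimpleGraph V} [G.LocallyFinite] {d : ℕ}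

lemma abs_hm_le_one {θ : ℝ} (h0 : 0 ≤ θ) (h1 : θ < 1) (h2 : θ ^ 2 ≤ 1 / 2) (x : ℝ) :
    |hm θ x| ≤ 1 := by
  set y := hm θ x with hy
  have hu : Real.tanh x ^ 2 ≤ 1 := (le_abs_self _).trans (LQ.abs_tanh_sq_le x)
  have htan : Real.tanh y ^ 2 = θ ^ 2 * Real.tanh x ^ 2 := by
    rw [hy, tanh_hm h0 h1, mul_pow]
  have hz : Real.tanh y ^ 2 ≤ 1 / 2 := by
    rw [htan]
    nlinarith [sq_nonneg θ, sq_nonneg (Real.tanh x)]
  have h3 := LQ.sinh_sq_le_of_tanh hz
  have h4 := LQ.sq_le_sinh_sq y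
  have h5 : y ^ 2 ≤ 1 := by linarith
  exact (sq_le_one_iff_abs_le_one y).1 h5

lemma abs_msg_succ_le {θ : ℝ} (h0 : 0 ≤ θ) (h1 : θ < 1) (h2 : θ ^ 2 ≤ 1 / 2) {N : V → Finset V}
    {D : ℕ} (hN : ∀ a, (N a).card ≤ D) (x : V → ℝ) (L : ℕ) (a b : V) :
    |msg θ N x (L + 1) a b| ≤ |x a| + D := by
  simp only [msg]
  refine (abs_add_le _ _).trans ?_
  refine add_le_add le_rfl ?_
  refine (abs_sum_le_sum_abs _ _).trans ?_
  calc ∑ c ∈ (N a).erase b, |hm θ (msg θ N x L c a)| ≤ ∑ _c ∈ (N a).erase b, (1 : ℝ) :=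
        sum_le_sum fun c _ => abs_hm_le_one h0 h1 h2 _
    _ = ((N a).erase b).card := by simp
    _ ≤ D := by
        have : ((N a).erase b).card ≤ D := (card_erase_le).trans (hN a)
        exact_mod_cast this

lemma card_nbS_le_deg (hdeg : ∀ v, G.degree v = d) (S : Finset V) (a : V) :
    (nbS G S a).card ≤ d := by
  classical
  unfold nbS
  split_ifs with ha
  · rw [← hdeg a, ← SimpleGraph.card_neighborFinset_eq_degree]
    exact card_le_card (filter_subset _ _)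
  · simp

lemma xChain_sub_le {θ ε : ℝ} (hε : 0 ≤ ε) (N : V → Finset V) (L : ℕ) (g : ℕ → V → ℝ) (k : ℕ) (a : V) :
    |xChain θ N L ε g k a - Real.sqrt ε * ∑ l ∈ range k, g l a| ≤ k * ε := by
  induction k with
  | zero => simp [xChain]
  | succ k ih =>
    simp only [xChain]
    rw [sum_range_succ]
    have e : xChain θ N L ε g k a + ε * Real.tanh (totField θ N (xChain θ N L ε g k) L a)
          + Real.sqrt ε * g k a - Real.sqrt ε * (∑ l ∈ range k, g l a + g k a) =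
        (xChain θ N L ε g k a - Real.sqrt ε * ∑ l ∈ range k, g l a) +
          ε * Real.tanh (totField θ N (xChain θ N L ε g k) L a) := by ring
    rw [e]
    refine (abs_add_le _ _).trans ?_
    have h2 : |ε * Real.tanh (totField θ N (xChain θ N L ε g k) L a)| ≤ ε := by
      rw [abs_mul, abs_of_nonneg hε]
      have := abs_tanh_le_one (totField θ N (xChain θ N L ε g k) L a)
      nlinarith
    push_cast
    linarith

section Noise

variable {Ω : Type*} [mΩ : MeasurableSpace Ω] {P : Measure Ω} [IsProbabilityMeasure P]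
  {g : ℕ → V → Ω → ℝ}

lemma noise_sum_law (hg : IsNoise P g) (w : V) (k : ℕ) :
    P.map (fun ω => ∑ l ∈ range k, g l w ω) = gaussianReal 0 (k : ℝ≥0) := by
  induction k with
  | zero =>
    simp only [range_zero, sum_empty, Nat.cast_zero, gaussianReal_zero_var]
    simp
  | succ k ih =>
    have hi : iIndepFun (fun l : ℕ => g l w) P :=
      hg.indep.precomp (g := fun l : ℕ => (l, w)) (fun a b h => (Prod.mk.inj h).1)
    have hind := hi.indepFun_finsetSum_of_notMem (fun l => hg.meas l w) (s := range k) (i := k)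
      (by simp)
    have h2 : IndepFun (fun ω => ∑ l ∈ range k, g l w ω) (g k w) P := by
      refine hind.congr (Filter.Eventually.of_forall fun ω => ?_) (Filter.EventuallyEq.refl _ _)
      simp
    have h3 := gaussianReal_add_gaussianReal_of_indepFun h2 ih (hg.law k w)
    have e : (fun ω => ∑ l ∈ range (k + 1), g l w ω) =
        (fun ω => ∑ l ∈ range k, g l w ω) + g k w := by
      funext ω
      simp [sum_range_succ]
    rw [e, h3]
    simp

lemma four_moment_of_law {Z : Ω → ℝ} (hZ : Measurable Z) {v : ℝ≥0}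
    (hlaw : P.map Z = gaussianReal 0 v) :
    Integrable (fun ω => Z ω ^ 4) P ∧ ∫ ω, Z ω ^ 4 ∂P ≤ 48 * Real.exp ((v : ℝ) / 2) := by
  set ν := gaussianReal 0 v with hν
  have hf : Measurable fun x : ℝ => x ^ 4 := measurable_id.pow_const 4
  have hp : ∀ x : ℝ, x ^ 4 ≤ 24 * (Real.exp (1 * x) + Real.exp ((-1) * x)) := fun x => by
    have := LQ.four_le_exp_add (l := 1) one_pos x
    simpa using this
  have hi : ∀ l : ℝ, Integrable (fun x => Real.exp (l * x)) ν := fun l =>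
    integrable_exp_mul_gaussianReal l
  have hB : Integrable (fun x => 24 * (Real.exp (1 * x) + Real.exp ((-1) * x))) ν :=
    ((hi 1).add (hi (-1))).const_mul 24
  have hI : Integrable (fun x : ℝ => x ^ 4) ν := by
    refine hB.mono' hf.aestronglyMeasurable (Filter.Eventually.of_forall fun x => ?_)
    rw [Real.norm_eq_abs, abs_of_nonneg (by positivity)]
    exact hp x
  have hval : ∀ l : ℝ, ∫ x, Real.exp (l * x) ∂ν = Real.exp ((v : ℝ) * l ^ 2 / 2) := fun l => by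
    have h := congrFun (mgf_fun_id_gaussianReal (μ := 0) (v := v)) l
    simp only [mgf] at h
    rw [h]
    congr 1
    ring
  have hle : ∫ x, x ^ 4 ∂ν ≤ 48 * Real.exp ((v : ℝ) / 2) := by
    refine (integral_mono hI hB hp).trans (le_of_eq ?_)
    rw [integral_const_mul, integral_add (hi 1) (hi (-1)), hval, hval]
    norm_num
    ring
  have hmap : AEMeasurable Z P := hZ.aemeasurable
  constructor
  · have := (integrable_map_measure hf.aestronglyMeasurable hmap).1 (by rw [hlaw]; exact hI)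
    exact this
  · have : ∫ x, x ^ 4 ∂(P.map Z) = ∫ ω, Z ω ^ 4 ∂P := integral_map hmap hf.aestronglyMeasurable
    rw [← this, hlaw]
    exact hle

/-- The scaled noise sum has a bounded fourth moment. -/
lemma noise_sum_fourth (hg : IsNoise P g) (w : V) (k : ℕ) {ε T : ℝ} (hε : 0 ≤ ε)
    (hk : (k : ℝ) * ε ≤ T) :
    Integrable (fun ω => (Real.sqrt ε * ∑ l ∈ range k, g l w ω) ^ 4) P ∧
      ∫ ω, (Real.sqrt ε * ∑ l ∈ range k, g l w ω) ^ 4 ∂P ≤ 48 * Real.exp (T / 2) := by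
  have hm : Measurable fun ω => ∑ l ∈ range k, g l w ω :=
    Finset.measurable_sum _ fun l _ => hg.meas l w
  have hlaw := noise_sum_law hg w k
  have hmul : Measurable fun x : ℝ => Real.sqrt ε * x := measurable_const.mul measurable_id
  have hlaw2 : P.map (fun ω => Real.sqrt ε * ∑ l ∈ range k, g l w ω) =
      gaussianReal 0 (.mk (Real.sqrt ε ^ 2) (sq_nonneg _) * (k : ℝ≥0)) := by
    have h1 : (fun ω => Real.sqrt ε * ∑ l ∈ range k, g l w ω) =
        (fun x : ℝ => Real.sqrt ε * x) ∘ (fun ω => ∑ l ∈ range k, g l w ω) := rfl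
    rw [h1, ← Measure.map_map hmul hm, hlaw, gaussianReal_map_const_mul]
    simp
  have h := four_moment_of_law (hmul.comp hm) hlaw2
  refine ⟨h.1, h.2.trans ?_⟩
  have e : ((NNReal.mk (Real.sqrt ε ^ 2) (sq_nonneg _) * (k : ℝ≥0) : ℝ≥0) : ℝ) = ε * k := by
    push_cast
    simp [Real.sq_sqrt hε]
  rw [e]
  have h5 : Real.exp (ε * k / 2) ≤ Real.exp (T / 2) := Real.exp_le_exp.2 (by nlinarith)
  linarith

end Noise

lemma max_sq_sub_le {E M s A T D : ℝ} (hA : 0 < A) (hT : 0 ≤ T) (hD : 0 ≤ D)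
    (hM : |M| ≤ T + |s| + D) :
    max (E ^ 2 - A) 0 ≤ 2 * (E - M) ^ 2 + 108 / A * (T ^ 4 + s ^ 4 + D ^ 4) := by
  have h0 : 0 ≤ 108 / A * (T ^ 4 + s ^ 4 + D ^ 4) := by positivity
  refine max_le ?_ (by nlinarith [sq_nonneg (E - M)])
  have h1 : E ^ 2 ≤ 2 * M ^ 2 + 2 * (E - M) ^ 2 := by nlinarith [sq_nonneg (E - 2 * M)]
  -- the fourth power
  have ha : 0 ≤ |s| := abs_nonneg s
  set b := |s| with hb
  have h2 : M ^ 4 ≤ 27 * (T ^ 4 + b ^ 4 + D ^ 4) := by
    have h3 : M ^ 2 ≤ (T + b + D) ^ 2 := by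
      rw [← sq_abs M]
      exact pow_le_pow_left₀ (abs_nonneg _) hM 2
    have h4 : (T + b + D) ^ 2 ≤ 3 * (T ^ 2 + b ^ 2 + D ^ 2) := by
      nlinarith [sq_nonneg (T - b), sq_nonneg (T - D), sq_nonneg (b - D)]
    have h5 : M ^ 2 ≤ 3 * (T ^ 2 + b ^ 2 + D ^ 2) := h3.trans h4
    have h6 : (M ^ 2) ^ 2 ≤ (3 * (T ^ 2 + b ^ 2 + D ^ 2)) ^ 2 :=
      pow_le_pow_left₀ (sq_nonneg _) h5 2
    have h7 : (T ^ 2 + b ^ 2 + D ^ 2) ^ 2 ≤ 3 * (T ^ 4 + b ^ 4 + D ^ 4) := by
      nlinarith [sq_nonneg (T ^ 2 - b ^ 2), sq_nonneg (T ^ 2 - D ^ 2), sq_nonneg (b ^ 2 - D ^ 2)]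
    nlinarith
  have e4 : b ^ 4 = s ^ 4 := by
    have : b ^ 4 = (b ^ 2) ^ 2 := by ring
    rw [this, hb, sq_abs]
    ring
  rw [e4] at h2
  have h3 : 2 * M ^ 2 - A ≤ 4 * M ^ 4 / A := by
    rw [le_div_iff₀ hA]
    nlinarith [sq_nonneg (2 * M ^ 2 - A / 2), sq_nonneg A]
  have h4 : 4 * M ^ 4 / A ≤ 108 / A * (T ^ 4 + s ^ 4 + D ^ 4) := by
    have : 108 / A * (T ^ 4 + s ^ 4 + D ^ 4) = 4 * (27 * (T ^ 4 + s ^ 4 + D ^ 4)) / A := by ring
    rw [this]
    exact div_le_div_of_nonneg_right (by linarith) hA.le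
  linarith

end

end Vale.Agent.Lib.P161.PC1

namespace Vale.Agent.Lib.P161

noncomputable section

variable {V : Type*} [DecidableEq V] {G : SimpleGraph V} [G.LocallyFinite] {d : ℕ}

/-- `GoodT` gives the tree parameters. -/
theorem GoodT.treeParams (hT : G.IsTree) (hdeg : ∀ v, G.degree v = d) (hd : 3 ≤ d) {θ : ℝ}
    (h : GoodT d θ) : TreeParams G d θ := by
  obtain ⟨h0, h1, h2⟩ := h
  have hd' : (3 : ℝ) ≤ d := by exact_mod_cast hd
  refine ⟨hT, hdeg, by omega, h0.le, ?_, h2⟩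
  nlinarith [sq_nonneg θ]

/-- The master chain is an equivariant local field. -/
theorem masterChain_eqField {θ : ℝ} (hp : TreeParams G d θ) {γ : ℕ → ℕ → unitInterval → ℝ}
    (hn : ∀ j, IsNoise (uniformField V) (fun (k : ℕ) (v : V) (u : V → unitInterval) => γ j k (u v)))
    (ℓ j k : ℕ) : EqField G (masterChain G θ γ ℓ j k) := by
  haveI := limit_uniformField_prob V
  refine ⟨?_, ?_, ?_, ?_⟩
  · exact fun a b =>
      measurable_masterChain hp.nonneg hp.lt_one (measurable_gamma_of_noise hp hn) ℓ j k a b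
  · exact fun g u a b => masterChain_equiv γ g ℓ j k u a b
  · exact ⟨k * (ℓ + 2), fun a b hab u u' h => masterChain_local hp.tree.1 γ ℓ j k u u' a b hab h⟩
  · exact fun a b => memLp_cavChain (hn j) hp.nonneg hp.lt_one ℓ k a b

/-- **P1.** The tail of the field at chain level, by comparison with the message of the field
chain of a ball: `|msg| ≤ |x| + d`, `E x⁴ ≤ C`, `edge_close` and `field_chain_close`. -/
theorem tail_chain (hT : G.IsTree) (hdeg : ∀ v, G.degree v = d) (hd : 3 ≤ d) (T : ℝ) (hT0 : 0 < T) :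
    ∃ CD : ℝ, 0 < CD ∧ ∀ θ : ℝ, GoodT d θ → ∀ {γ : ℕ → ℕ → unitInterval → ℝ},
      (∀ j, IsNoise (uniformField V) (fun (k : ℕ) (v : V) (u : V → unitInterval) => γ j k (u v))) →
      ∀ δ₁ : ℝ, 0 < δ₁ → ∃ ℓ₀ j₀ : ℕ, ∀ ℓ j, ℓ₀ ≤ ℓ → j₀ ≤ j → ∀ k : ℕ,
        (k : ℝ) * (1 / 2 : ℝ) ^ j ≤ T → ∀ x y, G.Adj x y → ∀ A : ℝ, 0 < A →
          ∫ u, max (masterChain G θ γ ℓ j k u x y ^ 2 - A) 0 ∂(uniformField V) ≤ CD / A + δ₁ := by
  classical
  haveI := limit_uniformField_prob V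
  set D : ℝ := (d : ℝ) with hD
  have hD0 : 0 ≤ D := Nat.cast_nonneg d
  refine ⟨108 * (T ^ 4 + 48 * Real.exp (T / 2) + D ^ 4), by positivity, ?_⟩
  intro θ hθ γ hn δ₁ hδ₁
  have hp : TreeParams G d θ := GoodT.treeParams hT hdeg hd hθ
  have hθ2 : θ ^ 2 ≤ 1 / 2 := by
    have h1 := hθ.2.2
    have hd' : (3 : ℝ) ≤ d := by exact_mod_cast hd
    nlinarith [sq_nonneg θ]
  have hγm := measurable_gamma_of_noise hp hn
  -- an edge
  obtain ⟨x₀⟩ := hT.1.nonempty
  obtain ⟨y₀, hxy₀⟩ : ∃ y, G.Adj x₀ y := by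
    have h1 : 0 < G.degree x₀ := by
      rw [hdeg x₀]
      omega
    obtain ⟨y, hy⟩ := (G.degree_pos_iff_exists_adj x₀).1 h1
    exact ⟨y, hy⟩
  -- the radius
  have hγ := hp.gammaC_gt
  have hγ0 : 0 < gammaC θ d := by linarith
  set K : ℝ := Real.exp (compC θ d * T) - 1 with hK
  have hK0 : 0 ≤ K := by
    have := Real.one_le_exp (mul_nonneg hp.compC_pos.le hT0.le)
    linarith
  obtain ⟨R₀, hR₀⟩ := pow_unbounded_of_one_lt (8 * K / δ₁) hγ
  set R := R₀ + 1 with hR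
  have hRbound : 2 * (K / gammaC θ d ^ R) ≤ δ₁ / 4 := by
    have h1 : gammaC θ d ^ R₀ ≤ gammaC θ d ^ R := pow_le_pow_right₀ hγ.le (by omega)
    have h2 : 8 * K / δ₁ < gammaC θ d ^ R := lt_of_lt_of_le hR₀ h1
    rw [div_lt_iff₀ hδ₁] at h2
    have h3 : 0 < gammaC θ d ^ R := by positivity
    have h4 : K / gammaC θ d ^ R ≤ δ₁ / 8 := by
      rw [div_le_iff₀ h3]
      linarith
    linarith
  obtain ⟨C, hC0, hC⟩ := field_chain_close (Ω := V → unitInterval) (P := uniformField V) hp x₀ R T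
  obtain ⟨j₀, hj₀⟩ := exists_pow_lt_of_lt_one (div_pos hδ₁ (by positivity : 0 < 8 * C))
    (by norm_num : (1 / 2 : ℝ) < 1)
  refine ⟨2 * R + 1, j₀, ?_⟩
  intro ℓ j hℓ hj k hk x y hxy A hA
  -- reduction to the fixed edge
  have hmeas : ∀ a b, Measurable fun u : V → unitInterval => masterChain G θ γ ℓ j k u a b :=
    fun a b => measurable_masterChain hp.nonneg hp.lt_one hγm ℓ j k a b
  have hedge : ∫ u, max (masterChain G θ γ ℓ j k u x y ^ 2 - A) 0 ∂(uniformField V) =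
      ∫ u, max (masterChain G θ γ ℓ j k u x₀ y₀ ^ 2 - A) 0 ∂(uniformField V) := by
    refine integral_edge_const hT hdeg (by omega)
      (fun u a b => max (masterChain G θ γ ℓ j k u a b ^ 2 - A) 0) (fun a b => ?_)
      (fun g u a b => ?_) hxy hxy₀
    · exact (((hmeas a b).pow_const 2).sub_const A).max measurable_const
    · simp only [masterChain_equiv γ g ℓ j k u a b]
  rw [hedge]
  set ε : ℝ := (1 / 2 : ℝ) ^ j with hε
  have hε0 : 0 < ε := by positivity
  have hε1 : ε ≤ 1 := pow_le_one₀ (by norm_num) (by norm_num)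
  set g : ℕ → V → (V → unitInterval) → ℝ := fun k v u => γ j k (u v) with hg
  have hgn : IsNoise (uniformField V) g := hn j
  have hεj : ε ≤ (1 / 2 : ℝ) ^ j₀ := pow_le_pow_of_le_one (by norm_num) (by norm_num) hj
  have hεC : 2 * (C * ε) ≤ δ₁ / 4 := by
    have h1 : (1 / 2 : ℝ) ^ j₀ * (8 * C) < δ₁ := by
      rwa [lt_div_iff₀ (by positivity)] at hj₀
    nlinarith
  have hmem0 : x₀ ∈ ballF G x₀ R := (mem_ballF hT.1).2 (by simp)
  have hmem1 : y₀ ∈ ballF G x₀ R := (mem_ballF hT.1).2 (by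
    rw [SimpleGraph.dist_eq_one_iff_adj.2 hxy₀]
    omega)
  have hclose := edge_close hp hgn hε0 hε1 k (t := (k : ℝ) * ε) rfl x₀ (R := R) (R₁ := 0)
    (by omega) (C := C)
    (fun a b hab ha hb => hC g hgn ε hε0 hε1 k hk a b hab ha hb) hℓ hxy₀
    (by simp) hmem0 hmem1
  set M : (V → unitInterval) → ℝ := fun ω => msg θ (nbS G (ballF G x₀ R))
    (xChain θ (nbS G (ballF G x₀ R)) (2 * R + 1) ε (fun i w => g i w ω) k) (2 * R + 1) x₀ y₀
    with hM
  have hclose2 : ∫ ω, (masterChain G θ γ ℓ j k ω x₀ y₀ - M ω) ^ 2 ∂(uniformField V) ≤ δ₁ / 2 := by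
    refine le_trans hclose ?_
    have h1 : (Real.exp (compC θ d * ((k : ℝ) * ε)) - 1) / gammaC θ d ^ (R - 0) ≤
        K / gammaC θ d ^ R := by
      refine div_le_div_of_nonneg_right ?_ (by positivity)
      have := Real.exp_le_exp.2 (mul_le_mul_of_nonneg_left hk hp.compC_pos.le)
      rw [hK]
      linarith
    linarith
  -- the noise sum
  set Z : (V → unitInterval) → ℝ := fun ω => Real.sqrt ε * ∑ l ∈ range k, g l x₀ ω with hZ
  have hZ4 := PC1.noise_sum_fourth hgn x₀ k hε0.le hk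
  -- the pointwise bound
  have hpt : ∀ ω, max (masterChain G θ γ ℓ j k ω x₀ y₀ ^ 2 - A) 0 ≤
      2 * (masterChain G θ γ ℓ j k ω x₀ y₀ - M ω) ^ 2 + 108 / A * (T ^ 4 + Z ω ^ 4 + D ^ 4) := by
    intro ω
    refine PC1.max_sq_sub_le hA hT0.le hD0 ?_
    have h1 := PC1.abs_msg_succ_le hp.nonneg hp.lt_one hθ2 (D := d)
      (fun a => PC1.card_nbS_le_deg hdeg (ballF G x₀ R) a)
      (xChain θ (nbS G (ballF G x₀ R)) (2 * R + 1) ε (fun i w => g i w ω) k) (2 * R) x₀ y₀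
    have h2 := PC1.xChain_sub_le (θ := θ) hε0.le (nbS G (ballF G x₀ R)) (2 * R + 1)
      (fun i w => g i w ω) k x₀
    have h3 := (abs_sub_abs_le_abs_sub _ _).trans h2
    have h5 : M ω = msg θ (nbS G (ballF G x₀ R))
      (xChain θ (nbS G (ballF G x₀ R)) (2 * R + 1) ε (fun i w => g i w ω) k) (2 * R + 1) x₀ y₀ := rfl
    rw [h5]
    refine h1.trans ?_
    have h6 : |Real.sqrt ε * ∑ l ∈ range k, g l x₀ ω| = |Z ω| := rfl
    rw [h6] at h3
    have h7 : (k : ℝ) * ε ≤ T := hk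
    linarith
  -- integrability
  have hP : IsProbabilityMeasure (uniformField V) := inferInstance
  have hηL : MemLp (fun ω => masterChain G θ γ ℓ j k ω x₀ y₀) 2 (uniformField V) :=
    memLp_cavChain hgn hp.nonneg hp.lt_one ℓ k x₀ y₀
  have hML : MemLp M 2 (uniformField V) :=
    facts_memLp_msg hp.nonneg hp.lt_one
      (fun w => facts_memLp_xChain hp.nonneg hp.lt_one hgn _ ε k w) _ x₀ y₀
  have hI1 : Integrable (fun ω => (masterChain G θ γ ℓ j k ω x₀ y₀ - M ω) ^ 2) (uniformField V) :=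
    (hηL.sub hML).integrable_sq
  have hI2 : Integrable (fun ω => 108 / A * (T ^ 4 + Z ω ^ 4 + D ^ 4)) (uniformField V) :=
    (((integrable_const _).add hZ4.1).add (integrable_const _)).const_mul _
  have hI3 : Integrable (fun ω => max (masterChain G θ γ ℓ j k ω x₀ y₀ ^ 2 - A) 0)
      (uniformField V) :=
    (hηL.integrable_sq.sub (integrable_const _)).sup (integrable_const _)
  have hle : ∫ ω, max (masterChain G θ γ ℓ j k ω x₀ y₀ ^ 2 - A) 0 ∂(uniformField V) ≤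
      ∫ ω, (2 * (masterChain G θ γ ℓ j k ω x₀ y₀ - M ω) ^ 2 +
        108 / A * (T ^ 4 + Z ω ^ 4 + D ^ 4)) ∂(uniformField V) :=
    integral_mono hI3 ((hI1.const_mul 2).add hI2) hpt
  refine hle.trans ?_
  have hsplit : ∫ ω, (2 * (masterChain G θ γ ℓ j k ω x₀ y₀ - M ω) ^ 2 +
        108 / A * (T ^ 4 + Z ω ^ 4 + D ^ 4)) ∂(uniformField V) =
      ∫ ω, 2 * (masterChain G θ γ ℓ j k ω x₀ y₀ - M ω) ^ 2 ∂(uniformField V) +
        ∫ ω, 108 / A * (T ^ 4 + Z ω ^ 4 + D ^ 4) ∂(uniformField V) :=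
    integral_add (hI1.const_mul 2) hI2
  rw [hsplit, integral_const_mul, integral_const_mul]
  have hZint : ∫ ω, (T ^ 4 + Z ω ^ 4 + D ^ 4) ∂(uniformField V) ≤
      T ^ 4 + 48 * Real.exp (T / 2) + D ^ 4 := by
    have s1 : ∫ ω, (T ^ 4 + Z ω ^ 4 + D ^ 4) ∂(uniformField V) =
        ∫ ω, (T ^ 4 + Z ω ^ 4) ∂(uniformField V) + ∫ _, D ^ 4 ∂(uniformField V) :=
      integral_add (f := fun ω => T ^ 4 + Z ω ^ 4) ((integrable_const _).add hZ4.1)
        (integrable_const _)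
    have s2 : ∫ ω, (T ^ 4 + Z ω ^ 4) ∂(uniformField V) =
        ∫ _, T ^ 4 ∂(uniformField V) + ∫ ω, Z ω ^ 4 ∂(uniformField V) :=
      integral_add (integrable_const _) hZ4.1
    rw [s1, s2]
    simp only [integral_const, probReal_univ, smul_eq_mul, one_mul]
    linarith [hZ4.2]
  have h8 : 108 / A * ∫ ω, (T ^ 4 + Z ω ^ 4 + D ^ 4) ∂(uniformField V) ≤
      108 / A * (T ^ 4 + 48 * Real.exp (T / 2) + D ^ 4) :=
    mul_le_mul_of_nonneg_left hZint (by positivity)
  have e : 108 * (T ^ 4 + 48 * Real.exp (T / 2) + D ^ 4) / A =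
      108 / A * (T ^ 4 + 48 * Real.exp (T / 2) + D ^ 4) := by ring
  rw [e]
  linarith

end

end Vale.Agent.Lib.P161
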