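import Vale.Agent.Lib.P161.End.Scal
import Vale.Agent.Lib.P161.Step

/-!
P161 endpoint, module Rev: the reversal lemma. The cascade in front of an edge is controlled by the
cascade behind this edge, for the fixed point of belief propagation.
See notes/P161_endpoint_blueprint.md, section 2 (Reversal).
-/

open Finset

namespace Vale.Agent.Lib.P161

noncomputable section

variable {V : Type*} [DecidableEq V] {G : SimpleGraph V} [G.LocallyFinite] {d : ℕ} {θ : ℝ}

namespace Rev

private lemma tanh_add_eq (u v : ℝ) : Real.tanh (u + v) =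
    (Real.tanh u + Real.tanh v) / (1 + Real.tanh u * Real.tanh v) := by
  have hu := Real.cosh_pos u
  have hv := Real.cosh_pos v
  have huv := Real.cosh_pos (u + v)
  have h2 : 0 < 1 + Real.tanh u * Real.tanh v := by
    have h3 := Real.abs_tanh_lt_one u
    have h4 := Real.abs_tanh_lt_one v
    have h5 : |Real.tanh u * Real.tanh v| < 1 := by
      rw [abs_mul]; nlinarith [abs_nonneg (Real.tanh u), abs_nonneg (Real.tanh v)]
    linarith [(abs_lt.1 h5).1]
  rw [eq_div_iff h2.ne']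
  simp only [Real.tanh_eq_sinh_div_cosh]
  rw [Real.sinh_add, Real.cosh_add]
  rw [Real.cosh_add] at huv
  rw [div_mul_eq_mul_div, div_eq_iff huv.ne']
  field_simp

/-- `φ` in terms of `tanh`. -/
theorem phiF_tanh (h0 : 0 ≤ θ) (h1 : θ < 1) (x : ℝ) :
    phiF θ x = ((1 - Real.tanh x ^ 2) / (1 - θ ^ 2 * Real.tanh x ^ 2)) ^ 2 := by
  have hc := Real.cosh_pos x
  have h2 : Real.cosh x ^ 2 = 1 + Real.sinh x ^ 2 := by
    have := Real.cosh_sq x; linarith
  have hD : 0 < 1 + (1 - θ ^ 2) * Real.sinh x ^ 2 := by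
    have : 0 ≤ (1 - θ ^ 2) * Real.sinh x ^ 2 := mul_nonneg (by nlinarith) (sq_nonneg _)
    linarith
  have hq : 0 < 1 - θ ^ 2 * Real.tanh x ^ 2 := by
    have := Real.tanh_sq_lt_one x
    nlinarith [sq_nonneg θ, sq_nonneg (Real.tanh x)]
  unfold phiF
  congr 1
  rw [div_eq_div_iff hD.ne' hq.ne', Real.tanh_eq_sinh_div_cosh]
  field_simp
  rw [h2]
  ring

/-- The value of `1 - tanh²` at `a + h(b)`. -/
theorem one_sub_tanh_sq (h0 : 0 ≤ θ) (h1 : θ < 1) (a b : ℝ) :
    (1 - Real.tanh a ^ 2) * (1 - θ ^ 2 * Real.tanh b ^ 2)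
        / (1 + θ * Real.tanh a * Real.tanh b) ^ 2 = 1 - Real.tanh (a + hm θ b) ^ 2 ∧
      0 < 1 + θ * Real.tanh a * Real.tanh b := by
  have hA := Real.abs_tanh_lt_one a
  have hB := Real.abs_tanh_lt_one b
  have h5 : |Real.tanh a * Real.tanh b| < 1 := by
    rw [abs_mul]; nlinarith [abs_nonneg (Real.tanh a), abs_nonneg (Real.tanh b)]
  have h6 := abs_lt.1 h5
  have hr : 0 < 1 + θ * Real.tanh a * Real.tanh b := by
    have e : θ * Real.tanh a * Real.tanh b = θ * (Real.tanh a * Real.tanh b) := by ring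
    rw [e]
    nlinarith [h6.1, h6.2]
  refine ⟨?_, hr⟩
  rw [tanh_add_eq, tanh_hm h0 h1]
  have e : 1 + Real.tanh a * (θ * Real.tanh b) = 1 + θ * Real.tanh a * Real.tanh b := by ring
  rw [e]
  have hne : (1 + θ * Real.tanh a * Real.tanh b) ^ 2 ≠ 0 := pow_ne_zero _ hr.ne'
  rw [div_pow, eq_sub_iff_add_eq, ← add_div, div_eq_one_iff_eq hne]
  ring

/-- The edge identity: `φ(a) (1-m_2²)² = φ(b) (1-m_1²)²`, `m_1 = tanh(a+h(b))`, `m_2 = tanh(b+h(a))`. -/
theorem edge_identity (h0 : 0 ≤ θ) (h1 : θ < 1) (a b : ℝ) :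
    phiF θ a * (1 - Real.tanh (b + hm θ a) ^ 2) ^ 2
      = phiF θ b * (1 - Real.tanh (a + hm θ b) ^ 2) ^ 2 := by
  obtain ⟨e1, hr⟩ := one_sub_tanh_sq h0 h1 a b
  obtain ⟨e2, _⟩ := one_sub_tanh_sq h0 h1 b a
  rw [← e1, ← e2, phiF_tanh h0 h1, phiF_tanh h0 h1]
  have hq : ∀ x, 0 < 1 - θ ^ 2 * Real.tanh x ^ 2 := fun x => by
    have := Real.tanh_sq_lt_one x
    nlinarith [sq_nonneg θ, sq_nonneg (Real.tanh x)]
  have e3 : 1 + θ * Real.tanh b * Real.tanh a = 1 + θ * Real.tanh a * Real.tanh b := by ring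
  rw [e3]
  have hP := (hq a).ne'
  have hQ := (hq b).ne'
  have hR := hr.ne'
  generalize 1 - θ ^ 2 * Real.tanh a ^ 2 = P at *
  generalize 1 - θ ^ 2 * Real.tanh b ^ 2 = Q at *
  generalize 1 + θ * Real.tanh a * Real.tanh b = R at *
  field_simp

/-- The bound `φ(b) ≤ (1-θ)^{-4} (1-m_2²)²`, `m_2 = tanh(b+h(a))`. -/
theorem edge_bound (h0 : 0 ≤ θ) (h1 : θ < 1) (a b : ℝ) :
    phiF θ b ≤ ((1 - θ) ^ 4)⁻¹ * (1 - Real.tanh (b + hm θ a) ^ 2) ^ 2 := by
  obtain ⟨e2, hr⟩ := one_sub_tanh_sq h0 h1 b a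
  rw [← e2, phiF_tanh h0 h1]
  have hA := Real.tanh_sq_lt_one a
  have hB := Real.tanh_sq_lt_one b
  have hθ : 0 < 1 - θ := by linarith
  have hθ' : 0 < 1 + θ := by linarith
  have hq : ∀ x, 1 - θ ^ 2 ≤ 1 - θ ^ 2 * Real.tanh x ^ 2 := fun x => by
    have := Real.tanh_sq_lt_one x
    nlinarith [sq_nonneg θ, sq_nonneg (Real.tanh x)]
  have hqa := hq a
  have hqb := hq b
  have hθ2 : 0 < 1 - θ ^ 2 := by nlinarith
  have hrr : 1 + θ * Real.tanh b * Real.tanh a ≤ 1 + θ := by
    have hA' := Real.abs_tanh_lt_one a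
    have hB' := Real.abs_tanh_lt_one b
    have h5 : |Real.tanh b * Real.tanh a| < 1 := by
      rw [abs_mul]; nlinarith [abs_nonneg (Real.tanh a), abs_nonneg (Real.tanh b)]
    have h6 := (abs_lt.1 h5).2
    have e : θ * Real.tanh b * Real.tanh a = θ * (Real.tanh b * Real.tanh a) := by ring
    rw [e]
    nlinarith
  set A := 1 - Real.tanh b ^ 2 with hAdef
  have hApos : 0 < A := by rw [hAdef]; linarith
  set Q := 1 - θ ^ 2 * Real.tanh b ^ 2 with hQ
  set P := 1 - θ ^ 2 * Real.tanh a ^ 2 with hP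
  set R := 1 + θ * Real.tanh b * Real.tanh a with hR
  have hQpos : 0 < Q := by linarith
  have hPpos : 0 < P := by linarith
  have e : ((1 - θ) ^ 4)⁻¹ * (A * P / R ^ 2) ^ 2
      = (A / Q) ^ 2 * ((Q * P / (R ^ 2 * (1 - θ) ^ 2)) ^ 2) := by
    field_simp
  rw [e]
  have hmain : 1 ≤ (Q * P / (R ^ 2 * (1 - θ) ^ 2)) ^ 2 := by
    refine one_le_pow₀ ?_
    rw [one_le_div (by positivity)]
    have h7 : (1 - θ ^ 2) * (1 - θ ^ 2) ≤ Q * P := mul_le_mul hqb hqa hθ2.le hQpos.le
    have h8 : R ^ 2 ≤ (1 + θ) ^ 2 := pow_le_pow_left₀ hr.le hrr 2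
    have h9 : R ^ 2 * (1 - θ) ^ 2 ≤ (1 + θ) ^ 2 * (1 - θ) ^ 2 :=
      mul_le_mul_of_nonneg_right h8 (sq_nonneg _)
    have e2 : (1 + θ) ^ 2 * (1 - θ) ^ 2 = (1 - θ ^ 2) * (1 - θ ^ 2) := by ring
    linarith
  have h10 : 0 ≤ (A / Q) ^ 2 := sq_nonneg _
  nlinarith

/-- The auxiliary cascade with initial data `g`. -/
def revR (N : V → Finset V) (bb : ℝ) (w : V → V → ℝ) (g : V → ℝ) : ℕ → V → V → ℝ
  | 0, y, _ => g y
  | n + 1, y, x => (1 / bb) * ∑ z ∈ (N y).erase x, w z y * revR N bb w g n z y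

theorem revR_nonneg {N : V → Finset V} {bb : ℝ} (hbb : 0 ≤ bb) {w : V → V → ℝ} {g : V → ℝ}
    (hw : ∀ x y, 0 ≤ w x y) (hg : ∀ y, 0 ≤ g y) (n : ℕ) (y x : V) : 0 ≤ revR N bb w g n y x := by
  induction n generalizing y x with
  | zero => exact hg y
  | succ n ih =>
    simp only [revR]
    exact mul_nonneg (by positivity) (sum_nonneg fun z _ => mul_nonneg (hw _ _) (ih _ _))

private lemma card_erase (hdeg : ∀ v, G.degree v = d) (hd : 1 ≤ d) {a b : V} (hab : G.Adj a b) :
    (((nbV G a).erase b).card : ℝ) = (d : ℝ) - 1 := by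
  have h1 : b ∈ nbV G a := by simpa [nbV] using hab
  rw [card_erase_of_mem h1]
  have h2 : (nbV G a).card = d := by
    have := hdeg a
    simpa [nbV, SimpleGraph.card_neighborFinset_eq_degree] using this
  rw [h2, Nat.cast_sub hd]
  simp

end Rev

open Rev in
/-- **Main statement of the module.** `η y z + h (η z y) = T y` on the edges near `y`. -/
theorem casc_reversal (hT : G.IsTree) (hdeg : ∀ v, G.degree v = d) (hd : 2 ≤ d) (h0 : 0 < θ)
    (h1 : θ < 1) (η : V → V → ℝ) (T : V → ℝ) (p n : ℕ) (y x : V) (hyx : G.Adj y x)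
    (hfix : ∀ u v, G.Adj u v → G.dist y u ≤ n + 2 → η u v + hm θ (η v u) = T u) :
    casc (nbV G) ((d : ℝ) - 1) (fun a c => phiF θ (η c a) ^ p) (n + 1) y x
      ≤ ((1 - θ) ^ 4)⁻¹ ^ p * casc (nbV G) ((d : ℝ) - 1) (fun a c => phiF θ (η a c) ^ p) n y x := by
  have hc : G.Connected := hT.1
  have hd2 : (2 : ℝ) ≤ d := by exact_mod_cast hd
  set bb : ℝ := (d : ℝ) - 1 with hbbdef
  have hbb : 0 < bb := by rw [hbbdef]; linarith
  set Gv : V → ℝ := fun v => ((1 - Real.tanh (T v) ^ 2) ^ 2) ^ p with hGv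
  have hm1 : ∀ v, 0 < 1 - Real.tanh (T v) ^ 2 := fun v => by
    have := Real.tanh_sq_lt_one (T v); linarith
  have hm2 : ∀ v, 1 - Real.tanh (T v) ^ 2 ≤ 1 := fun v => by
    nlinarith [sq_nonneg (Real.tanh (T v))]
  have hGpos : ∀ v, 0 < Gv v := fun v => pow_pos (pow_pos (hm1 v) 2) p
  have hGle : ∀ v, Gv v ≤ 1 := fun v =>
    pow_le_one₀ (sq_nonneg _) (pow_le_one₀ (hm1 v).le (hm2 v))
  set w : V → V → ℝ := fun a c => phiF θ (η a c) ^ p with hw
  set w' : V → V → ℝ := fun a c => phiF θ (η c a) ^ p with hw'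
  have hw0 : ∀ a c, 0 ≤ w a c := fun a c => pow_nonneg (phiF_pos h0.le h1 _).le p
  set ginv : V → ℝ := fun v => 1 / Gv v with hginv
  -- Claim A.
  have claimA : ∀ (n : ℕ) (y x : V),
      (∀ u v, G.Adj u v → G.dist y u ≤ n + 1 → η u v + hm θ (η v u) = T u) →
      casc (nbV G) bb w' n y x = Gv y * revR (nbV G) bb w ginv n y x := by
    intro n
    induction n with
    | zero =>
      intro y x _
      simp only [casc, revR, hginv]
      field_simp [(hGpos y).ne']
    | succ n ih =>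
      intro y x hf
      simp only [casc, revR]
      rw [mul_left_comm]
      congr 1
      rw [mul_sum]
      refine sum_congr rfl fun z hz => ?_
      have hyz : G.Adj y z := by
        have := mem_of_mem_erase hz
        simpa [nbV] using this
      have hd1 : G.dist y z = 1 := SimpleGraph.dist_eq_one_iff_adj.2 hyz
      rw [ih z y fun u v huv hdu => hf u v huv (by
        have := hc.dist_triangle (u := y) (v := z) (w := u); omega)]
      have hTy : η y z + hm θ (η z y) = T y := hf y z hyz (by simp)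
      have hTz : η z y + hm θ (η y z) = T z := hf z y hyz.symm (by omega)
      have hid : w' z y * Gv z = w z y * Gv y := by
        simp only [hw', hw, hGv]
        rw [← mul_pow, ← mul_pow, ← hTy, ← hTz]
        rw [edge_identity h0.le h1]
      rw [← mul_assoc, hid]
      ring
  -- Claim B.
  have claimB : ∀ (n : ℕ) (y x : V), G.Adj y x →
      (∀ u v, G.Adj u v → G.dist y u ≤ n + 1 → η u v + hm θ (η v u) = T u) →
      revR (nbV G) bb w ginv (n + 1) y x
        ≤ ((1 - θ) ^ 4)⁻¹ ^ p * casc (nbV G) bb w n y x := by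
    intro n
    induction n with
    | zero =>
      intro y x hyx hf
      simp only [casc, revR, mul_one]
      have hb : ∀ z ∈ (nbV G y).erase x, w z y * ginv z ≤ ((1 - θ) ^ 4)⁻¹ ^ p := by
        intro z hz
        have hyz : G.Adj y z := by
          have := mem_of_mem_erase hz
          simpa [nbV] using this
        have hd1 : G.dist y z = 1 := SimpleGraph.dist_eq_one_iff_adj.2 hyz
        have hTz : η z y + hm θ (η y z) = T z := hf z y hyz.symm (by omega)
        simp only [hginv, hw, hGv]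
        rw [mul_one_div, div_le_iff₀ (pow_pos (pow_pos (hm1 z) 2) p), ← mul_pow]
        refine pow_le_pow_left₀ (phiF_pos h0.le h1 _).le ?_ p
        rw [← hTz]
        exact edge_bound h0.le h1 _ _
      have hsum := sum_le_card_nsmul _ _ _ hb
      rw [nsmul_eq_mul, card_erase hdeg (by omega) hyx] at hsum
      rw [one_div, inv_mul_le_iff₀ hbb]
      linarith
    | succ n ih =>
      intro y x hyx hf
      rw [revR, casc, mul_left_comm]
      refine mul_le_mul_of_nonneg_left ?_ (by positivity)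
      rw [mul_sum]
      refine sum_le_sum fun z hz => ?_
      have hyz : G.Adj y z := by
        have := mem_of_mem_erase hz
        simpa [nbV] using this
      have hd1 : G.dist y z = 1 := SimpleGraph.dist_eq_one_iff_adj.2 hyz
      have := ih z y hyz.symm fun u v huv hdu => hf u v huv (by
        have := hc.dist_triangle (u := y) (v := z) (w := u); omega)
      calc w z y * revR (nbV G) bb w ginv (n + 1) z y
          ≤ w z y * (((1 - θ) ^ 4)⁻¹ ^ p * casc (nbV G) bb w n z y) :=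
            mul_le_mul_of_nonneg_left this (hw0 _ _)
        _ = _ := by ring
  have hA := claimA (n + 1) y x hfix
  have hB := claimB n y x hyx fun u v huv hdu => hfix u v huv (by omega)
  have hR : 0 ≤ revR (nbV G) bb w ginv (n + 1) y x :=
    revR_nonneg hbb.le hw0 (fun v => by
      have := hGpos v
      simp only [hginv]
      positivity) _ _ _
  rw [hA]
  calc Gv y * revR (nbV G) bb w ginv (n + 1) y x
      ≤ 1 * revR (nbV G) bb w ginv (n + 1) y x := mul_le_mul_of_nonneg_right (hGle y) hR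
    _ ≤ _ := by rw [one_mul]; exact hB

end

end Vale.Agent.Lib.P161
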