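import Vale.Agent.Lib.P161.End.Defs
import Vale.Agent.Lib.P161.Facts
import Vale.Agent.Lib.P161.Noise

/-!
P161 endpoint, module Transfer: Lipschitz functionals of the master chain at a fixed `θ < θ_c` are
close to their values in the exact model, uniformly in the step `k`.
-/

open MeasureTheory ProbabilityTheory Finset

open scoped NNReal Topology

namespace Vale.Agent.Lib.P161

noncomputable section

set_option linter.unusedSectionVars false
set_option linter.style.haveILetI false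

variable {V : Type*} {G : SimpleGraph V} [G.LocallyFinite] [DecidableEq V] {d : ℕ} {θ : ℝ}

/-! ### Cylinder functionals -/

section Lip

variable {E : Finset (V × V)} {Λ : ℝ} {F : (V → V → ℝ) → ℝ}

/-- Extension by zero of a function on the finite edge set `E`. -/
def trExt (E : Finset (V × V)) (y : ↥E → ℝ) (a b : V) : ℝ :=
  if h : (a, b) ∈ E then y ⟨(a, b), h⟩ else 0

lemma trExt_mem (y : ↥E → ℝ) {e : V × V} (he : e ∈ E) : trExt E y e.1 e.2 = y ⟨e, he⟩ := by
  unfold trExt
  rw [dif_pos (by simpa using he)]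

lemma LipCyl.eq_of_agree (hF : LipCyl E Λ F) {η η' : V → V → ℝ}
    (h : ∀ e ∈ E, η e.1 e.2 = η' e.1 e.2) : F η = F η' := by
  have h1 := hF.lip η η'
  rw [Finset.sum_eq_zero (fun e he => by rw [h e he, sub_self, abs_zero]), mul_zero] at h1
  have h2 := abs_nonpos_iff.1 h1
  linarith

lemma LipCyl.continuous_ext (hF : LipCyl E Λ F) (hΛ : 0 ≤ Λ) :
    Continuous (fun y : ↥E → ℝ => F (trExt E y)) := by
  have hL : LipschitzWith (Λ * (E.card : ℝ)).toNNReal (fun y : ↥E → ℝ => F (trExt E y)) := by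
    refine LipschitzWith.of_dist_le_mul fun y y' => ?_
    rw [Real.coe_toNNReal _ (by positivity), Real.dist_eq]
    refine (hF.lip _ _).trans ?_
    rw [mul_assoc]
    refine mul_le_mul_of_nonneg_left ?_ hΛ
    calc ∑ e ∈ E, |trExt E y e.1 e.2 - trExt E y' e.1 e.2|
        ≤ ∑ _e ∈ E, dist y y' := by
          refine Finset.sum_le_sum fun e he => ?_
          rw [trExt_mem y he, trExt_mem y' he, ← Real.dist_eq]
          exact dist_le_pi_dist y y' ⟨e, he⟩
      _ = _ := by rw [Finset.sum_const, nsmul_eq_mul]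
  exact hL.continuous

lemma LipCyl.measurable_comp (hF : LipCyl E Λ F) (hΛ : 0 ≤ Λ) {Ω : Type*} [MeasurableSpace Ω]
    {η : Ω → V → V → ℝ} (hη : ∀ a b, Measurable (fun ω => η ω a b)) :
    Measurable (fun ω => F (η ω)) := by
  have h1 : Measurable (fun ω => F (trExt E (fun e : ↥E => η ω e.1.1 e.1.2))) :=
    (hF.continuous_ext hΛ).measurable.comp (measurable_pi_lambda _ fun e => hη _ _)
  convert h1 using 2 with ω
  refine hF.eq_of_agree fun e he => ?_
  rw [trExt_mem _ he]

lemma LipCyl.integrable_comp (hF : LipCyl E Λ F) (hΛ : 0 ≤ Λ) {Ω : Type*} [MeasurableSpace Ω]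
    {P : Measure Ω} [IsFiniteMeasure P] {η : Ω → V → V → ℝ}
    (hη : ∀ a b, Measurable (fun ω => η ω a b)) : Integrable (fun ω => F (η ω)) P := by
  refine Integrable.of_bound (hF.measurable_comp hΛ hη).aestronglyMeasurable 1
    (Filter.Eventually.of_forall fun ω => ?_)
  simpa using hF.bdd (η ω)

/-- The messages from a vertex of `S` depend only on the field on `S`. -/
lemma msg_congr_ball {S : Finset V} {x x' : V → ℝ} (h : ∀ v ∈ S, x v = x' v) (L : ℕ) {a : V}
    (b : V) (ha : a ∈ S) :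
    msg θ (nbS G S) x L a b = msg θ (nbS G S) x' L a b := by
  induction L generalizing a b with
  | zero => simp only [msg]; exact h a ha
  | succ L ih =>
    simp only [msg]
    rw [h a ha]
    congr 1
    refine Finset.sum_congr rfl fun c hc => ?_
    have hc' : c ∈ S := (mem_nbS.1 (Finset.mem_of_mem_erase hc)).2.2
    rw [ih a hc']

end Lip

/-! ### The law of partial sums of the noise -/

section Law

variable {Ω : Type*} [mΩ : MeasurableSpace Ω] {P : Measure Ω} [IsProbabilityMeasure P]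
  {ι : Type*} [Fintype ι] [DecidableEq ι]

lemma sum_noise_mem_span {g : ℕ → ι → Ω → ℝ} (k : ℕ) (i : ι) :
    (fun ω => ∑ l ∈ Finset.range k, g l i ω)
      ∈ Submodule.span ℝ (Set.range fun p : ℕ × ι => g p.1 p.2) := by
  have e : (fun ω => ∑ l ∈ Finset.range k, g l i ω) = ∑ l ∈ Finset.range k, g l i := by
    funext ω
    simp [Finset.sum_apply]
  rw [e]
  exact Submodule.sum_mem _ fun l _ => Submodule.subset_span ⟨(l, i), rfl⟩

lemma map_sum_noise_one {g : ℕ → ι → Ω → ℝ} (hg : IsNoise P g) (k : ℕ) (i : ι) :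
    P.map (fun ω => ∑ l ∈ Finset.range k, g l i ω) = gaussianReal 0 (k : ℝ≥0) := by
  have hm : ∀ p : ℕ × ι, Measurable (g p.1 p.2) := fun p => hg.meas _ _
  have hl : ∀ p : ℕ × ι, P.map (g p.1 p.2) = gaussianReal 0 1 := fun p => hg.law _ _
  have hsp := sum_noise_mem_span (g := g) k i
  have h := hasGaussianLaw_of_mem_span hm hg.indep hl (ι := Unit)
    (X := fun _ ω => ∑ l ∈ Finset.range k, g l i ω) (fun _ => hsp)
  have h' : HasGaussianLaw (fun ω => ∑ l ∈ Finset.range k, g l i ω) P := h.eval ()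
  have h0 := integral_eq_zero_of_mem_span hm hg.indep hl hsp
  have hL := h'.memLp_two
  have hvar : Var[fun ω => ∑ l ∈ Finset.range k, g l i ω; P] = k := by
    rw [variance_eq_sub hL, h0]
    have h2 := integral_sum_noise_sq hg k i
    simp only [Pi.pow_apply]
    rw [h2]
    ring
  rw [h'.map_eq_gaussianReal, h0, hvar]
  congr 1
  simp

lemma map_sum_noise {g : ℕ → ι → Ω → ℝ} (hg : IsNoise P g) (k : ℕ) :
    P.map (fun ω (i : ι) => ∑ l ∈ Finset.range k, g l i ω)
      = Measure.pi (fun _ : ι => gaussianReal 0 (k : ℝ≥0)) := by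
  have hm : ∀ p : ℕ × ι, Measurable (g p.1 p.2) := fun p => hg.meas _ _
  have hl : ∀ p : ℕ × ι, P.map (g p.1 p.2) = gaussianReal 0 1 := fun p => hg.law _ _
  have hL : ∀ l i, MemLp (g l i) 2 P := fun l i => memLp_noise hg l i 2 (by simp)
  have hind : iIndepFun (fun (i : ι) ω => ∑ l ∈ Finset.range k, g l i ω) P := by
    refine iIndepFun_of_mem_span hm hg.indep hl (fun i => sum_noise_mem_span k i) fun i j hij => ?_
    have e1 : (fun ω => ∑ l ∈ Finset.range k, g l i ω) = ∑ l ∈ Finset.range k, g l i := by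
      funext ω
      simp [Finset.sum_apply]
    have e2 : (fun ω => ∑ l ∈ Finset.range k, g l j ω) = ∑ l ∈ Finset.range k, g l j := by
      funext ω
      simp [Finset.sum_apply]
    rw [e1, e2, covariance_sum_sum' (fun l _ => hL l i) (fun l _ => hL l j)]
    refine Finset.sum_eq_zero fun l _ => Finset.sum_eq_zero fun m _ => ?_
    have hne : ((l, i) : ℕ × ι) ≠ (m, j) := fun h => hij (Prod.ext_iff.1 h).2
    exact (hg.indep.indepFun hne).covariance_eq_zero (hL l i) (hL m j)
  have hmeas : ∀ i, AEMeasurable (fun ω => ∑ l ∈ Finset.range k, g l i ω) P := fun i =>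
    (Finset.measurable_fun_sum _ fun l _ => hg.meas l i).aemeasurable
  rw [(iIndepFun_iff_map_fun_eq_pi_map hmeas).1 hind]
  congr 1
  funext i
  exact map_sum_noise_one hg k i

lemma map_gamm_mul (k : ℕ) :
    (gamm ι).map (fun z (i : ι) => Real.sqrt k * z i)
      = Measure.pi (fun _ : ι => gaussianReal 0 (k : ℝ≥0)) := by
  unfold gamm
  rw [Measure.pi_map_pi (f := fun (_ : ι) (x : ℝ) => Real.sqrt k * x) (fun _ => by fun_prop)]
  congr 1
  funext _
  rw [gaussianReal_map_const_mul, mul_zero]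
  congr 1
  ext
  simp [Real.sq_sqrt]

/-- The partial sums of the noise have the same law as `√k` times a standard Gaussian vector. -/
lemma integral_sum_noise_eq {g : ℕ → ι → Ω → ℝ} (hg : IsNoise P g) (k : ℕ) {H : (ι → ℝ) → ℝ}
    (hH : Measurable H) :
    ∫ ω, H (fun i => ∑ l ∈ Finset.range k, g l i ω) ∂P
      = ∫ z, H (fun i => Real.sqrt k * z i) ∂(gamm ι) := by
  have hm1 : Measurable (fun ω (i : ι) => ∑ l ∈ Finset.range k, g l i ω) :=
    measurable_pi_lambda _ fun i => Finset.measurable_fun_sum _ fun l _ => hg.meas l i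
  have hm2 : Measurable (fun (z : ι → ℝ) (i : ι) => Real.sqrt k * z i) :=
    measurable_pi_lambda _ fun i => (measurable_pi_apply i).const_mul _
  have h1 := integral_map (μ := P) hm1.aemeasurable hH.aestronglyMeasurable
  have h2 := integral_map (μ := gamm ι) hm2.aemeasurable hH.aestronglyMeasurable
  rw [← h1, ← h2, map_sum_noise hg k, map_gamm_mul k]

end Law

/-! ### Exact model and exact paths -/

/-- The exact path at time `kε`, extended by zero, written through its noise part. -/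
def trField (S : Finset V) (k : ℕ) (ε : ℝ) (σ : ↥S → Bool) (y : ↥S → ℝ) (v : V) : ℝ :=
  if h : v ∈ S then (k : ℝ) * ε * spin (σ ⟨v, h⟩) + Real.sqrt ε * y ⟨v, h⟩ else 0

lemma measurable_trField (S : Finset V) (k : ℕ) (ε : ℝ) (σ : ↥S → Bool) (v : V) :
    Measurable (fun y : ↥S → ℝ => trField S k ε σ y v) := by
  unfold trField
  by_cases h : v ∈ S
  · simp only [dif_pos h]
    exact measurable_const.add ((measurable_pi_apply _).const_mul _)
  · simp only [dif_neg h]
    exact measurable_const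

/-- The exact path integral equals the integral over the exact model. -/
lemma exact_path_integral (hθ0 : 0 ≤ θ) (hθ1 : θ < 1) {Ω : Type*} [MeasurableSpace Ω]
    {P : Measure Ω} [IsProbabilityMeasure P] {S : Finset V} {g : ℕ → ↥S → Ω → ℝ}
    (hg : IsNoise P g) {E : Finset (V × V)} {Λ : ℝ} (hΛ : 0 ≤ Λ) {F : (V → V → ℝ) → ℝ}
    (hF : LipCyl E Λ F) (k : ℕ) (ε : ℝ) (σ : ↥S → Bool) (L : ℕ) :
    ∫ ω, F (msg θ (nbS G S) (lastExt S k (fun k' => exactPath (spinVec S σ) ε
        (fun l (i : ↥S) => g l i ω) k')) L) ∂P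
      = ∫ z, F (msg θ (nbS G S) (exField S ((k : ℝ) * ε) σ z) L) ∂(gamm ↥S) := by
  set H : (↥S → ℝ) → ℝ := fun y => F (msg θ (nbS G S) (trField S k ε σ y) L) with hH
  have hHm : Measurable H :=
    hF.measurable_comp hΛ fun a b =>
      measurable_msg hθ0 hθ1 (fun v => measurable_trField S k ε σ v) L a b
  have h1 := integral_sum_noise_eq hg k hHm
  have e1 : ∀ ω, lastExt S k (fun k' => exactPath (spinVec S σ) ε
        (fun l (i : ↥S) => g l i ω) k')
      = trField S k ε σ (fun i => ∑ l ∈ Finset.range k, g l i ω) := by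
    intro ω
    funext v
    unfold lastExt trField
    by_cases h : v ∈ S
    · simp only [dif_pos h]
      simp only [exactPath, Fin.val_last, spinVec]
    · simp only [dif_neg h]
  have e2 : ∀ z : ↥S → ℝ, exField S ((k : ℝ) * ε) σ z
      = trField S k ε σ (fun i => Real.sqrt k * z i) := by
    intro z
    funext v
    unfold exField trField
    by_cases h : v ∈ S
    · simp only [dif_pos h]
      rw [Real.sqrt_mul (Nat.cast_nonneg k)]
      ring
    · simp only [dif_neg h]
  simp only [e1, e2]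
  exact h1

/-- **Main statement of the module.** -/
theorem transfer (hp : TreeParams G d θ) {γ : ℕ → ℕ → unitInterval → ℝ}
    (hn : ∀ j, IsNoise (uniformField V) (fun (k : ℕ) (v : V) (u : V → unitInterval) => γ j k (u v)))
    (o : V) (T : ℝ) (E : Finset (V × V)) (hE : ∀ e ∈ E, G.Adj e.1 e.2) (Λ δ : ℝ) (hΛ : 0 ≤ Λ)
    (hδ : 0 < δ) :
    ∃ R₀ : ℕ, ∀ R, R₀ ≤ R → ∃ ℓ₀ j₀ : ℕ, ∀ ℓ j, ℓ₀ ≤ ℓ → j₀ ≤ j → ∀ k : ℕ,
      (k : ℝ) * (1 / 2 : ℝ) ^ j ≤ T → ∀ F : (V → V → ℝ) → ℝ, LipCyl E Λ F →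
        |∫ u, F (masterChain G θ γ ℓ j k u) ∂(uniformField V)
            - exactE G θ o R ((k : ℝ) * (1 / 2 : ℝ) ^ j) F| ≤ δ := by
  haveI := limit_uniformField_prob V
  have h0 := hp.nonneg
  have h1 := hp.lt_one
  have hγ1 := hp.gammaC_gt
  have hγ0 : 0 < gammaC θ d := by linarith
  have hc0 := hp.compC_pos
  set R₁ : ℕ := E.sup (fun e => max (G.dist o e.1) (G.dist o e.2)) with hR₁
  have hR₁1 : ∀ e ∈ E, G.dist o e.1 ≤ R₁ := fun e he =>
    (le_max_left _ _).trans (Finset.le_sup (f := fun e => max (G.dist o e.1) (G.dist o e.2)) he)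
  have hR₁2 : ∀ e ∈ E, G.dist o e.2 ≤ R₁ := fun e he =>
    (le_max_right _ _).trans (Finset.le_sup (f := fun e => max (G.dist o e.1) (G.dist o e.2)) he)
  set η₁ : ℝ := δ / (2 * (Λ * (E.card : ℝ) + 1)) with hη₁
  have hden : 0 < 2 * (Λ * (E.card : ℝ) + 1) := by positivity
  have hη₁0 : 0 < η₁ := div_pos hδ hden
  have hΛη : Λ * ((E.card : ℝ) * η₁) ≤ δ / 2 := by
    have e : δ = η₁ * (2 * (Λ * (E.card : ℝ) + 1)) := by
      rw [hη₁]; field_simp
    nlinarith
  set B : ℝ := Real.exp (compC θ d * |T|) with hB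
  have hB0 : 0 < B := Real.exp_pos _
  obtain ⟨n, hn'⟩ := pow_unbounded_of_one_lt (4 * B / η₁ ^ 2) hγ1
  refine ⟨R₁ + n, fun R hR => ?_⟩
  obtain ⟨C, hC0, hC⟩ := field_chain_close (P := uniformField V) hp o R T
  set S := ballF G o R with hS
  have hpos : 0 < η₁ ^ 2 / (4 * C) := by positivity
  obtain ⟨j₂, hj₂⟩ := exists_pow_lt_of_lt_one hpos (by norm_num : (1 / 2 : ℝ) < 1)
  set A : ℝ := 8 * (S.card : ℝ) ^ 2 * Real.exp (4 * (S.card : ℝ)) with hA
  have hA0 : 0 ≤ A := by positivity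
  obtain ⟨j₁, hj₁⟩ : ∃ j₁ : ℕ, ∀ j ≥ j₁,
      Real.sqrt (Real.exp (A * |T| * (1 / 2 : ℝ) ^ j) - 1) ≤ δ / 2 := by
    have ht : Filter.Tendsto (fun j : ℕ => (1 / 2 : ℝ) ^ j) Filter.atTop (𝓝 0) :=
      tendsto_pow_atTop_nhds_zero_of_lt_one (by norm_num) (by norm_num)
    have hc : Continuous (fun y : ℝ => Real.sqrt (Real.exp (A * |T| * y) - 1)) := by fun_prop
    have h2 := (hc.tendsto 0).comp ht
    simp only [mul_zero, Real.exp_zero, sub_self, Real.sqrt_zero] at h2
    have h3 := h2.eventually (Iic_mem_nhds (half_pos hδ))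
    obtain ⟨j₀, hj₀⟩ := Filter.eventually_atTop.1 h3
    exact ⟨j₀, fun j hj => hj₀ j hj⟩
  refine ⟨2 * R + 1, max j₁ j₂, fun ℓ j hℓ hj k hk F hF => ?_⟩
  have hj1 : j₁ ≤ j := (le_max_left _ _).trans hj
  have hj2 : j₂ ≤ j := (le_max_right _ _).trans hj
  set ε : ℝ := (1 / 2 : ℝ) ^ j with hε
  have hε0 : 0 < ε := by positivity
  have hε1 : ε ≤ 1 := pow_le_one₀ (by norm_num) (by norm_num)
  set L := 2 * R + 1 with hL
  -- the two terms of the chain
  set N := nbS G S with hN
  set M : (V → unitInterval) → V → V → ℝ := masterChain G θ γ ℓ j k with hM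
  set X : (V → unitInterval) → V → ℝ :=
    fun u => xChain θ N L ε (fun i w => γ j i (u w)) k with hX
  set Bl : (V → unitInterval) → V → V → ℝ := fun u => msg θ N (X u) L with hBl
  have hmγ := measurable_gamma_of_noise hp hn
  have hMm : ∀ a b, Measurable (fun u => M u a b) := fun a b =>
    measurable_masterChain h0 h1 hmγ ℓ j k a b
  have hXm : ∀ w, Measurable (fun u => X u w) := fun w =>
    facts_measurable_xChain h0 h1 (hn j).meas L ε k w
  have hBm : ∀ a b, Measurable (fun u => Bl u a b) := fun a b =>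
    measurable_msg h0 h1 hXm L a b
  -- step (a): edgewise closeness
  have hEbd : ∀ e ∈ E, ∫ u, |M u e.1 e.2 - Bl u e.1 e.2| ∂(uniformField V) ≤ η₁ := by
    intro e he
    have ha : e.1 ∈ S := (mem_ballF hp.tree.1).2 ((hR₁1 e he).trans (by omega))
    have hb : e.2 ∈ S := (mem_ballF hp.tree.1).2 ((hR₁2 e he).trans (by omega))
    have hcl := edge_close (d := d) hp (hn j) hε0 hε1 k rfl o (R := R) (R₁ := R₁) (by omega)
      (hC _ (hn j) ε hε0 hε1 k hk) hℓ (hE e he) (by have := hR₁1 e he; omega) ha hb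
    have hMl : MemLp (fun u => M u e.1 e.2) 2 (uniformField V) :=
      memLp_cavChain (hn j) h0 h1 ℓ k e.1 e.2
    have hBl2 : MemLp (fun u => Bl u e.1 e.2) 2 (uniformField V) :=
      facts_memLp_msg h0 h1 (fun w => facts_memLp_xChain h0 h1 (hn j) _ ε k w) _ e.1 e.2
    refine (integral_abs_le_sqrt (hMl.sub hBl2)).trans ?_
    have hsq : ∫ u, (M u e.1 e.2 - Bl u e.1 e.2) ^ 2 ∂(uniformField V) ≤ η₁ ^ 2 := by
      refine hcl.trans ?_
      have hexp : Real.exp (compC θ d * ((k : ℝ) * ε)) - 1 ≤ B := by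
        have : Real.exp (compC θ d * ((k : ℝ) * ε)) ≤ B := by
          refine Real.exp_le_exp.2 (mul_le_mul_of_nonneg_left (hk.trans (le_abs_self T)) hc0.le)
        linarith
      have hpw : 4 * B / η₁ ^ 2 ≤ gammaC θ d ^ (R - R₁) :=
        hn'.le.trans (pow_le_pow_right₀ hγ1.le (by omega))
      have hpw0 : 0 < gammaC θ d ^ (R - R₁) := by positivity
      have h2 : 2 * ((Real.exp (compC θ d * ((k : ℝ) * ε)) - 1) / gammaC θ d ^ (R - R₁))
          ≤ η₁ ^ 2 / 2 := by
        have h3 : (Real.exp (compC θ d * ((k : ℝ) * ε)) - 1) / gammaC θ d ^ (R - R₁)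
            ≤ B / gammaC θ d ^ (R - R₁) := div_le_div_of_nonneg_right hexp hpw0.le
        have h4 : B / gammaC θ d ^ (R - R₁) ≤ η₁ ^ 2 / 4 := by
          rw [div_le_iff₀ hpw0]
          rw [div_le_iff₀ (by positivity)] at hpw
          linarith
        linarith
      have h5 : ε ≤ (1 / 2 : ℝ) ^ j₂ := pow_le_pow_of_le_one (by norm_num) (by norm_num) hj2
      have h6 : ε < η₁ ^ 2 / (4 * C) := lt_of_le_of_lt h5 hj₂
      have h7 : 2 * (C * ε) ≤ η₁ ^ 2 / 2 := by
        rw [lt_div_iff₀ (by positivity)] at h6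
        linarith
      linarith
    calc Real.sqrt (∫ u, ((fun u => M u e.1 e.2) - fun u => Bl u e.1 e.2) u ^ 2 ∂(uniformField V))
        ≤ Real.sqrt (η₁ ^ 2) := Real.sqrt_le_sqrt (by simpa using hsq)
      _ = η₁ := Real.sqrt_sq hη₁0.le
  have hIM : Integrable (fun u => F (M u)) (uniformField V) := hF.integrable_comp hΛ hMm
  have hIB : Integrable (fun u => F (Bl u)) (uniformField V) := hF.integrable_comp hΛ hBm
  have hstepA : |∫ u, F (M u) ∂(uniformField V) - ∫ u, F (Bl u) ∂(uniformField V)| ≤ δ / 2 := by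
    rw [← integral_sub hIM hIB]
    refine (abs_integral_le_integral_abs).trans ?_
    have hIabs : ∀ e : V × V,
        Integrable (fun u => |M u e.1 e.2 - Bl u e.1 e.2|) (uniformField V) := by
      intro e
      have hMl : MemLp (fun u => M u e.1 e.2) 2 (uniformField V) :=
        memLp_cavChain (hn j) h0 h1 ℓ k e.1 e.2
      have hBl2 : MemLp (fun u => Bl u e.1 e.2) 2 (uniformField V) :=
        facts_memLp_msg h0 h1 (fun w => facts_memLp_xChain h0 h1 (hn j) _ ε k w) _ e.1 e.2
      exact ((hMl.sub hBl2).integrable (by norm_num)).abs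
    have hIR : Integrable (fun u => Λ * ∑ e ∈ E, |M u e.1 e.2 - Bl u e.1 e.2|) (uniformField V) :=
      (integrable_finsetSum _ fun e _ => hIabs e).const_mul _
    have hle := integral_mono_of_nonneg (μ := uniformField V)
      (Filter.Eventually.of_forall fun u => abs_nonneg (F (M u) - F (Bl u))) hIR
      (Filter.Eventually.of_forall fun u => hF.lip (M u) (Bl u))
    refine hle.trans ?_
    rw [integral_const_mul, integral_finsetSum _ fun e _ => hIabs e]
    refine le_trans (mul_le_mul_of_nonneg_left ?_ hΛ) hΛη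
    calc ∑ e ∈ E, ∫ u, |M u e.1 e.2 - Bl u e.1 e.2| ∂(uniformField V)
        ≤ ∑ _e ∈ E, η₁ := Finset.sum_le_sum hEbd
      _ = _ := by rw [Finset.sum_const, nsmul_eq_mul]
  -- step (b): total variation
  let Ft : (Fin (k + 1) → ↥S → ℝ) → ℝ := fun x => F (msg θ N (lastExt S k x) L)
  have hFtm : Measurable Ft :=
    hF.measurable_comp hΛ fun a b =>
      measurable_msg h0 h1 (fun w => measurable_lastExt S k w) L a b
  have hFt1 : ∀ x, |Ft x| ≤ 1 := fun x => hF.bdd _
  have htv := tv_field hp (hn j) o R hε0 hε1 k Ft hFtm hFt1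
  have hval : ∀ u, Ft (fun k' i => xChain θ N L ε (fun l w => γ j l (u w)) k' i) = F (Bl u) := by
    intro u
    refine hF.eq_of_agree fun e he => ?_
    have ha : e.1 ∈ S := (mem_ballF hp.tree.1).2 ((hR₁1 e he).trans (by omega))
    refine msg_congr_ball (fun v hv => ?_) L e.2 ha
    simp only [lastExt, dif_pos hv]
    rfl
  have hexact : ∀ σ : ↥S → Bool,
      ∫ ω, Ft (fun k' => exactPath (spinVec S σ) ε
          (fun l (i : ↥S) => γ j l (ω i)) k') ∂(uniformField V)
        = ∫ z, F (msg θ N (exField S ((k : ℝ) * ε) σ z) L) ∂(gamm ↥S) := fun σ =>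
    exact_path_integral h0 h1 ((hn j).restrict S) hΛ hF k ε σ L
  have htvsmall : tvE S k ε ≤ δ / 2 := by
    refine le_trans (Real.sqrt_le_sqrt ?_) (hj₁ j hj1)
    have h2 : A * (k : ℝ) * ε ^ 2 ≤ A * |T| * ε := by
      have h3 : (k : ℝ) * ε ≤ |T| := hk.trans (le_abs_self T)
      have h4 : A * (((k : ℝ) * ε) * ε) ≤ A * (|T| * ε) :=
        mul_le_mul_of_nonneg_left (mul_le_mul_of_nonneg_right h3 hε0.le) hA0
      calc A * (k : ℝ) * ε ^ 2 = A * (((k : ℝ) * ε) * ε) := by ring
        _ ≤ A * (|T| * ε) := h4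
        _ = A * |T| * ε := by ring
    have h5 := Real.exp_le_exp.2 h2
    have e : (8 * (S.card : ℝ) ^ 2 * Real.exp (4 * (S.card : ℝ)) * k * ε ^ 2) = A * k * ε ^ 2 := rfl
    rw [e]
    linarith
  have hmain : ∫ ω, F (Bl ω) ∂(uniformField V)
      = ∫ ω, Ft (fun k' i => xChain θ N L ε (fun l w => γ j l (ω w)) k' i) ∂(uniformField V) :=
    integral_congr_ae (Filter.Eventually.of_forall fun u => (hval u).symm)
  have hsum : exactE G θ o R ((k : ℝ) * ε) F
      = ∑ σ, isingW G θ S σ * ∫ ω, Ft (fun k' => exactPath (spinVec S σ) ε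
          (fun l (i : ↥S) => γ j l (ω i)) k') ∂(uniformField V) := by
    unfold exactE
    refine Finset.sum_congr rfl fun σ _ => ?_
    rw [hexact σ]
  have htv' : |∫ ω, F (Bl ω) ∂(uniformField V) - exactE G θ o R ((k : ℝ) * ε) F| ≤ δ / 2 := by
    rw [hmain, hsum]
    exact le_trans htv htvsmall
  have := abs_sub_le (∫ u, F (M u) ∂(uniformField V)) (∫ u, F (Bl u) ∂(uniformField V))
    (exactE G θ o R ((k : ℝ) * ε) F)
  linarith

end

end Vale.Agent.Lib.P161
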