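import Vale.Agent.Lib.P161.End.Pack
import Vale.Agent.Lib.P161.End.PackChain1
import Vale.Agent.Lib.P161.End.Rev
import Vale.Agent.Lib.P161.End.CascLip
import Vale.Agent.Lib.P161.End.LawCasc
import Vale.Agent.Lib.P161.End.Gauge
import Vale.Agent.Lib.P161.End.Transfer

/-!
P161 endpoint, module PackChain, parts P2 and P3: helper lemmas.
The exact model bounds for the functionals of the field pack.
-/

open MeasureTheory ProbabilityTheory Finset

namespace Vale.Agent.Lib.P161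

noncomputable section

variable {V : Type*} [DecidableEq V] {G : SimpleGraph V} [G.LocallyFinite] {d : ℕ}

namespace PC2

lemma cast_pred (hd : 1 ≤ d) : ((d - 1 : ℕ) : ℝ) = (d : ℝ) - 1 := by
  rw [Nat.cast_sub hd]; simp

lemma sL_mono {s t : ℝ} (h : s ≤ t) : sL s ≤ sL t := by
  unfold sL
  have := Real.sqrt_le_sqrt (min_le_min_right (1 : ℝ) h)
  linarith

lemma exPar_of_good (hd : 3 ≤ d) {θ t₀ t T : ℝ} (hθ : GoodT d θ)
    (hgap : 1 - θ ^ 2 * ((d : ℝ) - 1) ≤ sL t₀) (ht₀ : 0 < t₀) (h : t₀ ≤ t) (ht : t ≤ T) :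
    ExPar (d - 1) θ t T := by
  obtain ⟨h0, h1, h2⟩ := hθ
  have e := cast_pred (d := d) (by omega)
  refine ⟨by omega, h0, ?_, ?_, by linarith, ht, ?_⟩
  · rw [e]; linarith
  · rw [e]; linarith
  · rw [e]
    have := sL_mono h
    linarith

lemma theta_lt (hd : 3 ≤ d) {θ : ℝ} (hθ : GoodT d θ) : θ ^ 2 < 1 / 2 := by
  obtain ⟨h0, h1, h2⟩ := hθ
  have hd' : (3 : ℝ) ≤ d := by exact_mod_cast hd
  nlinarith [sq_nonneg θ]

lemma theta_lt_one (hd : 3 ≤ d) {θ : ℝ} (hθ : GoodT d θ) : θ < 1 := by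
  have := theta_lt hd hθ
  nlinarith [hθ.1]

lemma inv_pow_le (hd : 3 ≤ d) {θ : ℝ} (hθ : GoodT d θ) : ((1 - θ) ^ 4)⁻¹ ≤ 137 := by
  have h2 := theta_lt hd hθ
  have h3 : θ ≤ 0.7072 := by
    by_contra hc
    push Not at hc
    nlinarith
  have h4 : (0.2928 : ℝ) ≤ 1 - θ := by linarith
  have h5 : (0.2928 : ℝ) ^ 4 ≤ (1 - θ) ^ 4 := pow_le_pow_left₀ (by norm_num) h4 4
  have h6 : (137 : ℝ)⁻¹ ≤ (1 - θ) ^ 4 := le_trans (by norm_num) h5
  have h7 : 0 < (1 - θ) ^ 4 := lt_of_lt_of_le (by norm_num) h6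
  exact (inv_le_comm₀ h7 (by norm_num : (0 : ℝ) < 137)).2 h6

/-! ### Equivariance and measurability of cascades -/

lemma casc_equiv (e : G ≃g G) {w w' : V → V → ℝ} (bb : ℝ) (hw : ∀ c a, w' (e c) (e a) = w c a)
    (n : ℕ) (a b : V) :
    casc (nbV G) bb w' n (e a) (e b) = casc (nbV G) bb w n a b := by
  induction n generalizing a b with
  | zero => rfl
  | succ n ih =>
    simp only [casc]
    rw [sum_erase_nbV_equiv]
    congr 1
    refine Finset.sum_congr rfl fun c _ => ?_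
    rw [hw, ih]

lemma casc_meas {Ω : Type*} [MeasurableSpace Ω] {N : V → Finset V} {bb : ℝ}
    {W : Ω → V → V → ℝ} (hW : ∀ x y, Measurable fun u => W u x y) (n : ℕ) (a c : V) :
    Measurable fun u => casc N bb (W u) n a c := by
  induction n generalizing a c with
  | zero => exact measurable_const
  | succ n ih =>
    simp only [casc]
    refine Measurable.const_mul ?_ _
    exact Finset.measurable_sum _ fun z _ => (hW z a).mul (ih z a)

lemma measurable_phiF' (θ : ℝ) : Measurable (phiF θ) := by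
  unfold phiF
  fun_prop

/-! ### Bounded Lipschitz functionals -/

lemma lipCyl_mono {E E' : Finset (V × V)} {Λ Λ' : ℝ} {F : (V → V → ℝ) → ℝ} (hE : E' ⊆ E)
    (hΛ : Λ' ≤ Λ) (hΛ' : 0 ≤ Λ') (h : LipCyl E' Λ' F) : LipCyl E Λ F := by
  refine ⟨h.bdd, fun η η' => (h.lip η η').trans ?_⟩
  exact mul_le_mul hΛ
    (Finset.sum_le_sum_of_subset_of_nonneg hE fun _ _ _ => abs_nonneg _)
    (Finset.sum_nonneg fun _ _ => abs_nonneg _) (hΛ'.trans hΛ)

lemma lipCyl_max_sub {E : Finset (V × V)} {Λ ε : ℝ} {Z : (V → V → ℝ) → ℝ} (h0 : ∀ η, 0 ≤ Z η)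
    (h1 : ∀ η, Z η ≤ 1) (hε : 0 ≤ ε)
    (hl : ∀ η η', |Z η - Z η'| ≤ Λ * ∑ e ∈ E, |η e.1 e.2 - η' e.1 e.2|) :
    LipCyl E Λ (fun η => max (Z η - ε) 0) := by
  refine ⟨fun η => ?_, fun η η' => ?_⟩
  · rw [abs_of_nonneg (le_max_right _ _)]
    exact max_le (by linarith [h1 η]) zero_le_one
  · refine (abs_max_sub_max_le_abs _ _ _).trans ?_
    have : Z η - ε - (Z η' - ε) = Z η - Z η' := by ring
    rw [this]
    exact hl η η'

section casc

variable {θ : ℝ}

lemma phi_pow_nonneg (h0 : 0 ≤ θ) (h1 : θ < 1) (p : ℕ) (x : ℝ) : 0 ≤ phiF θ x ^ p :=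
  pow_nonneg (phiF_pos h0 h1 x).le p

lemma phi_pow_le_one (h0 : 0 ≤ θ) (h1 : θ < 1) (p : ℕ) (x : ℝ) : phiF θ x ^ p ≤ 1 :=
  pow_le_one₀ (phiF_pos h0 h1 x).le (phiF_le_one h0 h1 x)

/-- The cascade behind an edge is Lipschitz. -/
lemma back_lip (hT : G.IsTree) (hdeg : ∀ v, G.degree v = d) (hd : 2 ≤ d) (h0 : 0 ≤ θ) (h1 : θ < 1)
    (p n : ℕ) {a c : V} (hac : G.Adj a c) (η η' : V → V → ℝ) :
    |casc (nbV G) ((d : ℝ) - 1) (fun x y => phiF θ (η x y) ^ p) n a c
        - casc (nbV G) ((d : ℝ) - 1) (fun x y => phiF θ (η' x y) ^ p) n a c|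
      ≤ (4 * p) * ∑ e ∈ cascEdges (nbV G) n a c, |η e.1 e.2 - η' e.1 e.2| := by
  refine (casc_lip hT hdeg hd (fun _ _ => phi_pow_nonneg h0 h1 p _)
    (fun _ _ => phi_pow_le_one h0 h1 p _) (fun _ _ => phi_pow_nonneg h0 h1 p _)
    (fun _ _ => phi_pow_le_one h0 h1 p _) n hac).trans ?_
  rw [Finset.mul_sum]
  exact Finset.sum_le_sum fun e _ => phiF_pow_lip h0 h1 p _ _

/-- The cascade in front of an edge is Lipschitz. -/
lemma front_lip (hT : G.IsTree) (hdeg : ∀ v, G.degree v = d) (hd : 2 ≤ d) (h0 : 0 ≤ θ) (h1 : θ < 1)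
    (p n : ℕ) {a c : V} (hac : G.Adj a c) (η η' : V → V → ℝ) :
    |casc (nbV G) ((d : ℝ) - 1) (fun x y => phiF θ (η y x) ^ p) n a c
        - casc (nbV G) ((d : ℝ) - 1) (fun x y => phiF θ (η' y x) ^ p) n a c|
      ≤ (4 * p) * ∑ e ∈ (cascEdges (nbV G) n a c).image Prod.swap, |η e.1 e.2 - η' e.1 e.2| := by
  refine (casc_lip hT hdeg hd (fun _ _ => phi_pow_nonneg h0 h1 p _)
    (fun _ _ => phi_pow_le_one h0 h1 p _) (fun _ _ => phi_pow_nonneg h0 h1 p _)
    (fun _ _ => phi_pow_le_one h0 h1 p _) n hac).trans ?_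
  rw [Finset.sum_image (fun x _ y _ h => Prod.swap_injective h), Finset.mul_sum]
  exact Finset.sum_le_sum fun e _ => phiF_pow_lip h0 h1 p _ _

end casc

/-! ### The exact model -/

section exact

variable {θ t : ℝ} {o a : V}

lemma measurable_exField (S : Finset V) (t : ℝ) (σ : ↥S → Bool) (v : V) :
    Measurable fun z : ↥S → ℝ => exField S t σ z v := by
  unfold exField
  by_cases h : v ∈ S
  · simp only [dif_pos h]
    exact measurable_const.add ((measurable_pi_apply _).const_mul _)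
  · simp only [dif_neg h]
    exact measurable_const

lemma measurable_exMsg (h0 : 0 ≤ θ) (h1 : θ < 1) (S : Finset V) (t : ℝ) (σ : ↥S → Bool) (L : ℕ)
    (a b : V) :
    Measurable fun z : ↥S → ℝ => msg θ (nbS G S) (exField S t σ z) L a b :=
  measurable_msg h0 h1 (fun v => measurable_exField S t σ v) L a b

/-- Monotonicity of the exact expectation. -/
lemma exactE_mono (h0 : 0 ≤ θ) (h1 : θ < 1) {R : ℕ} {F F' : (V → V → ℝ) → ℝ}
    (hF : ∀ σ, Integrable (fun z => F (msg θ (nbS G (ballF G o R))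
      (exField (ballF G o R) t σ z) (2 * R + 1))) (gamm ↥(ballF G o R)))
    (hF' : ∀ σ, Integrable (fun z => F' (msg θ (nbS G (ballF G o R))
      (exField (ballF G o R) t σ z) (2 * R + 1))) (gamm ↥(ballF G o R)))
    (hle : ∀ σ z, F (msg θ (nbS G (ballF G o R)) (exField (ballF G o R) t σ z) (2 * R + 1))
      ≤ F' (msg θ (nbS G (ballF G o R)) (exField (ballF G o R) t σ z) (2 * R + 1))) :
    exactE G θ o R t F ≤ exactE G θ o R t F' := by
  unfold exactE
  exact Finset.sum_le_sum fun σ _ => mul_le_mul_of_nonneg_left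
    (integral_mono (hF σ) (hF' σ) (hle σ)) (isingW_nonneg h0 h1 _ σ)

/-- The gauge law with the parameter `d`. -/
lemma gauge_law' (hd : 2 ≤ d) (hT : G.IsTree) (hdeg : ∀ v, G.degree v = d)
    (h0 : 0 < θ) (h1 : θ < 1) (ht : 0 < t) (hao : G.Adj a o) (p n R : ℕ)
    (hR : n + 1 ≤ R) (f : ℝ → ℝ → ℝ) (hf : Measurable (Function.uncurry f))
    (hf1 : ∀ x z, |f x z| ≤ 1) (heven : ∀ x z, f (-x) z = f x z) :
    exactE G θ o R t (fun η => f (η a o)
        (casc (nbV G) ((d : ℝ) - 1) (fun x y => phiF θ (η x y) ^ p) n a o))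
      = ∫ w, f w.1 w.2 ∂(kapL t θ p (d - 1) (R - 1 - n) n) := by
  have h := gauge_law (b := d - 1) (by omega) hT (fun v => by rw [hdeg]; omega) h0 h1 ht hao p n R
    hR f hf hf1 heven
  rwa [cast_pred (by omega)] at h

/-- The indicator of the event of the tail of the cascade, under the exact model. -/
lemma exact_ind_eq (hd : 2 ≤ d) (hT : G.IsTree) (hdeg : ∀ v, G.degree v = d)
    (h0 : 0 < θ) (h1 : θ < 1) (ht : 0 < t) (hao : G.Adj a o) (p n R : ℕ)
    (hR : n + 1 ≤ R) (ε : ℝ) :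
    exactE G θ o R t (fun η => if ε ≤ casc (nbV G) ((d : ℝ) - 1)
        (fun x y => phiF θ (η x y) ^ p) n a o then (1 : ℝ) else 0)
      = (kapL t θ p (d - 1) (R - 1 - n) n).real {w | ε ≤ w.2} := by
  have hS : MeasurableSet {w : ℝ × ℝ | ε ≤ w.2} := measurableSet_le measurable_const measurable_snd
  have h := gauge_law' (f := fun _ z => if ε ≤ z then (1 : ℝ) else 0) hd hT hdeg h0 h1 ht hao p n R
    hR ?_ ?_ ?_
  · refine h.trans ?_
    rw [← integral_indicator_one hS]
    refine integral_congr_ae (Filter.Eventually.of_forall fun w => ?_)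
    by_cases hw : ε ≤ w.2
    · simp [Set.indicator, hw]
    · simp [Set.indicator, hw]
  · exact Measurable.ite hS measurable_const measurable_const
  · intro x z
    split_ifs <;> simp
  · intro x z
    rfl

lemma integrable_ind {Ω : Type*} [MeasurableSpace Ω] {P : Measure Ω} [IsFiniteMeasure P] {Y : Ω → ℝ}
    (hY : Measurable Y) (ε : ℝ) : Integrable (fun z => if ε ≤ Y z then (1 : ℝ) else 0) P := by
  refine Integrable.of_bound
    (Measurable.ite (measurableSet_le measurable_const hY) measurable_const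
      measurable_const).aestronglyMeasurable 1 (Filter.Eventually.of_forall fun z => ?_)
  split_ifs <;> simp

lemma measurable_back (h0 : 0 ≤ θ) (h1 : θ < 1) (S : Finset V) (t : ℝ) (σ : ↥S → Bool) (L p n : ℕ)
    (bb : ℝ) (a c : V) :
    Measurable fun z : ↥S → ℝ => casc (nbV G) bb
      (fun x y => phiF θ (msg θ (nbS G S) (exField S t σ z) L x y) ^ p) n a c :=
  casc_meas (W := fun z x y => phiF θ (msg θ (nbS G S) (exField S t σ z) L x y) ^ p)
    (fun x y => ((measurable_phiF' θ).comp (measurable_exMsg h0 h1 S t σ L x y)).pow_const p) n a c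

lemma back_mem (hdeg : ∀ v, G.degree v = d) (hd : 2 ≤ d) (h0 : 0 ≤ θ) (h1 : θ < 1) (p n : ℕ)
    (hao : G.Adj a o) (η : V → V → ℝ) :
    0 ≤ casc (nbV G) ((d : ℝ) - 1) (fun x y => phiF θ (η x y) ^ p) n a o ∧
      casc (nbV G) ((d : ℝ) - 1) (fun x y => phiF θ (η x y) ^ p) n a o ≤ 1 :=
  casc_mem_Icc hdeg hd (fun _ _ => phi_pow_nonneg h0 h1 p _)
    (fun _ _ => phi_pow_le_one h0 h1 p _) n hao

lemma front_mem (hdeg : ∀ v, G.degree v = d) (hd : 2 ≤ d) (h0 : 0 ≤ θ) (h1 : θ < 1) (p n : ℕ)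
    (hao : G.Adj a o) (η : V → V → ℝ) :
    0 ≤ casc (nbV G) ((d : ℝ) - 1) (fun x y => phiF θ (η y x) ^ p) n a o ∧
      casc (nbV G) ((d : ℝ) - 1) (fun x y => phiF θ (η y x) ^ p) n a o ≤ 1 :=
  casc_mem_Icc hdeg hd (fun _ _ => phi_pow_nonneg h0 h1 p _)
    (fun _ _ => phi_pow_le_one h0 h1 p _) n hao

/-- The truncated cascade is a bounded Lipschitz functional. -/
lemma lipCyl_back (hT : G.IsTree) (hdeg : ∀ v, G.degree v = d) (hd : 2 ≤ d) (h0 : 0 ≤ θ)
    (h1 : θ < 1) (p n : ℕ) (hao : G.Adj a o) {ε : ℝ} (hε : 0 ≤ ε) :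
    LipCyl (cascEdges (nbV G) n a o) (4 * p) (fun η => max (casc (nbV G) ((d : ℝ) - 1)
      (fun x y => phiF θ (η x y) ^ p) n a o - ε) 0) :=
  lipCyl_max_sub (fun η => (back_mem hdeg hd h0 h1 p n hao η).1)
    (fun η => (back_mem hdeg hd h0 h1 p n hao η).2) hε (fun η η' => back_lip hT hdeg hd h0 h1 p n hao η η')

lemma lipCyl_front (hT : G.IsTree) (hdeg : ∀ v, G.degree v = d) (hd : 2 ≤ d) (h0 : 0 ≤ θ)
    (h1 : θ < 1) (p n : ℕ) (hao : G.Adj a o) {ε : ℝ} (hε : 0 ≤ ε) :
    LipCyl ((cascEdges (nbV G) n a o).image Prod.swap) (4 * p) (fun η => max (casc (nbV G) ((d : ℝ) - 1)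
      (fun x y => phiF θ (η y x) ^ p) n a o - ε) 0) :=
  lipCyl_max_sub (fun η => (front_mem hdeg hd h0 h1 p n hao η).1)
    (fun η => (front_mem hdeg hd h0 h1 p n hao η).2) hε (fun η η' => front_lip hT hdeg hd h0 h1 p n hao η η')

/-- The bound of the truncated cascade behind the edge under the exact model. -/
lemma exact_back_le (hd : 2 ≤ d) (hT : G.IsTree) (hdeg : ∀ v, G.degree v = d)
    (h0 : 0 < θ) (h1 : θ < 1) (ht : 0 < t) (hao : G.Adj a o) (p n R : ℕ)
    (hR : n + 1 ≤ R) {ε : ℝ} (hε : 0 ≤ ε) :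
    exactE G θ o R t (fun η => max (casc (nbV G) ((d : ℝ) - 1)
        (fun x y => phiF θ (η x y) ^ p) n a o - ε) 0)
      ≤ (kapL t θ p (d - 1) (R - 1 - n) n).real {w | ε ≤ w.2} := by
  rw [← exact_ind_eq hd hT hdeg h0 h1 ht hao p n R hR ε]
  refine exactE_mono h0.le h1 (fun σ => ?_) (fun σ => ?_) (fun σ z => ?_)
  · exact (lipCyl_back hT hdeg hd h0.le h1 p n hao hε).integrable_comp (by positivity)
      (measurable_exMsg h0.le h1 _ t σ _)
  · exact integrable_ind (measurable_back h0.le h1 _ t σ _ p n _ a o) ε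
  · have hZ := back_mem hdeg hd h0.le h1 p n hao
      (msg θ (nbS G (ballF G o R)) (exField (ballF G o R) t σ z) (2 * R + 1))
    set Z := casc (nbV G) ((d : ℝ) - 1) (fun x y => phiF θ
      (msg θ (nbS G (ballF G o R)) (exField (ballF G o R) t σ z) (2 * R + 1) x y) ^ p) n a o
    change max (Z - ε) 0 ≤ if ε ≤ Z then (1 : ℝ) else 0
    split_ifs with h
    · exact max_le (by linarith [hZ.2]) zero_le_one
    · exact (max_eq_right (by push Not at h; linarith)).le

/-- The exact messages solve the message equations in the interior of the ball. -/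
lemma msg_hfix (hT : G.IsTree) (x : V → ℝ) (R : ℕ) {u v : V} (huv : G.Adj u v)
    (hu : u ∈ ballF G o R) (hv : v ∈ ballF G o R) :
    msg θ (nbS G (ballF G o R)) x (2 * R + 1) u v
        + hm θ (msg θ (nbS G (ballF G o R)) x (2 * R + 1) v u)
      = x u + ∑ c ∈ nbS G (ballF G o R) u, hm θ (msg θ (nbS G (ballF G o R)) x (2 * R + 1) c u) := by
  obtain ⟨rk, hrk, hL⟩ := rank_nbS hT o R
  have hN : ∀ a c, c ∈ nbS G (ballF G o R) a → G.Adj a c := fun a c h => (mem_nbS.1 h).2.1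
  have h1 := msg_fixed (θ := θ) (G := G) (N := nbS G (ballF G o R)) (rk := rk) (L₀ := 2 * R + 1) hrk hN hL x
    u v huv
  have hmem : v ∈ nbS G (ballF G o R) u := mem_nbS.2 ⟨hu, huv, hv⟩
  have h2 := Finset.add_sum_erase (nbS G (ballF G o R) u)
    (fun c => hm θ (msg θ (nbS G (ballF G o R)) x (2 * R + 1) c u)) hmem
  rw [h1]
  linarith

/-- The cascade in front of the edge is bounded by the one behind it, for the exact messages. -/
lemma exact_reversal (hT : G.IsTree) (hdeg : ∀ v, G.degree v = d) (hd : 3 ≤ d) (hθ : GoodT d θ)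
    (hao : G.Adj a o) (p n R : ℕ) (hR : n + 5 ≤ R) (x : V → ℝ) :
    casc (nbV G) ((d : ℝ) - 1) (fun u v =>
        phiF θ (msg θ (nbS G (ballF G o R)) x (2 * R + 1) v u) ^ p) (n + 1) a o
      ≤ 137 ^ p * casc (nbV G) ((d : ℝ) - 1) (fun u v =>
        phiF θ (msg θ (nbS G (ballF G o R)) x (2 * R + 1) u v) ^ p) n a o := by
  have h0 := hθ.1
  have h1 := theta_lt_one hd hθ
  have hc := hT.1
  have hfix : ∀ u v, G.Adj u v → G.dist a u ≤ n + 2 →
      msg θ (nbS G (ballF G o R)) x (2 * R + 1) u v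
        + hm θ (msg θ (nbS G (ballF G o R)) x (2 * R + 1) v u)
      = x u + ∑ c ∈ nbS G (ballF G o R) u, hm θ (msg θ (nbS G (ballF G o R)) x (2 * R + 1) c u) := by
    intro u v huv hu
    have hoa : G.dist o a = 1 := SimpleGraph.dist_eq_one_iff_adj.2 hao.symm
    have h2 : G.dist o u ≤ G.dist o a + G.dist a u := hc.dist_triangle
    have h3 : G.dist u v = 1 := SimpleGraph.dist_eq_one_iff_adj.2 huv
    have h4 : G.dist o v ≤ G.dist o u + G.dist u v := hc.dist_triangle
    exact msg_hfix hT x R huv ((mem_ballF hc).2 (by omega)) ((mem_ballF hc).2 (by omega))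
  have h2 := casc_reversal hT hdeg (by omega) h0 h1
    (msg θ (nbS G (ballF G o R)) x (2 * R + 1)) _ p n a o hao hfix
  refine h2.trans ?_
  refine mul_le_mul_of_nonneg_right ?_ (back_mem hdeg (by omega) h0.le h1 p n hao _).1
  refine pow_le_pow_left₀ ?_ (inv_pow_le hd hθ) p
  have : 0 < 1 - θ := by linarith
  positivity

/-- The bound of the truncated cascade in front of the edge under the exact model. -/
lemma exact_front_le (hd : 3 ≤ d) (hT : G.IsTree) (hdeg : ∀ v, G.degree v = d)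
    (hθ : GoodT d θ) (ht : 0 < t) (hao : G.Adj a o) (p n R : ℕ)
    (hR : n + 5 ≤ R) {ε : ℝ} (hε : 0 ≤ ε) :
    exactE G θ o R t (fun η => max (casc (nbV G) ((d : ℝ) - 1)
        (fun x y => phiF θ (η y x) ^ p) (n + 1) a o - 137 ^ p * ε) 0)
      ≤ (kapL t θ p (d - 1) (R - 1 - n) n).real {w | ε ≤ w.2} := by
  have h0 := hθ.1
  have h1 := theta_lt_one hd hθ
  have hd2 : 2 ≤ d := by omega
  have hκ : (0 : ℝ) ≤ 137 ^ p := by positivity
  have hκε : (0 : ℝ) ≤ 137 ^ p * ε := mul_nonneg hκ hε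
  rw [← exact_ind_eq hd2 hT hdeg h0 h1 ht hao p n R (by omega) ε]
  refine exactE_mono h0.le h1 (fun σ => ?_) (fun σ => ?_) (fun σ z => ?_)
  · exact (lipCyl_front hT hdeg hd2 h0.le h1 p (n + 1) hao hκε).integrable_comp (by positivity)
      (measurable_exMsg h0.le h1 _ t σ _)
  · exact integrable_ind (measurable_back h0.le h1 _ t σ _ p n _ a o) ε
  · have hZ := back_mem hdeg hd2 h0.le h1 p n hao
      (msg θ (nbS G (ballF G o R)) (exField (ballF G o R) t σ z) (2 * R + 1))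
    have hZ' := front_mem hdeg hd2 h0.le h1 p (n + 1) hao
      (msg θ (nbS G (ballF G o R)) (exField (ballF G o R) t σ z) (2 * R + 1))
    have hrev := exact_reversal hT hdeg hd hθ hao p n R hR (exField (ballF G o R) t σ z)
    set Z := casc (nbV G) ((d : ℝ) - 1) (fun x y => phiF θ
      (msg θ (nbS G (ballF G o R)) (exField (ballF G o R) t σ z) (2 * R + 1) x y) ^ p) n a o
    set Z' := casc (nbV G) ((d : ℝ) - 1) (fun x y => phiF θ
      (msg θ (nbS G (ballF G o R)) (exField (ballF G o R) t σ z) (2 * R + 1) y x) ^ p) (n + 1) a o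
    change max (Z' - 137 ^ p * ε) 0 ≤ if ε ≤ Z then (1 : ℝ) else 0
    split_ifs with h
    · exact max_le (by linarith [hZ'.2]) zero_le_one
    · push Not at h
      have : Z' ≤ 137 ^ p * ε := hrev.trans (mul_le_mul_of_nonneg_left h.le hκ)
      exact (max_eq_right (by linarith)).le

/-- Functionals of the message on the edge alone: the law of the exact message. -/
lemma exact_fst (hd : 2 ≤ d) (hT : G.IsTree) (hdeg : ∀ v, G.degree v = d)
    (h0 : 0 < θ) (h1 : θ < 1) (ht : 0 < t) (hao : G.Adj a o) (R : ℕ) (hR : 1 ≤ R) (f : ℝ → ℝ)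
    (hf : Measurable f) (hf1 : ∀ x, |f x| ≤ 1) (heven : ∀ x, f (-x) = f x) :
    exactE G θ o R t (fun η => f (η a o)) = ∫ x, f x ∂(nuL t θ (d - 1) (R - 1)) := by
  have h := gauge_law' (f := fun x _ => f x) hd hT hdeg h0 h1 ht hao 0 0 R (by omega)
    (hf.comp measurable_fst) (fun x _ => hf1 x) (fun x _ => heven x)
  refine h.trans ?_
  have h2 := kapL_fst (d - 1) (by omega) t θ ht.le h0.le h1 0 (R - 1 - 0) 0
  have e : R - 1 - 0 + 0 = R - 1 := by omega
  rw [e] at h2
  rw [← h2, integral_map measurable_fst.aemeasurable hf.aestronglyMeasurable]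

/-- The second moment of the message is finite. -/
lemma integrable_sq_nu {b : ℕ} {T : ℝ} (h : ExPar b θ t T) (R : ℕ) :
    Integrable (fun x => x ^ 2) (nuL t θ b R) := by
  have := LQ.nu_prob h R
  have hM := LQ.Mg_nu_one h R
  have hν := LQ.nu_bms h R
  have hM' := (LQ.Mg_neg_le hν zero_le_one).trans hM
  refine ⟨(measurable_id.pow_const 2).aestronglyMeasurable, ?_⟩
  rw [hasFiniteIntegral_iff_ofReal (Filter.Eventually.of_forall fun x => sq_nonneg x)]
  have hle : ∀ x : ℝ, ENNReal.ofReal (x ^ 2) ≤ ENNReal.ofReal 2 *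
      (ENNReal.ofReal (Real.exp (1 * x)) + ENNReal.ofReal (Real.exp (-1 * x))) := by
    intro x
    rw [← ENNReal.ofReal_add (Real.exp_pos _).le (Real.exp_pos _).le,
      ← ENNReal.ofReal_mul (by norm_num)]
    refine ENNReal.ofReal_le_ofReal ?_
    have := LQ.sq_le_exp_add (l := 1) one_pos x
    simpa using this
  refine lt_of_le_of_lt (lintegral_mono hle) ?_
  have hm : Measurable fun x : ℝ => ENNReal.ofReal (Real.exp (1 * x)) +
      ENNReal.ofReal (Real.exp (-1 * x)) :=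
    (LQ.measurable_ofReal_exp 1).add (LQ.measurable_ofReal_exp (-1))
  rw [lintegral_const_mul _ hm, lintegral_add_left (LQ.measurable_ofReal_exp 1)]
  refine ENNReal.mul_lt_top ENNReal.ofReal_lt_top (ENNReal.add_lt_top.2 ⟨?_, ?_⟩)
  · exact lt_of_le_of_lt hM ENNReal.ofReal_lt_top
  · exact lt_of_le_of_lt hM' ENNReal.ofReal_lt_top

/-- The functional `(tanh² - c)₊` of the message on an edge. -/
lemma lipCyl_tanh (a o : V) {c : ℝ} (hc : 0 ≤ c) :
    LipCyl {(a, o)} 2 (fun η : V → V → ℝ => max (Real.tanh (η a o) ^ 2 - c) 0) := by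
  refine ⟨fun η => ?_, fun η η' => ?_⟩
  · rw [abs_of_nonneg (le_max_right _ _)]
    have := Real.tanh_sq_lt_one (η a o)
    exact max_le (by linarith) zero_le_one
  · rw [Finset.sum_singleton]
    refine (abs_max_sub_max_le_abs _ _ _).trans ?_
    have e : Real.tanh (η a o) ^ 2 - c - (Real.tanh (η' a o) ^ 2 - c)
        = (Real.tanh (η a o) - Real.tanh (η' a o)) * (Real.tanh (η a o) + Real.tanh (η' a o)) := by
      ring
    rw [e, abs_mul]
    have h1 := abs_tanh_sub_le (η a o) (η' a o)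
    have h2 : |Real.tanh (η a o)| ≤ 1 :=
      (sq_le_one_iff_abs_le_one _).1 (Real.tanh_sq_lt_one _).le
    have h3 : |Real.tanh (η' a o)| ≤ 1 :=
      (sq_le_one_iff_abs_le_one _).1 (Real.tanh_sq_lt_one _).le
    have h4 := abs_add_le (Real.tanh (η a o)) (Real.tanh (η' a o))
    have h5 : |Real.tanh (η a o) + Real.tanh (η' a o)| ≤ 2 := by linarith
    calc _ ≤ |η a o - η' a o| * 2 :=
          mul_le_mul h1 h5 (abs_nonneg _) (abs_nonneg _)
      _ = _ := by ring

/-- The bound of the tail of `tanh²` under the exact model. -/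
lemma exact_tanh_le (hd : 2 ≤ d) (hT : G.IsTree) (hdeg : ∀ v, G.degree v = d)
    (h0 : 0 < θ) (h1 : θ < 1) (ht : 0 < t) (hao : G.Adj a o) (R : ℕ) (hR : 1 ≤ R) {c : ℝ}
    (hc : 0 ≤ c) :
    exactE G θ o R t (fun η => max (Real.tanh (η a o) ^ 2 - c) 0)
      ≤ (nuL t θ (d - 1) (R - 1)).real {x | c ≤ Real.tanh x ^ 2} := by
  have hm : Measurable fun x : ℝ => Real.tanh x ^ 2 := LQ.measurable_tanh_sq
  have hfm : Measurable fun x : ℝ => max (Real.tanh x ^ 2 - c) 0 :=
    (hm.sub_const c).max measurable_const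
  have hf1 : ∀ x : ℝ, |max (Real.tanh x ^ 2 - c) 0| ≤ 1 := fun x =>
    (lipCyl_tanh (V := ℝ) x x hc).bdd (fun _ _ => x)
  have hS : MeasurableSet {x : ℝ | c ≤ Real.tanh x ^ 2} := measurableSet_le measurable_const hm
  rw [exact_fst hd hT hdeg h0 h1 ht hao R hR (fun x => max (Real.tanh x ^ 2 - c) 0) hfm hf1
    (fun x => by simp only [Real.tanh_neg, neg_sq])]
  have := isProb_nuL (t := t) h0.le h1 (d - 1) (R - 1)
  rw [← integral_indicator_one hS]
  refine integral_mono (Integrable.of_bound hfm.aestronglyMeasurable 1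
    (Filter.Eventually.of_forall fun x => hf1 x)) ((integrable_const (1 : ℝ)).indicator hS) fun x => ?_
  by_cases hx : c ≤ Real.tanh x ^ 2
  · have h3 : Set.indicator {x : ℝ | c ≤ Real.tanh x ^ 2} (1 : ℝ → ℝ) x = 1 := by
      simp [Set.indicator, hx]
    rw [h3]
    exact (le_abs_self _).trans (hf1 x)
  · have h3 : Set.indicator {x : ℝ | c ≤ Real.tanh x ^ 2} (1 : ℝ → ℝ) x = 0 := by
      simp [Set.indicator, hx]
    rw [h3]
    push Not at hx
    exact (max_eq_right (by linarith)).le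

lemma min_sq_sub_le {s : ℝ} (hs : 0 ≤ s) (x y : ℝ) :
    min (x ^ 2) (s ^ 2) - min (y ^ 2) (s ^ 2) ≤ 2 * s * |x - y| := by
  have h0 : 0 ≤ 2 * s * |x - y| := by positivity
  have h1 : |x| - |y| ≤ |x - y| := abs_sub_abs_le_abs_sub x y
  have hx2 : x ^ 2 = |x| ^ 2 := (sq_abs x).symm
  have hy2 : y ^ 2 = |y| ^ 2 := (sq_abs y).symm
  have hx0 := abs_nonneg x
  have hy0 := abs_nonneg y
  have hxy0 := abs_nonneg (x - y)
  by_cases hy : s ≤ |y|
  · have : min (y ^ 2) (s ^ 2) = s ^ 2 := min_eq_right (by rw [hy2]; exact pow_le_pow_left₀ hs hy 2)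
    rw [this]
    have h3 : min (x ^ 2) (s ^ 2) ≤ s ^ 2 := min_le_right _ _
    linarith
  · push Not at hy
    have : min (y ^ 2) (s ^ 2) = y ^ 2 := min_eq_left (by rw [hy2]; exact pow_le_pow_left₀ hy0 hy.le 2)
    rw [this, hy2]
    by_cases hx : s ≤ |x|
    · have h3 : min (x ^ 2) (s ^ 2) ≤ s ^ 2 := min_le_right _ _
      refine (sub_le_sub_right h3 _).trans ?_
      have h4 : s - |y| ≤ |x - y| := by linarith
      have h5 : 0 ≤ s - |y| := by linarith
      nlinarith
    · push Not at hx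
      have h3 : min (x ^ 2) (s ^ 2) ≤ x ^ 2 := min_le_left _ _
      refine (sub_le_sub_right h3 _).trans ?_
      rw [hx2]
      by_cases h6 : |x| ≤ |y|
      · nlinarith
      · push Not at h6
        nlinarith

/-- The truncated square of the message on an edge. -/
lemma lipCyl_min_sq (a o : V) {s : ℝ} (hs : 0 < s) :
    LipCyl {(a, o)} (2 / s) (fun η : V → V → ℝ => min (η a o ^ 2) (s ^ 2) / s ^ 2) := by
  have hs2 : 0 < s ^ 2 := by positivity
  refine ⟨fun η => ?_, fun η η' => ?_⟩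
  · have h1 : 0 ≤ min (η a o ^ 2) (s ^ 2) := le_min (sq_nonneg _) hs2.le
    rw [abs_of_nonneg (div_nonneg h1 hs2.le), div_le_one hs2]
    exact min_le_right _ _
  · rw [Finset.sum_singleton, ← sub_div, abs_div, abs_of_pos hs2, div_le_iff₀ hs2]
    have h1 : |min (η a o ^ 2) (s ^ 2) - min (η' a o ^ 2) (s ^ 2)| ≤ 2 * s * |η a o - η' a o| := by
      rw [abs_le]
      constructor
      · have := min_sq_sub_le hs.le (η' a o) (η a o)
        rw [abs_sub_comm] at this
        linarith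
      · exact min_sq_sub_le hs.le _ _
    refine h1.trans (le_of_eq ?_)
    field_simp

/-- The truncated second moment under the exact model. -/
lemma exact_min_sq_le {T : ℝ} (hd : 2 ≤ d) (hT : G.IsTree) (hdeg : ∀ v, G.degree v = d)
    (h0 : 0 < θ) (h1 : θ < 1) (ht : 0 < t) (hao : G.Adj a o) (R : ℕ) (hR : 1 ≤ R) {s : ℝ}
    (hs : 0 < s) (hP : ExPar (d - 1) θ t T) :
    exactE G θ o R t (fun η => min (η a o ^ 2) (s ^ 2) / s ^ 2)
      ≤ (∫ x, x ^ 2 ∂(nuL t θ (d - 1) (R - 1))) / s ^ 2 := by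
  have hs2 : 0 < s ^ 2 := by positivity
  have hfm : Measurable fun x : ℝ => min (x ^ 2) (s ^ 2) / s ^ 2 :=
    ((measurable_id.pow_const 2).min measurable_const).div_const _
  have hf1 : ∀ x : ℝ, |min (x ^ 2) (s ^ 2) / s ^ 2| ≤ 1 := fun x =>
    (lipCyl_min_sq (V := ℝ) x x hs).bdd (fun _ _ => x)
  rw [exact_fst hd hT hdeg h0 h1 ht hao R hR (fun x => min (x ^ 2) (s ^ 2) / s ^ 2) hfm hf1
    (fun x => by simp only [neg_sq])]
  have := isProb_nuL (t := t) h0.le h1 (d - 1) (R - 1)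
  rw [← integral_div]
  refine integral_mono (Integrable.of_bound hfm.aestronglyMeasurable 1
    (Filter.Eventually.of_forall fun x => hf1 x)) ((integrable_sq_nu hP _).div_const _) fun x => ?_
  exact div_le_div_of_nonneg_right (min_le_left _ _) hs2.le

end exact

/-! ### Transport along the edges -/

section edges

variable {θ : ℝ} {η : (V → unitInterval) → V → V → ℝ}

lemma edge_back (hT : G.IsTree) (hdeg : ∀ v, G.degree v = d) (hd : 2 ≤ d) (hη : EqField G η)
    (bb ε : ℝ) (p n : ℕ) {x y a o : V} (hxy : G.Adj x y) (hao : G.Adj a o) :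
    ∫ u, max (casc (nbV G) bb (fun x y => phiF θ (η u x y) ^ p) n x y - ε) 0 ∂(uniformField V)
      = ∫ u, max (casc (nbV G) bb (fun x y => phiF θ (η u x y) ^ p) n a o - ε) 0
          ∂(uniformField V) := by
  refine integral_edge_const hT hdeg hd
    (fun u a b => max (casc (nbV G) bb (fun x y => phiF θ (η u x y) ^ p) n a b - ε) 0)
    (fun a b => ?_) (fun g u a b => ?_) hxy hao
  · exact ((casc_meas (W := fun u x y => phiF θ (η u x y) ^ p)
      (fun x y => ((measurable_phiF' θ).comp (hη.meas x y)).pow_const p) n a b).sub_const ε).max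
      measurable_const
  · rw [casc_equiv g bb (w := fun x y => phiF θ (η u x y) ^ p) (fun c a => by simp only [hη.equiv])]

lemma edge_front (hT : G.IsTree) (hdeg : ∀ v, G.degree v = d) (hd : 2 ≤ d) (hη : EqField G η)
    (bb ε : ℝ) (p n : ℕ) {x y a o : V} (hxy : G.Adj x y) (hao : G.Adj a o) :
    ∫ u, max (casc (nbV G) bb (fun x y => phiF θ (η u y x) ^ p) n x y - ε) 0 ∂(uniformField V)
      = ∫ u, max (casc (nbV G) bb (fun x y => phiF θ (η u y x) ^ p) n a o - ε) 0
          ∂(uniformField V) := by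
  refine integral_edge_const hT hdeg hd
    (fun u a b => max (casc (nbV G) bb (fun x y => phiF θ (η u y x) ^ p) n a b - ε) 0)
    (fun a b => ?_) (fun g u a b => ?_) hxy hao
  · exact ((casc_meas (W := fun u x y => phiF θ (η u y x) ^ p)
      (fun x y => ((measurable_phiF' θ).comp (hη.meas y x)).pow_const p) n a b).sub_const ε).max
      measurable_const
  · rw [casc_equiv g bb (w := fun x y => phiF θ (η u y x) ^ p) (fun c a => by simp only [hη.equiv])]

lemma edge_tanh (hT : G.IsTree) (hdeg : ∀ v, G.degree v = d) (hd : 2 ≤ d) (hη : EqField G η)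
    (c : ℝ) {x y a o : V} (hxy : G.Adj x y) (hao : G.Adj a o) :
    ∫ u, max (Real.tanh (η u x y) ^ 2 - c) 0 ∂(uniformField V)
      = ∫ u, max (Real.tanh (η u a o) ^ 2 - c) 0 ∂(uniformField V) := by
  refine integral_edge_const hT hdeg hd (fun u a b => max (Real.tanh (η u a b) ^ 2 - c) 0)
    (fun a b => ?_) (fun g u a b => ?_) hxy hao
  · exact ((LQ.measurable_tanh_sq.comp (hη.meas a b)).sub_const c).max measurable_const
  · simp only [hη.equiv]

lemma edge_sq (hT : G.IsTree) (hdeg : ∀ v, G.degree v = d) (hd : 2 ≤ d) (hη : EqField G η)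
    {x y a o : V} (hxy : G.Adj x y) (hao : G.Adj a o) :
    ∫ u, η u x y ^ 2 ∂(uniformField V) = ∫ u, η u a o ^ 2 ∂(uniformField V) := by
  refine integral_edge_const hT hdeg hd (fun u a b => η u a b ^ 2)
    (fun a b => ?_) (fun g u a b => ?_) hxy hao
  · exact (hη.meas a b).pow_const 2
  · simp only [hη.equiv]

end edges

end PC2

end

end Vale.Agent.Lib.P161
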