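import Vale.Agent.Lib.P161.End.Pack
import Vale.Agent.Lib.P161.End.PackChain1
import Vale.Agent.Lib.P161.End.PackChain2
import Vale.Agent.Lib.P161.End.Rev
import Vale.Agent.Lib.P161.End.CascLip
import Vale.Agent.Lib.P161.End.LawCasc
import Vale.Agent.Lib.P161.End.Gauge
import Vale.Agent.Lib.P161.End.Transfer

/-!
P161 endpoint, module PackChain: the master chain satisfies the hypotheses of the static estimates,
by transfer from the exact model.
See notes/P161_endpoint_blueprint.md, sections 2, 3, 4.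
-/

open MeasureTheory ProbabilityTheory Finset

namespace Vale.Agent.Lib.P161

noncomputable section

variable {V : Type*} [DecidableEq V] {G : SimpleGraph V} [G.LocallyFinite] {d : ℕ}

/-- **P2.** The cascades at chain level: transfer, gauge law and `lawCasc_main`, `casc_reversal`
(with `(1-θ)⁻⁴ ≤ 137`), and the tail of `tanh²` and second moment from `lawQ_main`. -/
theorem pack_chain (hT : G.IsTree) (hdeg : ∀ v, G.degree v = d) (hd : 3 ≤ d) (T : ℝ) (hT0 : 0 < T) :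
    ∃ (α Cp Cu CD : ℝ), 0 < α ∧ α < 1 ∧ 0 < Cp ∧ 0 < Cu ∧ 0 < CD ∧
      ∀ t₀ : ℝ, 0 < t₀ → ∀ θ : ℝ, GoodT d θ → 1 - θ ^ 2 * ((d : ℝ) - 1) ≤ sL t₀ →
      ∀ {γ : ℕ → ℕ → unitInterval → ℝ},
      (∀ j, IsNoise (uniformField V) (fun (k : ℕ) (v : V) (u : V → unitInterval) => γ j k (u v))) →
      ∀ (pmax m₀ : ℕ) (δ₁ : ℝ), 0 < δ₁ → ∃ ℓ₀ j₀ : ℕ, ∀ ℓ j, ℓ₀ ≤ ℓ → j₀ ≤ j → ∀ (k p : ℕ),
        t₀ ≤ (k : ℝ) * (1 / 2 : ℝ) ^ j → (k : ℝ) * (1 / 2 : ℝ) ^ j ≤ T →
        Cp / sL ((k : ℝ) * (1 / 2 : ℝ) ^ j) ≤ p → p ≤ pmax →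
        FieldPack G d θ (masterChain G θ γ ℓ j k) p α (137 ^ p) CD Cu
          (sL ((k : ℝ) * (1 / 2 : ℝ) ^ j)) m₀ δ₁ := by
  obtain ⟨Cp, α, hCp, hα0, hα1, hLC⟩ := lawCasc_main (d - 1) T (by omega) hT0
  obtain ⟨C, hC1, hC, -⟩ := lawQ_main (d - 1) T (by omega) hT0
  obtain ⟨CD, hCD0, hCD⟩ := tail_chain hT hdeg hd T hT0
  have hC0 : 0 < C := by linarith
  refine ⟨α, Cp, C, CD, hα0, hα1, hCp, hC0, hCD0, ?_⟩
  intro t₀ ht₀ θ hθ hgap γ hn pmax m₀ δ₁ hδ₁
  obtain ⟨R₁, hR₁⟩ := hLC t₀ ht₀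
  have hp : TreeParams G d θ := GoodT.treeParams hT hdeg hd hθ
  have h0 := hθ.1
  have h1 := PC2.theta_lt_one hd hθ
  have hd2 : 2 ≤ d := by omega
  obtain ⟨ℓ₁, j₁, htail⟩ := hCD θ hθ hn δ₁ hδ₁
  obtain ⟨o⟩ := hT.1.nonempty
  obtain ⟨a, hao⟩ : ∃ a, G.Adj a o := by
    obtain ⟨w, hw⟩ := (G.degree_pos_iff_exists_adj o).1 (by rw [hdeg]; omega)
    exact ⟨w, hw.symm⟩
  -- the edges of all the functionals
  set Eb : Finset (V × V) := (Finset.range (m₀ + 1)).biUnion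
    (fun n => cascEdges (nbV G) n a o) with hEb
  set Ef : Finset (V × V) := (Finset.range (m₀ + 2)).biUnion
    (fun n => (cascEdges (nbV G) n a o).image Prod.swap) with hEf
  set E : Finset (V × V) := insert (a, o) (Eb ∪ Ef) with hEdef
  have hEbsub : ∀ n, n ≤ m₀ → cascEdges (nbV G) n a o ⊆ E := fun n hn e he =>
    Finset.mem_insert_of_mem (Finset.mem_union_left _ (Finset.mem_biUnion.2
      ⟨n, Finset.mem_range.2 (by omega), he⟩))
  have hEfsub : ∀ n, n ≤ m₀ + 1 → (cascEdges (nbV G) n a o).image Prod.swap ⊆ E := fun n hn e he =>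
    Finset.mem_insert_of_mem (Finset.mem_union_right _ (Finset.mem_biUnion.2
      ⟨n, Finset.mem_range.2 (by omega), he⟩))
  have hEt : ({(a, o)} : Finset (V × V)) ⊆ E := by
    intro e he
    rw [Finset.mem_singleton] at he
    rw [he]
    exact Finset.mem_insert_self _ _
  have hE : ∀ e ∈ E, G.Adj e.1 e.2 := by
    intro e he
    rcases Finset.mem_insert.1 he with rfl | he
    · exact hao
    · rcases Finset.mem_union.1 he with he | he
      · obtain ⟨n, -, hn⟩ := Finset.mem_biUnion.1 he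
        exact cascEdges_adj n hao e hn
      · obtain ⟨n, -, hn⟩ := Finset.mem_biUnion.1 he
        obtain ⟨e', he', rfl⟩ := Finset.mem_image.1 hn
        exact (cascEdges_adj n hao e' he').symm
  set Λ : ℝ := 4 * pmax + 2 with hΛdef
  have hΛ : 0 ≤ Λ := by positivity
  obtain ⟨R₀, hR₀⟩ := transfer hp hn o T E hE Λ (δ₁ / 2) hΛ (half_pos hδ₁)
  set R : ℕ := max R₀ (R₁ + m₀ + 5) with hRdef
  have hRge : R₁ + m₀ + 5 ≤ R := le_max_right _ _
  obtain ⟨ℓ₂, j₂, htr⟩ := hR₀ R (le_max_left _ _)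
  refine ⟨max ℓ₁ ℓ₂, max j₁ j₂, fun ℓ j hℓ hj k p ht₀k htk hpk hpmax => ?_⟩
  set t : ℝ := (k : ℝ) * (1 / 2 : ℝ) ^ j with ht
  have ht0 : 0 < t := lt_of_lt_of_le ht₀ ht₀k
  have hPar : ExPar (d - 1) θ t T := PC2.exPar_of_good hd hθ hgap ht₀ ht₀k htk
  have heq := masterChain_eqField hp hn ℓ j k
  have htr' := htr ℓ j (le_trans (le_max_right _ _) hℓ) (le_trans (le_max_right _ _) hj) k htk
  have hpΛ : (4 : ℝ) * p ≤ Λ := by
    have : (p : ℝ) ≤ pmax := by exact_mod_cast hpmax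
    rw [hΛdef]
    linarith
  have hp4 : (0 : ℝ) ≤ 4 * p := by positivity
  refine ⟨heq, ?_, ?_, ?_, ?_⟩
  · intro x y hxy n hnm
    rw [PC2.edge_back hT hdeg hd2 heq _ _ p n hxy hao]
    have hε : 0 ≤ epsN α n := by
      unfold epsN
      positivity
    have hF := PC2.lipCyl_mono (hEbsub n hnm) hpΛ hp4
      (PC2.lipCyl_back hT hdeg hd2 h0.le h1 p n hao hε)
    have h3 := htr' _ hF
    have h4 := PC2.exact_back_le (t := t) hd2 hT hdeg h0 h1 ht0 hao p n R (by omega) hε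
    have h5 := hR₁ θ t hPar ht₀k p hpk (R - 1 - n) (by omega) n
    have h6 := (abs_le.1 h3).2
    linarith
  · intro x y hxy n hnm
    rw [PC2.edge_front hT hdeg hd2 heq _ _ p (n + 1) hxy hao]
    have hε : 0 ≤ epsN α n := by
      unfold epsN
      positivity
    have hκε : (0 : ℝ) ≤ 137 ^ p * epsN α n := by positivity
    have hF := PC2.lipCyl_mono (hEfsub (n + 1) (by omega)) hpΛ hp4
      (PC2.lipCyl_front hT hdeg hd2 h0.le h1 p (n + 1) hao hκε)
    have h3 := htr' _ hF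
    have h4 := PC2.exact_front_le (t := t) hd hT hdeg hθ ht0 hao p n R (by omega) hε
    have h5 := hR₁ θ t hPar ht₀k p hpk (R - 1 - n) (by omega) n
    have h6 := (abs_le.1 h3).2
    linarith
  · intro x y hxy A hA
    exact htail ℓ j (le_trans (le_max_left _ _) hℓ) (le_trans (le_max_left _ _) hj) k htk x y hxy A hA
  · intro x y hxy c hc0 hc1
    rw [PC2.edge_tanh hT hdeg hd2 heq c hxy hao]
    have hF := PC2.lipCyl_mono (Λ := Λ) hEt
      (by rw [hΛdef]; linarith [(Nat.cast_nonneg pmax : (0 : ℝ) ≤ pmax)]) (by norm_num) (PC2.lipCyl_tanh a o hc0)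
    have h3 := htr' _ hF
    have h4 := PC2.exact_tanh_le (t := t) hd2 hT hdeg h0 h1 ht0 hao R (by omega) hc0
    have h5 := (hC θ t hPar).2.2.2.2.1 (R - 1) c hc0 hc1
    have h6 := (abs_le.1 h3).2
    linarith

/-- **P3.** A priori bound of the second moment of the chain. -/
theorem apriori_chain (hT : G.IsTree) (hdeg : ∀ v, G.degree v = d) (hd : 3 ≤ d) (T : ℝ) (hT0 : 0 < T) :
    ∃ C : ℝ, 0 < C ∧ ∀ t₀ : ℝ, 0 < t₀ → ∀ θ : ℝ, GoodT d θ → 1 - θ ^ 2 * ((d : ℝ) - 1) ≤ sL t₀ →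
      ∀ {γ : ℕ → ℕ → unitInterval → ℝ},
      (∀ j, IsNoise (uniformField V) (fun (k : ℕ) (v : V) (u : V → unitInterval) => γ j k (u v))) →
      ∀ δ : ℝ, 0 < δ → ∃ ℓ₀ j₀ : ℕ, ∀ ℓ j, ℓ₀ ≤ ℓ → j₀ ≤ j → ∀ k : ℕ,
        t₀ ≤ (k : ℝ) * (1 / 2 : ℝ) ^ j → (k : ℝ) * (1 / 2 : ℝ) ^ j ≤ T → ∀ x y, G.Adj x y →
          ∫ u, masterChain G θ γ ℓ j k u x y ^ 2 ∂(uniformField V)
            ≤ C * sL ((k : ℝ) * (1 / 2 : ℝ) ^ j) + δ := by
  obtain ⟨C, hC1, hC, -⟩ := lawQ_main (d - 1) T (by omega) hT0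
  obtain ⟨CD, hCD0, hCD⟩ := tail_chain hT hdeg hd T hT0
  refine ⟨C, by linarith, ?_⟩
  intro t₀ ht₀ θ hθ hgap γ hn δ hδ
  have hp : TreeParams G d θ := GoodT.treeParams hT hdeg hd hθ
  have h0 := hθ.1
  have h1 := PC2.theta_lt_one hd hθ
  have hd2 : 2 ≤ d := by omega
  obtain ⟨o⟩ := hT.1.nonempty
  obtain ⟨a, hao⟩ : ∃ a, G.Adj a o := by
    obtain ⟨w, hw⟩ := (G.degree_pos_iff_exists_adj o).1 (by rw [hdeg]; omega)
    exact ⟨w, hw.symm⟩
  set A : ℝ := 4 * CD / δ with hAdef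
  have hA : 0 < A := by positivity
  set s : ℝ := Real.sqrt A with hsdef
  have hs : 0 < s := Real.sqrt_pos.2 hA
  have hs2 : s ^ 2 = A := Real.sq_sqrt hA.le
  obtain ⟨ℓ₁, j₁, htail⟩ := hCD θ hθ hn (δ / 4) (by positivity)
  have hE : ∀ e ∈ ({(a, o)} : Finset (V × V)), G.Adj e.1 e.2 := by
    intro e he
    rw [Finset.mem_singleton] at he
    rw [he]
    exact hao
  have hδ' : 0 < δ / (4 * A) := by positivity
  obtain ⟨R₀, hR₀⟩ := transfer hp hn o T {(a, o)} hE (2 / s) (δ / (4 * A)) (by positivity) hδ'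
  set R : ℕ := max R₀ 1 with hRdef
  have hRge : 1 ≤ R := le_max_right _ _
  obtain ⟨ℓ₂, j₂, htr⟩ := hR₀ R (le_max_left _ _)
  refine ⟨max ℓ₁ ℓ₂, max j₁ j₂, fun ℓ j hℓ hj k ht₀k htk x y hxy => ?_⟩
  set t : ℝ := (k : ℝ) * (1 / 2 : ℝ) ^ j with ht
  have ht0 : 0 < t := lt_of_lt_of_le ht₀ ht₀k
  have hPar : ExPar (d - 1) θ t T := PC2.exPar_of_good hd hθ hgap ht₀ ht₀k htk
  have heq := masterChain_eqField hp hn ℓ j k
  have := limit_uniformField_prob V
  have htr' := htr ℓ j (le_trans (le_max_right _ _) hℓ) (le_trans (le_max_right _ _) hj) k htk _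
    (PC2.lipCyl_min_sq a o hs)
  have htl := htail ℓ j (le_trans (le_max_left _ _) hℓ) (le_trans (le_max_left _ _) hj) k htk a o hao
    A hA
  have h4 := PC2.exact_min_sq_le (t := t) hd2 hT hdeg h0 h1 ht0 hao R hRge hs hPar
  have h5 := (hC θ t hPar).2.2.2.2.2 (R - 1)
  have h6 := (abs_le.1 htr').2
  rw [PC2.edge_sq hT hdeg hd2 heq hxy hao]
  -- the decomposition of the square
  have hm1 : Integrable (fun u => masterChain G θ γ ℓ j k u a o ^ 2) (uniformField V) :=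
    (heq.memLp a o).integrable_sq
  have hi2 : Integrable (fun u => max (masterChain G θ γ ℓ j k u a o ^ 2 - A) 0) (uniformField V) :=
    (hm1.sub (integrable_const A)).pos_part
  have hi3 : Integrable (fun u => min (masterChain G θ γ ℓ j k u a o ^ 2) (s ^ 2) / s ^ 2)
      (uniformField V) :=
    (PC2.lipCyl_min_sq a o hs).integrable_comp (by positivity)
      (fun x y => heq.meas x y)
  have hdec : ∀ u, masterChain G θ γ ℓ j k u a o ^ 2
      = A * (min (masterChain G θ γ ℓ j k u a o ^ 2) (s ^ 2) / s ^ 2)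
        + max (masterChain G θ γ ℓ j k u a o ^ 2 - A) 0 := by
    intro u
    rw [hs2, mul_div_cancel₀ _ hA.ne']
    set v := masterChain G θ γ ℓ j k u a o ^ 2
    rcases le_total v A with hv | hv
    · rw [min_eq_left hv, max_eq_right (by linarith)]
      ring
    · rw [min_eq_right hv, max_eq_left (by linarith)]
      ring
  have hint : ∫ u, masterChain G θ γ ℓ j k u a o ^ 2 ∂(uniformField V)
      = A * ∫ u, min (masterChain G θ γ ℓ j k u a o ^ 2) (s ^ 2) / s ^ 2 ∂(uniformField V)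
        + ∫ u, max (masterChain G θ γ ℓ j k u a o ^ 2 - A) 0 ∂(uniformField V) := by
    rw [← integral_const_mul, ← integral_add (hi3.const_mul A) hi2]
    exact integral_congr_ae (Filter.Eventually.of_forall hdec)
  rw [hint]
  set I₁ := ∫ u, min (masterChain G θ γ ℓ j k u a o ^ 2) (s ^ 2) / s ^ 2 ∂(uniformField V)
  set I₂ := ∫ u, max (masterChain G θ γ ℓ j k u a o ^ 2 - A) 0 ∂(uniformField V)
  have h7 : A * I₁ ≤ C * sL t + δ / 4 := by
    have h8 : I₁ ≤ C * sL t / A + δ / (4 * A) := by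
      have h9 : (∫ x, x ^ 2 ∂(nuL t θ (d - 1) (R - 1))) / s ^ 2 ≤ C * sL t / A := by
        rw [hs2]
        exact div_le_div_of_nonneg_right h5 hA.le
      linarith
    calc A * I₁ ≤ A * (C * sL t / A + δ / (4 * A)) := mul_le_mul_of_nonneg_left h8 hA.le
      _ = C * sL t + δ / 4 := by
        field_simp
  have h10 : CD / A = δ / 4 := by
    rw [hAdef]
    field_simp
  linarith

end

end Vale.Agent.Lib.P161
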