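import Vale.Agent.Lib.P161.End.PackChain
import Vale.Agent.Lib.P161.End.StatV

/-!
P161 endpoint, module Select, part S1: the equi-Hölder bound in time of the master chain.
See notes/P161_endpoint_blueprint.md, section 5.
-/

open MeasureTheory ProbabilityTheory Finset Filter

set_option linter.unusedSectionVars false

namespace Vale.Agent.Lib.P161

noncomputable section

section General

variable {Ω V : Type*} [DecidableEq V] [MeasurableSpace Ω] {P : Measure Ω} [IsProbabilityMeasure P]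
  {g : ℕ → V → Ω → ℝ} {G : SimpleGraph V} [G.LocallyFinite] {N : V → Finset V} {θ ε : ℝ} {d : ℕ}

/-- The martingale part of the increment of the chain between steps `k` and `n`. -/
def smPart (θ : ℝ) (N : V → Finset V) (ℓ : ℕ) (ε : ℝ) (g : ℕ → V → Ω → ℝ) (a b : V) (k n : ℕ)
    (ω : Ω) : ℝ :=
  ∑ l ∈ Finset.Ico k n, Real.sqrt ε *
    Lin N (wgt θ (cavChain θ N ℓ ε (fun i w => g i w ω) l)) (fun w => g l w ω) ℓ a b

/-- The drift part of the increment of the chain between steps `k` and `n`. -/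
def drPart (θ : ℝ) (N : V → Finset V) (ℓ : ℕ) (ε : ℝ) (g : ℕ → V → Ω → ℝ) (a b : V) (k n : ℕ)
    (ω : Ω) : ℝ :=
  ∑ l ∈ Finset.Ico k n, ε *
    (Real.tanh (cavChain θ N ℓ ε (fun i w => g i w ω) l a b
        + hm θ (cavChain θ N ℓ ε (fun i w => g i w ω) l b a))
      * Nsq N (wgt θ (cavChain θ N ℓ ε (fun i w => g i w ω) l)) ℓ a b)

theorem cav_telescope (ℓ : ℕ) (a b : V) {k n : ℕ} (h : k ≤ n) (ω : Ω) :
    cavChain θ N ℓ ε (fun i w => g i w ω) n a b - cavChain θ N ℓ ε (fun i w => g i w ω) k a b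
      = drPart θ N ℓ ε g a b k n ω + smPart θ N ℓ ε g a b k n ω := by
  induction n, h using Nat.le_induction with
  | base => simp [drPart, smPart]
  | succ n hn ih =>
    simp only [drPart, smPart] at ih ⊢
    rw [Finset.sum_Ico_succ_top hn, Finset.sum_Ico_succ_top hn]
    simp only [cavChain, cavStep]
    linarith

variable (hg : IsNoise P g) (h0 : 0 ≤ θ) (h1 : θ < 1)

include h0 h1 in
theorem measurable_wgt_past (ℓ l : ℕ) {n : ℕ} (hl : l ≤ n) (c a : V) :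
    Measurable[pastS g n] (fun ω => wgt θ (cavChain θ N ℓ ε (fun i w => g i w ω) l) c a) :=
  (continuous_hd1 h0 h1).measurable.comp
    ((measurable_cavChain h0 h1 ℓ l c a).mono (pastS_mono hl) le_rfl)

include h0 h1 in
theorem abs_wgt_le_one (ω : Ω) (ℓ l : ℕ) (c a : V) :
    |wgt θ (cavChain θ N ℓ ε (fun i w => g i w ω) l) c a| ≤ 1 := by
  simp only [wgt]
  rw [abs_of_nonneg (hd1_nonneg h0 h1 _)]
  exact (hd1_le h0 h1 _).trans h1.le

include h0 h1 in
theorem measurable_smPart (ℓ : ℕ) (a b : V) (k n : ℕ) :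
    Measurable[pastS g n] (smPart θ N ℓ ε g a b k n) := by
  unfold smPart
  refine Finset.measurable_fun_sum _ fun l hl => ?_
  have hl' : l < n := (Finset.mem_Ico.1 hl).2
  exact (measurable_Lin (fun c a => measurable_wgt_past h0 h1 ℓ l hl'.le c a)
    (fun w => measurable_noise_past hl' w) ℓ a b).const_mul _

include hg h0 h1 in
theorem memLp_smPart (ℓ : ℕ) (a b : V) (k n : ℕ) :
    MemLp (smPart θ N ℓ ε g a b k n) 2 P := by
  have : smPart θ N ℓ ε g a b k n = fun ω => ∑ l ∈ Finset.Ico k n, Real.sqrt ε *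
      Lin N (wgt θ (cavChain θ N ℓ ε (fun i w => g i w ω) l)) (fun w => g l w ω) ℓ a b := rfl
  rw [this]
  refine memLp_finsetSum _ fun l _ => ?_
  refine (memLp_Lin hg (fun c a => ?_) (fun ω c a => abs_wgt_le_one h0 h1 ω ℓ l c a) ℓ a b).const_mul _
  exact (measurable_wgt_past h0 h1 ℓ l le_rfl c a).mono (pastS_le hg l) le_rfl

/-- `V_l`, the squared norm of the coefficient vector at step `l`. -/
def vPart (θ : ℝ) (N : V → Finset V) (ℓ : ℕ) (ε : ℝ) (g : ℕ → V → Ω → ℝ) (a b : V) (l : ℕ)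
    (ω : Ω) : ℝ :=
  Nsq N (wgt θ (cavChain θ N ℓ ε (fun i w => g i w ω) l)) ℓ a b

include h0 h1 hg in
theorem measurable_vPart (ℓ : ℕ) (a b : V) (l : ℕ) : Measurable (vPart θ N ℓ ε g a b l) :=
  (measurable_Nsq (fun c a => measurable_wgt_past h0 h1 ℓ l le_rfl c a) ℓ a b).mono
    (pastS_le hg l) le_rfl

include h0 h1 hg in
theorem integrable_vPart (ℓ : ℕ) (a b : V) (l : ℕ) : Integrable (vPart θ N ℓ ε g a b l) P := by
  obtain ⟨C, hC⟩ := exists_Nsq_bound (N := N) ℓ a b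
  refine Integrable.of_bound (measurable_vPart hg h0 h1 ℓ a b l).aestronglyMeasurable C
    (Eventually.of_forall fun ω => ?_)
  rw [Real.norm_eq_abs]
  exact hC _ (abs_wgt_le_one h0 h1 ω ℓ l)

/-- The `L²` norm of the martingale part. -/
theorem integral_smPart_sq (hg : IsNoise P g) (h0 : 0 ≤ θ) (h1 : θ < 1) (hε : 0 ≤ ε)
    (hT : G.IsTree) (hN : ∀ a c, c ∈ N a → G.Adj a c) (hdeg : ∀ v, G.degree v = d) (hd : 1 ≤ d)
    (hρ : θ ^ 2 * ((d : ℝ) - 1) < 1) (ℓ : ℕ) {a b : V} (hab : G.Adj a b) {k n : ℕ} (h : k ≤ n) :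
    ∫ ω, smPart θ N ℓ ε g a b k n ω ^ 2 ∂P
      = ε * ∑ l ∈ Finset.Ico k n, ∫ ω, vPart θ N ℓ ε g a b l ω ∂P := by
  induction n, h using Nat.le_induction with
  | base => simp [smPart]
  | succ n hn ih =>
    rw [Finset.sum_Ico_succ_top hn, mul_add, ← ih]
    set c : V → Ω → ℝ := fun w ω =>
      coef N (wgt θ (cavChain θ N ℓ ε (fun i w => g i w ω) n)) ℓ a b w with hc
    set F := coefSupp N ℓ a b with hF
    have hKpos : 0 < 1 - θ ^ 2 * ((d : ℝ) - 1) := by linarith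
    set K := 1 / (1 - θ ^ 2 * ((d : ℝ) - 1)) with hK
    have hnsq : ∀ ω, nsq (coef N (wgt θ (cavChain θ N ℓ ε (fun i w => g i w ω) n)) ℓ a b)
        = vPart θ N ℓ ε g a b n ω := fun ω => nsq_coef hT hN ℓ a b hab
    have hV : ∀ ω, vPart θ N ℓ ε g a b n ω ≤ K := by
      intro ω
      refine Nsq_le hT hN hdeg hd hρ (fun c a => ?_) ℓ a b hab
      simp only [wgt]
      have h2 := hd1_le h0 h1 (cavChain θ N ℓ ε (fun i w => g i w ω) n c a)
      have h3 := hd1_nonneg h0 h1 (cavChain θ N ℓ ε (fun i w => g i w ω) n c a)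
      exact pow_le_pow_left₀ h3 h2 2
    have hcB : ∀ w ω, |c w ω| ≤ Real.sqrt K := by
      intro w ω
      rw [← Real.sqrt_sq_eq_abs]
      refine Real.sqrt_le_sqrt ((abs_apply_le_sqrt_nsq _ w).trans ?_)
      rw [hnsq ω]
      exact hV ω
    have hcm : ∀ w, Measurable[pastS g n] (c w) := fun w =>
      measurable_coef_apply (fun c a => measurable_wgt_past h0 h1 ℓ n le_rfl c a) ℓ a b w
    have hstep := one_step_sq (F := F) hg hcm hcB
      (measurable_smPart (N := N) (ε := ε) h0 h1 ℓ a b k n)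
      (memLp_smPart (N := N) (ε := ε) hg h0 h1 ℓ a b k n) (Real.sqrt ε)
    have e1 : ∀ ω, smPart θ N ℓ ε g a b k (n + 1) ω
        = smPart θ N ℓ ε g a b k n ω + Real.sqrt ε * ∑ w ∈ F, c w ω * g n w ω := by
      intro ω
      simp only [smPart]
      rw [Finset.sum_Ico_succ_top hn]
      congr 2
      rw [← lin_coef, lin_eq_sum _ _ (support_coef_subset ℓ a b)]
    have e2 : ∀ ω, ∑ w ∈ F, c w ω ^ 2 = vPart θ N ℓ ε g a b n ω := by
      intro ω
      rw [← hnsq ω, nsq_eq_sum _ (support_coef_subset ℓ a b)]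
    simp only [e1]
    rw [hstep]
    simp only [e2]
    rw [Real.sq_sqrt hε]

/-- The increment of the chain is controlled by the integrals of `V_l`. -/
theorem integral_abs_increment_le (hg : IsNoise P g) (h0 : 0 ≤ θ) (h1 : θ < 1) (hε : 0 ≤ ε)
    (hT : G.IsTree) (hN : ∀ a c, c ∈ N a → G.Adj a c) (hdeg : ∀ v, G.degree v = d) (hd : 1 ≤ d)
    (hρ : θ ^ 2 * ((d : ℝ) - 1) < 1) (ℓ : ℕ) {a b : V} (hab : G.Adj a b) {k n : ℕ} (h : k ≤ n) :
    ∫ ω, |cavChain θ N ℓ ε (fun i w => g i w ω) n a b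
        - cavChain θ N ℓ ε (fun i w => g i w ω) k a b| ∂P
      ≤ ε * ∑ l ∈ Finset.Ico k n, ∫ ω, vPart θ N ℓ ε g a b l ω ∂P
        + Real.sqrt (ε * ∑ l ∈ Finset.Ico k n, ∫ ω, vPart θ N ℓ ε g a b l ω ∂P) := by
  have hVnn : ∀ l ω, 0 ≤ vPart θ N ℓ ε g a b l ω := fun l ω => Nsq_nonneg hT hN ℓ a b hab
  have hSm := memLp_smPart hg h0 h1 (N := N) (ε := ε) ℓ a b k n
  have hSmI : Integrable (fun ω => |smPart θ N ℓ ε g a b k n ω|) P :=
    (hSm.integrable (by norm_num)).abs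
  have hsumI : Integrable (fun ω => ε * ∑ l ∈ Finset.Ico k n, vPart θ N ℓ ε g a b l ω) P :=
    (integrable_finset_sum _ fun l _ => integrable_vPart hg h0 h1 ℓ a b l).const_mul _
  have hpt : ∀ ω, |cavChain θ N ℓ ε (fun i w => g i w ω) n a b
        - cavChain θ N ℓ ε (fun i w => g i w ω) k a b|
      ≤ ε * ∑ l ∈ Finset.Ico k n, vPart θ N ℓ ε g a b l ω + |smPart θ N ℓ ε g a b k n ω| := by
    intro ω
    rw [cav_telescope ℓ a b h ω]
    refine (abs_add_le _ _).trans (add_le_add ?_ le_rfl)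
    simp only [drPart]
    refine (Finset.abs_sum_le_sum_abs _ _).trans ?_
    rw [Finset.mul_sum]
    refine Finset.sum_le_sum fun l _ => ?_
    rw [abs_mul, abs_of_nonneg hε, abs_mul]
    refine mul_le_mul_of_nonneg_left ?_ hε
    have : |Nsq N (wgt θ (cavChain θ N ℓ ε (fun i w => g i w ω) l)) ℓ a b|
        = vPart θ N ℓ ε g a b l ω := abs_of_nonneg (hVnn l ω)
    rw [this]
    calc _ ≤ 1 * vPart θ N ℓ ε g a b l ω :=
          mul_le_mul_of_nonneg_right (abs_tanh_le_one _) (hVnn l ω)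
      _ = _ := one_mul _
  have hmeasL : Measurable fun ω => cavChain θ N ℓ ε (fun i w => g i w ω) n a b :=
    (measurable_cavChain h0 h1 ℓ n a b).mono (pastS_le hg n) le_rfl
  have hmeasR : Measurable fun ω => cavChain θ N ℓ ε (fun i w => g i w ω) k a b :=
    (measurable_cavChain h0 h1 ℓ k a b).mono (pastS_le hg k) le_rfl
  have hLI : Integrable (fun ω => |cavChain θ N ℓ ε (fun i w => g i w ω) n a b
        - cavChain θ N ℓ ε (fun i w => g i w ω) k a b|) P :=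
    (((memLp_cavChain hg h0 h1 ℓ n a b).sub (memLp_cavChain hg h0 h1 ℓ k a b)).integrable
      (by norm_num)).abs
  calc _ ≤ ∫ ω, (ε * ∑ l ∈ Finset.Ico k n, vPart θ N ℓ ε g a b l ω
          + |smPart θ N ℓ ε g a b k n ω|) ∂P :=
        integral_mono hLI (hsumI.add hSmI) hpt
    _ = ε * ∑ l ∈ Finset.Ico k n, ∫ ω, vPart θ N ℓ ε g a b l ω ∂P
          + ∫ ω, |smPart θ N ℓ ε g a b k n ω| ∂P := by
        rw [integral_add hsumI hSmI, integral_const_mul,
          integral_finset_sum _ fun l _ => integrable_vPart hg h0 h1 ℓ a b l]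
    _ ≤ _ := by
        refine add_le_add le_rfl ?_
        refine (integral_abs_le_sqrt hSm).trans (Real.sqrt_le_sqrt ?_)
        rw [integral_smPart_sq hg h0 h1 hε hT hN hdeg hd hρ ℓ hab h]

end General

section Main

variable {V : Type*} [DecidableEq V] {G : SimpleGraph V} [G.LocallyFinite] {d : ℕ}

private theorem sL_pos_aux {t : ℝ} (ht : 0 < t) : 0 < sL t := by
  unfold sL
  have : 0 < min t 1 := lt_min ht one_pos
  positivity

private theorem sL_le_aux (t : ℝ) : sL t ≤ 1 / 16 := by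
  unfold sL
  have h : Real.sqrt (min t 1) ≤ 1 := by
    have := Real.sqrt_le_sqrt (min_le_right t 1)
    rwa [Real.sqrt_one] at this
  linarith

private theorem sL_mono_aux {t t' : ℝ} (h : t ≤ t') : sL t ≤ sL t' := by
  unfold sL
  have : min t 1 ≤ min t' 1 := min_le_min_right 1 h
  have := Real.sqrt_le_sqrt this
  linarith

/-- **S1.** Equi-Hölder bound in time, uniformly in the parameter. -/
theorem holder_chain_aux (hT : G.IsTree) (hdeg : ∀ v, G.degree v = d) (hd : 3 ≤ d) (T : ℝ)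
    (hT0 : 0 < T) (t₁ : ℝ) (ht₁ : 0 < t₁) :
    ∃ H : ℝ, 0 < H ∧ ∀ θ : ℝ, GoodT d θ → 1 - θ ^ 2 * ((d : ℝ) - 1) ≤ sL t₁ →
      ∀ {γ : ℕ → ℕ → unitInterval → ℝ},
      (∀ j, IsNoise (uniformField V) (fun (k : ℕ) (v : V) (u : V → unitInterval) => γ j k (u v))) →
      ∀ δ : ℝ, 0 < δ → ∃ ℓ₀ j₀ : ℕ, ∀ ℓ j, ℓ₀ ≤ ℓ → j₀ ≤ j → ∀ k k' : ℕ, k ≤ k' →
        t₁ ≤ (k : ℝ) * (1 / 2 : ℝ) ^ j → (k' : ℝ) * (1 / 2 : ℝ) ^ j ≤ T → ∀ a b, G.Adj a b →
          ∫ u, |masterChain G θ γ ℓ j k' u a b - masterChain G θ γ ℓ j k u a b| ∂(uniformField V)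
            ≤ H * (((k' : ℝ) - k) * (1 / 2 : ℝ) ^ j + Real.sqrt (((k' : ℝ) - k) * (1 / 2 : ℝ) ^ j))
              + δ := by
  haveI hprob : IsProbabilityMeasure (uniformField V) := limit_uniformField_prob V
  obtain ⟨α, Cp, Cu, CD, hα, hα1, hCp, hCu, hCD, hpack⟩ := pack_chain (V := V) (G := G) hT hdeg hd T hT0
  have hCq : 0 < Cp + 1 := by linarith
  obtain ⟨K, hK, hstat⟩ := static_V (V := V) (G := G) hT hdeg hd hα hα1 hCD hCu hCq
  have hs₁ : 0 < sL t₁ := sL_pos_aux ht₁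
  set s₁ := sL t₁ with hs₁def
  set vh : ℝ := K * (1 + 1 / s₁ ^ (3 / 2 : ℝ)) + K * 2 * Real.exp (-1) + 1 with hvh
  have hvh0 : 0 < vh := by
    have h1 : 0 < 1 / s₁ ^ (3 / 2 : ℝ) := by positivity
    have h2 : 0 < Real.exp (-1) := Real.exp_pos _
    positivity
  refine ⟨vh + Real.sqrt vh, by positivity, ?_⟩
  intro θ hθ hρ γ hn δ hδ
  obtain ⟨m₀, δ₁, hδ₁, hst⟩ := hstat 1 le_rfl s₁ hs₁ θ hθ 1 zero_le_one 1 one_pos
  obtain ⟨ℓ₀, j₀, hpc⟩ := hpack t₁ ht₁ θ hθ hρ hn ⌈Cp / s₁⌉₊ m₀ δ₁ hδ₁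
  refine ⟨ℓ₀, j₀, ?_⟩
  intro ℓ j hℓ hj k k' hkk' htk htk' a b hab
  have hε : (0 : ℝ) < (1 / 2 : ℝ) ^ j := by positivity
  set ε : ℝ := (1 / 2 : ℝ) ^ j with hεdef
  have hp := GoodT.treeParams hT hdeg hd hθ
  have hρ1 : θ ^ 2 * ((d : ℝ) - 1) < 1 := hθ.2.2
  have hNb : ∀ a c, c ∈ nbV G a → G.Adj a c := fun a c hc => by simpa [nbV] using hc
  -- the bound of `V_l`
  have hVl : ∀ l ∈ Finset.Ico k k', ∫ u, vPart θ (nbV G) ℓ ε
      (fun (i : ℕ) (v : V) (u : V → unitInterval) => γ j i (u v)) a b l u ∂(uniformField V) ≤ vh := by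
    intro l hl
    obtain ⟨hkl, hlk'⟩ := Finset.mem_Ico.1 hl
    have hkl' : (k : ℝ) ≤ l := by exact_mod_cast hkl
    have hlk'' : (l : ℝ) ≤ k' := by exact_mod_cast hlk'.le
    have ht1 : t₁ ≤ (l : ℝ) * ε := htk.trans (mul_le_mul_of_nonneg_right hkl' hε.le)
    have ht2 : (l : ℝ) * ε ≤ T := (mul_le_mul_of_nonneg_right hlk'' hε.le).trans htk'
    have hs : s₁ ≤ sL ((l : ℝ) * ε) := sL_mono_aux ht1
    have hs0 : 0 < sL ((l : ℝ) * ε) := lt_of_lt_of_le hs₁ hs
    have hs16 : sL ((l : ℝ) * ε) ≤ 1 / 16 := sL_le_aux _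
    set s := sL ((l : ℝ) * ε) with hsdef
    set p : ℕ := ⌈Cp / s⌉₊ with hpdef
    have hp1 : Cp / s ≤ p := Nat.le_ceil _
    have hppos : 0 < Cp / s := by positivity
    have hp2 : p ≤ ⌈Cp / s₁⌉₊ := by
      refine Nat.ceil_le_ceil ?_
      exact div_le_div_of_nonneg_left hCp.le hs₁ hs
    have hp3 : 1 ≤ p := Nat.one_le_ceil_iff.2 hppos
    have hp4 : (p : ℝ) ≤ (Cp + 1) / s := by
      have h1 : (p : ℝ) < Cp / s + 1 := Nat.ceil_lt_add_one hppos.le
      have h2 : (1 : ℝ) ≤ 1 / s := by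
        rw [le_div_iff₀ hs0]; linarith
      have h3 : (Cp + 1) / s = Cp / s + 1 / s := by ring
      rw [h3]; linarith
    have hpack' := hpc ℓ j hℓ hj l p ht1 ht2 hp1 hp2
    have hY : ∀ A : ℝ, 0 < A →
        ∫ _u, max ((1 : ℝ) - A) 0 ∂(uniformField V) ≤ 1 / A + 4 * δ₁ := by
      intro A hA
      rw [integral_const]
      simp only [probReal_univ, one_smul]
      have h1 : 0 < 1 / A := by positivity
      refine max_le ?_ (by positivity)
      have h2 : 1 - A ≤ 1 / A := by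
        rw [le_div_iff₀ hA]; nlinarith [sq_nonneg (A - 1)]
      linarith
    have hmain := hst s p hs hs16 hp3 hp4 (masterChain G θ γ ℓ j l) hpack'
      (fun _ => (1 : ℝ)) (fun _ => zero_le_one) (integrable_const _) hY a b hab ℓ
    simp only [one_mul, integral_const, probReal_univ, one_smul, mul_one, Nat.cast_one] at hmain
    have hmono : 1 / s ^ (3 / 2 : ℝ) ≤ 1 / s₁ ^ (3 / 2 : ℝ) := by
      refine div_le_div_of_nonneg_left zero_le_one (by positivity) ?_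
      exact Real.rpow_le_rpow hs₁.le hs (by norm_num)
    have hfin : K * (1 + 1 / s ^ (3 / 2 : ℝ)) + K * (1 + 1) * Real.exp (-1) + 1 ≤ vh := by
      rw [hvh]
      have : K * (1 + 1 / s ^ (3 / 2 : ℝ)) ≤ K * (1 + 1 / s₁ ^ (3 / 2 : ℝ)) :=
        mul_le_mul_of_nonneg_left (by linarith) hK.le
      have e : K * (1 + 1) * Real.exp (-1) = K * 2 * Real.exp (-1) := by ring
      linarith
    exact hmain.trans hfin
  -- the general increment bound
  have hinc := integral_abs_increment_le (P := uniformField V) (hn j) hp.nonneg hp.lt_one hε.le hT hNb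
    hdeg (by omega) hρ1 ℓ hab hkk'
  set S := ∑ l ∈ Finset.Ico k k', ∫ u, vPart θ (nbV G) ℓ ε
      (fun (i : ℕ) (v : V) (u : V → unitInterval) => γ j i (u v)) a b l u ∂(uniformField V) with hS
  have hSle : S ≤ ((k' : ℝ) - k) * vh := by
    have h1 := Finset.sum_le_card_nsmul (Finset.Ico k k') _ vh hVl
    rw [Nat.card_Ico, nsmul_eq_mul, Nat.cast_sub hkk'] at h1
    exact h1
  have hΔ0 : 0 ≤ ((k' : ℝ) - k) * ε := by
    have : (k : ℝ) ≤ k' := by exact_mod_cast hkk'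
    exact mul_nonneg (by linarith) hε.le
  set Δ := ((k' : ℝ) - k) * ε with hΔ
  have h1 : ε * S ≤ vh * Δ := by
    have := mul_le_mul_of_nonneg_left hSle hε.le
    rw [hΔ]; linarith
  have h2 : Real.sqrt (ε * S) ≤ Real.sqrt vh * Real.sqrt Δ := by
    rw [← Real.sqrt_mul hvh0.le]
    exact Real.sqrt_le_sqrt h1
  have h3 : 0 ≤ Real.sqrt Δ := Real.sqrt_nonneg _
  have h4 : 0 ≤ Real.sqrt vh := Real.sqrt_nonneg _
  have hgoal : vh * Δ + Real.sqrt vh * Real.sqrt Δ ≤ (vh + Real.sqrt vh) * (Δ + Real.sqrt Δ) := by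
    nlinarith [mul_nonneg hvh0.le h3, mul_nonneg h4 hΔ0]
  exact (hinc.trans (add_le_add h1 h2)).trans (hgoal.trans (by linarith))

end Main

end

end Vale.Agent.Lib.P161
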