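import Vale.Agent.Lib.P161.End.Aut
import Mathlib

/-!
P161 endpoint, module Tempered: correlation decay for finite-range invariant fields on the
directed edges of a regular tree (Backhausz-Szegedy-Virag type, by a self-improving
Cauchy-Schwarz argument). See notes/P161_endpoint_blueprint.md section 1.
-/

open MeasureTheory Finset

namespace Vale.Agent.Lib.P161

namespace Tempered

open scoped RealInnerProductSpace

set_option linter.unusedSectionVars false

/-! ### Real analysis -/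

lemma sum_odd (n : ℕ) : ∑ s ∈ range n, (2 * (s : ℝ) + 1) = (n : ℝ) ^ 2 := by
  induction n with
  | zero => simp
  | succ n ih =>
    rw [sum_range_succ, ih]
    push_cast
    ring

/-- The self-improving bound. -/
lemma decay {b σ2 : ℝ} (hb : 2 ≤ b) (hσ : 0 ≤ σ2) (c : ℕ → ℝ) (L0 : ℕ)
    (hfin : ∀ l, L0 ≤ l → c l = 0)
    (h : ∀ l, (b ^ (l + 1) * c l) ^ 2 ≤
      σ2 * (b ^ (l + 1) * (σ2 + (b - 1) * ∑ s ∈ range (l + 1), b ^ s * c (2 * s)))) :
    ∀ l, |c l| * (√b) ^ l ≤ σ2 * (l + 1) := by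
  have hb0 : 0 < b := by linarith
  set x := √b with hx
  have hx0 : 0 < x := Real.sqrt_pos.mpr hb0
  have hx2 : x ^ 2 = b := Real.sq_sqrt hb0.le
  rcases hσ.eq_or_lt with h0 | hσpos
  · intro l
    have h1 := h l
    rw [← h0] at h1 ⊢
    simp only [zero_mul] at h1 ⊢
    have h2 : b ^ (l + 1) * c l = 0 := by
      have : (b ^ (l + 1) * c l) ^ 2 = 0 := le_antisymm h1 (sq_nonneg _)
      exact pow_eq_zero_iff (two_ne_zero) |>.1 this
    have h3 : c l = 0 := by
      rcases mul_eq_zero.1 h2 with h4 | h4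
      · exact absurd h4 (pow_ne_zero _ hb0.ne')
      · exact h4
    rw [h3]
    simp
  set f : ℕ → ℝ := fun l => |c l| * x ^ l / ((l : ℝ) + 1) with hf
  obtain ⟨ls, hls, hmax⟩ := Finset.exists_max_image (range (L0 + 1)) f ⟨0, by simp⟩
  set M := f ls / σ2 with hM
  have hf0 : ∀ l, 0 ≤ f l := fun l => by
    simp only [hf]
    positivity
  have hM0 : 0 ≤ M := div_nonneg (hf0 _) hσ
  have hall : ∀ l, |c l| * x ^ l ≤ M * σ2 * ((l : ℝ) + 1) := by
    intro l
    have hMs : M * σ2 = f ls := by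
      rw [hM]
      field_simp
    rw [hMs]
    by_cases hl : l < L0 + 1
    · have h1 := hmax l (by simpa using hl)
      have hpos : (0 : ℝ) < (l : ℝ) + 1 := by positivity
      have h2 : f l * ((l : ℝ) + 1) = |c l| * x ^ l := by
        simp only [hf]
        field_simp
      rw [← h2]
      exact mul_le_mul_of_nonneg_right h1 hpos.le
    · have h1 := hfin l (by omega)
      rw [h1]
      simp only [abs_zero, zero_mul]
      have := hf0 ls
      positivity
  -- the key estimate at the maximum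
  have hM1 : M ≤ 1 := by
    set n : ℝ := (ls : ℝ) + 1 with hn
    have hn1 : 1 ≤ n := by
      rw [hn]
      have : (0 : ℝ) ≤ ls := Nat.cast_nonneg _
      linarith
    have hA : |c ls| * x ^ ls = M * σ2 * n := by
      have hMs : M * σ2 = f ls := by
        rw [hM]
        field_simp
      rw [hMs, hn]
      simp only [hf]
      have hpos : (ls : ℝ) + 1 ≠ 0 := by positivity
      field_simp
    have hsum : ∑ s ∈ range (ls + 1), b ^ s * c (2 * s) ≤ M * σ2 * n ^ 2 := by
      calc ∑ s ∈ range (ls + 1), b ^ s * c (2 * s)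
          ≤ ∑ s ∈ range (ls + 1), M * σ2 * (2 * (s : ℝ) + 1) := by
            refine Finset.sum_le_sum fun s _ => ?_
            have h1 := hall (2 * s)
            have h2 : x ^ (2 * s) = b ^ s := by rw [pow_mul, hx2]
            rw [h2] at h1
            have h3 : b ^ s * c (2 * s) ≤ |c (2 * s)| * b ^ s := by
              rw [mul_comm]
              exact mul_le_mul_of_nonneg_right (le_abs_self _) (by positivity)
            refine h3.trans (h1.trans (le_of_eq ?_))
            push_cast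
            ring
        _ = M * σ2 * n ^ 2 := by
            rw [← Finset.mul_sum, sum_odd]
            rw [hn]
            push_cast
            ring
    have h1 := h ls
    have hbp : 0 < b ^ (ls + 1) := by positivity
    have h2 : (b ^ (ls + 1) * c ls) ^ 2 = b ^ (ls + 1) * (b * (|c ls| * x ^ ls) ^ 2) := by
      have e1 : (|c ls| * x ^ ls) ^ 2 = c ls ^ 2 * b ^ ls := by
        rw [mul_pow, sq_abs, ← pow_mul, mul_comm ls 2, pow_mul, hx2]
      rw [e1]
      ring
    rw [h2, hA] at h1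
    have h3 : σ2 * (b ^ (ls + 1) * (σ2 + (b - 1) * ∑ s ∈ range (ls + 1), b ^ s * c (2 * s))) ≤
        σ2 * (b ^ (ls + 1) * (σ2 + (b - 1) * (M * σ2 * n ^ 2))) := by
      apply mul_le_mul_of_nonneg_left _ hσ
      apply mul_le_mul_of_nonneg_left _ hbp.le
      have : 0 ≤ b - 1 := by linarith
      have := mul_le_mul_of_nonneg_left hsum this
      linarith
    have h4 := h1.trans h3
    have h5 : b * (M * σ2 * n) ^ 2 ≤ σ2 * (σ2 + (b - 1) * (M * σ2 * n ^ 2)) := by
      have e : σ2 * (b ^ (ls + 1) * (σ2 + (b - 1) * (M * σ2 * n ^ 2))) =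
          b ^ (ls + 1) * (σ2 * (σ2 + (b - 1) * (M * σ2 * n ^ 2))) := by ring
      rw [e] at h4
      exact le_of_mul_le_mul_left h4 hbp
    have h6 : b * M ^ 2 * n ^ 2 ≤ 1 + (b - 1) * M * n ^ 2 := by
      have e1 : b * (M * σ2 * n) ^ 2 = σ2 ^ 2 * (b * M ^ 2 * n ^ 2) := by ring
      have e2 : σ2 * (σ2 + (b - 1) * (M * σ2 * n ^ 2)) = σ2 ^ 2 * (1 + (b - 1) * M * n ^ 2) := by
        ring
      rw [e1, e2] at h5
      exact le_of_mul_le_mul_left h5 (by positivity)
    have hn2 : 1 ≤ n ^ 2 := by nlinarith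
    have h7 : b * M ^ 2 ≤ 1 + (b - 1) * M := by
      have : n ^ 2 * (b * M ^ 2) ≤ n ^ 2 * (1 + (b - 1) * M) := by nlinarith
      exact le_of_mul_le_mul_left this (by positivity)
    by_contra hcon
    have hc := not_le.mp hcon
    nlinarith [mul_pos (by positivity : 0 < b * M + 1) (sub_pos.mpr hc)]
  intro l
  refine (hall l).trans ?_
  have : 0 ≤ σ2 * ((l : ℝ) + 1) := by positivity
  calc M * σ2 * ((l : ℝ) + 1) = M * (σ2 * ((l : ℝ) + 1)) := by ring
    _ ≤ 1 * (σ2 * ((l : ℝ) + 1)) := mul_le_mul_of_nonneg_right hM1 this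
    _ = _ := one_mul _

/-- The bound of the chain correlations from the bound of the head correlations. -/
lemma chain_bound {b σ2 Lk : ℝ} (hb : 2 ≤ b) (hσ : 0 ≤ σ2) (c : ℕ → ℝ)
    (hc : ∀ l, |c l| * (√b) ^ l ≤ σ2 * (l + 1)) {k : ℕ} (hk : 1 ≤ k)
    (h : (b ^ k * Lk) ^ 2 ≤ σ2 * (b ^ k * (σ2 + (b - 1) * ∑ s ∈ range k, b ^ s * c (2 * s)))) :
    |Lk| ≤ σ2 * (√b * k * (1 / √b) ^ k) := by
  have hb0 : 0 < b := by linarith
  set x := √b with hx
  have hx0 : 0 < x := Real.sqrt_pos.mpr hb0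
  have hx2 : x ^ 2 = b := Real.sq_sqrt hb0.le
  have hk1 : (1 : ℝ) ≤ k := by exact_mod_cast hk
  have hsum : ∑ s ∈ range k, b ^ s * c (2 * s) ≤ σ2 * (k : ℝ) ^ 2 := by
    calc ∑ s ∈ range k, b ^ s * c (2 * s)
        ≤ ∑ s ∈ range k, σ2 * (2 * (s : ℝ) + 1) := by
          refine Finset.sum_le_sum fun s _ => ?_
          have h1 := hc (2 * s)
          have h2 : x ^ (2 * s) = b ^ s := by rw [pow_mul, hx2]
          rw [h2] at h1
          have h3 : b ^ s * c (2 * s) ≤ |c (2 * s)| * b ^ s := by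
            rw [mul_comm]
            exact mul_le_mul_of_nonneg_right (le_abs_self _) (by positivity)
          refine h3.trans (h1.trans (le_of_eq ?_))
          push_cast
          ring
      _ = σ2 * (k : ℝ) ^ 2 := by rw [← Finset.mul_sum, sum_odd]
  have hbp : 0 < b ^ k := by positivity
  have h1 : σ2 * (b ^ k * (σ2 + (b - 1) * ∑ s ∈ range k, b ^ s * c (2 * s))) ≤
      b ^ k * (σ2 ^ 2 * (b * (k : ℝ) ^ 2)) := by
    have hb1 : 0 ≤ b - 1 := by linarith
    have h2 : σ2 + (b - 1) * ∑ s ∈ range k, b ^ s * c (2 * s) ≤ σ2 * (b * (k : ℝ) ^ 2) := by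
      have h3 := mul_le_mul_of_nonneg_left hsum hb1
      have hk2 : 1 ≤ (k : ℝ) ^ 2 := by nlinarith
      have h4 : σ2 * 1 ≤ σ2 * (k : ℝ) ^ 2 := mul_le_mul_of_nonneg_left hk2 hσ
      nlinarith
    have h5 := mul_le_mul_of_nonneg_left h2 hbp.le
    have h6 := mul_le_mul_of_nonneg_left h5 hσ
    refine h6.trans (le_of_eq ?_)
    ring
  have h2 : (b ^ k * Lk) ^ 2 = b ^ k * ((|Lk| * x ^ k) ^ 2) := by
    have e1 : (|Lk| * x ^ k) ^ 2 = Lk ^ 2 * b ^ k := by
      rw [mul_pow, sq_abs, ← pow_mul, mul_comm k 2, pow_mul, hx2]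
    rw [e1]
    ring
  rw [h2] at h
  have h3 := h.trans h1
  have h4 : (|Lk| * x ^ k) ^ 2 ≤ (σ2 * (x * k)) ^ 2 := by
    have e : (σ2 * (x * k)) ^ 2 = σ2 ^ 2 * (b * (k : ℝ) ^ 2) := by
      rw [← hx2]
      ring
    rw [e]
    exact le_of_mul_le_mul_left h3 hbp
  have h5 : |Lk| * x ^ k ≤ σ2 * (x * k) :=
    (pow_le_pow_iff_left₀ (by positivity) (by positivity) two_ne_zero).1 h4
  have hxk : 0 < x ^ k := by positivity
  have e : σ2 * (x * k * (1 / x) ^ k) = σ2 * (x * k) / x ^ k := by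
    rw [one_div, inv_pow]
    field_simp
  rw [e, le_div_iff₀ hxk]
  exact h5

/-- The sum of the chain bounds. -/
lemma sum_chain_le {b : ℝ} (hb : 2 ≤ b) (n : ℕ) :
    ∑ k ∈ range n, √b * (k : ℝ) * (1 / √b) ^ k ≤ 12 := by
  have hb0 : 0 < b := by linarith
  set x := √b with hx
  have hx0 : 0 < x := Real.sqrt_pos.mpr hb0
  have hx2 : x ^ 2 = b := Real.sq_sqrt hb0.le
  set y := 1 / x with hy
  have hy0 : 0 < y := by positivity
  have hxy : x * y = 1 := by
    rw [hy]
    field_simp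
  have hy2 : y ≤ 7072 / 10000 := by
    have h1 : y ^ 2 ≤ (7072 / 10000) ^ 2 := by
      have : y ^ 2 = 1 / b := by
        rw [hy, ← hx2]
        field_simp
      rw [this, div_le_iff₀ hb0]
      norm_num
      nlinarith
    exact (pow_le_pow_iff_left₀ hy0.le (by norm_num) two_ne_zero).1 h1
  have hnorm : ‖y‖ < 1 := by
    rw [Real.norm_of_nonneg hy0.le]
    linarith
  have hS := hasSum_coe_mul_geometric_of_norm_lt_one hnorm
  have h1 : ∑ k ∈ range n, (k : ℝ) * y ^ k ≤ y / (1 - y) ^ 2 :=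
    sum_le_hasSum _ (fun k _ => by positivity) hS
  have e : ∑ k ∈ range n, x * (k : ℝ) * y ^ k = x * ∑ k ∈ range n, (k : ℝ) * y ^ k := by
    rw [Finset.mul_sum]
    exact Finset.sum_congr rfl fun k _ => by ring
  rw [e]
  have hd : 0 < (1 - y) ^ 2 := by
    have : 0 < 1 - y := by linarith
    positivity
  calc x * ∑ k ∈ range n, (k : ℝ) * y ^ k ≤ x * (y / (1 - y) ^ 2) :=
        mul_le_mul_of_nonneg_left h1 hx0.le
    _ = 1 / (1 - y) ^ 2 := by
        rw [← hxy]
        ring
    _ ≤ 12 := by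
        rw [div_le_iff₀ hd]
        have h2 : (2928 / 10000 : ℝ) ≤ 1 - y := by linarith
        have h3 : (2928 / 10000 : ℝ) ^ 2 ≤ (1 - y) ^ 2 := by
          gcongr
        nlinarith

/-! ### Walks -/

variable {V : Type*} {G : SimpleGraph V}

/-- `p 0, …, p n` is a non-backtracking walk. -/
structure NBW (G : SimpleGraph V) (p : ℕ → V) (n : ℕ) : Prop where
  adj : ∀ i, i < n → G.Adj (p i) (p (i + 1))
  nb : ∀ i, i + 2 ≤ n → p (i + 2) ≠ p i

/-- The list of a walk. -/
def wl (p : ℕ → V) : ℕ → List V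
  | 0 => [p 0]
  | n + 1 => p 0 :: wl (fun i => p (i + 1)) n

lemma wl_length (p : ℕ → V) (n : ℕ) : (wl p n).length = n + 1 := by
  induction n generalizing p with
  | zero => rfl
  | succ n ih => simp [wl, ih]

lemma wl_cons (p : ℕ → V) (n : ℕ) : ∃ l, wl p n = p 0 :: l := by
  cases n with
  | zero => exact ⟨[], rfl⟩
  | succ n => exact ⟨_, rfl⟩

lemma wl_map {W : Type*} (g : V → W) (p : ℕ → V) (n : ℕ) :
    (wl p n).map g = wl (fun i => g (p i)) n := by
  induction n generalizing p with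
  | zero => rfl
  | succ n ih => simp [wl, ih]

lemma wl_eq {q q' : ℕ → V} {n : ℕ} (h : wl q n = wl q' n) : ∀ i, i ≤ n → q i = q' i := by
  induction n generalizing q q' with
  | zero =>
    intro i hi
    have : i = 0 := by omega
    subst this
    simpa [wl] using h
  | succ n ih =>
    intro i hi
    simp only [wl, List.cons.injEq] at h
    cases i with
    | zero => exact h.1
    | succ i => exact ih h.2 i (by omega)

lemma NBW.shift {p : ℕ → V} {n : ℕ} (h : NBW G p (n + 1)) : NBW G (fun i => p (i + 1)) n :=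
  ⟨fun i hi => h.adj (i + 1) (by omega), fun i hi => h.nb (i + 1) (by omega)⟩

lemma wl_nb {p : ℕ → V} {n : ℕ} (h : NBW G p n) : NBList G (wl p n) := by
  induction n generalizing p with
  | zero => exact trivial
  | succ n ih =>
    cases n with
    | zero => exact h.adj 0 (by omega)
    | succ n =>
      have h1 := ih h.shift
      obtain ⟨l, hl⟩ := wl_cons (fun i => p (i + 1 + 1)) n
      simp only [wl] at h1 ⊢
      rw [hl] at h1 ⊢
      exact ⟨h.adj 0 (by omega), (h.nb 0 (by omega)).symm, h1⟩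

variable [G.LocallyFinite] {d : ℕ}

lemma exists_aut_walk (hT : G.IsTree) (hdeg : ∀ v, G.degree v = d) (hd : 2 ≤ d) {p p' : ℕ → V}
    {n : ℕ} (h : NBW G p n) (h' : NBW G p' n) : ∃ g : G ≃g G, ∀ i, i ≤ n → g (p i) = p' i := by
  obtain ⟨g, hg⟩ := exists_aut_list hT hdeg hd (wl_nb h) (wl_nb h')
    (by rw [wl_length, wl_length])
  refine ⟨g, ?_⟩
  rw [wl_map] at hg
  exact wl_eq hg

/-- Walk of length one from an edge. -/
def edgeW (a e : V) : ℕ → V
  | 0 => a
  | _ + 1 => e

lemma edgeW_nbw {a e : V} (h : G.Adj a e) : NBW G (edgeW a e) 1 :=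
  ⟨fun i hi => by
    have : i = 0 := by omega
    subst this
    exact h, fun i hi => by omega⟩

/-- Prepend a vertex. -/
def consW (w : V) (p : ℕ → V) : ℕ → V
  | 0 => w
  | i + 1 => p i

lemma consW_nbw {w : V} {p : ℕ → V} {n : ℕ} (h : NBW G p (n + 1)) (hw : G.Adj w (p 0))
    (hne : w ≠ p 1) : NBW G (consW w p) (n + 2) := by
  refine ⟨fun i hi => ?_, fun i hi => ?_⟩
  · cases i with
    | zero => exact hw
    | succ i => exact h.adj i (by omega)
  · cases i with
    | zero => exact hne.symm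
    | succ i => exact h.nb i (by omega)

open Classical in
/-- Append a vertex. -/
noncomputable def snocW (p : ℕ → V) (n : ℕ) (w : V) : ℕ → V := fun i => if i ≤ n then p i else w

lemma snocW_le {p : ℕ → V} {n i : ℕ} {w : V} (h : i ≤ n) : snocW p n w i = p i := by
  simp [snocW, h]

lemma snocW_succ {p : ℕ → V} {n : ℕ} {w : V} : snocW p n w (n + 1) = w := by
  simp [snocW]

lemma snocW_nbw {p : ℕ → V} {n : ℕ} {w : V} (h : NBW G p (n + 1)) (hw : G.Adj (p (n + 1)) w)
    (hne : w ≠ p n) : NBW G (snocW p (n + 1) w) (n + 2) := by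
  refine ⟨fun i hi => ?_, fun i hi => ?_⟩
  · rw [snocW_le (by omega)]
    by_cases hi' : i + 1 ≤ n + 1
    · rw [snocW_le hi']
      exact h.adj i (by omega)
    · have : i = n + 1 := by omega
      subst this
      rw [snocW_succ]
      exact hw
  · rw [snocW_le (by omega : i ≤ n + 1)]
    by_cases hi' : i + 2 ≤ n + 1
    · rw [snocW_le hi']
      exact h.nb i (by omega)
    · have : i = n := by omega
      subst this
      rw [snocW_succ]
      exact hne

/-- The distance along a ray. -/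
lemma ray_dist (hT : G.IsTree) {r : ℕ → V} (hr : IsRay G r) (n : ℕ) : G.dist (r 0) (r n) = n := by
  induction n using Nat.strong_induction_on with
  | _ n ih =>
    match n with
    | 0 => simp
    | 1 =>
      simpa using SimpleGraph.dist_eq_one_iff_adj.2 (hr.adj 0)
    | n + 2 =>
      have h1 := ih (n + 1) (by omega)
      rcases hT.dist_eq_dist_add_one_of_adj (r 0) (hr.adj (n + 1)) with h | h
      · -- the closer neighbour is unique
        have h2 := ih n (by omega)
        have h3 : G.dist (r 0) (r (n + 1)) = G.dist (r 0) (r n) + 1 := by rw [h1, h2]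
        have := unique_closer hT (hr.adj (n + 1)).symm (hr.adj n) h h3
        exact absurd this (hr.nb n)
      · rw [h, h1]

/-! ### The sums -/

variable {H : Type*} [NormedAddCommGroup H] [InnerProductSpace ℝ H] [DecidableEq V]

variable (G) in
/-- The sum over the edges at depth `i` behind `(a, e)`, oriented towards `e`. -/
noncomputable def SS (Y : V → V → H) : ℕ → V → V → H
  | 0, a, e => Y a e
  | i + 1, a, e => ∑ w ∈ (G.neighborFinset a).erase e, SS Y i w a

lemma card_erase_nb (hdeg : ∀ v, G.degree v = d) {a e : V} (h : G.Adj a e) :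
    ((G.neighborFinset a).erase e).card = d - 1 := by
  rw [Finset.card_erase_of_mem (by simpa using h)]
  have := hdeg a
  rw [← SimpleGraph.card_neighborFinset_eq_degree] at this
  rw [this]

section Core

variable (hT : G.IsTree) (hdeg : ∀ v, G.degree v = d) (hd : 3 ≤ d) {Y : V → V → H}
  (hinv : ∀ (g : G ≃g G) (a b a' b' : V), ⟪Y (g a) (g b), Y (g a') (g b')⟫ = ⟪Y a b, Y a' b'⟫)
  {r : ℕ → V} (hr : IsRay G r)

include hr in
lemma ray_nbw (n : ℕ) : NBW G r n :=
  ⟨fun i _ => hr.adj i, fun i _ => hr.nb i⟩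

include hT hdeg hd hinv hr in
/-- Head-to-head correlations only depend on the length. -/
lemma K_walk {p : ℕ → V} {k : ℕ} (h : NBW G p (k + 1)) :
    ⟪Y (p 0) (p 1), Y (p (k + 1)) (p k)⟫ = ⟪Y (r 0) (r 1), Y (r (k + 1)) (r k)⟫ := by
  obtain ⟨g, hg⟩ := exists_aut_walk hT hdeg (by omega) h (ray_nbw hr (k + 1))
  rw [← hinv g, hg 0 (by omega), hg 1 (by omega), hg (k + 1) le_rfl, hg k (by omega)]

include hT hdeg hd hinv hr in
/-- Chain correlations only depend on the length. -/
lemma L_walk {p : ℕ → V} {k : ℕ} (h : NBW G p (k + 1)) :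
    ⟪Y (p 0) (p 1), Y (p k) (p (k + 1))⟫ = ⟪Y (r 0) (r 1), Y (r k) (r (k + 1))⟫ := by
  obtain ⟨g, hg⟩ := exists_aut_walk hT hdeg (by omega) h (ray_nbw hr (k + 1))
  rw [← hinv g, hg 0 (by omega), hg 1 (by omega), hg (k + 1) le_rfl, hg k (by omega)]

/-- Abbreviations of the correlations. -/
def KK (Y : V → V → H) (r : ℕ → V) (k : ℕ) : ℝ := ⟪Y (r 0) (r 1), Y (r (k + 1)) (r k)⟫
def LL (Y : V → V → H) (r : ℕ → V) (k : ℕ) : ℝ := ⟪Y (r 0) (r 1), Y (r k) (r (k + 1))⟫

include hT hdeg hd hinv hr in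
/-- One-sided sum against a head-to-head edge. -/
lemma inner_SS_K (i : ℕ) {p : ℕ → V} {k : ℕ} (h : NBW G p (k + 1)) :
    ⟪SS G Y i (p 0) (p 1), Y (p (k + 1)) (p k)⟫ = ((d - 1 : ℕ) : ℝ) ^ i * KK Y r (k + i) := by
  induction i generalizing p k with
  | zero => simpa [SS, KK] using K_walk hT hdeg hd hinv hr h
  | succ i ih =>
    simp only [SS]
    rw [sum_inner]
    have hw : ∀ w ∈ (G.neighborFinset (p 0)).erase (p 1),
        ⟪SS G Y i w (p 0), Y (p (k + 1)) (p k)⟫ = ((d - 1 : ℕ) : ℝ) ^ i * KK Y r (k + 1 + i) := by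
      intro w hw
      obtain ⟨hw1, hw2⟩ := Finset.mem_erase.1 hw
      have hadj : G.Adj (p 0) w := by simpa using hw2
      have h2 := consW_nbw h hadj.symm hw1
      have := ih (p := consW w p) (k := k + 1) h2
      simpa [consW] using this
    rw [Finset.sum_congr rfl hw, Finset.sum_const, card_erase_nb hdeg (h.adj 0 (by omega)),
      nsmul_eq_mul, pow_succ]
    rw [show k + (i + 1) = k + 1 + i by ring]
    ring

include hT hdeg hd hinv hr in
/-- Two-sided sums. -/
lemma inner_SS_SS (i i' : ℕ) {p : ℕ → V} {k : ℕ} (h : NBW G p (k + 1)) :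
    ⟪SS G Y i (p 0) (p 1), SS G Y i' (p (k + 1)) (p k)⟫ =
      ((d - 1 : ℕ) : ℝ) ^ (i + i') * KK Y r (k + i + i') := by
  induction i' generalizing p k with
  | zero => simpa [SS] using inner_SS_K hT hdeg hd hinv hr i h
  | succ i' ih =>
    simp only [SS]
    rw [inner_sum]
    have hw : ∀ w ∈ (G.neighborFinset (p (k + 1))).erase (p k),
        ⟪SS G Y i (p 0) (p 1), SS G Y i' w (p (k + 1))⟫ =
          ((d - 1 : ℕ) : ℝ) ^ (i + i') * KK Y r (k + 1 + i + i') := by
      intro w hw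
      obtain ⟨hw1, hw2⟩ := Finset.mem_erase.1 hw
      have hadj : G.Adj (p (k + 1)) w := by simpa using hw2
      have h2 := snocW_nbw h hadj hw1
      have := ih (p := snocW p (k + 1) w) (k := k + 1) h2
      rw [snocW_le (by omega), snocW_le (by omega), snocW_succ, snocW_le le_rfl] at this
      exact this
    have hadj : G.Adj (p (k + 1)) (p k) := (h.adj k (by omega)).symm
    rw [Finset.sum_congr rfl hw, Finset.sum_const, card_erase_nb hdeg hadj, nsmul_eq_mul,
      ← add_assoc, pow_succ]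
    rw [show k + i + (i' + 1) = k + 1 + i + i' by ring]
    ring

include hT hdeg hd hinv hr in
/-- One-sided sum against a chain edge. -/
lemma inner_SS_L (i : ℕ) {p : ℕ → V} {k : ℕ} (h : NBW G p (k + 1)) :
    ⟪SS G Y i (p 0) (p 1), Y (p k) (p (k + 1))⟫ = ((d - 1 : ℕ) : ℝ) ^ i * LL Y r (k + i) := by
  induction i generalizing p k with
  | zero => simpa [SS, LL] using L_walk hT hdeg hd hinv hr h
  | succ i ih =>
    simp only [SS]
    rw [sum_inner]
    have hw : ∀ w ∈ (G.neighborFinset (p 0)).erase (p 1),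
        ⟪SS G Y i w (p 0), Y (p k) (p (k + 1))⟫ = ((d - 1 : ℕ) : ℝ) ^ i * LL Y r (k + 1 + i) := by
      intro w hw
      obtain ⟨hw1, hw2⟩ := Finset.mem_erase.1 hw
      have hadj : G.Adj (p 0) w := by simpa using hw2
      have h2 := consW_nbw h hadj.symm hw1
      have := ih (p := consW w p) (k := k + 1) h2
      simpa [consW] using this
    rw [Finset.sum_congr rfl hw, Finset.sum_const, card_erase_nb hdeg (h.adj 0 (by omega)),
      nsmul_eq_mul, pow_succ]
    rw [show k + (i + 1) = k + 1 + i by ring]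
    ring

include hT hdeg hd hinv hr in
/-- The squared norm of a sum, independent of the edge. -/
lemma norm_SS (i : ℕ) {a e : V} (h : G.Adj a e) :
    ‖SS G Y i a e‖ ^ 2 = ((d - 1 : ℕ) : ℝ) ^ i * (LL Y r 0 + (((d - 1 : ℕ) : ℝ) - 1) *
      ∑ s ∈ range i, ((d - 1 : ℕ) : ℝ) ^ s * KK Y r (1 + 2 * s)) := by
  set b : ℝ := ((d - 1 : ℕ) : ℝ) with hb
  induction i generalizing a e with
  | zero =>
    have h1 := L_walk hT hdeg hd hinv hr (edgeW_nbw h) (k := 0)
    simp only [edgeW, zero_add] at h1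
    simp only [SS, pow_zero, range_zero, sum_empty, mul_zero, add_zero, one_mul, LL]
    rw [← real_inner_self_eq_norm_sq]
    simpa [LL] using h1
  | succ i ih =>
    simp only [SS]
    set F := (G.neighborFinset a).erase e with hF
    have hcard : (F.card : ℝ) = b := by
      rw [hF, card_erase_nb hdeg h]
    rw [← real_inner_self_eq_norm_sq, sum_inner]
    simp_rw [inner_sum]
    set Ei := b ^ i * (LL Y r 0 + (b - 1) * ∑ s ∈ range i, b ^ s * KK Y r (1 + 2 * s)) with hEi
    set Tt := b ^ (i + i) * KK Y r (1 + i + i) with hTt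
    have hin : ∀ w ∈ F, ∀ w' ∈ F, w' ≠ w → ⟪SS G Y i w a, SS G Y i w' a⟫ = Tt := by
      intro w hw w' hw' hne
      obtain ⟨-, hw2⟩ := Finset.mem_erase.1 hw
      obtain ⟨-, hw2'⟩ := Finset.mem_erase.1 hw'
      have hadj : G.Adj a w := by simpa using hw2
      have hadj' : G.Adj a w' := by simpa using hw2'
      have h3 : NBW G (snocW (edgeW w a) 1 w') 2 := snocW_nbw (edgeW_nbw hadj.symm) hadj' hne
      have := inner_SS_SS hT hdeg hd hinv hr i i (k := 1) h3
      rw [snocW_le (by omega), snocW_le (by omega), snocW_succ] at this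
      simpa [edgeW] using this
    have hself : ∀ w ∈ F, ⟪SS G Y i w a, SS G Y i w a⟫ = Ei := by
      intro w hw
      obtain ⟨-, hw2⟩ := Finset.mem_erase.1 hw
      have hadj : G.Adj a w := by simpa using hw2
      rw [real_inner_self_eq_norm_sq]
      exact ih hadj.symm
    have hrow : ∀ w ∈ F, ∑ w' ∈ F, ⟪SS G Y i w a, SS G Y i w' a⟫ = Ei + (b - 1) * Tt := by
      intro w hw
      rw [← Finset.add_sum_erase F _ hw, hself w hw]
      have : ∑ w' ∈ F.erase w, ⟪SS G Y i w a, SS G Y i w' a⟫ = ∑ _w' ∈ F.erase w, Tt :=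
        Finset.sum_congr rfl fun w' hw' =>
          hin w hw w' (Finset.mem_of_mem_erase hw') (Finset.ne_of_mem_erase hw')
      rw [this, Finset.sum_const, nsmul_eq_mul, Finset.card_erase_of_mem hw]
      have hpos : 1 ≤ F.card := Finset.card_pos.mpr ⟨w, hw⟩
      rw [Nat.cast_sub hpos, hcard]
      simp
    rw [Finset.sum_congr rfl hrow, Finset.sum_const, nsmul_eq_mul, hcard, hEi, hTt,
      Finset.sum_range_succ]
    have e1 : 1 + i + i = 1 + 2 * i := by ring
    rw [e1]
    ring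

include hT hdeg hd hinv hr in
/-- The Cauchy-Schwarz inequality for the head correlations. -/
lemma head_ineq (l : ℕ) :
    (((d - 1 : ℕ) : ℝ) ^ (l + 1) * KK Y r (l + 1)) ^ 2 ≤
      LL Y r 0 * (((d - 1 : ℕ) : ℝ) ^ (l + 1) * (LL Y r 0 + (((d - 1 : ℕ) : ℝ) - 1) *
        ∑ s ∈ range (l + 1), ((d - 1 : ℕ) : ℝ) ^ s * KK Y r (2 * s + 1))) := by
  have h1 := inner_SS_SS hT hdeg hd hinv hr 0 (l + 1) (p := r) (k := 0) (ray_nbw hr 1)
  simp only [SS, zero_add] at h1
  have h2 := norm_SS hT hdeg hd hinv hr (l + 1) (hr.adj 0).symm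
  have h3 := real_inner_mul_inner_self_le (Y (r 0) (r 1))
    (∑ w ∈ (G.neighborFinset (r 1)).erase (r 0), SS G Y l w (r 1))
  rw [h1] at h3
  have e0 : ⟪Y (r 0) (r 1), Y (r 0) (r 1)⟫ = LL Y r 0 := rfl
  rw [e0, real_inner_self_eq_norm_sq] at h3
  simp only [SS] at h2
  rw [h2] at h3
  have e1 : ∀ s, 2 * s + 1 = 1 + 2 * s := fun s => by ring
  simp only [e1]
  refine le_trans (le_of_eq ?_) h3
  ring

include hT hdeg hd hinv hr in
/-- The Cauchy-Schwarz inequality for the chain correlations. -/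
lemma chain_ineq (k : ℕ) :
    (((d - 1 : ℕ) : ℝ) ^ k * LL Y r k) ^ 2 ≤
      LL Y r 0 * (((d - 1 : ℕ) : ℝ) ^ k * (LL Y r 0 + (((d - 1 : ℕ) : ℝ) - 1) *
        ∑ s ∈ range k, ((d - 1 : ℕ) : ℝ) ^ s * KK Y r (2 * s + 1))) := by
  have h1 := inner_SS_L hT hdeg hd hinv hr k (p := r) (k := 0) (ray_nbw hr 1)
  simp only [zero_add] at h1
  have h2 := norm_SS hT hdeg hd hinv hr k (hr.adj 0)
  have h3 := real_inner_mul_inner_self_le (SS G Y k (r 0) (r 1)) (Y (r 0) (r 1))
  rw [h1] at h3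
  have e0 : ⟪Y (r 0) (r 1), Y (r 0) (r 1)⟫ = LL Y r 0 := rfl
  rw [e0, real_inner_self_eq_norm_sq, h2] at h3
  have e1 : ∀ s, 2 * s + 1 = 1 + 2 * s := fun s => by ring
  simp only [e1]
  refine le_trans (le_of_eq ?_) (le_trans h3 (le_of_eq ?_)) <;> ring

lemma sigma_nonneg (Y : V → V → H) (r : ℕ → V) : 0 ≤ LL Y r 0 := by
  have e0 : LL Y r 0 = ⟪Y (r 0) (r 1), Y (r 0) (r 1)⟫ := rfl
  rw [e0, real_inner_self_eq_norm_sq]
  positivity

include hT hdeg hd hinv hr in
/-- The decay of the chain correlations. -/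
lemma chain_decay (hfar : ∃ R : ℕ, ∀ a b a' b', G.Adj a b → G.Adj a' b' → R ≤ G.dist a a' →
      ⟪Y a b, Y a' b'⟫ = 0) {k : ℕ} (hk : 1 ≤ k) :
    |LL Y r k| ≤ LL Y r 0 * (√((d - 1 : ℕ) : ℝ) * k * (1 / √((d - 1 : ℕ) : ℝ)) ^ k) := by
  obtain ⟨R, hR⟩ := hfar
  have hb : (2 : ℝ) ≤ ((d - 1 : ℕ) : ℝ) := by
    have : 2 ≤ d - 1 := by omega
    exact_mod_cast this
  have hfin : ∀ l, R ≤ l → KK Y r (l + 1) = 0 := by
    intro l hl
    apply hR _ _ _ _ (hr.adj 0) (hr.adj (l + 1)).symm
    rw [ray_dist hT hr]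
    omega
  have hdec := decay hb (sigma_nonneg Y r) (fun l => KK Y r (l + 1)) R hfin
    (fun l => head_ineq hT hdeg hd hinv hr l)
  exact chain_bound hb (sigma_nonneg Y r) (fun l => KK Y r (l + 1)) hdec hk
    (chain_ineq hT hdeg hd hinv hr k)

/-- The walk running backwards along the ray. -/
lemma back_nbw {r : ℕ → V} (hr : IsRay G r) {m n : ℕ} (hn : n ≤ m + 1) :
    NBW G (fun i => r (m + 1 - i)) n := by
  refine ⟨fun i hi => ?_, fun i hi => ?_⟩
  · have e1 : m + 1 - i = (m - i) + 1 := by omega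
    have e2 : m + 1 - (i + 1) = m - i := by omega
    show G.Adj (r (m + 1 - i)) (r (m + 1 - (i + 1)))
    rw [e1, e2]
    exact (hr.adj (m - i)).symm
  · have e1 : m + 1 - i = (m - 1 - i) + 2 := by omega
    have e2 : m + 1 - (i + 2) = m - 1 - i := by omega
    show r (m + 1 - (i + 2)) ≠ r (m + 1 - i)
    rw [e1, e2]
    exact (hr.nb (m - 1 - i)).symm

include hT hdeg hd hinv hr in
lemma inner_back {m j : ℕ} (hj : j < m) :
    ⟪Y (r (m + 1)) (r m), Y (r (j + 1)) (r j)⟫ = LL Y r (m - j) := by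
  have h1 := L_walk hT hdeg hd hinv hr (k := m - j) (back_nbw hr (m := m) (n := m - j + 1)
    (by omega))
  have e1 : m + 1 - (m - j) = j + 1 := by omega
  have e2 : m + 1 - (m - j + 1) = j := by omega
  simp only [e1, e2, Nat.sub_zero, show m + 1 - 1 = m by omega] at h1
  exact h1

include hT hdeg hd hinv hr in
lemma norm_back (j : ℕ) : ‖Y (r (j + 1)) (r j)‖ ^ 2 = LL Y r 0 := by
  have h1 := L_walk hT hdeg hd hinv hr (k := 0) (edgeW_nbw (hr.adj j).symm)
  simp only [edgeW, zero_add] at h1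
  rw [← real_inner_self_eq_norm_sq]
  exact h1

include hT hdeg hd hinv hr in
/-- The bound of the partial sums. -/
theorem core (hfar : ∃ R : ℕ, ∀ a b a' b', G.Adj a b → G.Adj a' b' → R ≤ G.dist a a' →
      ⟪Y a b, Y a' b'⟫ = 0) (m : ℕ) :
    ‖∑ j ∈ range m, Y (r (j + 1)) (r j)‖ ^ 2 ≤ 25 * m * ‖Y (r 1) (r 0)‖ ^ 2 := by
  have hb : (2 : ℝ) ≤ ((d - 1 : ℕ) : ℝ) := by
    have : 2 ≤ d - 1 := by omega
    exact_mod_cast this
  have hσ : ‖Y (r 1) (r 0)‖ ^ 2 = LL Y r 0 := norm_back hT hdeg hd hinv hr 0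
  rw [hσ]
  induction m with
  | zero => simp
  | succ m ih =>
    rw [sum_range_succ, norm_add_sq_real, norm_back hT hdeg hd hinv hr m, sum_inner]
    have h1 : ∑ j ∈ range m, ⟪Y (r (j + 1)) (r j), Y (r (m + 1)) (r m)⟫ ≤ LL Y r 0 * 12 := by
      calc ∑ j ∈ range m, ⟪Y (r (j + 1)) (r j), Y (r (m + 1)) (r m)⟫
          = ∑ j ∈ range m, LL Y r (m - j) := by
            refine Finset.sum_congr rfl fun j hj => ?_
            rw [real_inner_comm]
            exact inner_back hT hdeg hd hinv hr (Finset.mem_range.1 hj)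
        _ ≤ ∑ j ∈ range m, LL Y r 0 * (√((d - 1 : ℕ) : ℝ) * ((m - j : ℕ) : ℝ) *
              (1 / √((d - 1 : ℕ) : ℝ)) ^ (m - j)) := by
            refine Finset.sum_le_sum fun j hj => ?_
            have := Finset.mem_range.1 hj
            exact (le_abs_self _).trans (chain_decay hT hdeg hd hinv hr hfar (by omega))
        _ = LL Y r 0 * ∑ j ∈ range m, (√((d - 1 : ℕ) : ℝ) * ((j + 1 : ℕ) : ℝ) *
              (1 / √((d - 1 : ℕ) : ℝ)) ^ (j + 1)) := by
            rw [Finset.mul_sum]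
            rw [← Finset.sum_range_reflect]
            refine Finset.sum_congr rfl fun j hj => ?_
            have := Finset.mem_range.1 hj
            have e : m - (m - 1 - j) = j + 1 := by omega
            rw [e]
        _ ≤ LL Y r 0 * 12 := by
            apply mul_le_mul_of_nonneg_left _ (sigma_nonneg Y r)
            have h2 := sum_chain_le hb (m + 1)
            rw [Finset.sum_range_succ'] at h2
            simp only [Nat.cast_zero, mul_zero, zero_mul, add_zero] at h2
            exact h2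
    have h0 := sigma_nonneg Y r
    push_cast
    nlinarith

end Core

/-- The inner products in `L²` of two square integrable functions. -/
lemma inner_toLp {Ω : Type*} [MeasurableSpace Ω] {P : Measure Ω} {f g : Ω → ℝ} (hf : MemLp f 2 P)
    (hg : MemLp g 2 P) : ⟪hf.toLp f, hg.toLp g⟫ = ∫ ω, f ω * g ω ∂P := by
  rw [MeasureTheory.L2.inner_def]
  refine integral_congr_ae ?_
  filter_upwards [hf.coeFn_toLp, hg.coeFn_toLp] with ω h1 h2
  rw [h1, h2]
  simp [mul_comm]

end Tempered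

variable {V : Type*} {G : SimpleGraph V} [G.LocallyFinite] [DecidableEq V] {d : ℕ}
  {Ω : Type*} [MeasurableSpace Ω] {P : Measure Ω} [IsProbabilityMeasure P]

set_option linter.unusedSectionVars false in
/-- Correlation decay for a finite range invariant centered second-order field on the
directed edges of a regular tree of degree at least three: the partial sums along a ray
grow like a square root. -/
theorem tempered_sum (hT : G.IsTree) (hdeg : ∀ v, G.degree v = d) (hd : 3 ≤ d) :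
    ∃ C : ℝ, 0 < C ∧ ∀ X : V → V → Ω → ℝ, (∀ a b, MemLp (X a b) 2 P) →
      (∀ (g : G ≃g G) (a b a' b' : V), ∫ ω, X (g a) (g b) ω * X (g a') (g b') ω ∂P
        = ∫ ω, X a b ω * X a' b' ω ∂P) →
      (∃ R : ℕ, ∀ a b a' b', G.Adj a b → G.Adj a' b' → R ≤ G.dist a a' →
        ∫ ω, X a b ω * X a' b' ω ∂P = 0) →
      ∀ r : ℕ → V, IsRay G r → ∀ m : ℕ,
        ∫ ω, (∑ j ∈ range m, X (r (j + 1)) (r j) ω) ^ 2 ∂P
          ≤ C * m * ∫ ω, X (r 1) (r 0) ω ^ 2 ∂P := by
  refine ⟨25, by norm_num, fun X hX hinv hfar r hr m => ?_⟩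
  let Y : V → V → Lp ℝ 2 P := fun a b => (hX a b).toLp (X a b)
  have hY : ∀ a b a' b', inner ℝ (Y a b) (Y a' b') = ∫ ω, X a b ω * X a' b' ω ∂P :=
    fun a b a' b' => Tempered.inner_toLp (hX a b) (hX a' b')
  have h1 := Tempered.core hT hdeg hd (Y := Y)
    (fun g a b a' b' => by rw [hY, hY]; exact hinv g a b a' b') hr
    (by
      obtain ⟨R, hR⟩ := hfar
      exact ⟨R, fun a b a' b' h h' hd => by rw [hY]; exact hR a b a' b' h h' hd⟩) m
  have h2 : ‖Y (r 1) (r 0)‖ ^ 2 = ∫ ω, X (r 1) (r 0) ω ^ 2 ∂P := by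
    rw [← real_inner_self_eq_norm_sq, hY]
    simp only [sq]
  have h3 : ‖∑ j ∈ range m, Y (r (j + 1)) (r j)‖ ^ 2 =
      ∫ ω, (∑ j ∈ range m, X (r (j + 1)) (r j) ω) ^ 2 ∂P := by
    rw [← real_inner_self_eq_norm_sq, sum_inner]
    simp_rw [inner_sum, hY]
    have hint : ∀ i j, Integrable (fun ω => X (r (i + 1)) (r i) ω * X (r (j + 1)) (r j) ω) P :=
      fun i j => (hX _ _).integrable_mul (hX _ _)
    simp_rw [sq, Finset.sum_mul_sum]
    rw [integral_finsetSum _ fun i _ => integrable_finsetSum _ fun j _ => hint i j]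
    refine Finset.sum_congr rfl fun i _ => ?_
    rw [integral_finsetSum _ fun j _ => hint i j]
  rw [← h3, ← h2]
  exact h1

end Vale.Agent.Lib.P161

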