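import Vale.Agent.Lib.P161.End.Pack
import Vale.Agent.Lib.P161.End.Tempered

/-!
P161 endpoint, module StatA3: tempered growth of the sums of `lX` along a ray, from `tempered_sum`.
-/

open MeasureTheory ProbabilityTheory Finset

set_option linter.unusedSectionVars false

namespace Vale.Agent.Lib.P161

noncomputable section

variable {V : Type*} [DecidableEq V] {G : SimpleGraph V} [G.LocallyFinite] {d : ℕ}

lemma measurable_lF (θ : ℝ) : Measurable (lF θ) := by
  have e : lF θ = fun x => Real.log (θ / (1 + (1 - θ ^ 2) * Real.sinh x ^ 2)) := rfl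
  rw [e]
  exact Real.measurable_log.comp (measurable_const.div (measurable_const.add
    (measurable_const.mul (Real.continuous_sinh.measurable.pow_const 2))))

lemma measurable_lX (θ₁ θ₂ : ℝ) {η₁ η₂ : (V → unitInterval) → V → V → ℝ}
    (hη₁ : EqField G η₁) (hη₂ : EqField G η₂) (a b : V) :
    Measurable fun u => lX θ₁ θ₂ (η₁ u) (η₂ u) a b :=
  ((measurable_lF θ₁).comp (hη₁.meas a b)).sub ((measurable_lF θ₂).comp (hη₂.meas a b))

lemma memLp_lF {θ : ℝ} (h0 : 0 < θ) (h1 : θ < 1) {η : (V → unitInterval) → V → V → ℝ}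
    (hη : EqField G η) (a b : V) :
    MemLp (fun u => lF θ (η u a b)) 2 (uniformField V) := by
  have := limit_uniformField_prob V
  have hm : Measurable fun u => lF θ (η u a b) - lF θ 0 :=
    ((measurable_lF θ).comp (hη.meas a b)).sub measurable_const
  have h2 : MemLp (fun u => lF θ (η u a b) - lF θ 0) 2 (uniformField V) := by
    refine (hη.memLp a b).of_le_mul (c := 2) hm.aestronglyMeasurable
      (Filter.Eventually.of_forall fun u => ?_)
    have := lF_lip h0 h1 (η u a b) 0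
    simpa [Real.norm_eq_abs] using this
  have h3 := h2.add (memLp_const (lF θ 0))
  refine h3.ae_eq (Filter.Eventually.of_forall fun u => ?_)
  simp

lemma memLp_lX {θ₁ θ₂ : ℝ} (h10 : 0 < θ₁) (h11 : θ₁ < 1) (h20 : 0 < θ₂) (h21 : θ₂ < 1)
    {η₁ η₂ : (V → unitInterval) → V → V → ℝ}
    (hη₁ : EqField G η₁) (hη₂ : EqField G η₂) (a b : V) :
    MemLp (fun u => lX θ₁ θ₂ (η₁ u) (η₂ u) a b) 2 (uniformField V) :=
  (memLp_lF h10 h11 hη₁ a b).sub (memLp_lF h20 h21 hη₂ a b)

lemma lX_equiv {θ₁ θ₂ : ℝ} {η₁ η₂ : (V → unitInterval) → V → V → ℝ}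
    (hη₁ : EqField G η₁) (hη₂ : EqField G η₂) (g : G ≃g G) (u : V → unitInterval) (a b : V) :
    lX θ₁ θ₂ (η₁ (u ∘ g.symm)) (η₂ (u ∘ g.symm)) (g a) (g b) = lX θ₁ θ₂ (η₁ u) (η₂ u) a b := by
  simp only [lX, hη₁.equiv, hη₂.equiv]

/-- **A3.** Tempered growth of the sums along a ray, from `tempered_sum`. -/
theorem sum_lX_sq_le (hT : G.IsTree) (hdeg : ∀ v, G.degree v = d) (hd : 3 ≤ d) :
    ∃ CT : ℝ, 0 < CT ∧ ∀ (θ₁ θ₂ : ℝ), 0 < θ₁ → θ₁ < 1 → 0 < θ₂ → θ₂ < 1 →
      ∀ η₁ η₂ : (V → unitInterval) → V → V → ℝ, EqField G η₁ → EqField G η₂ →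
      ∀ (r : ℕ → V), IsRay G r → ∀ (a b : V), G.Adj a b → ∀ m : ℕ,
        ∫ u, (∑ i ∈ range m, lX θ₁ θ₂ (η₁ u) (η₂ u) (r (i + 2)) (r (i + 1))) ^ 2 ∂(uniformField V)
          ≤ CT * m * (∫ u, lX θ₁ θ₂ (η₁ u) (η₂ u) a b ^ 2 ∂(uniformField V))
            + (m : ℝ) ^ 2 * (∫ u, lX θ₁ θ₂ (η₁ u) (η₂ u) a b ∂(uniformField V)) ^ 2 := by
  have := limit_uniformField_prob V
  obtain ⟨C, hC, hT0⟩ := tempered_sum (V := V) (G := G) (d := d)
    (Ω := V → unitInterval) (P := uniformField V) hT hdeg hd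
  refine ⟨C, hC, fun θ₁ θ₂ h10 h11 h20 h21 η₁ η₂ hη₁ hη₂ r hr a b hab m => ?_⟩
  have hd2 : 2 ≤ d := by omega
  -- the field and its mean
  set L : V → V → (V → unitInterval) → ℝ := fun x y u => lX θ₁ θ₂ (η₁ u) (η₂ u) x y with hL
  have hLm : ∀ x y, Measurable (L x y) := fun x y => measurable_lX θ₁ θ₂ hη₁ hη₂ x y
  have hL2 : ∀ x y, MemLp (L x y) 2 (uniformField V) :=
    fun x y => memLp_lX h10 h11 h20 h21 hη₁ hη₂ x y
  have hLi : ∀ x y, Integrable (L x y) (uniformField V) := fun x y => (hL2 x y).integrable (by norm_num)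
  set μ : ℝ := ∫ u, L a b u ∂(uniformField V) with hμ
  have hmean : ∀ x y, G.Adj x y → ∫ u, L x y u ∂(uniformField V) = μ := fun x y hxy =>
    integral_edge_const hT hdeg hd2 (fun u x y => L x y u) (fun x y => hLm x y)
      (fun g u x y => lX_equiv hη₁ hη₂ g u x y) hxy hab
  have hsq : ∀ x y, G.Adj x y → ∫ u, L x y u ^ 2 ∂(uniformField V)
      = ∫ u, L a b u ^ 2 ∂(uniformField V) := fun x y hxy =>
    integral_edge_const hT hdeg hd2 (fun u x y => L x y u ^ 2) (fun x y => (hLm x y).pow_const 2)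
      (fun g u x y => by simp only [hL, lX_equiv hη₁ hη₂ g u x y]) hxy hab
  -- the centered field
  set X : V → V → (V → unitInterval) → ℝ := fun x y u => L x y u - μ with hX
  have hX2 : ∀ x y, MemLp (X x y) 2 (uniformField V) := fun x y => (hL2 x y).sub (memLp_const μ)
  have hXm : ∀ x y, Measurable (X x y) := fun x y => (hLm x y).sub measurable_const
  have hXmean : ∀ x y, G.Adj x y → ∫ u, X x y u ∂(uniformField V) = 0 := by
    intro x y hxy
    simp only [hX]
    rw [integral_sub (hLi x y) (integrable_const μ), hmean x y hxy]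
    simp
  -- invariance
  have hinv : ∀ (g : G ≃g G) (a b a' b' : V),
      ∫ u, X (g a) (g b) u * X (g a') (g b') u ∂(uniformField V)
        = ∫ u, X a b u * X a' b' u ∂(uniformField V) := by
    intro g a b a' b'
    have h1 := integral_aut (G := G) (fun u => X (g a) (g b) u * X (g a') (g b') u)
      ((hXm _ _).mul (hXm _ _)) g
    rw [← h1]
    refine integral_congr_ae (Filter.Eventually.of_forall fun u => ?_)
    simp only [hX, hL, lX_equiv hη₁ hη₂ g u]
  -- far correlations vanish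
  have hfar : ∃ R : ℕ, ∀ a b a' b', G.Adj a b → G.Adj a' b' → R ≤ G.dist a a' →
      ∫ u, X a b u * X a' b' u ∂(uniformField V) = 0 := by
    obtain ⟨r₁, hr₁⟩ := hη₁.loc
    obtain ⟨r₂, hr₂⟩ := hη₂.loc
    set ρ := max r₁ r₂ with hρ
    have hloc : ∀ x y, G.Adj x y → ∀ u u' : V → unitInterval,
        (∀ w ∈ ballF G x ρ, u w = u' w) → X x y u = X x y u' := by
      intro x y hxy u u' h
      have h1 : η₁ u x y = η₁ u' x y := hr₁ x y hxy u u' fun w hw =>
        h w ((mem_ballF hT.connected).2 (hw.trans (le_max_left _ _)))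
      have h2 : η₂ u x y = η₂ u' x y := hr₂ x y hxy u u' fun w hw =>
        h w ((mem_ballF hT.connected).2 (hw.trans (le_max_right _ _)))
      simp only [hX, hL, lX, h1, h2]
    refine ⟨2 * ρ + 1, fun x y x' y' hxy hxy' hdist => ?_⟩
    have hdisj : Disjoint (ballF G x ρ) (ballF G x' ρ) := by
      rw [Finset.disjoint_left]
      intro w hw hw'
      have h1 := (mem_ballF hT.connected).1 hw
      have h2 := (mem_ballF hT.connected).1 hw'
      have h3 := hT.connected.dist_triangle (u := x) (v := w) (w := x')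
      rw [SimpleGraph.dist_comm (u := w) (v := x')] at h3
      omega
    rw [integral_mul_of_local hdisj (hXm x y) (hXm x' y') (hloc x y hxy) (hloc x' y' hxy'),
      hXmean x y hxy]
    simp
  -- the shifted ray
  have hq : IsRay G (fun i => r (i + 1)) := ⟨fun i => hr.adj (i + 1), fun i => hr.nb (i + 1)⟩
  -- the sum of the centered field
  set S : (V → unitInterval) → ℝ := fun u => ∑ j ∈ range m, X (r (j + 1 + 1)) (r (j + 1)) u with hS
  have hS2 : MemLp S 2 (uniformField V) := by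
    have := memLp_finsetSum (μ := uniformField V) (p := 2) (range m)
      (f := fun j u => X (r (j + 1 + 1)) (r (j + 1)) u) (fun j _ => hX2 _ _)
    refine this.ae_eq (Filter.Eventually.of_forall fun u => ?_)
    simp [hS]
  have hSi : Integrable S (uniformField V) := hS2.integrable (by norm_num)
  have hmain : ∫ u, S u ^ 2 ∂(uniformField V)
      ≤ C * m * ∫ u, X (r (1 + 1)) (r 1) u ^ 2 ∂(uniformField V) :=
    hT0 X hX2 hinv hfar (fun i => r (i + 1)) hq m
  have hSmean : ∫ u, S u ∂(uniformField V) = 0 := by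
    simp only [hS]
    rw [integral_finsetSum _ fun j _ => (hX2 _ _).integrable (by norm_num)]
    exact Finset.sum_eq_zero fun j _ => hXmean _ _ (hr.adj (j + 1)).symm
  have hSum : ∀ u, ∑ i ∈ range m, lX θ₁ θ₂ (η₁ u) (η₂ u) (r (i + 2)) (r (i + 1)) = S u + m * μ := by
    intro u
    simp only [hS, hX, hL]
    rw [Finset.sum_sub_distrib, Finset.sum_const, Finset.card_range, nsmul_eq_mul]
    ring
  have hexp : ∫ u, (∑ i ∈ range m, lX θ₁ θ₂ (η₁ u) (η₂ u) (r (i + 2)) (r (i + 1))) ^ 2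
        ∂(uniformField V) = ∫ u, S u ^ 2 ∂(uniformField V) + (m : ℝ) ^ 2 * μ ^ 2 := by
    have e1 : ∀ u, (∑ i ∈ range m, lX θ₁ θ₂ (η₁ u) (η₂ u) (r (i + 2)) (r (i + 1))) ^ 2
        = S u ^ 2 + ((2 * m * μ) * S u + (m : ℝ) ^ 2 * μ ^ 2) := by
      intro u
      rw [hSum]
      ring
    simp_rw [e1]
    have i1 : Integrable (fun u => (2 * m * μ) * S u) (uniformField V) := hSi.const_mul _
    have i2 : Integrable (fun u => (2 * m * μ) * S u + (m : ℝ) ^ 2 * μ ^ 2) (uniformField V) :=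
      i1.add (integrable_const _)
    rw [integral_add hS2.integrable_sq i2, integral_add i1 (integrable_const _),
      integral_const_mul, hSmean]
    simp
  -- the variance is at most the second moment
  have hvar : ∫ u, X (r (1 + 1)) (r 1) u ^ 2 ∂(uniformField V)
      ≤ ∫ u, L a b u ^ 2 ∂(uniformField V) := by
    have e1 : ∀ u, X (r (1 + 1)) (r 1) u ^ 2
        = L (r 2) (r 1) u ^ 2 + ((-(2 * μ)) * L (r 2) (r 1) u + μ ^ 2) := by
      intro u
      simp only [hX]
      ring
    simp_rw [e1]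
    have i1 : Integrable (fun u => (-(2 * μ)) * L (r 2) (r 1) u) (uniformField V) :=
      (hLi _ _).const_mul _
    have i2 : Integrable (fun u => (-(2 * μ)) * L (r 2) (r 1) u + μ ^ 2) (uniformField V) :=
      i1.add (integrable_const _)
    rw [integral_add (hL2 _ _).integrable_sq i2, integral_add i1 (integrable_const _),
      integral_const_mul, hmean _ _ (hr.adj 1).symm, hsq _ _ (hr.adj 1).symm]
    simp only [integral_const, probReal_univ, smul_eq_mul, one_mul]
    nlinarith [sq_nonneg μ]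
  rw [hexp]
  have hm0 : (0 : ℝ) ≤ C * m := by positivity
  have h2 := mul_le_mul_of_nonneg_left hvar hm0
  linarith [hmain, h2]

end

end Vale.Agent.Lib.P161
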