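import Vale.Agent.Lib.P161.End.PackChain
import Vale.Agent.Lib.P161.End.StatA3

/-!
P161 endpoint, module Select, part S2: selection of a subsequence along which the means of the
logarithmic derivatives converge, given the equi-Hölder bound in time.
-/

open MeasureTheory ProbabilityTheory Finset Filter

open scoped Topology

set_option linter.unusedSectionVars false

namespace Vale.Agent.Lib.P161.SM

noncomputable section

/-! ### The capped function -/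

/-- The capped form of `log θ - lF θ x`. -/
def capE (θ A x : ℝ) : ℝ := min (Real.log θ - lF θ x) A / A

theorem lF_zero {θ : ℝ} (h0 : 0 < θ) (h1 : θ < 1) : lF θ 0 = Real.log θ := by
  rw [lF_eq h0 h1]
  simp

theorem eE_nonneg {θ : ℝ} (h0 : 0 < θ) (h1 : θ < 1) (x : ℝ) : 0 ≤ Real.log θ - lF θ x := by
  rw [lF_eq h0 h1]
  have h2 : 0 ≤ (1 - θ ^ 2) * Real.sinh x ^ 2 := mul_nonneg (by nlinarith) (sq_nonneg _)
  have h3 : 0 ≤ Real.log (1 + (1 - θ ^ 2) * Real.sinh x ^ 2) :=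
    Real.log_nonneg (by linarith)
  linarith

theorem eE_le {θ : ℝ} (h0 : 0 < θ) (h1 : θ < 1) (x : ℝ) : Real.log θ - lF θ x ≤ 2 * |x| := by
  have := lF_lip h0 h1 0 x
  rw [lF_zero h0 h1] at this
  have h2 := le_abs_self (Real.log θ - lF θ x)
  have h3 : |(0 : ℝ) - x| = |x| := by simp
  rw [h3] at this
  linarith

theorem capE_nonneg {θ A : ℝ} (h0 : 0 < θ) (h1 : θ < 1) (hA : 0 < A) (x : ℝ) : 0 ≤ capE θ A x :=
  div_nonneg (le_min (eE_nonneg h0 h1 x) hA.le) hA.le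

theorem capE_le_one {θ A : ℝ} (hA : 0 < A) (x : ℝ) : capE θ A x ≤ 1 := by
  unfold capE
  rw [div_le_one hA]
  exact min_le_right _ _

theorem abs_capE_le {θ A : ℝ} (h0 : 0 < θ) (h1 : θ < 1) (hA : 0 < A) (x : ℝ) : |capE θ A x| ≤ 1 := by
  rw [abs_of_nonneg (capE_nonneg h0 h1 hA x)]
  exact capE_le_one hA x

theorem capE_lip {θ A : ℝ} (h0 : 0 < θ) (h1 : θ < 1) (hA : 0 < A) (x y : ℝ) :
    |capE θ A x - capE θ A y| ≤ 2 / A * |x - y| := by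
  unfold capE
  rw [← sub_div, abs_div, abs_of_pos hA]
  have h2 : |min (Real.log θ - lF θ x) A - min (Real.log θ - lF θ y) A|
      ≤ |(Real.log θ - lF θ x) - (Real.log θ - lF θ y)| := by
    have := abs_min_sub_min_le_max (Real.log θ - lF θ x) A (Real.log θ - lF θ y) A
    simpa using this
  have h3 : |(Real.log θ - lF θ x) - (Real.log θ - lF θ y)| = |lF θ x - lF θ y| := by
    rw [abs_sub_comm]
    congr 1
    ring
  have h4 := lF_lip h0 h1 x y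
  rw [h3] at h2
  have h5 := h2.trans h4
  rw [div_mul_eq_mul_div]
  exact div_le_div_of_nonneg_right h5 hA.le

theorem measurable_capE (θ A : ℝ) : Measurable (capE θ A) := by
  unfold capE
  exact ((measurable_const.sub (measurable_lF θ)).min measurable_const).div_const A

/-- One field: the integral of `log θ - lF θ η` in terms of the capped function. -/
theorem single_bound {Ω : Type*} [MeasurableSpace Ω] {P : Measure Ω} [IsProbabilityMeasure P]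
    {θ A : ℝ} (h0 : 0 < θ) (h1 : θ < 1) (hA : 0 < A) {η : Ω → ℝ} (hm : Measurable η)
    (hL : MemLp η 2 P) :
    Integrable (fun u => lF θ (η u)) P ∧
    0 ≤ (Real.log θ - ∫ u, lF θ (η u) ∂P) - A * ∫ u, capE θ A (η u) ∂P ∧
    (Real.log θ - ∫ u, lF θ (η u) ∂P) - A * ∫ u, capE θ A (η u) ∂P ≤ 4 / A * ∫ u, η u ^ 2 ∂P := by
  have hηi : Integrable η P := hL.integrable one_le_two
  have hη2 : Integrable (fun u => η u ^ 2) P := hL.integrable_sq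
  have hlm : Measurable (fun u => lF θ (η u)) := (measurable_lF θ).comp hm
  have hli : Integrable (fun u => lF θ (η u)) P := by
    have h2 : Integrable (fun u => lF θ (η u) - lF θ 0) P := by
      refine (hηi.norm.const_mul 2).mono' (hlm.sub_const _).aestronglyMeasurable
        (Eventually.of_forall fun u => ?_)
      have := lF_lip h0 h1 (η u) 0
      simpa [Real.norm_eq_abs] using this
    have h3 := h2.add (integrable_const (lF θ 0))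
    refine h3.congr (Eventually.of_forall fun u => ?_)
    simp
  have hcm : Measurable (fun u => capE θ A (η u)) := (measurable_capE θ A).comp hm
  have hci : Integrable (fun u => capE θ A (η u)) P := by
    refine Integrable.of_bound hcm.aestronglyMeasurable 1 (Eventually.of_forall fun u => ?_)
    simpa [Real.norm_eq_abs] using abs_capE_le h0 h1 hA (η u)
  have hrep : (Real.log θ - ∫ u, lF θ (η u) ∂P) - A * ∫ u, capE θ A (η u) ∂P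
      = ∫ u, ((Real.log θ - lF θ (η u)) - A * capE θ A (η u)) ∂P := by
    have i1 : Integrable (fun u => Real.log θ - lF θ (η u)) P := (integrable_const _).sub hli
    rw [integral_sub i1 (hci.const_mul A), integral_sub (integrable_const _) hli, integral_const_mul]
    simp
  have hpt : ∀ x, A * capE θ A x = min (Real.log θ - lF θ x) A := by
    intro x
    unfold capE
    field_simp
  refine ⟨hli, ?_, ?_⟩
  · rw [hrep]
    refine integral_nonneg fun u => ?_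
    simp only [Pi.zero_apply]
    rw [hpt]
    have := min_le_left (Real.log θ - lF θ (η u)) A
    linarith
  · rw [hrep, ← integral_const_mul]
    have hi3 : Integrable (fun u => (Real.log θ - lF θ (η u)) - A * capE θ A (η u)) P :=
      ((integrable_const _).sub hli).sub (hci.const_mul A)
    refine integral_mono hi3 (hη2.const_mul _) fun u => ?_
    simp only
    rw [hpt]
    set E := Real.log θ - lF θ (η u) with hE
    have hE0 : 0 ≤ E := eE_nonneg h0 h1 _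
    have hE2 : E ≤ 2 * |η u| := eE_le h0 h1 _
    have hE3 : E ^ 2 ≤ 4 * η u ^ 2 := by
      have : E ^ 2 ≤ (2 * |η u|) ^ 2 := pow_le_pow_left₀ hE0 hE2 2
      rw [mul_pow, sq_abs] at this
      linarith
    have hx0 : 0 ≤ 4 / A * η u ^ 2 := by positivity
    rcases le_total E A with h | h
    · rw [min_eq_left h]
      linarith
    · rw [min_eq_right h]
      have : E - A ≤ 4 / A * η u ^ 2 := by
        have h5 : E ^ 2 / A ≤ 4 / A * η u ^ 2 := by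
          rw [div_mul_eq_mul_div]
          exact div_le_div_of_nonneg_right hE3 hA.le
        have h6 : E - A ≤ E ^ 2 / A := by
          rw [le_div_iff₀ hA]
          nlinarith [sq_nonneg (E - A)]
        linarith
      exact this

/-- Two fields. -/
theorem mm_bound {Ω : Type*} [MeasurableSpace Ω] {P : Measure Ω} [IsProbabilityMeasure P]
    {θ₁ θ₂ A : ℝ} (h10 : 0 < θ₁) (h11 : θ₁ < 1) (h20 : 0 < θ₂) (h21 : θ₂ < 1) (hA : 0 < A)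
    {η₁ η₂ : Ω → ℝ} (hm₁ : Measurable η₁) (hm₂ : Measurable η₂)
    (hL₁ : MemLp η₁ 2 P) (hL₂ : MemLp η₂ 2 P) :
    |∫ u, (lF θ₁ (η₁ u) - lF θ₂ (η₂ u)) ∂P| ≤ |Real.log θ₁ - Real.log θ₂|
      + A * |∫ u, capE θ₁ A (η₁ u) ∂P - ∫ u, capE θ₂ A (η₂ u) ∂P|
      + 4 / A * (∫ u, η₁ u ^ 2 ∂P + ∫ u, η₂ u ^ 2 ∂P) := by
  obtain ⟨i1, a1, b1⟩ := single_bound h10 h11 hA hm₁ hL₁
  obtain ⟨i2, a2, b2⟩ := single_bound h20 h21 hA hm₂ hL₂
  rw [integral_sub i1 i2]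
  set x1 := ∫ u, lF θ₁ (η₁ u) ∂P
  set x2 := ∫ u, lF θ₂ (η₂ u) ∂P
  set c1 := ∫ u, capE θ₁ A (η₁ u) ∂P
  set c2 := ∫ u, capE θ₂ A (η₂ u) ∂P
  have hq : 4 / A * (∫ u, η₁ u ^ 2 ∂P + ∫ u, η₂ u ^ 2 ∂P)
      = 4 / A * (∫ u, η₁ u ^ 2 ∂P) + 4 / A * ∫ u, η₂ u ^ 2 ∂P := by ring
  rw [hq]
  have h3 : A * (c1 - c2) ≤ A * |c1 - c2| := mul_le_mul_of_nonneg_left (le_abs_self _) hA.le
  have h4 : A * (c2 - c1) ≤ A * |c1 - c2| := by
    rw [abs_sub_comm]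
    exact mul_le_mul_of_nonneg_left (le_abs_self _) hA.le
  have h5 := le_abs_self (Real.log θ₁ - Real.log θ₂)
  have h6 := neg_abs_le (Real.log θ₁ - Real.log θ₂)
  rw [abs_le]
  constructor <;> nlinarith

/-! ### The chains -/

variable {V : Type*} [DecidableEq V] {G : SimpleGraph V} [G.LocallyFinite] {d : ℕ}

/-- The capped mean along the chain. -/
def aC (G : SimpleGraph V) [G.LocallyFinite] (θ A : ℝ) (γ : ℕ → ℕ → unitInterval → ℝ) (a o : V)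
    (ℓ j k : ℕ) : ℝ :=
  ∫ u, capE θ A (masterChain G θ γ ℓ j k u a o) ∂(uniformField V)

/-- The capped functional is Lipschitz. -/
theorem capF_lipCyl {θ A : ℝ} (h0 : 0 < θ) (h1 : θ < 1) (hA : 0 < A) (a o : V) :
    LipCyl ({(a, o)} : Finset (V × V)) (2 / A) (fun η => capE θ A (η a o)) where
  bdd := fun η => abs_capE_le h0 h1 hA _
  lip := fun η η' => by
    simpa using capE_lip h0 h1 hA (η a o) (η' a o)

theorem aC_mem {θ A : ℝ} (hp : TreeParams G d θ) (h0 : 0 < θ) (h1 : θ < 1) (hA : 0 < A)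
    {γ : ℕ → ℕ → unitInterval → ℝ}
    (hn : ∀ j, IsNoise (uniformField V) (fun (k : ℕ) (v : V) (u : V → unitInterval) => γ j k (u v)))
    (a o : V) (ℓ j k : ℕ) : 0 ≤ aC G θ A γ a o ℓ j k ∧ aC G θ A γ a o ℓ j k ≤ 1 := by
  have := limit_uniformField_prob V
  constructor
  · exact integral_nonneg fun u => capE_nonneg h0 h1 hA _
  · have hm := (masterChain_eqField hp hn ℓ j k).meas a o
    have hcm : Measurable (fun u => capE θ A (masterChain G θ γ ℓ j k u a o)) :=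
      (measurable_capE θ A).comp hm
    have h2 : aC G θ A γ a o ℓ j k ≤ ∫ _u, (1 : ℝ) ∂(uniformField V) := by
      refine integral_mono_of_nonneg (Eventually.of_forall fun u => capE_nonneg h0 h1 hA _)
        (integrable_const 1) (Eventually.of_forall fun u => capE_le_one hA _)
    simpa using h2

theorem aC_cauchy {θ A : ℝ} (hp : TreeParams G d θ) (h0 : 0 < θ) (h1 : θ < 1) (hA : 0 < A)
    {γ : ℕ → ℕ → unitInterval → ℝ}
    (hn : ∀ j, IsNoise (uniformField V) (fun (k : ℕ) (v : V) (u : V → unitInterval) => γ j k (u v)))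
    {a o : V} (hao : G.Adj a o) (T δ : ℝ) (hδ : 0 < δ) :
    ∃ ℓ₀ j₀ : ℕ, ∀ ℓ j ℓ' j', ℓ₀ ≤ ℓ → j₀ ≤ j → ℓ₀ ≤ ℓ' → j₀ ≤ j' → ∀ k k' : ℕ,
      (k : ℝ) * (1 / 2 : ℝ) ^ j = (k' : ℝ) * (1 / 2 : ℝ) ^ j' → (k : ℝ) * (1 / 2 : ℝ) ^ j ≤ T →
        |aC G θ A γ a o ℓ j k - aC G θ A γ a o ℓ' j' k'| ≤ δ := by
  have hE : ∀ e ∈ ({(a, o)} : Finset (V × V)), G.Adj e.1 e.2 := by
    intro e he
    rw [Finset.mem_singleton] at he
    rw [he]
    exact hao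
  obtain ⟨R₀, hR⟩ := transfer hp hn o T {(a, o)} hE (2 / A) (δ / 2) (by positivity) (by positivity)
  obtain ⟨ℓ₀, j₀, h⟩ := hR R₀ le_rfl
  refine ⟨ℓ₀, j₀, fun ℓ j ℓ' j' hl hj hl' hj' k k' heq hk => ?_⟩
  have e1 := h ℓ j hl hj k hk _ (capF_lipCyl h0 h1 hA a o)
  have e2 := h ℓ' j' hl' hj' k' (by rw [← heq]; exact hk) _ (capF_lipCyl h0 h1 hA a o)
  rw [← heq] at e2
  have e3 := abs_sub_le (aC G θ A γ a o ℓ j k)
    (exactE G θ o R₀ ((k : ℝ) * (1 / 2 : ℝ) ^ j) (fun η => capE θ A (η a o)))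
    (aC G θ A γ a o ℓ' j' k')
  have e2' : |exactE G θ o R₀ ((k : ℝ) * (1 / 2 : ℝ) ^ j) (fun η => capE θ A (η a o))
      - aC G θ A γ a o ℓ' j' k'| ≤ δ / 2 := by
    rw [abs_sub_comm]
    exact e2
  have e1' : |aC G θ A γ a o ℓ j k
      - exactE G θ o R₀ ((k : ℝ) * (1 / 2 : ℝ) ^ j) (fun η => capE θ A (η a o))| ≤ δ / 2 := e1
  linarith

/-- The dyadic limit of the capped means exists. -/
theorem exists_gLim {θ A : ℝ} (hp : TreeParams G d θ) (h0 : 0 < θ) (h1 : θ < 1) (hA : 0 < A)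
    {γ : ℕ → ℕ → unitInterval → ℝ}
    (hn : ∀ j, IsNoise (uniformField V) (fun (k : ℕ) (v : V) (u : V → unitInterval) => γ j k (u v)))
    {a o : V} (hao : G.Adj a o) (i k : ℕ) :
    ∃ g : ℝ, 0 ≤ g ∧ g ≤ 1 ∧
      Tendsto (fun m : ℕ => aC G θ A γ a o m (i + m) (k * 2 ^ m)) atTop (𝓝 g) := by
  have hC : CauchySeq (fun m : ℕ => aC G θ A γ a o m (i + m) (k * 2 ^ m)) := by
    rw [Metric.cauchySeq_iff]
    intro ε hε
    obtain ⟨ℓ₀, j₀, h⟩ := aC_cauchy hp h0 h1 hA hn hao ((k : ℝ) * (1 / 2 : ℝ) ^ i) (ε / 2)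
      (by positivity)
    refine ⟨max ℓ₀ j₀, fun m hm n hn' => ?_⟩
    rw [Real.dist_eq]
    have hm1 : ℓ₀ ≤ m := (le_max_left _ _).trans hm
    have hm2 : j₀ ≤ i + m := by have := (le_max_right ℓ₀ j₀).trans hm; omega
    have hn1 : ℓ₀ ≤ n := (le_max_left _ _).trans hn'
    have hn2 : j₀ ≤ i + n := by have := (le_max_right ℓ₀ j₀).trans hn'; omega
    have ht : ∀ m : ℕ, ((k * 2 ^ m : ℕ) : ℝ) * (1 / 2 : ℝ) ^ (i + m) = (k : ℝ) * (1 / 2 : ℝ) ^ i := by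
      intro m
      push_cast
      rw [pow_add]
      have : (2 : ℝ) ^ m * (1 / 2 : ℝ) ^ m = 1 := by
        rw [← mul_pow]; norm_num
      calc (k : ℝ) * 2 ^ m * ((1 / 2 : ℝ) ^ i * (1 / 2 : ℝ) ^ m)
          = (k : ℝ) * (1 / 2 : ℝ) ^ i * ((2 : ℝ) ^ m * (1 / 2 : ℝ) ^ m) := by ring
        _ = _ := by rw [this, mul_one]
    have := h m (i + m) n (i + n) hm1 hm2 hn1 hn2 (k * 2 ^ m) (k * 2 ^ n)
      (by rw [ht, ht]) (by rw [ht])
    linarith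
  obtain ⟨g, hg⟩ := cauchySeq_tendsto_of_complete hC
  refine ⟨g, ?_, ?_, hg⟩
  · exact ge_of_tendsto' hg fun m => (aC_mem hp h0 h1 hA hn a o _ _ _).1
  · exact le_of_tendsto' hg fun m => (aC_mem hp h0 h1 hA hn a o _ _ _).2

/-- The capped means are close to their limit, uniformly in time. -/
theorem near_gLim {θ A : ℝ} (hp : TreeParams G d θ) (h0 : 0 < θ) (h1 : θ < 1) (hA : 0 < A)
    {γ : ℕ → ℕ → unitInterval → ℝ}
    (hn : ∀ j, IsNoise (uniformField V) (fun (k : ℕ) (v : V) (u : V → unitInterval) => γ j k (u v)))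
    {a o : V} (hao : G.Adj a o) {g : ℕ → ℕ → ℝ}
    (hg : ∀ i k, Tendsto (fun m : ℕ => aC G θ A γ a o m (i + m) (k * 2 ^ m)) atTop (𝓝 (g i k)))
    (T δ : ℝ) (hδ : 0 < δ) :
    ∃ ℓ₀ j₀ : ℕ, ∀ ℓ j, ℓ₀ ≤ ℓ → j₀ ≤ j → ∀ (k i k' : ℕ),
      (k : ℝ) * (1 / 2 : ℝ) ^ j = (k' : ℝ) * (1 / 2 : ℝ) ^ i → (k : ℝ) * (1 / 2 : ℝ) ^ j ≤ T →
        |aC G θ A γ a o ℓ j k - g i k'| ≤ δ := by
  obtain ⟨ℓ₀, j₀, h⟩ := aC_cauchy hp h0 h1 hA hn hao T δ hδ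
  refine ⟨ℓ₀, j₀, fun ℓ j hl hj k i k' heq hk => ?_⟩
  have hlim : Tendsto (fun m : ℕ => |aC G θ A γ a o ℓ j k - aC G θ A γ a o m (i + m) (k' * 2 ^ m)|)
      atTop (𝓝 |aC G θ A γ a o ℓ j k - g i k'|) :=
    (tendsto_const_nhds.sub (hg i k')).abs
  refine le_of_tendsto hlim ?_
  filter_upwards [eventually_ge_atTop (max ℓ₀ j₀)] with m hm
  have hm1 : ℓ₀ ≤ m := (le_max_left _ _).trans hm
  have hm2 : j₀ ≤ i + m := by have := (le_max_right ℓ₀ j₀).trans hm; omega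
  have ht : ((k' * 2 ^ m : ℕ) : ℝ) * (1 / 2 : ℝ) ^ (i + m) = (k' : ℝ) * (1 / 2 : ℝ) ^ i := by
    push_cast
    rw [pow_add]
    have : (2 : ℝ) ^ m * (1 / 2 : ℝ) ^ m = 1 := by
      rw [← mul_pow]; norm_num
    calc (k' : ℝ) * 2 ^ m * ((1 / 2 : ℝ) ^ i * (1 / 2 : ℝ) ^ m)
        = (k' : ℝ) * (1 / 2 : ℝ) ^ i * ((2 : ℝ) ^ m * (1 / 2 : ℝ) ^ m) := by ring
      _ = _ := by rw [this, mul_one]
  exact h ℓ j m (i + m) hl hj hm1 hm2 k (k' * 2 ^ m) (by rw [ht]; exact heq) hk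

/-- The variation of the capped mean in time is controlled by the first absolute moment. -/
theorem aC_sub_le {θ A : ℝ} (hp : TreeParams G d θ) (h0 : 0 < θ) (h1 : θ < 1) (hA : 0 < A)
    {γ : ℕ → ℕ → unitInterval → ℝ}
    (hn : ∀ j, IsNoise (uniformField V) (fun (k : ℕ) (v : V) (u : V → unitInterval) => γ j k (u v)))
    (a o : V) (ℓ j k k' : ℕ) :
    |aC G θ A γ a o ℓ j k' - aC G θ A γ a o ℓ j k| ≤ 2 / A *
      ∫ u, |masterChain G θ γ ℓ j k' u a o - masterChain G θ γ ℓ j k u a o| ∂(uniformField V) := by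
  have := limit_uniformField_prob V
  have hf := masterChain_eqField hp hn ℓ j k
  have hf' := masterChain_eqField hp hn ℓ j k'
  have hcm : Measurable (fun u => capE θ A (masterChain G θ γ ℓ j k u a o)) :=
    (measurable_capE θ A).comp (hf.meas a o)
  have hcm' : Measurable (fun u => capE θ A (masterChain G θ γ ℓ j k' u a o)) :=
    (measurable_capE θ A).comp (hf'.meas a o)
  have hci : Integrable (fun u => capE θ A (masterChain G θ γ ℓ j k u a o)) (uniformField V) := by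
    refine Integrable.of_bound hcm.aestronglyMeasurable 1 (Eventually.of_forall fun u => ?_)
    simpa [Real.norm_eq_abs] using abs_capE_le h0 h1 hA _
  have hci' : Integrable (fun u => capE θ A (masterChain G θ γ ℓ j k' u a o)) (uniformField V) := by
    refine Integrable.of_bound hcm'.aestronglyMeasurable 1 (Eventually.of_forall fun u => ?_)
    simpa [Real.norm_eq_abs] using abs_capE_le h0 h1 hA _
  have hdi : Integrable (fun u => |masterChain G θ γ ℓ j k' u a o - masterChain G θ γ ℓ j k u a o|)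
      (uniformField V) :=
    (((hf'.memLp a o).integrable one_le_two).sub ((hf.memLp a o).integrable one_le_two)).abs
  unfold aC
  rw [← integral_sub hci' hci, ← integral_const_mul]
  have := norm_integral_le_of_norm_le (μ := uniformField V)
    (f := fun u => capE θ A (masterChain G θ γ ℓ j k' u a o)
      - capE θ A (masterChain G θ γ ℓ j k u a o)) (hdi.const_mul (2 / A))
    (Eventually.of_forall fun u => by
      simpa [Real.norm_eq_abs] using capE_lip h0 h1 hA (masterChain G θ γ ℓ j k' u a o)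
        (masterChain G θ γ ℓ j k u a o))
  simpa [Real.norm_eq_abs] using this

/-- The second moment from the tail. -/
theorem sq_int_le {Ω : Type*} [MeasurableSpace Ω] {P : Measure Ω} [IsProbabilityMeasure P]
    {η : Ω → ℝ} (hm : Measurable η) (hL : MemLp η 2 P) {CD : ℝ}
    (h : ∫ u, max (η u ^ 2 - 1) 0 ∂P ≤ CD / 1 + 1) : ∫ u, η u ^ 2 ∂P ≤ 2 + CD := by
  have hη2 : Integrable (fun u => η u ^ 2) P := hL.integrable_sq
  have hm2 : Measurable (fun u => max (η u ^ 2 - 1) 0) :=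
    ((hm.pow_const 2).sub_const 1).max measurable_const
  have hi : Integrable (fun u => max (η u ^ 2 - 1) 0) P := by
    refine hη2.mono' hm2.aestronglyMeasurable (Eventually.of_forall fun u => ?_)
    rw [Real.norm_eq_abs, abs_of_nonneg (le_max_right _ _)]
    exact max_le (by linarith) (sq_nonneg _)
  have h2 : ∫ u, η u ^ 2 ∂P ≤ ∫ u, (1 + max (η u ^ 2 - 1) 0) ∂P := by
    refine integral_mono hη2 ((integrable_const 1).add hi) fun u => ?_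
    have := le_max_left (η u ^ 2 - 1) 0
    simp only
    linarith
  rw [integral_add (integrable_const 1) hi] at h2
  simp only [integral_const, probReal_univ, smul_eq_mul, one_mul] at h2
  rw [div_one] at h
  linarith

theorem pow_two_mul_half (j J : ℕ) (hJ : J ≤ j) :
    (2 : ℝ) ^ (j - J) * (1 / 2 : ℝ) ^ j = (1 / 2 : ℝ) ^ J := by
  have e : j = (j - J) + J := by omega
  conv_lhs => rw [e, pow_add, Nat.add_sub_cancel]
  rw [← mul_assoc, ← mul_pow]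
  norm_num

/-- The grid point below a dyadic time. -/
theorem grid_point {t₀ T : ℝ} (ht₀ : 0 < t₀) {J j k : ℕ} (hjJ : J ≤ j)
    (hJ1 : (1 / 2 : ℝ) ^ J ≤ t₀ / 2) (hk1 : t₀ ≤ (k : ℝ) * (1 / 2 : ℝ) ^ j)
    (hk2 : (k : ℝ) * (1 / 2 : ℝ) ^ j ≤ T) :
    ∃ p K : ℕ, p ≤ ⌊T * 2 ^ J⌋₊ ∧ K ≤ k ∧ (K : ℝ) * (1 / 2 : ℝ) ^ j = (p : ℝ) * (1 / 2 : ℝ) ^ J ∧
      t₀ / 2 ≤ (K : ℝ) * (1 / 2 : ℝ) ^ j ∧ (K : ℝ) * (1 / 2 : ℝ) ^ j ≤ T ∧
      0 ≤ ((k : ℝ) - K) * (1 / 2 : ℝ) ^ j ∧ ((k : ℝ) - K) * (1 / 2 : ℝ) ^ j ≤ (1 / 2 : ℝ) ^ J := by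
  set ε : ℝ := (1 / 2 : ℝ) ^ j with hε
  have hε0 : 0 < ε := by positivity
  set t : ℝ := (k : ℝ) * ε with ht
  have ht0 : 0 ≤ t := by positivity
  have h2J : (2 : ℝ) ^ J * (1 / 2 : ℝ) ^ J = 1 := by
    rw [← mul_pow]; norm_num
  set xJ : ℝ := (1 / 2 : ℝ) ^ J with hxJ
  have hxJ0 : 0 < xJ := by positivity
  set p : ℕ := ⌊t * 2 ^ J⌋₊ with hpdef
  have hp1 : (p : ℝ) ≤ t * 2 ^ J := Nat.floor_le (by positivity)
  have hp2 : t * 2 ^ J < (p : ℝ) + 1 := Nat.lt_floor_add_one _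
  have hpP : p ≤ ⌊T * 2 ^ J⌋₊ := Nat.floor_le_floor (mul_le_mul_of_nonneg_right hk2 (by positivity))
  set K : ℕ := p * 2 ^ (j - J) with hK
  have hKε : (K : ℝ) * ε = (p : ℝ) * xJ := by
    rw [hK]
    push_cast
    rw [mul_assoc, hε, pow_two_mul_half j J hjJ]
  have htp1 : (p : ℝ) * xJ ≤ t := by
    calc (p : ℝ) * xJ ≤ (t * 2 ^ J) * xJ := mul_le_mul_of_nonneg_right hp1 hxJ0.le
      _ = t * (2 ^ J * xJ) := by ring
      _ = t := by rw [h2J, mul_one]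
  have htp2 : t < (p : ℝ) * xJ + xJ := by
    calc t = (t * 2 ^ J) * xJ := by rw [mul_assoc, h2J, mul_one]
      _ < ((p : ℝ) + 1) * xJ := mul_lt_mul_of_pos_right hp2 hxJ0
      _ = _ := by ring
  have hKk : K ≤ k := by
    have h5 : (K : ℝ) * ε ≤ (k : ℝ) * ε := by rw [hKε]; exact htp1
    exact Nat.cast_le.1 (le_of_mul_le_mul_right h5 hε0)
  refine ⟨p, K, hpP, hKk, hKε, ?_, ?_, ?_, ?_⟩
  · rw [hKε]
    linarith
  · rw [hKε]; linarith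
  · have : (K : ℝ) ≤ k := Nat.cast_le.2 hKk
    exact mul_nonneg (by linarith) hε0.le
  · have : ((k : ℝ) - K) * ε = t - (p : ℝ) * xJ := by
      rw [← hKε, ht]
      ring
    rw [this]
    linarith

/-- Comparison of the capped means of two chains, through the grid. -/
theorem aC_compare {θ₁ θ₂ A H η₀ t₀ T : ℝ} (hp₁ : TreeParams G d θ₁) (hp₂ : TreeParams G d θ₂)
    (h10 : 0 < θ₁) (h11 : θ₁ < 1) (h20 : 0 < θ₂) (h21 : θ₂ < 1) (hA : 0 < A) (hH : 0 < H)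
    (hη₀ : 0 < η₀) (ht₀ : 0 < t₀)
    {γ : ℕ → ℕ → unitInterval → ℝ}
    (hn : ∀ j, IsNoise (uniformField V) (fun (k : ℕ) (v : V) (u : V → unitInterval) => γ j k (u v)))
    {a₀ o₀ : V} (hao : G.Adj a₀ o₀) {g₁ g₂ : ℕ → ℕ → ℝ}
    (hg₁ : ∀ i k, Tendsto (fun m : ℕ => aC G θ₁ A γ a₀ o₀ m (i + m) (k * 2 ^ m)) atTop (𝓝 (g₁ i k)))
    (hg₂ : ∀ i k, Tendsto (fun m : ℕ => aC G θ₂ A γ a₀ o₀ m (i + m) (k * 2 ^ m)) atTop (𝓝 (g₂ i k)))
    (hold₁ : ∃ ℓ₀ j₀ : ℕ, ∀ ℓ j, ℓ₀ ≤ ℓ → j₀ ≤ j → ∀ k k' : ℕ, k ≤ k' →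
        t₀ / 2 ≤ (k : ℝ) * (1 / 2 : ℝ) ^ j → (k' : ℝ) * (1 / 2 : ℝ) ^ j ≤ T → ∀ a b, G.Adj a b →
          ∫ u, |masterChain G θ₁ γ ℓ j k' u a b - masterChain G θ₁ γ ℓ j k u a b| ∂(uniformField V)
            ≤ H * (((k' : ℝ) - k) * (1 / 2 : ℝ) ^ j + Real.sqrt (((k' : ℝ) - k) * (1 / 2 : ℝ) ^ j))
              + η₀)
    (hold₂ : ∃ ℓ₀ j₀ : ℕ, ∀ ℓ j, ℓ₀ ≤ ℓ → j₀ ≤ j → ∀ k k' : ℕ, k ≤ k' →
        t₀ / 2 ≤ (k : ℝ) * (1 / 2 : ℝ) ^ j → (k' : ℝ) * (1 / 2 : ℝ) ^ j ≤ T → ∀ a b, G.Adj a b →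
          ∫ u, |masterChain G θ₂ γ ℓ j k' u a b - masterChain G θ₂ γ ℓ j k u a b| ∂(uniformField V)
            ≤ H * (((k' : ℝ) - k) * (1 / 2 : ℝ) ^ j + Real.sqrt (((k' : ℝ) - k) * (1 / 2 : ℝ) ^ j))
              + η₀)
    {J : ℕ} (hJ1 : (1 / 2 : ℝ) ^ J ≤ t₀ / 2)
    (hgrid : ∀ p, p ≤ ⌊T * 2 ^ J⌋₊ → |g₁ J p - g₂ J p| ≤ η₀) :
    ∃ ℓ₀ j₀ : ℕ, ∀ ℓ j, ℓ₀ ≤ ℓ → j₀ ≤ j → ∀ k : ℕ,
        t₀ ≤ (k : ℝ) * (1 / 2 : ℝ) ^ j → (k : ℝ) * (1 / 2 : ℝ) ^ j ≤ T →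
          |aC G θ₁ A γ a₀ o₀ ℓ j k - aC G θ₂ A γ a₀ o₀ ℓ j k|
            ≤ 4 / A * H * ((1 / 2 : ℝ) ^ J + Real.sqrt ((1 / 2 : ℝ) ^ J)) + (4 / A + 3) * η₀ := by
  obtain ⟨l1, j1, h1⟩ := near_gLim hp₁ h10 h11 hA hn hao hg₁ T η₀ hη₀
  obtain ⟨l2, j2, h2⟩ := near_gLim hp₂ h20 h21 hA hn hao hg₂ T η₀ hη₀
  obtain ⟨l3, j3, h3⟩ := hold₁
  obtain ⟨l4, j4, h4⟩ := hold₂
  refine ⟨max l1 (max l2 (max l3 l4)), max J (max j1 (max j2 (max j3 j4))),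
    fun ℓ j hℓ hj k hk1 hk2 => ?_⟩
  simp only [max_le_iff] at hℓ hj
  obtain ⟨hl1, hl2, hl3, hl4⟩ := hℓ
  obtain ⟨hjJ, hj1, hj2, hj3, hj4⟩ := hj
  obtain ⟨p, K, hpP, hKk, hKε, ht₁K, hKT, hΔ0, hΔ1⟩ := grid_point ht₀ hjJ hJ1 hk1 hk2
  set xJ : ℝ := (1 / 2 : ℝ) ^ J with hxJ
  set Δ : ℝ := ((k : ℝ) - K) * (1 / 2 : ℝ) ^ j with hΔ
  have hΔs : H * (Δ + Real.sqrt Δ) ≤ H * (xJ + Real.sqrt xJ) :=
    mul_le_mul_of_nonneg_left (add_le_add hΔ1 (Real.sqrt_le_sqrt hΔ1)) hH.le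
  have c1 := aC_sub_le (A := A) hp₁ h10 h11 hA hn a₀ o₀ ℓ j K k
  have c2 := aC_sub_le (A := A) hp₂ h20 h21 hA hn a₀ o₀ ℓ j K k
  have c3 := h3 ℓ j hl3 hj3 K k hKk ht₁K hk2 a₀ o₀ hao
  have c4 := h4 ℓ j hl4 hj4 K k hKk ht₁K hk2 a₀ o₀ hao
  have c5 := h1 ℓ j hl1 hj1 K J p hKε hKT
  have c6 := h2 ℓ j hl2 hj2 K J p hKε hKT
  have c7 := hgrid p hpP
  have h2A : 0 ≤ 2 / A := by positivity
  have c1' : |aC G θ₁ A γ a₀ o₀ ℓ j k - aC G θ₁ A γ a₀ o₀ ℓ j K|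
      ≤ 2 / A * (H * (xJ + Real.sqrt xJ) + η₀) :=
    c1.trans (mul_le_mul_of_nonneg_left (c3.trans (by linarith)) h2A)
  have c2' : |aC G θ₂ A γ a₀ o₀ ℓ j k - aC G θ₂ A γ a₀ o₀ ℓ j K|
      ≤ 2 / A * (H * (xJ + Real.sqrt xJ) + η₀) :=
    c2.trans (mul_le_mul_of_nonneg_left (c4.trans (by linarith)) h2A)
  have e1 := abs_le.1 c1'
  have e2 := abs_le.1 c2'
  have e3 := abs_le.1 c5
  have e4 := abs_le.1 c6
  have e5 := abs_le.1 c7
  have e6 : 2 / A * (H * (xJ + Real.sqrt xJ) + η₀) + 2 / A * (H * (xJ + Real.sqrt xJ) + η₀)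
      + 3 * η₀ = 4 / A * H * (xJ + Real.sqrt xJ) + (4 / A + 3) * η₀ := by ring
  rw [abs_le, ← e6]
  constructor <;> linarith [e1.1, e1.2, e2.1, e2.2, e3.1, e3.2, e4.1, e4.2, e5.1, e5.2]

/-- The bound of `MM`, from the comparison of the capped means. -/
theorem mm_final (hT : G.IsTree) (hdeg : ∀ v, G.degree v = d) (hd : 3 ≤ d) {θ₁ θ₂ A dA CD δ : ℝ}
    (hp₁ : TreeParams G d θ₁) (hp₂ : TreeParams G d θ₂)
    (h10 : 0 < θ₁) (h11 : θ₁ < 1) (h20 : 0 < θ₂) (h21 : θ₂ < 1) (hA : 0 < A)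
    {γ : ℕ → ℕ → unitInterval → ℝ}
    (hn : ∀ j, IsNoise (uniformField V) (fun (k : ℕ) (v : V) (u : V → unitInterval) => γ j k (u v)))
    {a₀ o₀ a b : V} (hao : G.Adj a₀ o₀) (hab : G.Adj a b) {ℓ j k : ℕ}
    (hdiff : |aC G θ₁ A γ a₀ o₀ ℓ j k - aC G θ₂ A γ a₀ o₀ ℓ j k| ≤ dA)
    (hAdA : A * dA = δ / 4) (hlg : |Real.log θ₁ - Real.log θ₂| ≤ δ / 4)
    (hA1 : 4 / A * (2 * (2 + CD)) ≤ δ / 4)
    (ht₁ : ∫ u, max (masterChain G θ₁ γ ℓ j k u a₀ o₀ ^ 2 - 1) 0 ∂(uniformField V) ≤ CD / 1 + 1)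
    (ht₂ : ∫ u, max (masterChain G θ₂ γ ℓ j k u a₀ o₀ ^ 2 - 1) 0 ∂(uniformField V) ≤ CD / 1 + 1)
    (hδ : 0 < δ) :
    |MM G θ₁ θ₂ γ ℓ j k a b| ≤ δ := by
  have := limit_uniformField_prob V
  have hf₁ := masterChain_eqField hp₁ hn ℓ j k
  have hf₂ := masterChain_eqField hp₂ hn ℓ j k
  have hMM : MM G θ₁ θ₂ γ ℓ j k a b = MM G θ₁ θ₂ γ ℓ j k a₀ o₀ :=
    integral_edge_const hT hdeg (by omega)
      (fun u x y => lX θ₁ θ₂ (masterChain G θ₁ γ ℓ j k u) (masterChain G θ₂ γ ℓ j k u) x y)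
      (fun x y => measurable_lX θ₁ θ₂ hf₁ hf₂ x y)
      (fun e u x y => lX_equiv hf₁ hf₂ e u x y) hab hao
  rw [hMM]
  have hbound := mm_bound (P := uniformField V) h10 h11 h20 h21 hA (hf₁.meas a₀ o₀) (hf₂.meas a₀ o₀)
    (hf₁.memLp a₀ o₀) (hf₂.memLp a₀ o₀)
  have hsq₁ : ∫ u, masterChain G θ₁ γ ℓ j k u a₀ o₀ ^ 2 ∂(uniformField V) ≤ 2 + CD :=
    sq_int_le (hf₁.meas a₀ o₀) (hf₁.memLp a₀ o₀) ht₁
  have hsq₂ : ∫ u, masterChain G θ₂ γ ℓ j k u a₀ o₀ ^ 2 ∂(uniformField V) ≤ 2 + CD :=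
    sq_int_le (hf₂.meas a₀ o₀) (hf₂.memLp a₀ o₀) ht₂
  have hMMeq : MM G θ₁ θ₂ γ ℓ j k a₀ o₀ = ∫ u, (lF θ₁ (masterChain G θ₁ γ ℓ j k u a₀ o₀)
      - lF θ₂ (masterChain G θ₂ γ ℓ j k u a₀ o₀)) ∂(uniformField V) := rfl
  rw [hMMeq]
  have hAa : A * |aC G θ₁ A γ a₀ o₀ ℓ j k - aC G θ₂ A γ a₀ o₀ ℓ j k| ≤ δ / 4 := by
    rw [← hAdA]
    exact mul_le_mul_of_nonneg_left hdiff hA.le
  have hq : 4 / A * (∫ u, masterChain G θ₁ γ ℓ j k u a₀ o₀ ^ 2 ∂(uniformField V)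
      + ∫ u, masterChain G θ₂ γ ℓ j k u a₀ o₀ ^ 2 ∂(uniformField V)) ≤ δ / 4 := by
    refine le_trans (mul_le_mul_of_nonneg_left (add_le_add hsq₁ hsq₂) (by positivity)) ?_
    have : (2 + CD) + (2 + CD) = 2 * (2 + CD) := by ring
    rw [this]
    exact hA1
  have hb2 : |∫ u, (lF θ₁ (masterChain G θ₁ γ ℓ j k u a₀ o₀)
      - lF θ₂ (masterChain G θ₂ γ ℓ j k u a₀ o₀)) ∂(uniformField V)|
      ≤ |Real.log θ₁ - Real.log θ₂| + A * |aC G θ₁ A γ a₀ o₀ ℓ j k - aC G θ₂ A γ a₀ o₀ ℓ j k|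
        + 4 / A * (∫ u, masterChain G θ₁ γ ℓ j k u a₀ o₀ ^ 2 ∂(uniformField V)
      + ∫ u, masterChain G θ₂ γ ℓ j k u a₀ o₀ ^ 2 ∂(uniformField V)) := hbound
  linarith

/-- The elementary constants. -/
theorem exists_mesh {A H dA t₀ : ℝ} (hA : 0 < A) (hdA : 0 < dA) (ht₀ : 0 < t₀) :
    ∃ J : ℕ, (1 / 2 : ℝ) ^ J ≤ t₀ / 2 ∧
      4 / A * H * ((1 / 2 : ℝ) ^ J + Real.sqrt ((1 / 2 : ℝ) ^ J)) ≤ dA / 2 := by
  have hx : Tendsto (fun J : ℕ => (1 / 2 : ℝ) ^ J) atTop (𝓝 0) :=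
    tendsto_pow_atTop_nhds_zero_of_lt_one (by norm_num) (by norm_num)
  have hs : Tendsto (fun J : ℕ => 4 / A * H * ((1 / 2 : ℝ) ^ J + Real.sqrt ((1 / 2 : ℝ) ^ J))) atTop
      (𝓝 (4 / A * H * (0 + Real.sqrt 0))) :=
    (hx.add ((Real.continuous_sqrt.tendsto 0).comp hx)).const_mul _
  rw [Real.sqrt_zero, add_zero, mul_zero] at hs
  obtain ⟨J, hJ1, hJ2⟩ := ((hx.eventually (gt_mem_nhds (by positivity : (0 : ℝ) < t₀ / 2))).and
    (hs.eventually (gt_mem_nhds (by positivity : (0 : ℝ) < dA / 2)))).exists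
  exact ⟨J, hJ1.le, hJ2.le⟩

theorem log_cauchy {θs : ℕ → ℝ} (hd1 : (2 : ℝ) ≤ (d : ℝ) - 1) (hgood0 : ∀ n, 0 < θs n)
    (hlim : Tendsto (fun n => θs n ^ 2 * ((d : ℝ) - 1)) atTop (𝓝 1)) (ε : ℝ) (hε : 0 < ε) :
    ∃ I : ℕ, ∀ n n', I ≤ n → I ≤ n' → |Real.log (θs n) - Real.log (θs n')| ≤ ε := by
  have h1 : Tendsto (fun n => Real.log (θs n ^ 2 * ((d : ℝ) - 1))) atTop (𝓝 (Real.log 1)) :=
    (Real.continuousAt_log one_ne_zero).tendsto.comp hlim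
  have hd2 : (d : ℝ) - 1 ≠ 0 := by linarith
  have h2 : Tendsto (fun n => Real.log (θs n)) atTop
      (𝓝 ((Real.log 1 - Real.log ((d : ℝ) - 1)) / 2)) := by
    refine (h1.sub_const _).div_const 2 |>.congr fun n => ?_
    rw [Real.log_mul (pow_ne_zero 2 (hgood0 n).ne') hd2, Real.log_pow]
    push_cast
    ring
  have h3 := h2.cauchySeq
  rw [Metric.cauchySeq_iff] at h3
  obtain ⟨I, hI⟩ := h3 ε hε
  refine ⟨I, fun n n' hn hn' => ?_⟩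
  have := hI n hn n' hn'
  rw [Real.dist_eq] at this
  exact this.le

/-- The selection of the subsequence. -/
theorem exists_selection (g : ℕ → ℕ → ℕ → ℕ → ℝ) (hg0 : ∀ n N i k, 0 ≤ g n N i k)
    (hg1 : ∀ n N i k, g n N i k ≤ 1) :
    ∃ φ : ℕ → ℕ, StrictMono φ ∧ ∀ (N i k : ℕ) (ε : ℝ), 0 < ε → ∃ I : ℕ, ∀ n n', I ≤ n → I ≤ n' →
      |g (φ n) N i k - g (φ n') N i k| ≤ ε := by
  let x : ℕ → (ℕ × ℕ × ℕ → Set.Icc (0 : ℝ) 1) :=
    fun n idx => ⟨g n idx.1 idx.2.1 idx.2.2, hg0 _ _ _ _, hg1 _ _ _ _⟩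
  obtain ⟨ainf, φ, hφ, hconv⟩ := CompactSpace.tendsto_subseq x
  refine ⟨φ, hφ, ?_⟩
  intro N i k ε hε
  have h1 := (tendsto_pi_nhds.1 hconv) (N, i, k)
  have h2 : Tendsto (fun n => g (φ n) N i k) atTop (𝓝 (ainf (N, i, k)).1) :=
    continuous_subtype_val.continuousAt.tendsto.comp h1
  have h3 := h2.cauchySeq
  rw [Metric.cauchySeq_iff] at h3
  obtain ⟨I, hI⟩ := h3 ε hε
  refine ⟨I, fun n n' hn hn' => ?_⟩
  have := hI n hn n' hn'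
  rw [Real.dist_eq] at this
  exact this.le

/-- **Main statement of the module, given the equi-Hölder bound.** -/
theorem mu_select_of_holder (hT : G.IsTree) (hdeg : ∀ v, G.degree v = d) (hd : 3 ≤ d)
    {γ : ℕ → ℕ → unitInterval → ℝ}
    (hn : ∀ j, IsNoise (uniformField V) (fun (k : ℕ) (v : V) (u : V → unitInterval) => γ j k (u v)))
    (θs : ℕ → ℝ) (hθ : ∀ n, GoodT d (θs n))
    (hlim : Tendsto (fun n => θs n ^ 2 * ((d : ℝ) - 1)) atTop (𝓝 1))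
    (hold : ∀ T : ℝ, 0 < T → ∀ t₁ : ℝ, 0 < t₁ → ∃ H : ℝ, 0 < H ∧ ∀ θ : ℝ, GoodT d θ →
      1 - θ ^ 2 * ((d : ℝ) - 1) ≤ sL t₁ →
      ∀ δ : ℝ, 0 < δ → ∃ ℓ₀ j₀ : ℕ, ∀ ℓ j, ℓ₀ ≤ ℓ → j₀ ≤ j → ∀ k k' : ℕ, k ≤ k' →
        t₁ ≤ (k : ℝ) * (1 / 2 : ℝ) ^ j → (k' : ℝ) * (1 / 2 : ℝ) ^ j ≤ T → ∀ a b, G.Adj a b →
          ∫ u, |masterChain G θ γ ℓ j k' u a b - masterChain G θ γ ℓ j k u a b| ∂(uniformField V)
            ≤ H * (((k' : ℝ) - k) * (1 / 2 : ℝ) ^ j + Real.sqrt (((k' : ℝ) - k) * (1 / 2 : ℝ) ^ j))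
              + δ) :
    ∃ φ : ℕ → ℕ, StrictMono φ ∧ ∀ (t₀ T δ : ℝ), 0 < t₀ → 0 < T → 0 < δ → ∀ a b, G.Adj a b →
      ∃ I : ℕ, ∀ n n', I ≤ n → I ≤ n' → ∃ ℓ₀ j₀ : ℕ, ∀ ℓ j, ℓ₀ ≤ ℓ → j₀ ≤ j → ∀ k : ℕ,
        t₀ ≤ (k : ℝ) * (1 / 2 : ℝ) ^ j → (k : ℝ) * (1 / 2 : ℝ) ^ j ≤ T →
          |MM G (θs (φ n)) (θs (φ n')) γ ℓ j k a b| ≤ δ := by
  have hd3 : (3 : ℝ) ≤ d := by exact_mod_cast hd
  have hgood0 : ∀ n, 0 < θs n := fun n => (hθ n).1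
  have hgood1 : ∀ n, θs n < 1 := fun n => by
    have h1 := (hθ n).2.2
    have h0 := (hθ n).1
    nlinarith
  have hp : ∀ n, TreeParams G d (θs n) := fun n => GoodT.treeParams hT hdeg hd (hθ n)
  -- the base edge
  obtain ⟨a₀⟩ := hT.1.nonempty
  have hdeg0 : 0 < G.degree a₀ := by rw [hdeg]; omega
  obtain ⟨o₀, hao⟩ := (G.degree_pos_iff_exists_adj a₀).1 hdeg0
  -- the limits
  have hex : ∀ n N i k : ℕ, ∃ g : ℝ, 0 ≤ g ∧ g ≤ 1 ∧
      Tendsto (fun m : ℕ => aC G (θs n) ((N : ℝ) + 1) γ a₀ o₀ m (i + m) (k * 2 ^ m)) atTop (𝓝 g) :=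
    fun n N i k => exists_gLim (hp n) (hgood0 n) (hgood1 n) (Nat.cast_add_one_pos N) hn hao i k
  choose g hg0 hg1 hgt using hex
  obtain ⟨φ, hφ, hcau⟩ := exists_selection g hg0 hg1
  have hgap : ∀ c : ℝ, 0 < c → ∃ I : ℕ, ∀ n, I ≤ n → 1 - θs n ^ 2 * ((d : ℝ) - 1) ≤ c := by
    intro c hc
    have h1 := hlim.eventually (lt_mem_nhds (by linarith : 1 - c < 1))
    obtain ⟨I, hI⟩ := eventually_atTop.1 h1
    refine ⟨I, fun n hn => ?_⟩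
    have := hI n hn
    linarith
  refine ⟨φ, hφ, ?_⟩
  intro t₀ T δ ht₀ hT0 hδ a b hab
  obtain ⟨CD, hCD, htail⟩ := tail_chain hT hdeg hd T hT0
  obtain ⟨N, hN⟩ := exists_nat_gt (32 * (2 + CD) / δ)
  set A : ℝ := (N : ℝ) + 1 with hAdef
  have hA : 0 < A := Nat.cast_add_one_pos N
  have hA1 : 4 / A * (2 * (2 + CD)) ≤ δ / 4 := by
    have h1 : 32 * (2 + CD) / δ < A := by
      have : (N : ℝ) < A := by rw [hAdef]; linarith
      linarith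
    rw [div_lt_iff₀ hδ] at h1
    rw [div_mul_eq_mul_div, div_le_iff₀ hA]
    nlinarith
  have ht₁0 : 0 < t₀ / 2 := by positivity
  obtain ⟨H, hH, hhold⟩ := hold T hT0 (t₀ / 2) ht₁0
  set dA : ℝ := δ / (4 * A) with hdA
  have hdA0 : 0 < dA := by positivity
  have hAdA : A * dA = δ / 4 := by
    rw [hdA]; field_simp
  set η₀ : ℝ := dA / (2 * (4 / A + 3)) with hη₀def
  have hη₀ : 0 < η₀ := by positivity
  have hη₀2 : (4 / A + 3) * η₀ = dA / 2 := by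
    rw [hη₀def]; field_simp
  obtain ⟨J, hJ1, hJ2⟩ := exists_mesh (H := H) hA hdA0 ht₀
  have hgrid : ∀ P : ℕ, ∃ I : ℕ, ∀ p, p ≤ P → ∀ n n', I ≤ n → I ≤ n' →
      |g (φ n) N J p - g (φ n') N J p| ≤ η₀ := by
    intro P
    induction P with
    | zero =>
      obtain ⟨I, hI⟩ := hcau N J 0 η₀ hη₀
      refine ⟨I, fun p hp n n' hn hn' => ?_⟩
      obtain rfl : p = 0 := by omega
      exact hI n n' hn hn'
    | succ P ih =>
      obtain ⟨I, hI⟩ := ih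
      obtain ⟨I', hI'⟩ := hcau N J (P + 1) η₀ hη₀
      refine ⟨max I I', fun p hp n n' hn hn' => ?_⟩
      rcases Nat.lt_or_ge p (P + 1) with h | h
      · exact hI p (by omega) n n' ((le_max_left _ _).trans hn) ((le_max_left _ _).trans hn')
      · obtain rfl : p = P + 1 := by omega
        exact hI' n n' ((le_max_right _ _).trans hn) ((le_max_right _ _).trans hn')
  obtain ⟨I₁, hI₁⟩ := hgrid ⌊T * 2 ^ J⌋₊
  obtain ⟨I₂, hI₂⟩ := log_cauchy (d := d) (by linarith) hgood0 hlim (δ / 4) (by positivity)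
  obtain ⟨I₃, hI₃⟩ := hgap (sL (t₀ / 2)) (sL_pos ht₁0)
  refine ⟨max I₁ (max I₂ I₃), fun n n' hnI hnI' => ?_⟩
  have hφn : n ≤ φ n := hφ.le_apply
  have hφn' : n' ≤ φ n' := hφ.le_apply
  have hn1 : I₁ ≤ n := (le_max_left _ _).trans hnI
  have hn2 : I₂ ≤ n := ((le_max_left _ _).trans (le_max_right _ _)).trans hnI
  have hn3 : I₃ ≤ n := ((le_max_right _ _).trans (le_max_right _ _)).trans hnI
  have hn1' : I₁ ≤ n' := (le_max_left _ _).trans hnI'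
  have hn2' : I₂ ≤ n' := ((le_max_left _ _).trans (le_max_right _ _)).trans hnI'
  have hn3' : I₃ ≤ n' := ((le_max_right _ _).trans (le_max_right _ _)).trans hnI'
  obtain ⟨l0, j0, h0⟩ := aC_compare (A := A) (H := H) (η₀ := η₀) (t₀ := t₀) (T := T) (hp (φ n))
    (hp (φ n')) (hgood0 _) (hgood1 _) (hgood0 _) (hgood1 _) hA hH hη₀ ht₀ hn hao
    (g₁ := g (φ n) N) (g₂ := g (φ n') N) (hgt (φ n) N) (hgt (φ n') N)
    (hhold _ (hθ _) (hI₃ _ (hn3.trans hφn)) η₀ hη₀)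
    (hhold _ (hθ _) (hI₃ _ (hn3'.trans hφn')) η₀ hη₀) hJ1
    (fun p hp => hI₁ p hp n n' hn1 hn1')
  obtain ⟨l5, j5, h5⟩ := htail _ (hθ (φ n)) hn 1 one_pos
  obtain ⟨l6, j6, h6⟩ := htail _ (hθ (φ n')) hn 1 one_pos
  refine ⟨max l0 (max l5 l6), max j0 (max j5 j6), fun ℓ j hℓ hj k hk1 hk2 => ?_⟩
  simp only [max_le_iff] at hℓ hj
  obtain ⟨hl0, hl5, hl6⟩ := hℓ
  obtain ⟨hj0, hj5, hj6⟩ := hj
  have hdiff := h0 ℓ j hl0 hj0 k hk1 hk2
  rw [hη₀2] at hdiff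
  exact mm_final hT hdeg hd (hp (φ n)) (hp (φ n')) (hgood0 _) (hgood1 _) (hgood0 _) (hgood1 _) hA hn
    hao hab (hdiff.trans (by linarith)) hAdA (hI₂ _ _ (hn2.trans hφn) (hn2'.trans hφn')) hA1
    (h5 ℓ j hl5 hj5 k hk2 a₀ o₀ hao 1 one_pos) (h6 ℓ j hl6 hj6 k hk2 a₀ o₀ hao 1 one_pos) hδ

end

end Vale.Agent.Lib.P161.SM
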