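import Vale.Agent.Lib.P161.End.OneStepEnd
import Vale.Agent.Lib.P161.End.Select1
import Vale.Agent.Lib.P161.End.SelectMu

/-!
P161 endpoint, module Select: along a subsequence of parameters tending to the critical one, the
means of the logarithmic derivatives converge, uniformly in time on compact subsets of `(0, ∞)`.
See notes/P161_endpoint_blueprint.md, section 5.
-/

open MeasureTheory ProbabilityTheory Finset Filter

open scoped Topology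

namespace Vale.Agent.Lib.P161

noncomputable section

variable {V : Type*} [DecidableEq V] {G : SimpleGraph V} [G.LocallyFinite] {d : ℕ}

/-- **S1.** Equi-Hölder bound in time, uniformly in the parameter. -/
theorem holder_chain (hT : G.IsTree) (hdeg : ∀ v, G.degree v = d) (hd : 3 ≤ d) (T : ℝ)
    (hT0 : 0 < T) (t₁ : ℝ) (ht₁ : 0 < t₁) :
    ∃ H : ℝ, 0 < H ∧ ∀ θ : ℝ, GoodT d θ → 1 - θ ^ 2 * ((d : ℝ) - 1) ≤ sL t₁ →
      ∀ {γ : ℕ → ℕ → unitInterval → ℝ},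
      (∀ j, IsNoise (uniformField V) (fun (k : ℕ) (v : V) (u : V → unitInterval) => γ j k (u v))) →
      ∀ δ : ℝ, 0 < δ → ∃ ℓ₀ j₀ : ℕ, ∀ ℓ j, ℓ₀ ≤ ℓ → j₀ ≤ j → ∀ k k' : ℕ, k ≤ k' →
        t₁ ≤ (k : ℝ) * (1 / 2 : ℝ) ^ j → (k' : ℝ) * (1 / 2 : ℝ) ^ j ≤ T → ∀ a b, G.Adj a b →
          ∫ u, |masterChain G θ γ ℓ j k' u a b - masterChain G θ γ ℓ j k u a b| ∂(uniformField V)
            ≤ H * (((k' : ℝ) - k) * (1 / 2 : ℝ) ^ j + Real.sqrt (((k' : ℝ) - k) * (1 / 2 : ℝ) ^ j))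
              + δ := by
  exact holder_chain_aux hT hdeg hd T hT0 t₁ ht₁

/-- **Main statement of the module.** -/
theorem mu_select (hT : G.IsTree) (hdeg : ∀ v, G.degree v = d) (hd : 3 ≤ d)
    {γ : ℕ → ℕ → unitInterval → ℝ}
    (hn : ∀ j, IsNoise (uniformField V) (fun (k : ℕ) (v : V) (u : V → unitInterval) => γ j k (u v)))
    (θs : ℕ → ℝ) (hθ : ∀ n, GoodT d (θs n))
    (hlim : Tendsto (fun n => θs n ^ 2 * ((d : ℝ) - 1)) atTop (𝓝 1)) :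
    ∃ φ : ℕ → ℕ, StrictMono φ ∧ ∀ (t₀ T δ : ℝ), 0 < t₀ → 0 < T → 0 < δ → ∀ a b, G.Adj a b →
      ∃ I : ℕ, ∀ n n', I ≤ n → I ≤ n' → ∃ ℓ₀ j₀ : ℕ, ∀ ℓ j, ℓ₀ ≤ ℓ → j₀ ≤ j → ∀ k : ℕ,
        t₀ ≤ (k : ℝ) * (1 / 2 : ℝ) ^ j → (k : ℝ) * (1 / 2 : ℝ) ^ j ≤ T →
          |MM G (θs (φ n)) (θs (φ n')) γ ℓ j k a b| ≤ δ :=
  SM.mu_select_of_holder hT hdeg hd hn θs hθ hlim (fun T hT0 t₁ ht₁ => by
    obtain ⟨H, hH, h⟩ := holder_chain hT hdeg hd T hT0 t₁ ht₁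
    exact ⟨H, hH, fun θ hg hgap δ hδ => h θ hg hgap hn δ hδ⟩)

end

end Vale.Agent.Lib.P161
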