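import Vale.Agent.Lib.P161.End.Pack
import Vale.Agent.Lib.P161.End.CascLip

/-!
P161 endpoint, module StatA.A4: the moment of a power of the product along a ray against one term.
The theorem `moment_block_core` is `moment_block` of `End/StatA.lean` with `rayPi` written out.
See notes/P161_endpoint_blueprint.md, section 4.
-/

open MeasureTheory ProbabilityTheory Finset

set_option linter.unusedSectionVars false

namespace Vale.Agent.Lib.P161

noncomputable section

variable {V : Type*} [DecidableEq V] {G : SimpleGraph V} [G.LocallyFinite] {d : ℕ}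

theorem measurable_phiF_A4 (θ : ℝ) : Measurable (phiF θ) := by
  unfold phiF
  exact (measurable_const.div (measurable_const.add
    (measurable_const.mul (Real.measurable_sinh.pow_const 2)))).pow_const 2

/-- A bounded measurable function times an integrable function. -/
theorem integrable_bdd_mul' {Ω : Type*} [MeasurableSpace Ω] {P : Measure Ω} {Z Y : Ω → ℝ}
    (hZm : Measurable Z) (hYm : Measurable Y) (hYi : Integrable Y P) (hZ : ∀ u, |Z u| ≤ 1) :
    Integrable (fun u => Z u * Y u) P := by
  refine hYi.abs.mono' (hZm.mul hYm).aestronglyMeasurable (Filter.Eventually.of_forall fun u => ?_)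
  rw [Real.norm_eq_abs, abs_mul]
  exact mul_le_of_le_one_left (abs_nonneg _) (hZ u)

/-- The pointwise threshold inequality, integrated. -/
theorem integral_threshold {Ω : Type*} [MeasurableSpace Ω] {P : Measure Ω} [IsProbabilityMeasure P]
    {Z Y : Ω → ℝ} (hZm : Measurable Z) (hYm : Measurable Y) (hYi : Integrable Y P)
    (hZ0 : ∀ u, 0 ≤ Z u) (hZ1 : ∀ u, Z u ≤ 1) (hY0 : ∀ u, 0 ≤ Y u) {ε A : ℝ} (hε : 0 ≤ ε)
    (hA : 0 < A) :
    ∫ u, Z u * Y u ∂P ≤ ε * ∫ u, Y u ∂P + A * ∫ u, max (Z u - ε) 0 ∂P
      + ∫ u, max (Y u - A) 0 ∂P := by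
  have i1 : Integrable (fun u => Z u * Y u) P :=
    integrable_bdd_mul' hZm hYm hYi fun u => by rw [abs_of_nonneg (hZ0 u)]; exact hZ1 u
  have i2 : Integrable (fun u => max (Z u - ε) 0) P := by
    refine (integrable_const (1 : ℝ)).mono' ((hZm.sub_const ε).max measurable_const).aestronglyMeasurable
      (Filter.Eventually.of_forall fun u => ?_)
    rw [Real.norm_eq_abs, abs_of_nonneg (le_max_right _ _)]
    exact max_le (by linarith [hZ1 u]) zero_le_one
  have i3 : Integrable (fun u => max (Y u - A) 0) P := by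
    refine hYi.mono' ((hYm.sub_const A).max measurable_const).aestronglyMeasurable
      (Filter.Eventually.of_forall fun u => ?_)
    rw [Real.norm_eq_abs, abs_of_nonneg (le_max_right _ _)]
    exact max_le (by linarith) (hY0 u)
  have key : ∀ u, Z u * Y u ≤ ε * Y u + A * max (Z u - ε) 0 + max (Y u - A) 0 := by
    intro u
    have hm1 := le_max_left (Z u - ε) 0
    have hm2 := le_max_right (Z u - ε) 0
    have hm3 := le_max_left (Y u - A) 0
    have hm4 := le_max_right (Y u - A) 0
    by_cases h : Z u ≤ ε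
    · have : Z u * Y u ≤ ε * Y u := mul_le_mul_of_nonneg_right h (hY0 u)
      have h5 : 0 ≤ A * max (Z u - ε) 0 := mul_nonneg hA.le hm2
      linarith
    · push Not at h
      have hle : Z u - ε ≤ 1 := by linarith [hZ1 u]
      have hz : 0 ≤ Z u - ε := by linarith
      have e1 : (Z u - ε) * Y u ≤ (Z u - ε) * A + max (Y u - A) 0 := by
        have e2 : Y u ≤ A + max (Y u - A) 0 := by linarith
        have e3 : (Z u - ε) * Y u ≤ (Z u - ε) * (A + max (Y u - A) 0) :=
          mul_le_mul_of_nonneg_left e2 hz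
        have e4 : (Z u - ε) * max (Y u - A) 0 ≤ 1 * max (Y u - A) 0 :=
          mul_le_mul_of_nonneg_right hle hm4
        nlinarith
      have e5 : A * (Z u - ε) ≤ A * max (Z u - ε) 0 := mul_le_mul_of_nonneg_left hm1 hA.le
      nlinarith
  calc ∫ u, Z u * Y u ∂P
      ≤ ∫ u, (ε * Y u + A * max (Z u - ε) 0 + max (Y u - A) 0) ∂P :=
        integral_mono i1 (((hYi.const_mul ε).add (i2.const_mul A)).add i3) key
    _ = _ := by
        have e1 : ∫ u, (ε * Y u + A * max (Z u - ε) 0 + max (Y u - A) 0) ∂P
            = ∫ u, (ε * Y u + A * max (Z u - ε) 0) ∂P + ∫ u, max (Y u - A) 0 ∂P :=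
          integral_add ((hYi.const_mul ε).add (i2.const_mul A)) i3
        have e2 : ∫ u, (ε * Y u + A * max (Z u - ε) 0) ∂P
            = ∫ u, ε * Y u ∂P + ∫ u, A * max (Z u - ε) 0 ∂P :=
          integral_add (hYi.const_mul ε) (i2.const_mul A)
        rw [e1, e2, integral_const_mul, integral_const_mul]

theorem casc_measurable {Ω : Type*} [MeasurableSpace Ω] {N : V → Finset V} {bb : ℝ}
    {W : Ω → V → V → ℝ} (hW : ∀ x y, Measurable fun u => W u x y) (n : ℕ) (a c : V) :
    Measurable fun u => casc N bb (W u) n a c := by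
  induction n generalizing a c with
  | zero => exact measurable_const
  | succ n ih =>
    simp only [casc]
    refine Measurable.const_mul ?_ _
    exact Finset.measurable_sum _ fun z _ => (hW z a).mul (ih z a)

/-- **Mass transport along paths.** The integral of the product of an equivariant weight along a
fixed non-backtracking path, against a functional of its last edge, is the integral of the cascade
against that functional. -/
theorem integral_prodW_eq_casc (hT : G.IsTree) (hdeg : ∀ v, G.degree v = d) (hd : 3 ≤ d)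
    {W : (V → unitInterval) → V → V → ℝ} (hW0 : ∀ u x y, 0 ≤ W u x y) (hW1 : ∀ u x y, W u x y ≤ 1)
    (hWm : ∀ x y, Measurable fun u => W u x y)
    (hWe : ∀ (g : G ≃g G) u x y, W (u ∘ g.symm) (g x) (g y) = W u x y)
    {a b : V} (hab : G.Adj a b) {Y : (V → unitInterval) → ℝ} (hYm : Measurable Y)
    (hYi : Integrable Y (uniformField V))
    (hYe : ∀ (g : G ≃g G) u, g a = a → g b = b → Y (u ∘ g.symm) = Y u)
    (k : ℕ) {π₀ : List V} (hπ₀ : NBList G π₀) (hs : [a, b] <:+ π₀) (hlen : π₀.length = 2 + k) :
    ∫ u, prodW (W u) π₀ * Y u ∂(uniformField V)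
      = ∫ u, casc (nbV G) ((d : ℝ) - 1) (W u) k a b * Y u ∂(uniformField V) := by
  have hd3 : (3 : ℝ) ≤ d := by exact_mod_cast hd
  set bb : ℝ := (d : ℝ) - 1 with hbb
  have hbb0 : 0 < bb := by linarith
  have hbp : bb ^ k ≠ 0 := (pow_pos hbb0 k).ne'
  let f : (V → unitInterval) → List V → ℝ := fun u π => Y u * prodW (W u) π
  have hfm : ∀ π, Measurable fun u => f u π := fun π => hYm.mul (measurable_prodW hWm π)
  have hfi : ∀ π, Integrable (fun u => f u π) (uniformField V) := by
    intro π
    have := integrable_bdd_mul' (measurable_prodW hWm π) hYm hYi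
      (fun u => by
        rw [abs_of_nonneg (prodW_nonneg (hW0 u) π)]
        exact prodW_le_one (hW0 u) (hW1 u) π)
    simpa [f, mul_comm] using this
  have hconst : ∀ π₁ π₂, NBList G π₁ → NBList G π₂ → π₁.length = π₂.length →
      [a, b] <:+ π₁ → [a, b] <:+ π₂ →
      ∫ u, f u π₁ ∂(uniformField V) = ∫ u, f u π₂ ∂(uniformField V) := by
    intro π₁ π₂ h1 h2 hl s1 s2
    obtain ⟨g, hg⟩ := exists_aut_list hT hdeg (by omega) h1 h2 hl
    have hfix := map_suffix_eq (g := g) hg s1 s2
    have hga : g a = a := by simpa using (List.cons.inj hfix).1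
    have hgb : g b = b := by
      have := (List.cons.inj hfix).2
      simpa using (List.cons.inj this).1
    rw [← hg, ← integral_aut (fun u => f u (π₁.map g)) (hfm _) g]
    refine integral_congr_ae (Filter.Eventually.of_forall fun u => ?_)
    show Y u * prodW (W u) π₁ = Y (u ∘ g.symm) * prodW (W (u ∘ g.symm)) (π₁.map g)
    rw [hYe g u hga hgb, prodW_map g (hWe g u) π₁]
  have h1 := (integral_pathSum (P := uniformField V) (N := nbV G) f hfi k a b [a, b]).2
  have h2 : pathSum (nbV G) (fun π => ∫ u, f u π ∂(uniformField V)) k a b [a, b]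
      = bb ^ k * ∫ u, f u π₀ ∂(uniformField V) :=
    pathSum_eq_of_const hdeg (by omega) [a, b] _ hconst k a b [] hab (List.suffix_refl _) π₀ hπ₀ hs
      (by simpa [add_comm] using hlen)
  have h3 : ∀ u, pathSum (nbV G) (f u) k a b [a, b]
      = bb ^ k * (casc (nbV G) bb (W u) k a b * Y u) := by
    intro u
    have e1 := pathSum_const_mul (N := nbV G) (Y u) (prodW (W u)) k a b [a, b]
    have e2 := pathSum_prodW (nbV G) bb hbb0.ne' (W u) k a b []
    have e3 : prodW (W u) [a, b] = 1 := rfl
    rw [e3, one_mul] at e2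
    show pathSum (nbV G) (fun π => Y u * prodW (W u) π) k a b [a, b] = _
    rw [e1, e2]
    ring
  simp only [h3] at h1
  rw [integral_const_mul, h2] at h1
  have h4 := mul_left_cancel₀ hbp h1
  rw [h4]
  exact integral_congr_ae (Filter.Eventually.of_forall fun u => mul_comm _ _)

/-- The same with the function `q` on a finite piece: the list `rayList q k` only depends on `q`
on `[0, k + 1]`. -/
theorem rayList_nb_piece {q : ℕ → V} (k : ℕ) (hadj : ∀ i, i ≤ k → G.Adj (q i) (q (i + 1)))
    (hnb : ∀ i, i + 2 ≤ k + 1 → q (i + 2) ≠ q i) : NBList G (rayList q k) := by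
  induction k with
  | zero =>
    show G.Adj (q 1) (q 0)
    exact (hadj 0 le_rfl).symm
  | succ m ih =>
    have ih' := ih (fun i hi => hadj i (by omega)) (fun i hi => hnb i (by omega))
    cases m with
    | zero =>
      simp only [rayList, NBList]
      exact ⟨(hadj 1 le_rfl).symm, hnb 0 (by omega), (hadj 0 (by omega)).symm⟩
    | succ m =>
      have e : rayList q (m + 1 + 1) = q (m + 1 + 2) :: q (m + 2) :: rayList q m := rfl
      obtain ⟨z, l, hz⟩ : ∃ z l, rayList q m = z :: l ∧ z = q (m + 1) := by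
        cases m with
        | zero => exact ⟨q 1, [q 0], rfl, rfl⟩
        | succ m => exact ⟨q (m + 2), rayList q m, rfl, rfl⟩
      rw [e, hz.1]
      have ih2 : NBList G (q (m + 2) :: z :: l) := by
        have : rayList q (m + 1) = q (m + 2) :: z :: l := by
          show q (m + 2) :: rayList q m = _
          rw [hz.1]
        rwa [this] at ih'
      refine ⟨(hadj (m + 2) (by omega)).symm, ?_, ih2⟩
      rw [hz.2]
      exact hnb (m + 1) (by omega)

/-- The last two vertices of `rayList`. -/
theorem rayList_suffix (q : ℕ → V) (k : ℕ) : [q 1, q 0] <:+ rayList q k := by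
  induction k with
  | zero => exact List.suffix_refl _
  | succ k ih => exact ih.trans (List.suffix_cons _ _)

theorem epsN_nonneg {α : ℝ} (hα : 0 < α) (n : ℕ) : 0 ≤ epsN α n := by
  unfold epsN
  positivity

theorem epsN_anti {α : ℝ} (hα : 0 < α) (hα1 : α < 1) {m n : ℕ} (h : m ≤ n) :
    epsN α n ≤ epsN α m := by
  unfold epsN
  have : m / 2 - 1 ≤ n / 2 - 1 := Nat.sub_le_sub_right (Nat.div_le_div_right h) 1
  have h2 := pow_le_pow_of_le_one hα.le hα1.le this
  linarith

theorem tauN_anti {m n : ℕ} (h : m ≤ n) : tauN n ≤ tauN m := by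
  unfold tauN
  apply Real.exp_le_exp.2
  have : ((3 / 2 : ℝ)) ^ (m / 2) ≤ (3 / 2 : ℝ) ^ (n / 2) :=
    pow_le_pow_right₀ (by norm_num) (Nat.div_le_div_right h)
  linarith

/-- A product of numbers in `[0, 1]` over a set is at most the product over a subset. -/
theorem prod_le_prod_subset {ι : Type*} [DecidableEq ι] {s t : Finset ι} (hst : t ⊆ s) {f : ι → ℝ}
    (h0 : ∀ i, 0 ≤ f i) (h1 : ∀ i, f i ≤ 1) : ∏ i ∈ s, f i ≤ ∏ i ∈ t, f i := by
  rw [← Finset.prod_sdiff hst]
  have h2 : ∏ i ∈ s \ t, f i ≤ 1 := Finset.prod_le_one (fun i _ => h0 i) (fun i _ => h1 i)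
  have h3 : 0 ≤ ∏ i ∈ t, f i := Finset.prod_nonneg fun i _ => h0 i
  exact mul_le_of_le_one_left h3 h2

/-- **A4.** Moment of a power of the product along the ray against the square of one term: the
cascade behind the edge or the cascade in front of the edge is long. -/
theorem moment_block_core (hT : G.IsTree) (hdeg : ∀ v, G.degree v = d) (hd : 3 ≤ d) {θ : ℝ}
    (h0 : 0 < θ) (h1 : θ < 1) {η : (V → unitInterval) → V → V → ℝ} {p : ℕ} {α κ CD Cu s δ₁ : ℝ}
    {m₀ : ℕ} (hα : 0 < α) (hα1 : α < 1) (hκ : 1 ≤ κ)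
    (hp : FieldPack G d θ η p α κ CD Cu s m₀ δ₁)
    (Y : (V → unitInterval) → V → V → ℝ) (hY0 : ∀ u x y, 0 ≤ Y u x y)
    (hYm : ∀ x y, Measurable fun u => Y u x y)
    (hYi : ∀ x y, Integrable (fun u => Y u x y) (uniformField V))
    (hYe : ∀ (g : G ≃g G) u x y, Y (u ∘ g.symm) (g x) (g y) = Y u x y)
    {r : ℕ → V} (hr : IsRay G r) {m j : ℕ} (hj : j < m) (hk : 1 ≤ (m - 1) / 2)
    (hkm : (m - 1) / 2 ≤ m₀) {A : ℝ} (hA : 0 < A) :
    ∫ u, (∏ i ∈ range m, phiF θ (η u (r (i + 2)) (r (i + 1)))) ^ p * Y u (r (j + 2)) (r (j + 1))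
        ∂(uniformField V)
      ≤ κ * epsN α ((m - 1) / 2 - 1) * (∫ u, Y u (r (j + 2)) (r (j + 1)) ∂(uniformField V))
        + A * (tauN ((m - 1) / 2 - 1) + δ₁)
        + ∫ u, max (Y u (r (j + 2)) (r (j + 1)) - A) 0 ∂(uniformField V) := by
  have : IsProbabilityMeasure (uniformField V) := limit_uniformField_prob V
  set k := (m - 1) / 2 with hkdef
  have hk2 : 2 * k ≤ m - 1 := by omega
  -- the weights
  let w : (V → unitInterval) → V → V → ℝ := fun u x y => phiF θ (η u x y) ^ p
  let w' : (V → unitInterval) → V → V → ℝ := fun u x y => phiF θ (η u y x) ^ p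
  have hφ0 : ∀ x, 0 ≤ phiF θ x := fun x => (phiF_pos h0.le h1 x).le
  have hφ1 : ∀ x, phiF θ x ≤ 1 := fun x => phiF_le_one h0.le h1 x
  have hpw0 : ∀ x, 0 ≤ phiF θ x ^ p := fun x => pow_nonneg (hφ0 x) p
  have hpw1 : ∀ x, phiF θ x ^ p ≤ 1 := fun x => pow_le_one₀ (hφ0 x) (hφ1 x)
  have hw0 : ∀ u x y, 0 ≤ w u x y := fun u x y => hpw0 _
  have hw1 : ∀ u x y, w u x y ≤ 1 := fun u x y => hpw1 _
  have hw'0 : ∀ u x y, 0 ≤ w' u x y := fun u x y => hpw0 _
  have hw'1 : ∀ u x y, w' u x y ≤ 1 := fun u x y => hpw1 _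
  have hwm : ∀ x y, Measurable fun u => w u x y := fun x y =>
    ((measurable_phiF_A4 θ).comp (hp.eqf.meas x y)).pow_const p
  have hw'm : ∀ x y, Measurable fun u => w' u x y := fun x y =>
    ((measurable_phiF_A4 θ).comp (hp.eqf.meas y x)).pow_const p
  have hwe : ∀ (g : G ≃g G) u x y, w (u ∘ g.symm) (g x) (g y) = w u x y := by
    intro g u x y
    show phiF θ (η (u ∘ g.symm) (g x) (g y)) ^ p = _
    rw [hp.eqf.equiv]
  have hw'e : ∀ (g : G ≃g G) u x y, w' (u ∘ g.symm) (g x) (g y) = w' u x y := by
    intro g u x y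
    show phiF θ (η (u ∘ g.symm) (g y) (g x)) ^ p = _
    rw [hp.eqf.equiv]
  -- the edge `e_j` and its functional
  set x := r (j + 2) with hx
  set y := r (j + 1) with hy
  have hxy : G.Adj x y := (hr.adj (j + 1)).symm
  let YY : (V → unitInterval) → ℝ := fun u => Y u x y
  have hYYm : Measurable YY := hYm x y
  have hYYi : Integrable YY (uniformField V) := hYi x y
  have hYY0 : ∀ u, 0 ≤ YY u := fun u => hY0 u x y
  -- the whole product
  let PP : (V → unitInterval) → ℝ := fun u => ∏ i ∈ range m, w u (r (i + 2)) (r (i + 1))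
  have hPP : ∀ u, (∏ i ∈ range m, phiF θ (η u (r (i + 2)) (r (i + 1)))) ^ p = PP u := by
    intro u
    rw [← Finset.prod_pow]
  have hPPm : Measurable PP := Finset.measurable_prod _ fun i _ => hwm _ _
  have hPP0 : ∀ u, 0 ≤ PP u := fun u => Finset.prod_nonneg fun i _ => hw0 _ _ _
  have hPP1 : ∀ u, PP u ≤ 1 := fun u =>
    Finset.prod_le_one (fun i _ => hw0 _ _ _) (fun i _ => hw1 _ _ _)
  have hPi : Integrable (fun u => PP u * YY u) (uniformField V) :=
    integrable_bdd_mul' hPPm hYYm hYYi fun u => by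
      rw [abs_of_nonneg (hPP0 u)]
      exact hPP1 u
  simp only [hPP]
  -- the final bookkeeping
  have hIY : 0 ≤ ∫ u, YY u ∂(uniformField V) := integral_nonneg hYY0
  have hκε : 0 ≤ κ * epsN α (k - 1) := mul_nonneg (by linarith) (epsN_nonneg hα _)
  -- a block of factors
  have hblock : ∀ (B : Finset ℕ), B ⊆ range m →
      ∫ u, PP u * YY u ∂(uniformField V)
        ≤ ∫ u, (∏ i ∈ B, w u (r (i + 2)) (r (i + 1))) * YY u ∂(uniformField V) := by
    intro B hB
    refine integral_mono hPi ?_ fun u => ?_
    · refine integrable_bdd_mul' (Finset.measurable_prod _ fun i _ => hwm _ _) hYYm hYYi fun u => ?_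
      rw [abs_of_nonneg (Finset.prod_nonneg fun i _ => hw0 _ _ _)]
      exact Finset.prod_le_one (fun i _ => hw0 _ _ _) (fun i _ => hw1 _ _ _)
    · exact mul_le_mul_of_nonneg_right
        (prod_le_prod_subset hB (fun i => hw0 u _ _) (fun i => hw1 u _ _)) (hYY0 u)
  by_cases hcase : j + k ≤ m - 1
  · -- BEHIND: the block `e_{j+1}, …, e_{j+k}`
    let q : ℕ → V := fun i => r (i + j + 1)
    have hq : IsRay G q := ⟨fun i => by
        have := hr.adj (i + j + 1)
        simpa [q, add_assoc, add_comm, add_left_comm] using this,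
      fun i => by
        have := hr.nb (i + j + 1)
        simpa [q, add_assoc, add_comm, add_left_comm] using this⟩
    have hq0 : q 0 = y := by simp [q, hy]
    have hq1 : q 1 = x := by
      simp only [q, hx]
      congr 1
      omega
    have hπ := rayList_nb hq k
    have hsuf : [x, y] <:+ rayList q k := by
      have := rayList_suffix q k
      rwa [hq0, hq1] at this
    have hlen : (rayList q k).length = 2 + k := by rw [rayList_length]; ring
    have htr := integral_prodW_eq_casc hT hdeg hd hw0 hw1 hwm hwe hxy hYYm hYYi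
      (fun g u hga hgb => by
        show Y (u ∘ g.symm) x y = Y u x y
        conv_lhs => rw [← hga, ← hgb]
        exact hYe g u x y) k hπ hsuf hlen
    have hprod : ∀ u, prodW (w u) (rayList q k)
        = ∏ i ∈ (range k).image (fun i => i + j + 1), w u (r (i + 2)) (r (i + 1)) := by
      intro u
      rw [prodW_rayList, Finset.prod_image (by
        intro a _ b _ hab
        simpa using hab)]
      refine Finset.prod_congr rfl fun i _ => ?_
      have e1 : q (i + 2) = r (i + j + 1 + 2) := by
        simp only [q]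
        congr 1
        omega
      have e2 : q (i + 1) = r (i + j + 1 + 1) := by
        simp only [q]
        congr 1
        omega
      rw [e1, e2]
    have hB : (range k).image (fun i => i + j + 1) ⊆ range m := by
      intro i hi
      obtain ⟨l, hl, rfl⟩ := Finset.mem_image.1 hi
      have := Finset.mem_range.1 hl
      exact Finset.mem_range.2 (by omega)
    have hstep := hblock _ hB
    simp only [← hprod] at hstep
    rw [htr] at hstep
    -- threshold
    have hZ0 : ∀ u, 0 ≤ casc (nbV G) ((d : ℝ) - 1) (w u) k x y := fun u =>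
      (casc_mem_Icc hdeg (by omega) (hw0 u) (hw1 u) k hxy).1
    have hZ1 : ∀ u, casc (nbV G) ((d : ℝ) - 1) (w u) k x y ≤ 1 := fun u =>
      (casc_mem_Icc hdeg (by omega) (hw0 u) (hw1 u) k hxy).2
    have hth := integral_threshold (casc_measurable hwm k x y) hYYm hYYi hZ0 hZ1 hYY0
      (epsN_nonneg hα k) hA
    have hcl := hp.casc_le x y hxy k hkm
    have e1 : epsN α k ≤ κ * epsN α (k - 1) := by
      have := epsN_anti hα hα1 (Nat.sub_le k 1)
      have h3 := epsN_nonneg hα (k - 1)
      nlinarith
    have e2 : tauN k ≤ tauN (k - 1) := tauN_anti (Nat.sub_le k 1)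
    have e3 : ∫ u, max (casc (nbV G) ((d : ℝ) - 1) (w u) k x y - epsN α k) 0 ∂(uniformField V)
        ≤ tauN (k - 1) + δ₁ := by linarith
    have e4 : A * ∫ u, max (casc (nbV G) ((d : ℝ) - 1) (w u) k x y - epsN α k) 0 ∂(uniformField V)
        ≤ A * (tauN (k - 1) + δ₁) := mul_le_mul_of_nonneg_left e3 hA.le
    have e5 : epsN α k * ∫ u, YY u ∂(uniformField V)
        ≤ κ * epsN α (k - 1) * ∫ u, YY u ∂(uniformField V) :=
      mul_le_mul_of_nonneg_right e1 hIY
    linarith
  · -- FRONT: the block `e_{j-k}, …, e_{j-1}`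
    push Not at hcase
    have hkj : k ≤ j := by omega
    let q : ℕ → V := fun i => r (j + 2 - i)
    have hadj : ∀ i, i ≤ k → G.Adj (q i) (q (i + 1)) := by
      intro i hi
      have := (hr.adj (j + 1 - i)).symm
      have e1 : j + 1 - i + 1 = j + 2 - i := by omega
      have e2 : j + 2 - (i + 1) = j + 1 - i := by omega
      simpa [q, e1, e2] using this
    have hnb : ∀ i, i + 2 ≤ k + 1 → q (i + 2) ≠ q i := by
      intro i hi
      have := hr.nb (j - i)
      have e1 : j - i + 2 = j + 2 - i := by omega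
      have e2 : j + 2 - (i + 2) = j - i := by omega
      simp only [q, e2]
      rw [e1] at this
      exact this.symm
    have hq0 : q 0 = x := by simp [q, hx]
    have hq1 : q 1 = y := by
      simp only [q, hy]
      congr 1
    have hπ : NBList G (rayList q k) := rayList_nb_piece k hadj hnb
    have hsuf : [y, x] <:+ rayList q k := by
      have := rayList_suffix q k
      rwa [hq0, hq1] at this
    have hlen : (rayList q k).length = 2 + k := by rw [rayList_length]; ring
    have htr := integral_prodW_eq_casc hT hdeg hd hw'0 hw'1 hw'm hw'e hxy.symm hYYm hYYi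
      (fun g u hgy hgx => by
        show Y (u ∘ g.symm) x y = Y u x y
        conv_lhs => rw [← hgx, ← hgy]
        exact hYe g u x y) k hπ hsuf hlen
    have hprod : ∀ u, prodW (w' u) (rayList q k)
        = ∏ i ∈ (range k).image (fun i => j - 1 - i), w u (r (i + 2)) (r (i + 1)) := by
      intro u
      rw [prodW_rayList, Finset.prod_image (by
        intro a ha b hb hab
        have := Finset.mem_range.1 ha
        have := Finset.mem_range.1 hb
        simp only at hab
        omega)]
      refine Finset.prod_congr rfl fun i hi => ?_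
      have hi' := Finset.mem_range.1 hi
      simp only [q, w, w']
      have e1 : j + 2 - (i + 1) = j - 1 - i + 2 := by omega
      have e2 : j + 2 - (i + 2) = j - 1 - i + 1 := by omega
      rw [e1, e2]
    have hB : (range k).image (fun i => j - 1 - i) ⊆ range m := by
      intro i hi
      obtain ⟨l, hl, rfl⟩ := Finset.mem_image.1 hi
      have := Finset.mem_range.1 hl
      exact Finset.mem_range.2 (by omega)
    have hstep := hblock _ hB
    simp only [← hprod] at hstep
    rw [htr] at hstep
    have hZ0 : ∀ u, 0 ≤ casc (nbV G) ((d : ℝ) - 1) (w' u) k y x := fun u =>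
      (casc_mem_Icc hdeg (by omega) (hw'0 u) (hw'1 u) k hxy.symm).1
    have hZ1 : ∀ u, casc (nbV G) ((d : ℝ) - 1) (w' u) k y x ≤ 1 := fun u =>
      (casc_mem_Icc hdeg (by omega) (hw'0 u) (hw'1 u) k hxy.symm).2
    have hth := integral_threshold (casc_measurable hw'm k y x) hYYm hYYi hZ0 hZ1 hYY0 hκε hA
    have hfl := hp.front_le y x hxy.symm (k - 1) (by omega)
    have hk1 : k - 1 + 1 = k := by omega
    rw [hk1] at hfl
    have e4 : A * ∫ u, max (casc (nbV G) ((d : ℝ) - 1) (w' u) k y x - κ * epsN α (k - 1)) 0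
        ∂(uniformField V) ≤ A * (tauN (k - 1) + δ₁) := mul_le_mul_of_nonneg_left hfl hA.le
    linarith

end

end Vale.Agent.Lib.P161
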