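import Vale.Agent.Lib.P161.End.Pack
import Vale.Agent.Lib.P161.End.Tempered
import Vale.Agent.Lib.P161.End.StatA3
import Vale.Agent.Lib.P161.End.StatA4

/-!
P161 endpoint, module StatA: the static estimates along one ray.
See notes/P161_endpoint_blueprint.md, section 4.
All statements are for the uniform field `uniformField V`.
-/

open MeasureTheory ProbabilityTheory Finset

namespace Vale.Agent.Lib.P161

noncomputable section

variable {V : Type*} [DecidableEq V] {G : SimpleGraph V} [G.LocallyFinite] {d : ℕ}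

/-- Product of `φ` along a ray. -/
def rayPi (θ : ℝ) (η : V → V → ℝ) (r : ℕ → V) (m : ℕ) : ℝ :=
  ∏ i ∈ range m, phiF θ (η (r (i + 2)) (r (i + 1)))

/-- Sum of the logarithmic differences along a ray. -/
def rayG (θ₁ θ₂ : ℝ) (η₁ η₂ : V → V → ℝ) (r : ℕ → V) (m : ℕ) : ℝ :=
  ∑ i ∈ range m, lX θ₁ θ₂ η₁ η₂ (r (i + 2)) (r (i + 1))

private lemma hd1_mem_Icc {θ : ℝ} (h0 : 0 ≤ θ) (h1 : θ < 1) (x : ℝ) :
    0 ≤ hd1 θ x ∧ hd1 θ x ≤ 1 := by
  have hD : 1 ≤ 1 + (1 - θ ^ 2) * Real.sinh x ^ 2 := by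
    have : 0 ≤ (1 - θ ^ 2) * Real.sinh x ^ 2 := mul_nonneg (by nlinarith) (sq_nonneg _)
    linarith
  unfold hd1
  refine ⟨by positivity, ?_⟩
  rw [div_le_one (by linarith)]
  linarith

private lemma measurable_hd1 (θ : ℝ) : Measurable (hd1 θ) := by
  unfold hd1
  fun_prop

private lemma integrable_term {θ₁ θ₂ : ℝ} (h10 : 0 ≤ θ₁) (h11 : θ₁ < 1) (h20 : 0 ≤ θ₂)
    (h21 : θ₂ < 1) {η₁ η₂ : (V → unitInterval) → V → V → ℝ} (hη₁ : EqField G η₁)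
    (hη₂ : EqField G η₂) (π : List V) :
    Integrable (fun u => (prodW (wgt θ₁ (η₁ u)) π - prodW (wgt θ₂ (η₂ u)) π) ^ 2)
      (uniformField V) := by
  have := limit_uniformField_prob V
  have hm1 : Measurable fun u => prodW (wgt θ₁ (η₁ u)) π :=
    measurable_prodW (fun x y => (measurable_hd1 θ₁).comp (hη₁.meas x y)) π
  have hm2 : Measurable fun u => prodW (wgt θ₂ (η₂ u)) π :=
    measurable_prodW (fun x y => (measurable_hd1 θ₂).comp (hη₂.meas x y)) π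
  refine Integrable.of_bound ((hm1.sub hm2).pow_const 2).aestronglyMeasurable 1
    (Filter.Eventually.of_forall fun u => ?_)
  have a0 := prodW_nonneg (W := wgt θ₁ (η₁ u)) (fun x y => (hd1_mem_Icc h10 h11 _).1) π
  have a1 := prodW_le_one (W := wgt θ₁ (η₁ u)) (fun x y => (hd1_mem_Icc h10 h11 _).1)
    (fun x y => (hd1_mem_Icc h10 h11 _).2) π
  have b0 := prodW_nonneg (W := wgt θ₂ (η₂ u)) (fun x y => (hd1_mem_Icc h20 h21 _).1) π
  have b1 := prodW_le_one (W := wgt θ₂ (η₂ u)) (fun x y => (hd1_mem_Icc h20 h21 _).1)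
    (fun x y => (hd1_mem_Icc h20 h21 _).2) π
  rw [Real.norm_eq_abs, abs_of_nonneg (sq_nonneg _)]
  nlinarith

/-- **A1.** The path expansion of `P`, by transitivity on paths. -/
theorem P_expansion (hT : G.IsTree) (hdeg : ∀ v, G.degree v = d) (hd : 2 ≤ d) {θ₁ θ₂ : ℝ}
    (h10 : 0 ≤ θ₁) (h11 : θ₁ < 1) (h20 : 0 ≤ θ₂) (h21 : θ₂ < 1)
    {η₁ η₂ : (V → unitInterval) → V → V → ℝ} (hη₁ : EqField G η₁) (hη₂ : EqField G η₂)
    {r : ℕ → V} (hr : IsRay G r) (ℓ : ℕ) :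
    ∫ u, nsq (coef (nbV G) (wgt θ₁ (η₁ u)) ℓ (r 1) (r 0) - coef (nbV G) (wgt θ₂ (η₂ u)) ℓ (r 1) (r 0))
        ∂(uniformField V)
      = ∑ m ∈ range (ℓ + 1), ((d : ℝ) - 1) ^ m *
          ∫ u, (prodW (wgt θ₁ (η₁ u)) (rayList r m) - prodW (wgt θ₂ (η₂ u)) (rayList r m)) ^ 2
            ∂(uniformField V) := by
  have hN : ∀ a c, c ∈ nbV G a → G.Adj a c := fun a c hc => by simpa [nbV] using hc
  have hr10 : G.Adj (r 1) (r 0) := (hr.adj 0).symm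
  have hint := fun π => integrable_term (G := G) h10 h11 h20 h21 hη₁ hη₂ π
  have e1 : ∀ u, nsq (coef (nbV G) (wgt θ₁ (η₁ u)) ℓ (r 1) (r 0)
      - coef (nbV G) (wgt θ₂ (η₂ u)) ℓ (r 1) (r 0))
      = ∑ m ∈ range (ℓ + 1), pathSum (nbV G)
          (fun π => (prodW (wgt θ₁ (η₁ u)) π - prodW (wgt θ₂ (η₂ u)) π) ^ 2) m (r 1) (r 0)
          [r 1, r 0] := fun u => nsq_coef_sub_eq hT hN _ _ ℓ _ _ hr10
  simp_rw [e1]
  rw [integral_finsetSum _ fun m _ => (integral_pathSum _ hint m _ _ _).1]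
  refine sum_congr rfl fun m _ => ?_
  rw [(integral_pathSum _ hint m _ _ _).2]
  refine pathSum_eq_of_const hdeg (by omega) [] _ ?_ m (r 1) (r 0) [] hr10 (List.nil_suffix)
    (rayList r m) (rayList_nb hr m) List.nil_suffix (by simp [rayList_length]; ring)
  intro π₁ π₂ h1 h2 hl _ _
  refine integral_path_const hT hdeg hd
    (fun u π => (prodW (wgt θ₁ (η₁ u)) π - prodW (wgt θ₂ (η₂ u)) π) ^ 2) ?_ ?_ h1 h2 hl
  · intro π
    exact ((measurable_prodW (fun x y => (measurable_hd1 θ₁).comp (hη₁.meas x y)) π).sub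
      (measurable_prodW (fun x y => (measurable_hd1 θ₂).comp (hη₂.meas x y)) π)).pow_const 2
  · intro g u π
    have a1 : prodW (wgt θ₁ (η₁ (u ∘ g.symm))) (π.map g) = prodW (wgt θ₁ (η₁ u)) π :=
      prodW_map g (fun x y => by simp only [wgt]; rw [hη₁.equiv]) π
    have a2 : prodW (wgt θ₂ (η₂ (u ∘ g.symm))) (π.map g) = prodW (wgt θ₂ (η₂ u)) π :=
      prodW_map g (fun x y => by simp only [wgt]; rw [hη₂.equiv]) π
    simp only [a1, a2]

/-- **A2.** The pointwise bound of a term of the expansion. -/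
theorem term_pointwise {θ₁ θ₂ : ℝ} (h10 : 0 < θ₁) (h11 : θ₁ < 1) (h20 : 0 < θ₂) (h21 : θ₂ < 1)
    (bb : ℝ) (hbb : 0 ≤ bb) (η₁ η₂ : V → V → ℝ) (r : ℕ → V) (m : ℕ) :
    bb ^ m * (prodW (wgt θ₁ η₁) (rayList r m) - prodW (wgt θ₂ η₂) (rayList r m)) ^ 2
      ≤ ((bb * θ₁ ^ 2) ^ m * rayPi θ₁ η₁ r m + (bb * θ₂ ^ 2) ^ m * rayPi θ₂ η₂ r m)
        * min 1 (rayG θ₁ θ₂ η₁ η₂ r m ^ 2) := by
  rw [prodW_rayList, prodW_rayList]
  simp only [wgt]
  set A := ∏ i ∈ range m, hd1 θ₁ (η₁ (r (i + 2)) (r (i + 1))) with hA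
  set B := ∏ i ∈ range m, hd1 θ₂ (η₂ (r (i + 2)) (r (i + 1))) with hB
  have hApos : 0 < A := prod_pos fun i _ => hd1_pos h10 h11 _
  have hBpos : 0 < B := prod_pos fun i _ => hd1_pos h20 h21 _
  have hkey := sq_sub_le_log hApos hBpos
  have elog : Real.log A - Real.log B = rayG θ₁ θ₂ η₁ η₂ r m := by
    rw [hA, hB, Real.log_prod (fun i _ => (hd1_pos h10 h11 _).ne'),
      Real.log_prod (fun i _ => (hd1_pos h20 h21 _).ne'), rayG, ← sum_sub_distrib]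
    rfl
  rw [elog] at hkey
  have eA : A ^ 2 = (θ₁ ^ 2) ^ m * rayPi θ₁ η₁ r m := by
    rw [hA, ← prod_pow]
    simp_rw [hd1_sq_eq]
    rw [prod_mul_distrib, prod_const, card_range]
    rfl
  have eB : B ^ 2 = (θ₂ ^ 2) ^ m * rayPi θ₂ η₂ r m := by
    rw [hB, ← prod_pow]
    simp_rw [hd1_sq_eq]
    rw [prod_mul_distrib, prod_const, card_range]
    rfl
  calc bb ^ m * (A - B) ^ 2
      ≤ bb ^ m * ((A ^ 2 + B ^ 2) * min 1 (rayG θ₁ θ₂ η₁ η₂ r m ^ 2)) :=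
        mul_le_mul_of_nonneg_left hkey (pow_nonneg hbb m)
    _ = _ := by
        rw [eA, eB, mul_pow, mul_pow]
        ring

/-- **A3.** Tempered growth of the sums along a ray, from `tempered_sum`. -/
theorem rayG_sq_le (hT : G.IsTree) (hdeg : ∀ v, G.degree v = d) (hd : 3 ≤ d) :
    ∃ CT : ℝ, 0 < CT ∧ ∀ (θ₁ θ₂ : ℝ), 0 < θ₁ → θ₁ < 1 → 0 < θ₂ → θ₂ < 1 →
      ∀ η₁ η₂ : (V → unitInterval) → V → V → ℝ, EqField G η₁ → EqField G η₂ →
      ∀ (r : ℕ → V), IsRay G r → ∀ (a b : V), G.Adj a b → ∀ m : ℕ,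
        ∫ u, rayG θ₁ θ₂ (η₁ u) (η₂ u) r m ^ 2 ∂(uniformField V)
          ≤ CT * m * (∫ u, lX θ₁ θ₂ (η₁ u) (η₂ u) a b ^ 2 ∂(uniformField V))
            + (m : ℝ) ^ 2 * (∫ u, lX θ₁ θ₂ (η₁ u) (η₂ u) a b ∂(uniformField V)) ^ 2 :=
  sum_lX_sq_le hT hdeg hd

/-- **A4.** Moment of a power of the product along the ray against the square of one term:
the cascade behind the edge or the cascade in front of the edge is long. Here `κ ≥ 1`,
`k = (m-1)/2`, `1 ≤ k`, `j < m`, and `Y` is a nonnegative equivariant edge functional. -/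
theorem moment_block (hT : G.IsTree) (hdeg : ∀ v, G.degree v = d) (hd : 3 ≤ d) {θ : ℝ} (h0 : 0 < θ)
    (h1 : θ < 1) {η : (V → unitInterval) → V → V → ℝ} {p : ℕ} {α κ CD Cu s δ₁ : ℝ} {m₀ : ℕ}
    (hα : 0 < α) (hα1 : α < 1)
    (hκ : 1 ≤ κ) (hp : FieldPack G d θ η p α κ CD Cu s m₀ δ₁)
    (Y : (V → unitInterval) → V → V → ℝ) (hY0 : ∀ u x y, 0 ≤ Y u x y)
    (hYm : ∀ x y, Measurable fun u => Y u x y) (hYi : ∀ x y, Integrable (fun u => Y u x y) (uniformField V))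
    (hYe : ∀ (g : G ≃g G) u x y, Y (u ∘ g.symm) (g x) (g y) = Y u x y)
    {r : ℕ → V} (hr : IsRay G r) {m j : ℕ} (hj : j < m) (hk : 1 ≤ (m - 1) / 2)
    (hkm : (m - 1) / 2 ≤ m₀) {A : ℝ} (hA : 0 < A) :
    ∫ u, rayPi θ (η u) r m ^ p * Y u (r (j + 2)) (r (j + 1)) ∂(uniformField V)
      ≤ κ * epsN α ((m - 1) / 2 - 1) * (∫ u, Y u (r (j + 2)) (r (j + 1)) ∂(uniformField V))
        + A * (tauN ((m - 1) / 2 - 1) + δ₁)
        + ∫ u, max (Y u (r (j + 2)) (r (j + 1)) - A) 0 ∂(uniformField V) := by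
  simpa only [rayPi] using
    moment_block_core hT hdeg hd h0 h1 hα hα1 hκ hp Y hY0 hYm hYi hYe hr hj hk hkm hA

private lemma thetaLow_facts {θ : ℝ} (hg : GoodT d θ) (hd : 3 ≤ d) :
    0 < thetaLow d ∧ thetaLow d ≤ θ ∧ θ ^ 2 ≤ 1 / 2 := by
  obtain ⟨h0, h1, h2⟩ := hg
  have hd3 : (3 : ℝ) ≤ d := by exact_mod_cast hd
  have hb : 0 < (d : ℝ) - 1 := by linarith
  refine ⟨Real.sqrt_pos.2 (by positivity), ?_, ?_⟩
  · unfold thetaLow
    rw [show θ = Real.sqrt (θ ^ 2) from (Real.sqrt_sq h0.le).symm]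
    apply Real.sqrt_le_sqrt
    rw [div_le_iff₀ (by positivity)]
    nlinarith
  · have h3 : θ ^ 2 * 2 ≤ θ ^ 2 * ((d : ℝ) - 1) :=
      mul_le_mul_of_nonneg_left (by linarith) (sq_nonneg _)
    linarith

/-- **A5.** The bound of `∫ X²` and of the tail of `X²`. -/
theorem lX_sq_le {θ₁ θ₂ : ℝ} (hg₁ : GoodT d θ₁) (hg₂ : GoodT d θ₂)
    (hd : 3 ≤ d) (hdθ : |θ₁ - θ₂| ≤ dThetaMax d) (x y : ℝ) :
    (lF θ₁ x - lF θ₂ y) ^ 2 ≤ 8 * (Real.tanh x ^ 2 + Real.tanh y ^ 2) * (x - y) ^ 2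
      + 2 * lipTheta d ^ 2 * (θ₁ - θ₂) ^ 2 ∧
    (lF θ₁ x - lF θ₂ y) ^ 2 ≤ 8 * (x - y) ^ 2 + 1 / 2 := by
  obtain ⟨hL, hL1, hs1⟩ := thetaLow_facts hg₁ hd
  obtain ⟨_, hL2, hs2⟩ := thetaLow_facts hg₂ hd
  have h10 : 0 < θ₁ := hg₁.1
  have h11 : θ₁ < 1 := by nlinarith
  set a := lF θ₁ x - lF θ₁ y with ha
  set b := lF θ₁ y - lF θ₂ y with hb
  have e : lF θ₁ x - lF θ₂ y = a + b := by rw [ha, hb]; ring
  have hab : (a + b) ^ 2 ≤ 2 * a ^ 2 + 2 * b ^ 2 := by nlinarith [sq_nonneg (a - b)]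
  have hb1 : |b| ≤ lipTheta d * |θ₁ - θ₂| := lF_theta_sub_le hL hL1 hL2 hs1 hs2 y
  have hlip0 : 0 < lipTheta d := by
    unfold lipTheta
    positivity
  have hb2 : b ^ 2 ≤ lipTheta d ^ 2 * (θ₁ - θ₂) ^ 2 := by
    rw [← sq_abs b, ← sq_abs (θ₁ - θ₂), ← mul_pow]
    exact pow_le_pow_left₀ (abs_nonneg _) hb1 2
  rw [e]
  constructor
  · have ha1 := lF_sub_le h10 h11 x y
    have ha2 : a ^ 2 ≤ 4 * (Real.tanh x ^ 2 + Real.tanh y ^ 2) * (x - y) ^ 2 := by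
      have h3 : a ^ 2 ≤ (2 * max |Real.tanh x| |Real.tanh y| * |x - y|) ^ 2 := by
        rw [← sq_abs a]
        exact pow_le_pow_left₀ (abs_nonneg _) ha1 2
      have h4 : max |Real.tanh x| |Real.tanh y| ^ 2 ≤ Real.tanh x ^ 2 + Real.tanh y ^ 2 := by
        rcases max_cases |Real.tanh x| |Real.tanh y| with ⟨h5, _⟩ | ⟨h5, _⟩
        · rw [h5, sq_abs]; nlinarith [sq_nonneg (Real.tanh y)]
        · rw [h5, sq_abs]; nlinarith [sq_nonneg (Real.tanh x)]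
      have e2 : (2 * max |Real.tanh x| |Real.tanh y| * |x - y|) ^ 2
          = 4 * max |Real.tanh x| |Real.tanh y| ^ 2 * (x - y) ^ 2 := by
        rw [mul_pow, mul_pow, sq_abs]
        ring
      rw [e2] at h3
      have h5 : 4 * max |Real.tanh x| |Real.tanh y| ^ 2 * (x - y) ^ 2
          ≤ 4 * (Real.tanh x ^ 2 + Real.tanh y ^ 2) * (x - y) ^ 2 :=
        mul_le_mul_of_nonneg_right (by linarith) (sq_nonneg _)
      linarith
    nlinarith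
  · have ha1 := lF_lip h10 h11 x y
    have ha2 : a ^ 2 ≤ 4 * (x - y) ^ 2 := by
      have h3 : a ^ 2 ≤ (2 * |x - y|) ^ 2 := by
        rw [← sq_abs a]
        exact pow_le_pow_left₀ (abs_nonneg _) ha1 2
      rw [mul_pow, sq_abs] at h3
      linarith
    have hb3 : lipTheta d ^ 2 * (θ₁ - θ₂) ^ 2 ≤ 1 / 4 := by
      have h3 : lipTheta d * |θ₁ - θ₂| ≤ 1 / 2 := by
        have h4 : lipTheta d * |θ₁ - θ₂| ≤ lipTheta d * dThetaMax d :=
          mul_le_mul_of_nonneg_left hdθ hlip0.le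
        have h5 : lipTheta d * dThetaMax d = 1 / 2 := by
          unfold dThetaMax
          field_simp
        linarith
      have h6 : (lipTheta d * |θ₁ - θ₂|) ^ 2 ≤ (1 / 2) ^ 2 :=
        pow_le_pow_left₀ (by positivity) h3 2
      rw [mul_pow, sq_abs] at h6
      norm_num at h6 ⊢
      linarith
    linarith

end

end Vale.Agent.Lib.P161
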