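import Vale.Agent.Lib.P161.End.StatA
import Vale.Agent.Lib.P161.End.StatNum

/-!
P161 endpoint, module StatP: the static bound of `P = E ‖coef¹ - coef²‖²`.
See notes/P161_endpoint_blueprint.md, section 4.
-/

open MeasureTheory ProbabilityTheory Finset

set_option linter.unusedSectionVars false

namespace Vale.Agent.Lib.P161

noncomputable section

variable {V : Type*} [DecidableEq V] {G : SimpleGraph V} [G.LocallyFinite] {d : ℕ}

lemma GoodT.lt_one (hd : 3 ≤ d) {θ : ℝ} (h : GoodT d θ) : θ < 1 := by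
  obtain ⟨h0, -, h2⟩ := h
  have hd' : (2 : ℝ) ≤ (d : ℝ) - 1 := by
    have : (3 : ℝ) ≤ d := by exact_mod_cast hd
    linarith
  by_contra hc
  push Not at hc
  have h3 : 1 ≤ θ ^ 2 := by nlinarith
  nlinarith

lemma integrable_tail_sq {η : (V → unitInterval) → V → V → ℝ} (hη : EqField G η) (x y : V) {a : ℝ}
    (ha : 0 ≤ a) : Integrable (fun u => max (η u x y ^ 2 - a) 0) (uniformField V) := by
  refine ((hη.memLp x y).integrable_sq).mono' ?_ (Filter.Eventually.of_forall fun u => ?_)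
  · exact (((hη.meas x y).pow_const 2).sub_const a |>.max measurable_const).aestronglyMeasurable
  · rw [Real.norm_eq_abs, abs_of_nonneg (le_max_right _ _)]
    exact max_le (by nlinarith [sq_nonneg (η u x y)]) (sq_nonneg _)

lemma tanh_sq_le_one (x : ℝ) : Real.tanh x ^ 2 ≤ 1 := (Real.tanh_sq_lt_one x).le

lemma measurable_tanh' : Measurable Real.tanh := by
  have e : Real.tanh = fun x => Real.sinh x / Real.cosh x := by
    funext x
    exact Real.tanh_eq_sinh_div_cosh x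
  rw [e]
  exact Real.continuous_sinh.measurable.div Real.continuous_cosh.measurable

lemma integrable_utail {η : (V → unitInterval) → V → V → ℝ} (hη : EqField G η) (x y : V) {c : ℝ}
    (hc : 0 ≤ c) : Integrable (fun u => max (Real.tanh (η u x y) ^ 2 - c) 0) (uniformField V) := by
  have := limit_uniformField_prob V
  refine Integrable.of_bound ?_ 1 (Filter.Eventually.of_forall fun u => ?_)
  · exact (((measurable_tanh'.comp (hη.meas x y)).pow_const 2).sub_const c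
      |>.max measurable_const).aestronglyMeasurable
  · rw [Real.norm_eq_abs, abs_of_nonneg (le_max_right _ _)]
    exact max_le (by nlinarith [tanh_sq_le_one (η u x y)]) zero_le_one

private lemma pt_aux {w D c A : ℝ} (hw : w ≤ 1) (hD : 0 ≤ D) (hc : 0 ≤ c) (hA : 0 < A) :
    w * D ≤ c * D + A * max (w - c) 0 + max (D - A) 0 := by
  have he0 : 0 ≤ max (w - c) 0 := le_max_right _ _
  have he1 : max (w - c) 0 ≤ 1 := max_le (by linarith) zero_le_one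
  have hw' : w ≤ c + max (w - c) 0 := by linarith [le_max_left (w - c) 0]
  have ht0 : 0 ≤ max (D - A) 0 := le_max_right _ _
  have hD' : D ≤ A + max (D - A) 0 := by linarith [le_max_left (D - A) 0]
  have h1 : w * D ≤ (c + max (w - c) 0) * D := mul_le_mul_of_nonneg_right hw' hD
  have h2 : max (w - c) 0 * D ≤ max (w - c) 0 * (A + max (D - A) 0) :=
    mul_le_mul_of_nonneg_left hD' he0
  have h3 : max (w - c) 0 * max (D - A) 0 ≤ 1 * max (D - A) 0 :=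
    mul_le_mul_of_nonneg_right he1 ht0
  nlinarith

private lemma tail_split (a b : ℝ) {A : ℝ} (hA : 0 < A) :
    max ((a - b) ^ 2 - A) 0 ≤ 2 * max (a ^ 2 - A / 4) 0 + 2 * max (b ^ 2 - A / 4) 0 := by
  refine max_le ?_ (by positivity)
  have h1 := le_max_left (a ^ 2 - A / 4) 0
  have h2 := le_max_left (b ^ 2 - A / 4) 0
  nlinarith [sq_nonneg (a + b)]

/-- The mean square of `lX`, in terms of the mean square distance `N`. -/
theorem lX_int_le (hT : G.IsTree) (hdeg : ∀ v, G.degree v = d) (hd : 3 ≤ d) {θ₁ θ₂ : ℝ}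
    (hg₁ : GoodT d θ₁) (hg₂ : GoodT d θ₂) (hdθ : |θ₁ - θ₂| ≤ dThetaMax d)
    {η₁ η₂ : (V → unitInterval) → V → V → ℝ} {p : ℕ} {α κ CD Cu s δ₁ : ℝ} {m₀ : ℕ}
    (hp₁ : FieldPack G d θ₁ η₁ p α κ CD Cu s m₀ δ₁) (hp₂ : FieldPack G d θ₂ η₂ p α κ CD Cu s m₀ δ₁)
    {a b : V} (hab : G.Adj a b) {c A : ℝ} (hc0 : 0 ≤ c) (hc1 : c ≤ 1) (hA : 0 < A) :
    ∫ u, lX θ₁ θ₂ (η₁ u) (η₂ u) a b ^ 2 ∂(uniformField V)
      ≤ 16 * c * (∫ u, (η₁ u a b - η₂ u a b) ^ 2 ∂(uniformField V))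
        + 8 * A * (∫ u, max (Real.tanh (η₁ u a b) ^ 2 - c) 0 ∂(uniformField V)
            + ∫ u, max (Real.tanh (η₂ u a b) ^ 2 - c) 0 ∂(uniformField V))
        + 16 * (16 * CD / A + 4 * δ₁)
        + 2 * lipTheta d ^ 2 * (θ₁ - θ₂) ^ 2 := by
  have := limit_uniformField_prob V
  have h1lt := hg₁.lt_one hd
  have h2lt := hg₂.lt_one hd
  have hη₁ := hp₁.eqf
  have hη₂ := hp₂.eqf
  have hA4 : 0 < A / 4 := by positivity
  set K : ℝ := 2 * lipTheta d ^ 2 * (θ₁ - θ₂) ^ 2 with hK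
  have hDint : Integrable (fun u => (η₁ u a b - η₂ u a b) ^ 2) (uniformField V) :=
    ((hη₁.memLp a b).sub (hη₂.memLp a b)).integrable_sq
  have he1 := integrable_utail hη₁ a b hc0
  have he2 := integrable_utail hη₂ a b hc0
  have ht1 := integrable_tail_sq hη₁ a b hA4.le
  have ht2 := integrable_tail_sq hη₂ a b hA4.le
  have hX : Integrable (fun u => lX θ₁ θ₂ (η₁ u) (η₂ u) a b ^ 2) (uniformField V) :=
    (memLp_lX hg₁.1 h1lt hg₂.1 h2lt hη₁ hη₂ a b).integrable_sq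
  have i1 : Integrable (fun u => 16 * c * (η₁ u a b - η₂ u a b) ^ 2) (uniformField V) :=
    hDint.const_mul _
  have i2a : Integrable (fun u => max (Real.tanh (η₁ u a b) ^ 2 - c) 0
      + max (Real.tanh (η₂ u a b) ^ 2 - c) 0) (uniformField V) := he1.add he2
  have i2 : Integrable (fun u => 8 * A * (max (Real.tanh (η₁ u a b) ^ 2 - c) 0
      + max (Real.tanh (η₂ u a b) ^ 2 - c) 0)) (uniformField V) := i2a.const_mul _
  have i3a : Integrable (fun u => 2 * max (η₁ u a b ^ 2 - A / 4) 0) (uniformField V) :=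
    ht1.const_mul _
  have i3b : Integrable (fun u => 2 * max (η₂ u a b ^ 2 - A / 4) 0) (uniformField V) :=
    ht2.const_mul _
  have i3c : Integrable (fun u => 2 * max (η₁ u a b ^ 2 - A / 4) 0
      + 2 * max (η₂ u a b ^ 2 - A / 4) 0) (uniformField V) := i3a.add i3b
  have i3 : Integrable (fun u => 16 * (2 * max (η₁ u a b ^ 2 - A / 4) 0
      + 2 * max (η₂ u a b ^ 2 - A / 4) 0)) (uniformField V) := i3c.const_mul _
  have i12 : Integrable (fun u => 16 * c * (η₁ u a b - η₂ u a b) ^ 2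
      + 8 * A * (max (Real.tanh (η₁ u a b) ^ 2 - c) 0
      + max (Real.tanh (η₂ u a b) ^ 2 - c) 0)) (uniformField V) := i1.add i2
  have i123 : Integrable (fun u => 16 * c * (η₁ u a b - η₂ u a b) ^ 2
      + 8 * A * (max (Real.tanh (η₁ u a b) ^ 2 - c) 0
      + max (Real.tanh (η₂ u a b) ^ 2 - c) 0) + 16 * (2 * max (η₁ u a b ^ 2 - A / 4) 0
      + 2 * max (η₂ u a b ^ 2 - A / 4) 0)) (uniformField V) := i12.add i3
  have hpt : ∀ u, lX θ₁ θ₂ (η₁ u) (η₂ u) a b ^ 2 ≤ 16 * c * (η₁ u a b - η₂ u a b) ^ 2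
      + 8 * A * (max (Real.tanh (η₁ u a b) ^ 2 - c) 0
      + max (Real.tanh (η₂ u a b) ^ 2 - c) 0) + 16 * (2 * max (η₁ u a b ^ 2 - A / 4) 0
      + 2 * max (η₂ u a b ^ 2 - A / 4) 0) + K := by
    intro u
    have h0 := (lX_sq_le hg₁ hg₂ hd hdθ (η₁ u a b) (η₂ u a b)).1
    have hD0 : 0 ≤ (η₁ u a b - η₂ u a b) ^ 2 := sq_nonneg _
    have a1 := pt_aux (tanh_sq_le_one (η₁ u a b)) hD0 hc0 hA
    have a2 := pt_aux (tanh_sq_le_one (η₂ u a b)) hD0 hc0 hA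
    have a3 := tail_split (η₁ u a b) (η₂ u a b) hA
    have e : lX θ₁ θ₂ (η₁ u) (η₂ u) a b = lF θ₁ (η₁ u a b) - lF θ₂ (η₂ u a b) := rfl
    rw [e]
    nlinarith
  have hmono := integral_mono hX (i123.add (integrable_const K)) hpt
  have hint : ∫ u, (16 * c * (η₁ u a b - η₂ u a b) ^ 2
      + 8 * A * (max (Real.tanh (η₁ u a b) ^ 2 - c) 0
      + max (Real.tanh (η₂ u a b) ^ 2 - c) 0) + 16 * (2 * max (η₁ u a b ^ 2 - A / 4) 0
      + 2 * max (η₂ u a b ^ 2 - A / 4) 0) + K) ∂(uniformField V)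
      = 16 * c * (∫ u, (η₁ u a b - η₂ u a b) ^ 2 ∂(uniformField V))
        + 8 * A * (∫ u, max (Real.tanh (η₁ u a b) ^ 2 - c) 0 ∂(uniformField V)
            + ∫ u, max (Real.tanh (η₂ u a b) ^ 2 - c) 0 ∂(uniformField V))
        + 16 * (2 * (∫ u, max (η₁ u a b ^ 2 - A / 4) 0 ∂(uniformField V))
          + 2 * ∫ u, max (η₂ u a b ^ 2 - A / 4) 0 ∂(uniformField V)) + K := by
    rw [integral_add i123 (integrable_const K), integral_add i12 i3, integral_add i1 i2,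
      integral_const_mul, integral_const_mul, integral_const_mul, integral_add he1 he2,
      integral_add i3a i3b, integral_const_mul, integral_const_mul]
    simp
  have hb1 := hp₁.tail_le a b hab (A / 4) hA4
  have hb2 := hp₂.tail_le a b hab (A / 4) hA4
  have e4 : CD / (A / 4) = 4 * CD / A := by field_simp
  rw [e4] at hb1 hb2
  have e5 : 16 * CD / A = 4 * (4 * CD / A) := by ring
  have hmono' := le_trans hmono (le_of_eq hint)
  rw [e5]
  linarith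

/-- The tail of `lX²`. -/
theorem lX_tail_le (hT : G.IsTree) (hdeg : ∀ v, G.degree v = d) (hd : 3 ≤ d) {θ₁ θ₂ : ℝ}
    (hg₁ : GoodT d θ₁) (hg₂ : GoodT d θ₂) (hdθ : |θ₁ - θ₂| ≤ dThetaMax d)
    {η₁ η₂ : (V → unitInterval) → V → V → ℝ} {p : ℕ} {α κ CD Cu s δ₁ : ℝ} {m₀ : ℕ}
    (hp₁ : FieldPack G d θ₁ η₁ p α κ CD Cu s m₀ δ₁) (hp₂ : FieldPack G d θ₂ η₂ p α κ CD Cu s m₀ δ₁)
    (hCD : 0 ≤ CD) {a b : V} (hab : G.Adj a b) {A : ℝ} (hA : 1 ≤ A) :
    ∫ u, max (lX θ₁ θ₂ (η₁ u) (η₂ u) a b ^ 2 - A) 0 ∂(uniformField V)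
      ≤ 8192 * CD / A + 32 * δ₁ := by
  have := limit_uniformField_prob V
  have h1lt := hg₁.lt_one hd
  have h2lt := hg₂.lt_one hd
  have hη₁ := hp₁.eqf
  have hη₂ := hp₂.eqf
  have hA0 : 0 < A := by linarith
  have hA64 : 0 < A / 64 := by positivity
  have ht1 := integrable_tail_sq hη₁ a b hA64.le
  have ht2 := integrable_tail_sq hη₂ a b hA64.le
  have hX : Integrable (fun u => lX θ₁ θ₂ (η₁ u) (η₂ u) a b ^ 2) (uniformField V) :=
    (memLp_lX hg₁.1 h1lt hg₂.1 h2lt hη₁ hη₂ a b).integrable_sq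
  have hXt : Integrable (fun u => max (lX θ₁ θ₂ (η₁ u) (η₂ u) a b ^ 2 - A) 0) (uniformField V) := by
    refine hX.mono' ?_ (Filter.Eventually.of_forall fun u => ?_)
    · exact (((measurable_lX θ₁ θ₂ hη₁ hη₂ a b).pow_const 2).sub_const A
        |>.max measurable_const).aestronglyMeasurable
    · rw [Real.norm_eq_abs, abs_of_nonneg (le_max_right _ _)]
      exact max_le (by nlinarith [sq_nonneg (lX θ₁ θ₂ (η₁ u) (η₂ u) a b)]) (sq_nonneg _)
  have i3a : Integrable (fun u => 16 * max (η₁ u a b ^ 2 - A / 64) 0) (uniformField V) :=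
    ht1.const_mul _
  have i3b : Integrable (fun u => 16 * max (η₂ u a b ^ 2 - A / 64) 0) (uniformField V) :=
    ht2.const_mul _
  have hpt : ∀ u, max (lX θ₁ θ₂ (η₁ u) (η₂ u) a b ^ 2 - A) 0
      ≤ 16 * max (η₁ u a b ^ 2 - A / 64) 0 + 16 * max (η₂ u a b ^ 2 - A / 64) 0 := by
    intro u
    refine max_le ?_ (by positivity)
    have h0 := (lX_sq_le hg₁ hg₂ hd hdθ (η₁ u a b) (η₂ u a b)).2
    have e : lX θ₁ θ₂ (η₁ u) (η₂ u) a b = lF θ₁ (η₁ u a b) - lF θ₂ (η₂ u a b) := rfl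
    rw [e]
    have h1 := le_max_left (η₁ u a b ^ 2 - A / 64) 0
    have h2 := le_max_left (η₂ u a b ^ 2 - A / 64) 0
    have h3 : (η₁ u a b - η₂ u a b) ^ 2 ≤ 2 * η₁ u a b ^ 2 + 2 * η₂ u a b ^ 2 := by
      nlinarith [sq_nonneg (η₁ u a b + η₂ u a b)]
    nlinarith
  have hmono := integral_mono hXt (i3a.add i3b) hpt
  have hint : ∫ u, (16 * max (η₁ u a b ^ 2 - A / 64) 0 + 16 * max (η₂ u a b ^ 2 - A / 64) 0)
        ∂(uniformField V)
      = 16 * (∫ u, max (η₁ u a b ^ 2 - A / 64) 0 ∂(uniformField V))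
        + 16 * ∫ u, max (η₂ u a b ^ 2 - A / 64) 0 ∂(uniformField V) := by
    rw [integral_add i3a i3b, integral_const_mul, integral_const_mul]
  have hb1 := hp₁.tail_le a b hab (A / 64) hA64
  have hb2 := hp₂.tail_le a b hab (A / 64) hA64
  have e4 : CD / (A / 64) = 64 * CD / A := by field_simp
  rw [e4] at hb1 hb2
  have h0 : 0 ≤ CD / A := by positivity
  have e5 : 64 * CD / A = 64 * (CD / A) := by ring
  have e6 : 8192 * CD / A = 8192 * (CD / A) := by ring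
  rw [e5] at hb1 hb2
  have hmono' := le_trans hmono (le_of_eq hint)
  rw [e6]
  linarith

private lemma measurable_hd1 (θ : ℝ) : Measurable (hd1 θ) := by
  have e : hd1 θ = fun x => θ / (1 + (1 - θ ^ 2) * Real.sinh x ^ 2) := rfl
  rw [e]
  exact measurable_const.div (measurable_const.add
    (measurable_const.mul (Real.continuous_sinh.measurable.pow_const 2)))

private lemma measurable_phiF (θ : ℝ) : Measurable (phiF θ) := by
  have e : phiF θ = fun x => (1 / (1 + (1 - θ ^ 2) * Real.sinh x ^ 2)) ^ 2 := rfl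
  rw [e]
  exact (measurable_const.div (measurable_const.add
    (measurable_const.mul (Real.continuous_sinh.measurable.pow_const 2)))).pow_const 2

private lemma measurable_rayPi {θ : ℝ} {η : (V → unitInterval) → V → V → ℝ} (hη : EqField G η)
    (r : ℕ → V) (m : ℕ) : Measurable fun u => rayPi θ (η u) r m := by
  have e : (fun u => rayPi θ (η u) r m)
      = fun u => ∏ i ∈ range m, phiF θ (η u (r (i + 2)) (r (i + 1))) := rfl
  rw [e]
  exact Finset.measurable_prod _ fun i _ => (measurable_phiF θ).comp (hη.meas _ _)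

private lemma rayPi_nonneg {θ : ℝ} (h0 : 0 ≤ θ) (h1 : θ < 1) (η : V → V → ℝ) (r : ℕ → V) (m : ℕ) :
    0 ≤ rayPi θ η r m :=
  Finset.prod_nonneg fun _ _ => (phiF_pos h0 h1 _).le

private lemma rayPi_le_one {θ : ℝ} (h0 : 0 ≤ θ) (h1 : θ < 1) (η : V → V → ℝ) (r : ℕ → V) (m : ℕ) :
    rayPi θ η r m ≤ 1 :=
  Finset.prod_le_one (fun _ _ => (phiF_pos h0 h1 _).le) fun _ _ => phiF_le_one h0 h1 _

private lemma hd1_nonneg' {θ : ℝ} (h0 : 0 < θ) (h1 : θ < 1) (x : ℝ) : 0 ≤ hd1 θ x :=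
  (hd1_pos h0 h1 x).le

private lemma hd1_le_one {θ : ℝ} (h0 : 0 < θ) (h1 : θ < 1) (x : ℝ) : hd1 θ x ≤ 1 := by
  have e : hd1 θ x = θ / (1 + (1 - θ ^ 2) * Real.sinh x ^ 2) := rfl
  have h2 : 1 ≤ 1 + (1 - θ ^ 2) * Real.sinh x ^ 2 := by
    have : 0 ≤ (1 - θ ^ 2) * Real.sinh x ^ 2 :=
      mul_nonneg (by nlinarith) (sq_nonneg _)
    linarith
  rw [e, div_le_one (by linarith)]
  linarith

private lemma integrable_prodW_diff {θ₁ θ₂ : ℝ} (h10 : 0 < θ₁) (h11 : θ₁ < 1) (h20 : 0 < θ₂)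
    (h21 : θ₂ < 1) {η₁ η₂ : (V → unitInterval) → V → V → ℝ} (hη₁ : EqField G η₁)
    (hη₂ : EqField G η₂) (π : List V) :
    Integrable (fun u => (prodW (wgt θ₁ (η₁ u)) π - prodW (wgt θ₂ (η₂ u)) π) ^ 2)
      (uniformField V) := by
  have := limit_uniformField_prob V
  have m1 : Measurable fun u => prodW (wgt θ₁ (η₁ u)) π :=
    measurable_prodW (W := fun u => wgt θ₁ (η₁ u))
      (fun x y => (measurable_hd1 θ₁).comp (hη₁.meas x y)) π
  have m2 : Measurable fun u => prodW (wgt θ₂ (η₂ u)) π :=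
    measurable_prodW (W := fun u => wgt θ₂ (η₂ u))
      (fun x y => (measurable_hd1 θ₂).comp (hη₂.meas x y)) π
  refine Integrable.of_bound ((m1.sub m2).pow_const 2).aestronglyMeasurable 1
    (Filter.Eventually.of_forall fun u => ?_)
  have a0 : 0 ≤ prodW (wgt θ₁ (η₁ u)) π := prodW_nonneg (fun _ _ => hd1_nonneg' h10 h11 _) π
  have a1 : prodW (wgt θ₁ (η₁ u)) π ≤ 1 :=
    prodW_le_one (fun _ _ => hd1_nonneg' h10 h11 _) (fun _ _ => hd1_le_one h10 h11 _) π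
  have b0 : 0 ≤ prodW (wgt θ₂ (η₂ u)) π := prodW_nonneg (fun _ _ => hd1_nonneg' h20 h21 _) π
  have b1 : prodW (wgt θ₂ (η₂ u)) π ≤ 1 :=
    prodW_le_one (fun _ _ => hd1_nonneg' h20 h21 _) (fun _ _ => hd1_le_one h20 h21 _) π
  rw [Real.norm_eq_abs, abs_of_nonneg (sq_nonneg _)]
  nlinarith

/-- **The three bounds of a term of the expansion**, with `t_m` the `m`-th term and `x = ∫ X²`,
`μ = ∫ X`: (i) `t_m ≤ 2 (CT m x + m² μ²)`, (ii) `t_m ≤ ρ₁^m + ρ₂^m`,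
(iii) for large `m`: `t_m ≤ 2 γ^m (CT m x + m² μ²) + 2 β^(-m) m² W`. -/
theorem term_bounds (hT : G.IsTree) (hdeg : ∀ v, G.degree v = d) (hd : 3 ≤ d) :
    ∃ CT : ℝ, 0 < CT ∧ ∀ (θ₁ θ₂ : ℝ), GoodT d θ₁ → GoodT d θ₂ → |θ₁ - θ₂| ≤ dThetaMax d →
      ∀ (η₁ η₂ : (V → unitInterval) → V → V → ℝ) (p : ℕ) (α κ CD Cu s δ₁ : ℝ) (m₀ : ℕ), 0 < α →
      α < 1 → 1 ≤ κ → 0 ≤ δ₁ → 0 ≤ CD →
      FieldPack G d θ₁ η₁ p α κ CD Cu s m₀ δ₁ → FieldPack G d θ₂ η₂ p α κ CD Cu s m₀ δ₁ →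
      ∀ (r : ℕ → V), IsRay G r → ∀ m : ℕ,
        let t := ((d : ℝ) - 1) ^ m *
          ∫ u, (prodW (wgt θ₁ (η₁ u)) (rayList r m) - prodW (wgt θ₂ (η₂ u)) (rayList r m)) ^ 2
            ∂(uniformField V)
        let x := ∫ u, lX θ₁ θ₂ (η₁ u) (η₂ u) (r 1) (r 0) ^ 2 ∂(uniformField V)
        let μ := ∫ u, lX θ₁ θ₂ (η₁ u) (η₂ u) (r 1) (r 0) ∂(uniformField V)
        t ≤ 2 * (CT * m * x + (m : ℝ) ^ 2 * μ ^ 2) ∧
        t ≤ (θ₁ ^ 2 * ((d : ℝ) - 1)) ^ m + (θ₂ ^ 2 * ((d : ℝ) - 1)) ^ m ∧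
        ∀ (β γ A : ℝ), 0 < β → β < 1 → 0 < γ → γ < 1 → γ ^ p = β → 1 ≤ A → 1 ≤ (m - 1) / 2 →
          (m - 1) / 2 ≤ m₀ →
          t ≤ 2 * γ ^ m * (CT * m * x + (m : ℝ) ^ 2 * μ ^ 2)
            + 2 * (β ^ m)⁻¹ * (m : ℝ) ^ 2 * (κ * epsN α ((m - 1) / 2 - 1) * x
              + A * (tauN ((m - 1) / 2 - 1) + δ₁) + (8192 * CD / A + 32 * δ₁)) := by
  obtain ⟨CT, hCT, hG⟩ := rayG_sq_le (V := V) (G := G) (d := d) hT hdeg hd
  refine ⟨CT, hCT, ?_⟩
  intro θ₁ θ₂ hg₁ hg₂ hdθ η₁ η₂ p α κ CD Cu s δ₁ m₀ hα hα1 hκ hδ₁ hCD hp₁ hp₂ r hr m t x μ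
  have := limit_uniformField_prob V
  have h1lt := hg₁.lt_one hd
  have h2lt := hg₂.lt_one hd
  have h10 := hg₁.1
  have h20 := hg₂.1
  have hη₁ := hp₁.eqf
  have hη₂ := hp₂.eqf
  set bb : ℝ := (d : ℝ) - 1 with hbb
  have hbb0 : 0 ≤ bb := by
    have : (3 : ℝ) ≤ d := by exact_mod_cast hd
    rw [hbb]
    linarith
  -- the powers of the spectral parameters
  have hρ₁ : bb * θ₁ ^ 2 ≤ 1 := by
    have := hg₁.2.2
    rw [← hbb] at this
    linarith
  have hρ₂ : bb * θ₂ ^ 2 ≤ 1 := by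
    have := hg₂.2.2
    rw [← hbb] at this
    linarith
  have hρ₁0 : 0 ≤ bb * θ₁ ^ 2 := by positivity
  have hρ₂0 : 0 ≤ bb * θ₂ ^ 2 := by positivity
  have hρ₁m : (bb * θ₁ ^ 2) ^ m ≤ 1 := pow_le_one₀ hρ₁0 hρ₁
  have hρ₂m : (bb * θ₂ ^ 2) ^ m ≤ 1 := pow_le_one₀ hρ₂0 hρ₂
  have hρ₁m0 : 0 ≤ (bb * θ₁ ^ 2) ^ m := pow_nonneg hρ₁0 m
  have hρ₂m0 : 0 ≤ (bb * θ₂ ^ 2) ^ m := pow_nonneg hρ₂0 m
  -- notation for the integrands
  set F : (V → unitInterval) → ℝ := fun u =>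
    (prodW (wgt θ₁ (η₁ u)) (rayList r m) - prodW (wgt θ₂ (η₂ u)) (rayList r m)) ^ 2 with hF
  have hFint : Integrable F (uniformField V) := integrable_prodW_diff h10 h1lt h20 h2lt hη₁ hη₂ _
  have hFc : Integrable (fun u => bb ^ m * F u) (uniformField V) := hFint.const_mul _
  have ht : t = ∫ u, bb ^ m * F u ∂(uniformField V) := by
    simp only [t]
    rw [integral_const_mul]
  set Ga : (V → unitInterval) → ℝ := fun u => rayG θ₁ θ₂ (η₁ u) (η₂ u) r m with hGa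
  have hGam : MemLp Ga 2 (uniformField V) := by
    have h := memLp_finsetSum (μ := uniformField V) (p := 2) (range m)
      (f := fun j u => lX θ₁ θ₂ (η₁ u) (η₂ u) (r (j + 2)) (r (j + 1)))
      (fun j _ => memLp_lX h10 h1lt h20 h2lt hη₁ hη₂ _ _)
    refine h.ae_eq (Filter.Eventually.of_forall fun u => ?_)
    simp [hGa, rayG]
  have hGa2 : Integrable (fun u => Ga u ^ 2) (uniformField V) := hGam.integrable_sq
  have hGbound : ∫ u, Ga u ^ 2 ∂(uniformField V) ≤ CT * m * x + (m : ℝ) ^ 2 * μ ^ 2 :=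
    hG θ₁ θ₂ h10 h1lt h20 h2lt η₁ η₂ hη₁ hη₂ r hr (r 1) (r 0) (hr.adj 0).symm m
  -- the pointwise bound
  have hptw : ∀ u, bb ^ m * F u ≤ ((bb * θ₁ ^ 2) ^ m * rayPi θ₁ (η₁ u) r m
      + (bb * θ₂ ^ 2) ^ m * rayPi θ₂ (η₂ u) r m) * min 1 (Ga u ^ 2) := fun u =>
    term_pointwise h10 h1lt h20 h2lt bb hbb0 (η₁ u) (η₂ u) r m
  have hπ₁0 : ∀ u, 0 ≤ rayPi θ₁ (η₁ u) r m := fun u => rayPi_nonneg h10.le h1lt _ _ _
  have hπ₂0 : ∀ u, 0 ≤ rayPi θ₂ (η₂ u) r m := fun u => rayPi_nonneg h20.le h2lt _ _ _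
  have hπ₁1 : ∀ u, rayPi θ₁ (η₁ u) r m ≤ 1 := fun u => rayPi_le_one h10.le h1lt _ _ _
  have hπ₂1 : ∀ u, rayPi θ₂ (η₂ u) r m ≤ 1 := fun u => rayPi_le_one h20.le h2lt _ _ _
  have hmin0 : ∀ u, 0 ≤ min 1 (Ga u ^ 2) := fun u => le_min zero_le_one (sq_nonneg _)
  have hmin1 : ∀ u, min 1 (Ga u ^ 2) ≤ 1 := fun u => min_le_left _ _
  have hmin2 : ∀ u, min 1 (Ga u ^ 2) ≤ Ga u ^ 2 := fun u => min_le_right _ _
  have hA₁ : ∀ u, (bb * θ₁ ^ 2) ^ m * rayPi θ₁ (η₁ u) r m ≤ rayPi θ₁ (η₁ u) r m := fun u => by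
    nlinarith [hπ₁0 u]
  have hA₂ : ∀ u, (bb * θ₂ ^ 2) ^ m * rayPi θ₂ (η₂ u) r m ≤ rayPi θ₂ (η₂ u) r m := fun u => by
    nlinarith [hπ₂0 u]
  have hsum : ∀ u, bb ^ m * F u
      ≤ (rayPi θ₁ (η₁ u) r m + rayPi θ₂ (η₂ u) r m) * Ga u ^ 2 := by
    intro u
    refine (hptw u).trans ?_
    have h1 : (bb * θ₁ ^ 2) ^ m * rayPi θ₁ (η₁ u) r m + (bb * θ₂ ^ 2) ^ m * rayPi θ₂ (η₂ u) r m
        ≤ rayPi θ₁ (η₁ u) r m + rayPi θ₂ (η₂ u) r m := add_le_add (hA₁ u) (hA₂ u)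
    have h2 : 0 ≤ rayPi θ₁ (η₁ u) r m + rayPi θ₂ (η₂ u) r m := add_nonneg (hπ₁0 u) (hπ₂0 u)
    calc _ ≤ (rayPi θ₁ (η₁ u) r m + rayPi θ₂ (η₂ u) r m) * min 1 (Ga u ^ 2) :=
          mul_le_mul_of_nonneg_right h1 (hmin0 u)
      _ ≤ _ := mul_le_mul_of_nonneg_left (hmin2 u) h2
  refine ⟨?_, ?_, ?_⟩
  · -- (i)
    have hle : ∀ u, bb ^ m * F u ≤ 2 * Ga u ^ 2 := by
      intro u
      refine (hsum u).trans ?_
      have := hπ₁1 u
      have := hπ₂1 u
      nlinarith [sq_nonneg (Ga u)]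
    have hm := le_trans (integral_mono hFc (hGa2.const_mul 2) hle)
      (le_of_eq (integral_const_mul (μ := uniformField V) (2 : ℝ) fun u => Ga u ^ 2))
    rw [ht]
    linarith
  · -- (ii)
    have hle : ∀ u, bb ^ m * F u ≤ (θ₁ ^ 2 * bb) ^ m + (θ₂ ^ 2 * bb) ^ m := by
      intro u
      refine (hptw u).trans ?_
      have e1 : θ₁ ^ 2 * bb = bb * θ₁ ^ 2 := mul_comm _ _
      have e2 : θ₂ ^ 2 * bb = bb * θ₂ ^ 2 := mul_comm _ _
      rw [e1, e2]
      have a1 : (bb * θ₁ ^ 2) ^ m * rayPi θ₁ (η₁ u) r m ≤ (bb * θ₁ ^ 2) ^ m :=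
        mul_le_of_le_one_right hρ₁m0 (hπ₁1 u)
      have a2 : (bb * θ₂ ^ 2) ^ m * rayPi θ₂ (η₂ u) r m ≤ (bb * θ₂ ^ 2) ^ m :=
        mul_le_of_le_one_right hρ₂m0 (hπ₂1 u)
      have a3 : 0 ≤ (bb * θ₁ ^ 2) ^ m * rayPi θ₁ (η₁ u) r m
          + (bb * θ₂ ^ 2) ^ m * rayPi θ₂ (η₂ u) r m :=
        add_nonneg (mul_nonneg hρ₁m0 (hπ₁0 u)) (mul_nonneg hρ₂m0 (hπ₂0 u))
      calc _ ≤ ((bb * θ₁ ^ 2) ^ m * rayPi θ₁ (η₁ u) r m
            + (bb * θ₂ ^ 2) ^ m * rayPi θ₂ (η₂ u) r m) * 1 :=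
            mul_le_mul_of_nonneg_left (hmin1 u) a3
        _ ≤ _ := by rw [mul_one]; exact add_le_add a1 a2
    have hm := integral_mono hFc (integrable_const _) hle
    rw [ht]
    refine hm.trans ?_
    simp
  · -- (iii)
    intro β γ A hβ0 hβ1 hγ0 hγ1 hγp hA hk hkm
    have hA0 : 0 < A := by linarith
    have hp1 : 1 ≤ p := by
      rcases Nat.eq_zero_or_pos p with h | h
      · subst h
        simp only [pow_zero] at hγp
        linarith
      · exact h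
    have hy0 : 0 < γ ^ m := pow_pos hγ0 m
    have hy1 : γ ^ m ≤ 1 := pow_le_one₀ hγ0.le hγ1.le
    have hyp : (γ ^ m) ^ p = β ^ m := by
      rw [← pow_mul, mul_comm, pow_mul, hγp]
    have hβm : 0 < β ^ m := pow_pos hβ0 m
    have hβi : 0 ≤ (β ^ m)⁻¹ := by positivity
    -- the edge functional
    set Y : (V → unitInterval) → V → V → ℝ := fun u a b => lX θ₁ θ₂ (η₁ u) (η₂ u) a b ^ 2 with hY
    have hY0 : ∀ u a b, 0 ≤ Y u a b := fun u a b => sq_nonneg _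
    have hYm : ∀ a b, Measurable fun u => Y u a b := fun a b =>
      (measurable_lX θ₁ θ₂ hη₁ hη₂ a b).pow_const 2
    have hYi : ∀ a b, Integrable (fun u => Y u a b) (uniformField V) := fun a b =>
      (memLp_lX h10 h1lt h20 h2lt hη₁ hη₂ a b).integrable_sq
    have hYe : ∀ (g : G ≃g G) u a b, Y (u ∘ g.symm) (g a) (g b) = Y u a b := fun g u a b => by
      simp only [hY, lX_equiv hη₁ hη₂ g u a b]
    set W : ℝ := κ * epsN α ((m - 1) / 2 - 1) * x + A * (tauN ((m - 1) / 2 - 1) + δ₁)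
      + (8192 * CD / A + 32 * δ₁) with hW
    -- the moment bound along the ray
    have hedge : ∀ j : ℕ, ∫ u, Y u (r (j + 2)) (r (j + 1)) ∂(uniformField V) = x := fun j =>
      integral_edge_const hT hdeg (by omega) Y hYm hYe (hr.adj (j + 1)).symm (hr.adj 0).symm
    have hbound : ∀ {θ : ℝ} {η : (V → unitInterval) → V → V → ℝ}, 0 < θ → θ < 1 →
        FieldPack G d θ η p α κ CD Cu s m₀ δ₁ → ∀ j, j < m →
        ∫ u, rayPi θ (η u) r m ^ p * Y u (r (j + 2)) (r (j + 1)) ∂(uniformField V) ≤ W := by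
      intro θ η h0 h1 hp j hj
      have h := moment_block hT hdeg hd h0 h1 hα hα1 hκ hp Y hY0 hYm hYi hYe hr hj hk hkm hA0
      rw [hedge j] at h
      have ht := lX_tail_le hT hdeg hd hg₁ hg₂ hdθ hp₁ hp₂ hCD (hr.adj (j + 1)).symm hA
      exact h.trans (by rw [hW]; exact add_le_add_right ht _)
    -- integrability of the moment functions
    have hmi : ∀ {θ : ℝ} {η : (V → unitInterval) → V → V → ℝ}, 0 < θ → θ < 1 → EqField G η →
        ∀ j : ℕ, Integrable (fun u => rayPi θ (η u) r m ^ p * Y u (r (j + 2)) (r (j + 1)))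
          (uniformField V) := by
      intro θ η h0 h1 hη j
      refine (hYi (r (j + 2)) (r (j + 1))).mono' ?_ (Filter.Eventually.of_forall fun u => ?_)
      · exact (((measurable_rayPi hη r m).pow_const p).mul (hYm _ _)).aestronglyMeasurable
      · have a0 := rayPi_nonneg h0.le h1 (η u) r m
        have a1 := rayPi_le_one h0.le h1 (η u) r m
        have b0 := hY0 u (r (j + 2)) (r (j + 1))
        rw [Real.norm_eq_abs, abs_of_nonneg (mul_nonneg (pow_nonneg a0 p) b0)]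
        exact mul_le_of_le_one_left b0 (pow_le_one₀ a0 a1)
    -- pointwise in the Holder step
    have hsq : ∀ u, Ga u ^ 2 ≤ (m : ℝ) * ∑ j ∈ range m, Y u (r (j + 2)) (r (j + 1)) := by
      intro u
      have h := sq_sum_le_card_mul_sum_sq (s := range m)
        (f := fun j => lX θ₁ θ₂ (η₁ u) (η₂ u) (r (j + 2)) (r (j + 1)))
      simpa [hGa, rayG, hY] using h
    have hone : ∀ {θ : ℝ} {η : (V → unitInterval) → V → V → ℝ}, 0 < θ → θ < 1 → ∀ u,
        rayPi θ (η u) r m * Ga u ^ 2 ≤ γ ^ m * Ga u ^ 2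
          + (β ^ m)⁻¹ * ((m : ℝ) * ∑ j ∈ range m,
            rayPi θ (η u) r m ^ p * Y u (r (j + 2)) (r (j + 1))) := by
      intro θ η h0 h1 u
      have a0 := rayPi_nonneg h0.le h1 (η u) r m
      have h2 := le_add_pow_div a0 hy0 hy1 hp1
      rw [hyp] at h2
      have h3 : rayPi θ (η u) r m * Ga u ^ 2
          ≤ (γ ^ m + rayPi θ (η u) r m ^ p / β ^ m) * Ga u ^ 2 :=
        mul_le_mul_of_nonneg_right h2 (sq_nonneg _)
      have h4 : rayPi θ (η u) r m ^ p * Ga u ^ 2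
          ≤ rayPi θ (η u) r m ^ p * ((m : ℝ) * ∑ j ∈ range m, Y u (r (j + 2)) (r (j + 1))) :=
        mul_le_mul_of_nonneg_left (hsq u) (pow_nonneg a0 p)
      have h5 : rayPi θ (η u) r m ^ p * ((m : ℝ) * ∑ j ∈ range m, Y u (r (j + 2)) (r (j + 1)))
          = (m : ℝ) * ∑ j ∈ range m, rayPi θ (η u) r m ^ p * Y u (r (j + 2)) (r (j + 1)) := by
        rw [Finset.mul_sum, Finset.mul_sum, Finset.mul_sum]
        exact Finset.sum_congr rfl fun j _ => by ring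
      rw [← h5]
      have h6 := mul_le_mul_of_nonneg_left h4 hβi
      calc rayPi θ (η u) r m * Ga u ^ 2
          ≤ (γ ^ m + rayPi θ (η u) r m ^ p / β ^ m) * Ga u ^ 2 := h3
        _ = γ ^ m * Ga u ^ 2 + (β ^ m)⁻¹ * (rayPi θ (η u) r m ^ p * Ga u ^ 2) := by
            rw [div_eq_mul_inv]; ring
        _ ≤ _ := by linarith
    -- integrating one field
    have hint1 : ∀ {θ : ℝ} {η : (V → unitInterval) → V → V → ℝ}, 0 < θ → θ < 1 →
        FieldPack G d θ η p α κ CD Cu s m₀ δ₁ →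
        Integrable (fun u => γ ^ m * Ga u ^ 2
          + (β ^ m)⁻¹ * ((m : ℝ) * ∑ j ∈ range m,
            rayPi θ (η u) r m ^ p * Y u (r (j + 2)) (r (j + 1)))) (uniformField V) ∧
        ∫ u, (γ ^ m * Ga u ^ 2
          + (β ^ m)⁻¹ * ((m : ℝ) * ∑ j ∈ range m,
            rayPi θ (η u) r m ^ p * Y u (r (j + 2)) (r (j + 1)))) ∂(uniformField V)
          ≤ γ ^ m * (CT * m * x + (m : ℝ) ^ 2 * μ ^ 2) + (β ^ m)⁻¹ * ((m : ℝ) ^ 2 * W) := by
      intro θ η h0 h1 hp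
      have i0 : Integrable (fun u => γ ^ m * Ga u ^ 2) (uniformField V) := hGa2.const_mul _
      have i1 : Integrable (fun u => ∑ j ∈ range m,
          rayPi θ (η u) r m ^ p * Y u (r (j + 2)) (r (j + 1))) (uniformField V) :=
        integrable_finsetSum _ fun j _ => hmi h0 h1 hp.eqf j
      have i2 : Integrable (fun u => (β ^ m)⁻¹ * ((m : ℝ) * ∑ j ∈ range m,
          rayPi θ (η u) r m ^ p * Y u (r (j + 2)) (r (j + 1)))) (uniformField V) :=
        (i1.const_mul _).const_mul _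
      refine ⟨i0.add i2, ?_⟩
      rw [integral_add i0 i2, integral_const_mul, integral_const_mul, integral_const_mul,
        integral_finsetSum _ fun j _ => hmi h0 h1 hp.eqf j]
      have h3 : ∑ j ∈ range m, ∫ u, rayPi θ (η u) r m ^ p * Y u (r (j + 2)) (r (j + 1))
            ∂(uniformField V) ≤ (m : ℝ) * W := by
        calc _ ≤ ∑ _j ∈ range m, W := Finset.sum_le_sum fun j hj =>
              hbound h0 h1 hp j (Finset.mem_range.1 hj)
          _ = _ := by simp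
      have h4 : (m : ℝ) * ∑ j ∈ range m, ∫ u, rayPi θ (η u) r m ^ p * Y u (r (j + 2)) (r (j + 1))
            ∂(uniformField V) ≤ (m : ℝ) ^ 2 * W := by
        have := mul_le_mul_of_nonneg_left h3 (Nat.cast_nonneg m)
        calc _ ≤ (m : ℝ) * ((m : ℝ) * W) := this
          _ = _ := by ring
      exact add_le_add (mul_le_mul_of_nonneg_left hGbound hy0.le)
        (mul_le_mul_of_nonneg_left h4 hβi)
    obtain ⟨i₁, b₁⟩ := hint1 h10 h1lt hp₁
    obtain ⟨i₂, b₂⟩ := hint1 h20 h2lt hp₂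
    have hle : ∀ u, bb ^ m * F u ≤ (γ ^ m * Ga u ^ 2
          + (β ^ m)⁻¹ * ((m : ℝ) * ∑ j ∈ range m,
            rayPi θ₁ (η₁ u) r m ^ p * Y u (r (j + 2)) (r (j + 1))))
        + (γ ^ m * Ga u ^ 2
          + (β ^ m)⁻¹ * ((m : ℝ) * ∑ j ∈ range m,
            rayPi θ₂ (η₂ u) r m ^ p * Y u (r (j + 2)) (r (j + 1)))) := by
      intro u
      refine (hsum u).trans ?_
      have a1 := hone (η := η₁) h10 h1lt u
      have a2 := hone (η := η₂) h20 h2lt u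
      rw [add_mul]
      exact add_le_add a1 a2
    have hm := le_trans (integral_mono hFc (i₁.add i₂) hle) (le_of_eq (integral_add i₁ i₂))
    rw [ht]
    refine hm.trans ((add_le_add b₁ b₂).trans (le_of_eq ?_))
    ring

end

end Vale.Agent.Lib.P161
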